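import Vale.Agent.P335.Avg

/-!
# P335, module A: Rayleigh principle and the abstract local-to-global lemma
-/

namespace Vale.Agent.P335

open Finset Matrix

/-- Rayleigh principle: a symmetric operator all of whose eigenvalues are at most `c`
satisfies `ip (H f) f ≤ c * ip f f`. -/
theorem rayleigh {Ω : Type*} [Fintype Ω] (H : (Ω → ℝ) →ₗ[ℝ] (Ω → ℝ))
    (hsym : ∀ f g, ip (H f) g = ip f (H g)) (c : ℝ)
    (hev : ∀ (l : ℝ) (f : Ω → ℝ), f ≠ 0 → H f = l • f → l ≤ c) :
    ∀ f, ip (H f) f ≤ c * ip f f := by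
  classical
  set A : Matrix Ω Ω ℝ := LinearMap.toMatrix' H with hA
  have hmul : ∀ f, A *ᵥ f = H f := fun f => by rw [hA, LinearMap.toMatrix'_mulVec]
  have hentry : ∀ x y, A x y = ip (Pi.single x 1) (H (Pi.single y 1)) := by
    intro x y
    rw [← hmul]
    simp [ip, Pi.single_apply]
  have hAH : A.IsHermitian := by
    ext x y
    rw [Matrix.conjTranspose_apply, star_trivial, hentry, hentry, ← hsym, ip_comm]
  set M : Matrix Ω Ω ℝ := c • (1 : Matrix Ω Ω ℝ) - A with hM
  have hMH : M.IsHermitian := by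
    rw [hM]
    refine Matrix.IsHermitian.sub ?_ hAH
    ext x y
    simp [Matrix.conjTranspose_apply, Matrix.one_apply, eq_comm]
  have hMmul : ∀ f, M *ᵥ f = c • f - H f := by
    intro f
    rw [hM, Matrix.sub_mulVec, Matrix.smul_mulVec, Matrix.one_mulVec, hmul]
  have hpsd : M.PosSemidef := by
    rw [hMH.posSemidef_iff_eigenvalues_nonneg]
    intro i
    have h1 := hMH.mulVec_eigenvectorBasis i
    set v : Ω → ℝ := ⇑(hMH.eigenvectorBasis i) with hv
    have hv0 : v ≠ 0 := by
      intro h0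
      have h2 : hMH.eigenvectorBasis i = 0 := by
        ext x
        have := congrFun h0 x
        simpa [hv] using this
      have h3 := hMH.eigenvectorBasis.orthonormal.ne_zero i
      exact h3 h2
    rw [hMmul] at h1
    have h4 : H v = (c - hMH.eigenvalues i) • v := by
      rw [sub_smul, ← h1]
      abel
    have h5 := hev _ v hv0 h4
    simp only [Pi.zero_apply]
    linarith
  intro f
  have h1 := hpsd.dotProduct_mulVec_nonneg f
  rw [hMmul] at h1
  have h2 : star f ⬝ᵥ (c • f - H f) = c * ip f f - ip (H f) f := by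
    rw [ip_comm (H f) f]
    simp only [dotProduct, ip, star_trivial, Pi.sub_apply, Pi.smul_apply, smul_eq_mul,
      Finset.mul_sum, ← Finset.sum_sub_distrib]
    refine Finset.sum_congr rfl fun x _ => ?_
    ring
  rw [h2] at h1
  linarith

/-- Cauchy-Schwarz for `ip`. -/
theorem ip_sq_le {Ω : Type*} [Fintype Ω] (f g : Ω → ℝ) : ip f g ^ 2 ≤ ip f f * ip g g := by
  have := Finset.sum_mul_sq_le_sq_mul_sq (univ : Finset Ω) f g
  simpa [ip, sq] using this

private lemma knabe_card_union {J : Type*} [DecidableEq J] {p q : Finset J}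
    (hp : p.card = 2) (hq : q.card = 2) (hne : p ≠ q) (hnd : ¬ Disjoint p q) :
    (p ∪ q).card = 3 := by
  have h1 := Finset.card_union_add_card_inter p q
  have h2 : 1 ≤ (p ∩ q).card := by
    rw [Nat.succ_le_iff, Finset.card_pos]
    exact Finset.not_disjoint_iff_nonempty_inter.1 hnd
  have h3 : (p ∩ q).card ≤ 1 := by
    by_contra hcon
    have h4 : 2 ≤ (p ∩ q).card := by omega
    have h5 : p ∩ q = p := Finset.eq_of_subset_of_card_le Finset.inter_subset_left (by omega)
    have h6 : p ∩ q = q := Finset.eq_of_subset_of_card_le Finset.inter_subset_right (by omega)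
    exact hne (h5.symm.trans h6)
  omega

private lemma knabe_union_eq {J : Type*} [DecidableEq J] {p q T : Finset J}
    (hT : T.card = 3) (hp : p.card = 2) (hq : q.card = 2) (hpT : p ⊆ T) (hqT : q ⊆ T)
    (hne : p ≠ q) : ¬ Disjoint p q ∧ p ∪ q = T := by
  have hsub : p ∪ q ⊆ T := Finset.union_subset hpT hqT
  have hle : (p ∪ q).card ≤ 3 := hT ▸ Finset.card_le_card hsub
  have hnd : ¬ Disjoint p q := by
    intro hd
    have := Finset.card_union_of_disjoint hd
    omega
  refine ⟨hnd, Finset.eq_of_subset_of_card_le hsub ?_⟩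
  rw [knabe_card_union hp hq hne hnd, hT]

/-- Abstract local-to-global lemma (Knabe / Caputo type). -/
theorem knabe {Ω J : Type*} [Fintype Ω] [Fintype J] [DecidableEq J]
    (E : Finset J → (Ω → ℝ) →ₗ[ℝ] (Ω → ℝ))
    (hsym : ∀ p f g, ip (E p f) g = ip f (E p g))
    (hidem : ∀ p f, E p (E p f) = E p f)
    (hmono : ∀ p q, p ⊆ q → ∀ f, E p (E q f) = E q f)
    (hcomm : ∀ p q, Disjoint p q → ∀ f, E p (E q f) = E q (E p f))
    (hloc : ∀ T ∈ powersetCard 3 (univ : Finset J), ∀ f,
        ip f (f - E T f) ≤ ∑ p ∈ powersetCard 2 T, ip f (f - E p f))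
    (hker : ∀ f, (∀ p ∈ powersetCard 2 (univ : Finset J), E p f = f) → E univ f = f) :
    ∀ f, ip f (f - E univ f) ≤ ∑ p ∈ powersetCard 2 (univ : Finset J), ip f (f - E p f) := by
  classical
  set Q : Finset J → (Ω → ℝ) →ₗ[ℝ] (Ω → ℝ) := fun p => LinearMap.id - E p with hQ
  have Qapp : ∀ p f, Q p f = f - E p f := fun p f => rfl
  have Qsym : ∀ p f g, ip (Q p f) g = ip f (Q p g) := by
    intro p f g
    rw [Qapp, Qapp, ip_sub_left, ip_sub_right, hsym]
  have Qidem : ∀ p f, Q p (Q p f) = Q p f := by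
    intro p f
    simp only [Qapp, map_sub, hidem, sub_self, sub_zero]
  have hmono' : ∀ p q, p ⊆ q → ∀ f, E q (E p f) = E q f := by
    intro p q hpq f
    apply ip_ext
    intro g
    rw [hsym, hsym, hmono p q hpq, hsym]
  have Qcomm : ∀ p q, Disjoint p q → ∀ f, Q p (Q q f) = Q q (Q p f) := by
    intro p q hpq f
    simp only [Qapp, map_sub, hcomm p q hpq]
    abel
  have Qself : ∀ p f, ip f (Q p f) = ip (Q p f) (Q p f) := by
    intro p f
    rw [Qsym, Qidem]
  have QE : ∀ p q, p ⊆ q → ∀ f, Q p (E q f) = 0 := by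
    intro p q hpq f
    rw [Qapp, hmono p q hpq, sub_self]
  have EQ : ∀ p q, p ⊆ q → ∀ f, E q (Q p f) = 0 := by
    intro p q hpq f
    rw [Qapp, map_sub, hmono' p q hpq, sub_self]
  set G : Finset (Finset J) → (Ω → ℝ) →ₗ[ℝ] (Ω → ℝ) := fun S => ∑ p ∈ S, Q p with hG
  have Gapp : ∀ S f, G S f = ∑ p ∈ S, Q p f := by
    intro S f
    simp only [hG, LinearMap.sum_apply]
  have ipG : ∀ S f g, ip g (G S f) = ∑ p ∈ S, ip g (Q p f) := by
    intro S f g
    rw [Gapp, ip_sum_right]
  -- expansion of the square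
  have hsq : ∀ S f, ip (G S f) (G S f)
      = ip f (G S f) + ∑ x ∈ S.offDiag, ip (Q x.1 f) (Q x.2 f) := by
    intro S f
    have h1 : ip (G S f) (G S f) = ∑ x ∈ S ×ˢ S, ip (Q x.1 f) (Q x.2 f) := by
      rw [Finset.sum_product, ipG]
      rw [Finset.sum_comm]
      refine Finset.sum_congr rfl fun q _ => ?_
      rw [Gapp, ip_sum_left]
    rw [h1, ← Finset.diag_union_offDiag, Finset.sum_union (Finset.disjoint_diag_offDiag _),
      Finset.sum_diag, ipG]
    congr 1
    exact Finset.sum_congr rfl fun p _ => (Qself p f).symm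
  -- (1) local square
  have hlocal : ∀ T ∈ powersetCard 3 (univ : Finset J), ∀ f,
      0 ≤ ∑ x ∈ (powersetCard 2 T).offDiag, ip (Q x.1 f) (Q x.2 f) := by
    intro T hT f
    set S := powersetCard 2 T with hS
    have hsub : ∀ p ∈ S, p ⊆ T := fun p hp => (Finset.mem_powersetCard.1 hp).1
    set u := f - E T f with hu
    have hGE : G S (E T f) = 0 := by
      rw [Gapp]
      exact Finset.sum_eq_zero fun p hp => QE p T (hsub p hp) f
    have hGu : G S u = G S f := by
      rw [hu, map_sub, hGE, sub_zero]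
    have hEG : ip (E T f) (G S f) = 0 := by
      rw [ipG]
      refine Finset.sum_eq_zero fun p hp => ?_
      rw [← Qsym, QE p T (hsub p hp)]
      simp [ip]
    have huG : ip u (G S u) = ip f (G S f) := by
      rw [hGu, hu, ip_sub_left, hEG, sub_zero]
    have hETu : E T u = 0 := by
      rw [hu, map_sub, hidem, sub_self]
    have h1 : ip u u ≤ ip u (G S u) := by
      have := hloc T hT u
      rw [hETu, sub_zero] at this
      rw [ipG]
      exact this
    have h2 := ip_sq_le u (G S u)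
    have h3 : 0 ≤ ip (G S u) (G S u) := ip_self_nonneg _
    have h4 : ip u (G S u) ≤ ip (G S u) (G S u) := by
      by_contra hcon
      rw [not_le] at hcon
      have hb : 0 < ip u (G S u) := lt_of_le_of_lt h3 hcon
      nlinarith
    have h5 := hsq S f
    rw [huG, hGu] at h4
    linarith
  -- (2) disjoint pairs
  have hdisj : ∀ p q, Disjoint p q → ∀ f, 0 ≤ ip (Q p f) (Q q f) := by
    intro p q hpq f
    have : ip (Q p f) (Q q f) = ip (Q p (Q q f)) (Q p (Q q f)) := by
      calc ip (Q p f) (Q q f) = ip (Q q f) (Q p f) := ip_comm _ _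
        _ = ip (Q q (Q q f)) (Q p f) := by rw [Qidem]
        _ = ip (Q q f) (Q q (Q p f)) := Qsym _ _ _
        _ = ip (Q q f) (Q p (Q q f)) := by rw [Qcomm p q hpq]
        _ = ip (Q q f) (Q p (Q p (Q q f))) := by rw [Qidem]
        _ = ip (Q p (Q q f)) (Q p (Q q f)) := (Qsym _ _ _).symm
    rw [this]
    exact ip_self_nonneg _
  -- (3) global square
  set P2 := powersetCard 2 (univ : Finset J) with hP2
  set P3 := powersetCard 3 (univ : Finset J) with hP3
  have hglobal : ∀ f, ip f (G P2 f) ≤ ip (G P2 f) (G P2 f) := by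
    intro f
    rw [hsq P2 f]
    have hsplit : ∑ x ∈ P2.offDiag, ip (Q x.1 f) (Q x.2 f)
        = ∑ x ∈ P2.offDiag.filter (fun x => Disjoint x.1 x.2), ip (Q x.1 f) (Q x.2 f)
          + ∑ x ∈ P2.offDiag.filter (fun x => ¬ Disjoint x.1 x.2), ip (Q x.1 f) (Q x.2 f) :=
      (Finset.sum_filter_add_sum_filter_not _ _ _).symm
    have hA : 0 ≤ ∑ x ∈ P2.offDiag.filter (fun x => Disjoint x.1 x.2),
        ip (Q x.1 f) (Q x.2 f) :=
      Finset.sum_nonneg fun x hx => hdisj _ _ (Finset.mem_filter.1 hx).2 f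
    have hB : ∑ x ∈ P2.offDiag.filter (fun x => ¬ Disjoint x.1 x.2), ip (Q x.1 f) (Q x.2 f)
        = ∑ T ∈ P3, ∑ x ∈ (powersetCard 2 T).offDiag, ip (Q x.1 f) (Q x.2 f) := by
      have hmaps : ∀ x ∈ P2.offDiag.filter (fun x => ¬ Disjoint x.1 x.2), x.1 ∪ x.2 ∈ P3 := by
        intro x hx
        obtain ⟨hx1, hx2⟩ := Finset.mem_filter.1 hx
        obtain ⟨ha, hb, hne⟩ := Finset.mem_offDiag.1 hx1
        rw [hP3, Finset.mem_powersetCard]
        exact ⟨Finset.subset_univ _, knabe_card_union (Finset.mem_powersetCard.1 ha).2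
          (Finset.mem_powersetCard.1 hb).2 hne hx2⟩
      rw [← Finset.sum_fiberwise_of_maps_to hmaps]
      refine Finset.sum_congr rfl fun T hT => ?_
      refine Finset.sum_congr ?_ fun _ _ => rfl
      have hTc : T.card = 3 := (Finset.mem_powersetCard.1 hT).2
      ext x
      simp only [Finset.mem_filter, Finset.mem_offDiag, Finset.mem_powersetCard, hP2]
      constructor
      · rintro ⟨⟨⟨⟨-, ha⟩, ⟨-, hb⟩, hne⟩, -⟩, hU⟩
        exact ⟨⟨hU ▸ Finset.subset_union_left, ha⟩, ⟨hU ▸ Finset.subset_union_right, hb⟩, hne⟩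
      · rintro ⟨⟨haT, ha⟩, ⟨hbT, hb⟩, hne⟩
        obtain ⟨h1, h2⟩ := knabe_union_eq hTc ha hb haT hbT hne
        exact ⟨⟨⟨⟨Finset.subset_univ _, ha⟩, ⟨Finset.subset_univ _, hb⟩, hne⟩, h1⟩, h2⟩
    have hB' : 0 ≤ ∑ T ∈ P3, ∑ x ∈ (powersetCard 2 T).offDiag, ip (Q x.1 f) (Q x.2 f) :=
      Finset.sum_nonneg fun T hT => hlocal T hT f
    rw [hsplit, hB]
    linarith
  -- (4) Rayleigh
  set H : (Ω → ℝ) →ₗ[ℝ] (Ω → ℝ) := Q univ - G P2 with hH
  have Happ : ∀ f, H f = Q univ f - G P2 f := fun f => rfl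
  have Gsym : ∀ f g, ip (G P2 f) g = ip f (G P2 g) := by
    intro f g
    rw [ip_comm, ipG, ipG]
    exact Finset.sum_congr rfl fun p _ => by rw [← Qsym, ip_comm]
  have Hsym : ∀ f g, ip (H f) g = ip f (H g) := by
    intro f g
    rw [Happ, Happ, ip_sub_left, ip_sub_right, Qsym, Gsym]
  have hev : ∀ (l : ℝ) (f : Ω → ℝ), f ≠ 0 → H f = l • f → l ≤ 0 := by
    intro l f hf0 hHf
    by_contra hl
    rw [not_le] at hl
    have hEH : E univ (H f) = 0 := by
      rw [Happ, map_sub, EQ univ univ (Finset.Subset.refl _), Gapp, map_sum, zero_sub, neg_eq_zero]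
      exact Finset.sum_eq_zero fun p _ => EQ p univ (Finset.subset_univ _) f
    have hEf : E univ f = 0 := by
      rw [hHf, map_smul] at hEH
      rcases smul_eq_zero.1 hEH with h | h
      · exact absurd h hl.ne'
      · exact h
    have hGf : G P2 f = (1 - l) • f := by
      have h1 : Q univ f = f := by rw [Qapp, hEf, sub_zero]
      rw [Happ, h1] at hHf
      rw [sub_smul, one_smul, ← hHf]
      abel
    have hN : 0 < ip f f := by
      rcases (ip_self_nonneg f).lt_or_eq with h | h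
      · exact h
      · exact absurd (ip_self_eq_zero h.symm) hf0
    have h3 := hglobal f
    rw [hGf, ip_smul_right, ip_smul_left, ip_smul_right] at h3
    have h4 : 0 ≤ ip f (G P2 f) := by
      rw [ipG]
      exact Finset.sum_nonneg fun p _ => by rw [Qself]; exact ip_self_nonneg _
    have h4' := h4
    rw [hGf, ip_smul_right] at h4'
    have h5 : 0 ≤ 1 - l := by
      by_contra hcon
      rw [not_le] at hcon
      nlinarith
    have h6 : 1 - l ≤ 0 := by
      by_contra hcon
      rw [not_le] at hcon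
      have : (1 - l) ≤ (1 - l) * (1 - l) := by
        have h7 : (1 - l) * ip f f ≤ ((1 - l) * (1 - l)) * ip f f := by linarith
        exact le_of_mul_le_mul_right h7 hN
      nlinarith
    have h7 : 1 - l = 0 := le_antisymm h6 h5
    have h8 : ip f (G P2 f) = 0 := by rw [hGf, h7, zero_smul]; simp [ip]
    rw [ipG] at h8
    have h9 : ∀ p ∈ P2, ip f (Q p f) = 0 :=
      (Finset.sum_eq_zero_iff_of_nonneg
        (fun p _ => by rw [Qself]; exact ip_self_nonneg _)).1 h8
    have h10 : ∀ p ∈ P2, E p f = f := by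
      intro p hp
      have h11 := h9 p hp
      rw [Qself] at h11
      have h12 := ip_self_eq_zero h11
      rw [Qapp] at h12
      exact (sub_eq_zero.1 h12).symm
    have h13 := hker f h10
    rw [hEf] at h13
    exact hf0 h13.symm
  intro f
  have h1 := rayleigh H Hsym 0 hev f
  rw [zero_mul, Happ, ip_sub_left, ip_comm, ip_comm (G P2 f) f, ipG] at h1
  have h2 : ∑ p ∈ P2, ip f (f - E p f) = ∑ p ∈ P2, ip f (Q p f) := rfl
  rw [h2]
  have h3 : ip f (f - E univ f) = ip f (Q univ f) := rfl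
  rw [h3]
  linarith

end Vale.Agent.P335
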