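import Mathlib

/-!
# P335, module F: from a Poincare inequality to a total variation bound

For a lazy, symmetric, stochastic matrix `P` on a finite set, a Poincare inequality with
constant `γ` gives `(∑ y, |P^t x y - 1/N|)^2 ≤ N (1-γ)^t`.
-/

namespace Vale.Agent.P335

open Finset Matrix

variable {Ω : Type*} [Fintype Ω] [DecidableEq Ω]

/-- A lazy symmetric stochastic matrix. -/
structure LazySymm (P : Matrix Ω Ω ℝ) : Prop where
  symm : ∀ x y, P x y = P y x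
  nonneg : ∀ x y, 0 ≤ P x y
  row : ∀ x, ∑ y, P x y = 1
  lazy : ∀ x, 1 / 2 ≤ P x x

/-- The (unnormalised) Dirichlet form of `P`. -/
noncomputable def dirichlet (P : Matrix Ω Ω ℝ) (f : Ω → ℝ) : ℝ :=
  (1 / 2) * ∑ x, ∑ y, P x y * (f x - f y) ^ 2

/-- Poincare inequality with constant `γ` (with respect to counting measure). -/
def Poincare (P : Matrix Ω Ω ℝ) (γ : ℝ) : Prop :=
  ∀ f : Ω → ℝ, ∑ x, f x = 0 → γ * ∑ x, f x ^ 2 ≤ dirichlet P f

omit [DecidableEq Ω] in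
lemma dirichlet_eq {P : Matrix Ω Ω ℝ} (hs : ∀ x y, P x y = P y x) (hr : ∀ x, ∑ y, P x y = 1)
    (f : Ω → ℝ) :
    dirichlet P f = ∑ x, f x ^ 2 - ∑ x, f x * (P *ᵥ f) x := by
  unfold dirichlet
  have h1 : ∑ x, ∑ y, P x y * (f x - f y) ^ 2
      = ∑ x, ∑ y, P x y * f x ^ 2 + ∑ x, ∑ y, P x y * f y ^ 2
        - 2 * ∑ x, ∑ y, P x y * (f x * f y) := by
    rw [Finset.mul_sum, ← Finset.sum_add_distrib, ← Finset.sum_sub_distrib]
    refine Finset.sum_congr rfl fun x _ => ?_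
    rw [Finset.mul_sum, ← Finset.sum_add_distrib, ← Finset.sum_sub_distrib]
    refine Finset.sum_congr rfl fun y _ => ?_
    ring
  have h2 : ∑ x, ∑ y, P x y * f x ^ 2 = ∑ x, f x ^ 2 := by
    refine Finset.sum_congr rfl fun x _ => ?_
    rw [← Finset.sum_mul, hr x, one_mul]
  have h3 : ∑ x, ∑ y, P x y * f y ^ 2 = ∑ x, f x ^ 2 := by
    rw [Finset.sum_comm]
    refine Finset.sum_congr rfl fun y _ => ?_
    rw [← Finset.sum_mul]
    have : ∑ x, P x y = 1 := by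
      rw [← hr y]
      exact Finset.sum_congr rfl fun x _ => hs x y
    rw [this, one_mul]
  have h4 : ∑ x, ∑ y, P x y * (f x * f y) = ∑ x, f x * (P *ᵥ f) x := by
    refine Finset.sum_congr rfl fun x _ => ?_
    simp only [Matrix.mulVec, dotProduct, Finset.mul_sum]
    refine Finset.sum_congr rfl fun y _ => ?_
    ring
  rw [h1, h2, h3, h4]
  ring

omit [DecidableEq Ω] in
/-- A doubly stochastic matrix is an `ℓ²` contraction. -/
lemma sum_sq_mulVec_le {Q : Matrix Ω Ω ℝ} (hn : ∀ x y, 0 ≤ Q x y) (hr : ∀ x, ∑ y, Q x y = 1)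
    (hc : ∀ y, ∑ x, Q x y = 1) (f : Ω → ℝ) :
    ∑ x, ((Q *ᵥ f) x) ^ 2 ≤ ∑ x, f x ^ 2 := by
  have key : ∀ x, ((Q *ᵥ f) x) ^ 2 ≤ ∑ y, Q x y * f y ^ 2 := by
    intro x
    set m := (Q *ᵥ f) x with hm
    have h0 : 0 ≤ ∑ y, Q x y * (f y - m) ^ 2 :=
      Finset.sum_nonneg fun y _ => mul_nonneg (hn x y) (sq_nonneg _)
    have h1 : ∑ y, Q x y * (f y - m) ^ 2
        = ∑ y, Q x y * f y ^ 2 - 2 * m * ∑ y, Q x y * f y + m ^ 2 * ∑ y, Q x y := by
      rw [Finset.mul_sum, Finset.mul_sum, ← Finset.sum_sub_distrib, ← Finset.sum_add_distrib]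
      refine Finset.sum_congr rfl fun y _ => ?_
      ring
    have h2 : ∑ y, Q x y * f y = m := by
      simp [hm, Matrix.mulVec, dotProduct]
    rw [h1, h2, hr x] at h0
    nlinarith
  calc ∑ x, ((Q *ᵥ f) x) ^ 2 ≤ ∑ x, ∑ y, Q x y * f y ^ 2 := Finset.sum_le_sum fun x _ => key x
    _ = ∑ y, ∑ x, Q x y * f y ^ 2 := Finset.sum_comm
    _ = ∑ y, f y ^ 2 := by
        refine Finset.sum_congr rfl fun y _ => ?_
        rw [← Finset.sum_mul, hc y, one_mul]

/-- One step of a lazy symmetric chain decreases the `ℓ²` norm by at least the Dirichlet form. -/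
lemma sum_sq_step {P : Matrix Ω Ω ℝ} (h : LazySymm P) (f : Ω → ℝ) :
    ∑ x, ((P *ᵥ f) x) ^ 2 ≤ ∑ x, f x ^ 2 - dirichlet P f := by
  rw [dirichlet_eq h.symm h.row]
  set Q : Matrix Ω Ω ℝ := fun x y => 2 * P x y - (if x = y then 1 else 0) with hQ
  have hn : ∀ x y, 0 ≤ Q x y := by
    intro x y
    simp only [hQ]
    split_ifs with hxy
    · subst hxy
      have := h.lazy x
      linarith
    · have := h.nonneg x y
      linarith
  have hr : ∀ x, ∑ y, Q x y = 1 := by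
    intro x
    simp only [hQ]
    rw [Finset.sum_sub_distrib, ← Finset.mul_sum, h.row x]
    simp
    norm_num
  have hc : ∀ y, ∑ x, Q x y = 1 := by
    intro y
    rw [← hr y]
    refine Finset.sum_congr rfl fun x _ => ?_
    simp only [hQ]
    rw [h.symm x y]
    congr 1
    simp [eq_comm]
  have hQf : ∀ x, (Q *ᵥ f) x = 2 * (P *ᵥ f) x - f x := by
    intro x
    simp only [hQ, Matrix.mulVec, dotProduct]
    simp only [sub_mul, Finset.sum_sub_distrib, Finset.mul_sum]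
    simp [mul_assoc]
  have hcon := sum_sq_mulVec_le hn hr hc f
  simp only [hQf] at hcon
  have hexp : ∑ x, (2 * (P *ᵥ f) x - f x) ^ 2
      = 4 * ∑ x, ((P *ᵥ f) x) ^ 2 - 4 * ∑ x, f x * (P *ᵥ f) x + ∑ x, f x ^ 2 := by
    rw [Finset.mul_sum, Finset.mul_sum, ← Finset.sum_sub_distrib, ← Finset.sum_add_distrib]
    refine Finset.sum_congr rfl fun x _ => ?_
    ring
  rw [hexp] at hcon
  linarith

omit [DecidableEq Ω] in
lemma sum_mulVec {P : Matrix Ω Ω ℝ} (hs : ∀ x y, P x y = P y x) (hr : ∀ x, ∑ y, P x y = 1)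
    (f : Ω → ℝ) : ∑ x, (P *ᵥ f) x = ∑ x, f x := by
  simp only [Matrix.mulVec, dotProduct]
  rw [Finset.sum_comm]
  refine Finset.sum_congr rfl fun y _ => ?_
  rw [← Finset.sum_mul]
  have : ∑ x, P x y = 1 := by
    rw [← hr y]
    exact Finset.sum_congr rfl fun x _ => hs x y
  rw [this, one_mul]

/-- Exponential `ℓ²` decay on mean zero functions. -/
lemma sum_sq_pow_le {P : Matrix Ω Ω ℝ} (h : LazySymm P) {γ : ℝ} (hγ1 : γ ≤ 1)
    (hP : Poincare P γ) (f : Ω → ℝ) (hf : ∑ x, f x = 0) (t : ℕ) :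
    ∑ x, ((P ^ t) *ᵥ f) x = 0 ∧ ∑ x, (((P ^ t) *ᵥ f) x) ^ 2 ≤ (1 - γ) ^ t * ∑ x, f x ^ 2 := by
  induction t with
  | zero => simp [hf]
  | succ t ih =>
    obtain ⟨ih0, ih1⟩ := ih
    have hstep : (P ^ (t + 1)) *ᵥ f = P *ᵥ ((P ^ t) *ᵥ f) := by
      rw [pow_succ', Matrix.mulVec_mulVec]
    rw [hstep]
    refine ⟨by rw [sum_mulVec h.symm h.row, ih0], ?_⟩
    have h1 := sum_sq_step h ((P ^ t) *ᵥ f)
    have h2 := hP ((P ^ t) *ᵥ f) ih0
    have h3 : (0 : ℝ) ≤ 1 - γ := by linarith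
    calc ∑ x, ((P *ᵥ ((P ^ t) *ᵥ f)) x) ^ 2
        ≤ (1 - γ) * ∑ x, (((P ^ t) *ᵥ f) x) ^ 2 := by linarith
      _ ≤ (1 - γ) * ((1 - γ) ^ t * ∑ x, f x ^ 2) := mul_le_mul_of_nonneg_left ih1 h3
      _ = (1 - γ) ^ (t + 1) * ∑ x, f x ^ 2 := by ring

lemma pow_mulVec_const {P : Matrix Ω Ω ℝ} (hr : ∀ x, ∑ y, P x y = 1) (c : ℝ) (t : ℕ) :
    (P ^ t) *ᵥ (fun _ => c) = fun _ => c := by
  induction t with
  | zero => simp
  | succ t ih =>
    rw [pow_succ', ← Matrix.mulVec_mulVec, ih]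
    funext x
    simp only [Matrix.mulVec, dotProduct]
    rw [← Finset.sum_mul, hr x, one_mul]

lemma pow_symm {P : Matrix Ω Ω ℝ} (hs : ∀ x y, P x y = P y x) (t : ℕ) (x y : Ω) :
    (P ^ t) x y = (P ^ t) y x := by
  have hT : Pᵀ = P := by
    ext a b
    exact hs b a
  have : ((P ^ t)ᵀ) = P ^ t := by rw [Matrix.transpose_pow, hT]
  calc (P ^ t) x y = ((P ^ t)ᵀ) y x := rfl
    _ = (P ^ t) y x := by rw [this]

/-- **Main bound of module F.** -/
theorem l1_sq_le [Nonempty Ω] {P : Matrix Ω Ω ℝ} (h : LazySymm P) {γ : ℝ} (hγ1 : γ ≤ 1)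
    (hP : Poincare P γ) (t : ℕ) (x : Ω) :
    (∑ y, |(P ^ t) x y - 1 / (Fintype.card Ω : ℝ)|) ^ 2
      ≤ (Fintype.card Ω : ℝ) * (1 - γ) ^ t := by
  set N : ℝ := (Fintype.card Ω : ℝ) with hN
  have hNpos : 0 < N := by
    rw [hN]
    exact_mod_cast Fintype.card_pos
  set f : Ω → ℝ := fun y => (if y = x then 1 else 0) - 1 / N with hf
  have hsum : ∑ y, f y = 0 := by
    simp only [hf, Finset.sum_sub_distrib]
    simp
    rw [← hN]
    field_simp
    simp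
  have hsq : ∑ y, f y ^ 2 ≤ 1 := by
    have h1 : ∑ y, f y ^ 2 = ∑ y, ((if y = x then (1 : ℝ) else 0)
        - (2 / N) * (if y = x then (1 : ℝ) else 0) + 1 / N ^ 2) := by
      refine Finset.sum_congr rfl fun y _ => ?_
      simp only [hf]
      split_ifs
      · field_simp
        ring
      · field_simp
        ring
    rw [h1, Finset.sum_add_distrib, Finset.sum_sub_distrib, ← Finset.mul_sum]
    simp
    rw [← hN]
    have : N * (N ^ 2)⁻¹ = 1 / N := by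
      field_simp
    rw [this]
    have h2 : 0 < 1 / N := by positivity
    have h3 : 2 / N = 2 * (1 / N) := by ring
    rw [h3]
    linarith
  have hval : ∀ y, ((P ^ t) *ᵥ f) y = (P ^ t) x y - 1 / N := by
    intro y
    have hdec : f = (fun z => if z = x then (1 : ℝ) else 0) - (fun _ => 1 / N) := by
      funext z
      simp [hf]
    rw [hdec, Matrix.mulVec_sub, pow_mulVec_const h.row]
    simp only [Pi.sub_apply]
    congr 1
    simp only [Matrix.mulVec, dotProduct]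
    simp
    exact pow_symm h.symm t y x
  obtain ⟨-, hdecay⟩ := sum_sq_pow_le h hγ1 hP f hsum t
  have hpow : (0 : ℝ) ≤ (1 - γ) ^ t := pow_nonneg (by linarith) t
  calc (∑ y, |(P ^ t) x y - 1 / N|) ^ 2
      ≤ (Finset.univ.card : ℝ) * ∑ y, |(P ^ t) x y - 1 / N| ^ 2 := sq_sum_le_card_mul_sum_sq
    _ = N * ∑ y, (((P ^ t) *ᵥ f) y) ^ 2 := by
        rw [Finset.card_univ]
        congr 1
        refine Finset.sum_congr rfl fun y _ => ?_
        rw [sq_abs, hval]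
    _ ≤ N * ((1 - γ) ^ t * ∑ y, f y ^ 2) := mul_le_mul_of_nonneg_left hdecay hNpos.le
    _ ≤ N * ((1 - γ) ^ t * 1) :=
        mul_le_mul_of_nonneg_left (mul_le_mul_of_nonneg_left hsq hpow) hNpos.le
    _ = N * (1 - γ) ^ t := by ring

/-- Total variation distance at most `1/4` as soon as `4 N (1-γ)^t ≤ 1`. -/
theorem tv_le_quarter [Nonempty Ω] {P : Matrix Ω Ω ℝ} (h : LazySymm P) {γ : ℝ} (hγ1 : γ ≤ 1)
    (hP : Poincare P γ) (t : ℕ) (ht : 4 * (Fintype.card Ω : ℝ) * (1 - γ) ^ t ≤ 1) (x : Ω) :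
    (1 / 2) * ∑ y, |(P ^ t) x y - 1 / (Fintype.card Ω : ℝ)| ≤ 1 / 4 := by
  have h1 := l1_sq_le h hγ1 hP t x
  set S := ∑ y, |(P ^ t) x y - 1 / (Fintype.card Ω : ℝ)| with hS
  have hS0 : 0 ≤ S := Finset.sum_nonneg fun y _ => abs_nonneg _
  have h2 : S ^ 2 ≤ (1 / 2) ^ 2 := by nlinarith
  have h3 : S ≤ 1 / 2 := by
    by_contra hcon
    rw [not_le] at hcon
    nlinarith
  linarith

/-- Total variation distance at most `1/4` as soon as `log (4 N) ≤ γ t`. -/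
theorem tv_le_quarter_of_log [Nonempty Ω] {P : Matrix Ω Ω ℝ} (h : LazySymm P) {γ : ℝ}
    (hγ1 : γ ≤ 1) (hP : Poincare P γ) (t : ℕ)
    (ht : Real.log (4 * (Fintype.card Ω : ℝ)) ≤ γ * t) (x : Ω) :
    (1 / 2) * ∑ y, |(P ^ t) x y - 1 / (Fintype.card Ω : ℝ)| ≤ 1 / 4 := by
  refine tv_le_quarter h hγ1 hP t ?_ x
  have hNpos : (0 : ℝ) < (Fintype.card Ω : ℝ) := by exact_mod_cast Fintype.card_pos
  have h4N : (0 : ℝ) < 4 * (Fintype.card Ω : ℝ) := by positivity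
  have h1 : (1 - γ) ^ t ≤ Real.exp (-(γ * t)) := by
    have h2 : 1 - γ ≤ Real.exp (-γ) := by
      have := Real.add_one_le_exp (-γ)
      linarith
    calc (1 - γ) ^ t ≤ (Real.exp (-γ)) ^ t := pow_le_pow_left₀ (by linarith) h2 t
      _ = Real.exp (-(γ * t)) := by
          rw [← Real.exp_nat_mul]
          congr 1
          ring
  have h3 : Real.exp (-(γ * t)) ≤ Real.exp (-Real.log (4 * (Fintype.card Ω : ℝ))) :=
    Real.exp_le_exp.mpr (by linarith)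
  rw [Real.exp_neg (Real.log _), Real.exp_log h4N] at h3
  calc 4 * (Fintype.card Ω : ℝ) * (1 - γ) ^ t
      ≤ 4 * (Fintype.card Ω : ℝ) * (4 * (Fintype.card Ω : ℝ))⁻¹ :=
        mul_le_mul_of_nonneg_left (h1.trans h3) h4N.le
    _ = 1 := by field_simp

end Vale.Agent.P335
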