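import Vale.Agent.P335.Chain
import Vale.Agent.P335.Mixing

/-!
# Final assembly: a Poincare inequality for the proposals gives the mixing time bound
-/

set_option linter.unusedSectionVars false

namespace Vale.Agent.P335

open Finset

theorem asm_lazySymm {n : ℕ} (hn : 4 ≤ n) (d : Fin n → ℕ) : LazySymm (switchChain d) :=
  ⟨switchChain_symm d, switchChain_nonneg d, switchChain_row_sum hn d, switchChain_lazy d⟩

theorem asm_double_sum {Ω : Type*} [Fintype Ω] (f : Ω → ℝ) (hf : ∑ x, f x = 0) :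
    ∑ x, ∑ y, (f x - f y) ^ 2 = 2 * (Fintype.card Ω : ℝ) * ∑ x, f x ^ 2 := by
  have e : ∀ x, ∑ y, (f x - f y) ^ 2 = (Fintype.card Ω : ℝ) * f x ^ 2 + ∑ y, f y ^ 2 := by
    intro x
    have : ∀ y, (f x - f y) ^ 2 = f x ^ 2 - 2 * f x * f y + f y ^ 2 := fun y => by ring
    simp_rw [this]
    rw [Finset.sum_add_distrib, Finset.sum_sub_distrib, ← Finset.mul_sum, hf]
    simp
  simp_rw [e]
  rw [Finset.sum_add_distrib, ← Finset.mul_sum]
  simp
  ring

theorem asm_card_emb_le (n : ℕ) : Fintype.card (Fin 4 ↪ Fin n) ≤ n ^ 4 := by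
  rw [Fintype.card_embedding_eq]
  simp only [Fintype.card_fin]
  exact Nat.descFactorial_le_pow n 4

theorem asm_poincare {n : ℕ} (hn : 4 ≤ n) (d : Fin n → ℕ)
    (hgp : ∀ f : Omega d → ℝ, ∑ G, ∑ G', (f G - f G') ^ 2 ≤
      (Fintype.card (Omega d) : ℝ) * ∑ G, ∑ t, (f (stepO G t) - f G) ^ 2)
    (G0 : Omega d) :
    Poincare (switchChain d) (1 / (2 * (Fintype.card (Fin 4 ↪ Fin n) : ℝ))) := by
  intro f hf
  have hN : (0 : ℝ) < (Fintype.card (Fin 4 ↪ Fin n) : ℝ) := by exact_mod_cast chain_card_emb_pos hn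
  have hO : (0 : ℝ) < (Fintype.card (Omega d) : ℝ) := by
    exact_mod_cast Fintype.card_pos_iff.2 ⟨G0⟩
  unfold dirichlet
  rw [switchChain_dirichlet hn d f]
  have h1 := hgp f
  rw [asm_double_sum f hf] at h1
  have h2 : 2 * ∑ x, f x ^ 2 ≤ ∑ G, ∑ t, (f (stepO G t) - f G) ^ 2 := by
    have : (Fintype.card (Omega d) : ℝ) * (2 * ∑ x, f x ^ 2) ≤
        (Fintype.card (Omega d) : ℝ) * ∑ G, ∑ t, (f (stepO G t) - f G) ^ 2 := by
      calc (Fintype.card (Omega d) : ℝ) * (2 * ∑ x, f x ^ 2)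
          = 2 * (Fintype.card (Omega d) : ℝ) * ∑ x, f x ^ 2 := by ring
        _ ≤ _ := h1
    exact le_of_mul_le_mul_left this hO
  calc 1 / (2 * (Fintype.card (Fin 4 ↪ Fin n) : ℝ)) * ∑ x, f x ^ 2
      = 1 / (4 * (Fintype.card (Fin 4 ↪ Fin n) : ℝ)) * (2 * ∑ x, f x ^ 2) := by
        field_simp
        ring
    _ ≤ _ := by
        apply mul_le_mul_of_nonneg_left h2
        positivity

theorem asm_log_le {n : ℕ} (hn : 4 ≤ n) (d : Fin n → ℕ) (G0 : Omega d) :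
    Real.log (4 * (Fintype.card (Omega d) : ℝ)) ≤ (n : ℝ) ^ 2 := by
  have hO : (0 : ℝ) < (Fintype.card (Omega d) : ℝ) := by
    exact_mod_cast Fintype.card_pos_iff.2 ⟨G0⟩
  have h1 : (Fintype.card (Omega d) : ℝ) ≤ 2 ^ (n ^ 2) := by exact_mod_cast card_Omega_le d
  have h2 : 4 * (Fintype.card (Omega d) : ℝ) ≤ 2 ^ (n ^ 2 + 2) := by
    rw [pow_add]
    nlinarith
  have h3 : Real.log (4 * (Fintype.card (Omega d) : ℝ)) ≤ Real.log (2 ^ (n ^ 2 + 2)) :=
    Real.log_le_log (by positivity) h2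
  rw [Real.log_pow] at h3
  have h4 : Real.log 2 < 0.6931471808 := Real.log_two_lt_d9
  have h5 : (0 : ℝ) < Real.log 2 := Real.log_pos (by norm_num)
  have h6 : (16 : ℝ) ≤ (n : ℝ) ^ 2 := by
    have : (4 : ℝ) ≤ n := by exact_mod_cast hn
    nlinarith
  push_cast at h3
  nlinarith

theorem assemble {n : ℕ} (hn : 4 ≤ n) (d : Fin n → ℕ)
    (hgp : ∀ f : Omega d → ℝ, ∑ G, ∑ G', (f G - f G') ^ 2 ≤
      (Fintype.card (Omega d) : ℝ) * ∑ G, ∑ t, (f (stepO G t) - f G) ^ 2) :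
    (∀ G : Omega d, tvDist d (2 * n ^ 6) G ≤ 1 / 4) ∧ tmix d ≤ 2 * n ^ 6 := by
  have main : ∀ G : Omega d, tvDist d (2 * n ^ 6) G ≤ 1 / 4 := by
    intro G
    have : Nonempty (Omega d) := ⟨G⟩
    have hN : (0 : ℝ) < (Fintype.card (Fin 4 ↪ Fin n) : ℝ) := by
      exact_mod_cast chain_card_emb_pos hn
    have hN1 : (1 : ℝ) ≤ (Fintype.card (Fin 4 ↪ Fin n) : ℝ) := by
      exact_mod_cast chain_card_emb_pos hn
    have hN4 : (Fintype.card (Fin 4 ↪ Fin n) : ℝ) ≤ (n : ℝ) ^ 4 := by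
      exact_mod_cast asm_card_emb_le n
    unfold tvDist
    refine tv_le_quarter_of_log (asm_lazySymm hn d) ?_ (asm_poincare hn d hgp G) (2 * n ^ 6) ?_ G
    · rw [div_le_one (by positivity)]
      linarith
    · refine (asm_log_le hn d G).trans ?_
      push_cast
      rw [div_mul_eq_mul_div, le_div_iff₀ (by positivity)]
      have hn0 : (0 : ℝ) ≤ (n : ℝ) ^ 2 := by positivity
      nlinarith [mul_le_mul_of_nonneg_left hN4 hn0]
  exact ⟨main, Nat.sInf_le main⟩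

end Vale.Agent.P335
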