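import Mathlib

/-!
# Averaging operators over equivalence classes on a finite type
-/

namespace Vale.Agent.P335

open Finset

variable {Ω : Type*} [Fintype Ω]

open Classical in
/-- the class of `x` under the relation `R` -/
noncomputable def cls (R : Ω → Ω → Prop) (x : Ω) : Finset Ω := univ.filter (fun y => R x y)

/-- average of `f` over the class of `x` -/
noncomputable def avg (R : Ω → Ω → Prop) (f : Ω → ℝ) (x : Ω) : ℝ :=
  (∑ y ∈ cls R x, f y) / ((cls R x).card : ℝ)

/-- plain inner product -/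
def ip (f g : Ω → ℝ) : ℝ := ∑ x, f x * g x

/-- `f` is constant on the classes of `R` -/
def Inv (R : Ω → Ω → Prop) (f : Ω → ℝ) : Prop := ∀ x y, R x y → f x = f y

theorem mem_cls {R : Ω → Ω → Prop} {x y : Ω} : y ∈ cls R x ↔ R x y := by
  classical
  simp [cls]

theorem cls_eq_of_rel {R : Ω → Ω → Prop} (hR : Equivalence R) {x y : Ω} (h : R x y) :
    cls R x = cls R y := by
  ext z
  rw [mem_cls, mem_cls]
  exact ⟨fun hz => hR.trans (hR.symm h) hz, fun hz => hR.trans h hz⟩

theorem self_mem_cls {R : Ω → Ω → Prop} (hR : Equivalence R) (x : Ω) : x ∈ cls R x :=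
  mem_cls.2 (hR.refl x)

theorem card_cls_pos {R : Ω → Ω → Prop} (hR : Equivalence R) (x : Ω) :
    0 < ((cls R x).card : ℝ) := by
  have : 0 < (cls R x).card := Finset.card_pos.2 ⟨x, self_mem_cls hR x⟩
  exact_mod_cast this

theorem avg_inv {R : Ω → Ω → Prop} (hR : Equivalence R) (f : Ω → ℝ) : Inv R (avg R f) := by
  intro x y h
  unfold avg
  rw [cls_eq_of_rel hR h]

theorem avg_of_inv {R : Ω → Ω → Prop} (hR : Equivalence R) {f : Ω → ℝ} (hf : Inv R f) :
    avg R f = f := by
  funext x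
  unfold avg
  have h1 : ∑ y ∈ cls R x, f y = ∑ _y ∈ cls R x, f x :=
    Finset.sum_congr rfl (fun y hy => (hf x y (mem_cls.1 hy)).symm)
  rw [h1, Finset.sum_const, nsmul_eq_mul]
  have := card_cls_pos hR x
  field_simp

theorem avg_idem {R : Ω → Ω → Prop} (hR : Equivalence R) (f : Ω → ℝ) :
    avg R (avg R f) = avg R f := avg_of_inv hR (avg_inv hR f)

theorem avg_add (R : Ω → Ω → Prop) (f g : Ω → ℝ) : avg R (f + g) = avg R f + avg R g := by
  funext x
  simp [avg, Finset.sum_add_distrib, add_div]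

theorem avg_smul (R : Ω → Ω → Prop) (a : ℝ) (f : Ω → ℝ) : avg R (a • f) = a • avg R f := by
  funext x
  simp [avg, ← Finset.mul_sum, mul_div_assoc]

theorem avg_sub (R : Ω → Ω → Prop) (f g : Ω → ℝ) : avg R (f - g) = avg R f - avg R g := by
  funext x
  simp [avg, Finset.sum_sub_distrib, sub_div]

/-- the averaging operator as a linear map -/
noncomputable def avgL (R : Ω → Ω → Prop) : (Ω → ℝ) →ₗ[ℝ] (Ω → ℝ) where
  toFun := avg R
  map_add' := avg_add R
  map_smul' := by intro a f; simpa using avg_smul R a f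

@[simp] theorem avgL_apply (R : Ω → Ω → Prop) (f : Ω → ℝ) : avgL R f = avg R f := rfl

theorem avg_symm {R : Ω → Ω → Prop} (hR : Equivalence R) (f g : Ω → ℝ) :
    ip (avg R f) g = ip f (avg R g) := by
  classical
  unfold ip avg
  have e1 : ∀ x, (∑ y ∈ cls R x, f y) / ((cls R x).card : ℝ) * g x
      = ∑ y, if R x y then f y * g x / ((cls R x).card : ℝ) else 0 := by
    intro x
    rw [div_mul_eq_mul_div, Finset.sum_mul, Finset.sum_div, cls, Finset.sum_filter]
  have e2 : ∀ x, f x * ((∑ y ∈ cls R x, g y) / ((cls R x).card : ℝ))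
      = ∑ y, if R x y then f x * g y / ((cls R x).card : ℝ) else 0 := by
    intro x
    rw [← mul_div_assoc, Finset.mul_sum, Finset.sum_div, cls, Finset.sum_filter]
  simp_rw [e1, e2]
  rw [Finset.sum_comm]
  refine Finset.sum_congr rfl (fun y _ => Finset.sum_congr rfl (fun x _ => ?_))
  by_cases h : R x y
  · have h' : R y x := hR.symm h
    rw [if_pos h, if_pos h', cls_eq_of_rel hR h]
  · have h' : ¬ R y x := fun h' => h (hR.symm h')
    rw [if_neg h, if_neg h']

/-- coarser after finer -/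
theorem avg_avg_of_le {R S : Ω → Ω → Prop} (hR : Equivalence R) (hS : Equivalence S)
    (hle : ∀ x y, R x y → S x y) (f : Ω → ℝ) : avg R (avg S f) = avg S f :=
  avg_of_inv hR (fun x y h => avg_inv hS f x y (hle x y h))

theorem abs_avg_le {R : Ω → Ω → Prop} (hR : Equivalence R) (f : Ω → ℝ) (x : Ω) (B : ℝ)
    (h : ∀ y, R x y → |f y| ≤ B) : |avg R f x| ≤ B := by
  unfold avg
  have hc := card_cls_pos hR x
  rw [abs_div, abs_of_pos hc, div_le_iff₀ hc]
  calc |∑ y ∈ cls R x, f y| ≤ ∑ y ∈ cls R x, |f y| := Finset.abs_sum_le_sum_abs _ _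
    _ ≤ ∑ _y ∈ cls R x, B := Finset.sum_le_sum (fun y hy => h y (mem_cls.1 hy))
    _ = B * ((cls R x).card : ℝ) := by rw [Finset.sum_const, nsmul_eq_mul, mul_comm]

theorem ip_comm (f g : Ω → ℝ) : ip f g = ip g f := by
  unfold ip; exact Finset.sum_congr rfl (fun x _ => mul_comm _ _)

theorem ip_add_left (f g h : Ω → ℝ) : ip (f + g) h = ip f h + ip g h := by
  unfold ip; rw [← Finset.sum_add_distrib]
  exact Finset.sum_congr rfl (fun x _ => by simp [add_mul])

theorem ip_add_right (f g h : Ω → ℝ) : ip f (g + h) = ip f g + ip f h := by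
  rw [ip_comm, ip_add_left, ip_comm g, ip_comm h]

theorem ip_sub_left (f g h : Ω → ℝ) : ip (f - g) h = ip f h - ip g h := by
  unfold ip; rw [← Finset.sum_sub_distrib]
  exact Finset.sum_congr rfl (fun x _ => by simp [sub_mul])

theorem ip_sub_right (f g h : Ω → ℝ) : ip f (g - h) = ip f g - ip f h := by
  rw [ip_comm, ip_sub_left, ip_comm g, ip_comm h]

theorem ip_smul_left (a : ℝ) (f g : Ω → ℝ) : ip (a • f) g = a * ip f g := by
  unfold ip; rw [Finset.mul_sum]
  exact Finset.sum_congr rfl (fun x _ => by simp [mul_assoc])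

theorem ip_smul_right (a : ℝ) (f g : Ω → ℝ) : ip f (a • g) = a * ip f g := by
  rw [ip_comm, ip_smul_left, ip_comm]

theorem ip_sum_left {α : Type*} (s : Finset α) (F : α → Ω → ℝ) (g : Ω → ℝ) :
    ip (∑ a ∈ s, F a) g = ∑ a ∈ s, ip (F a) g := by
  classical
  induction s using Finset.induction_on with
  | empty => simp [ip]
  | insert a s ha ih => rw [Finset.sum_insert ha, Finset.sum_insert ha, ip_add_left, ih]

theorem ip_sum_right {α : Type*} (s : Finset α) (F : α → Ω → ℝ) (g : Ω → ℝ) :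
    ip g (∑ a ∈ s, F a) = ∑ a ∈ s, ip g (F a) := by
  rw [ip_comm, ip_sum_left]
  exact Finset.sum_congr rfl (fun a _ => ip_comm _ _)

theorem ip_self_nonneg (f : Ω → ℝ) : 0 ≤ ip f f :=
  Finset.sum_nonneg (fun x _ => mul_self_nonneg (f x))

theorem ip_self_eq_zero {f : Ω → ℝ} (h : ip f f = 0) : f = 0 := by
  funext x
  have := (Finset.sum_eq_zero_iff_of_nonneg (fun x _ => mul_self_nonneg (f x))).1 h x (mem_univ x)
  simpa using this

theorem ip_ext {f f' : Ω → ℝ} (h : ∀ g, ip f g = ip f' g) : f = f' := by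
  have h1 : ip (f - f') (f - f') = 0 := by rw [ip_sub_left, h, sub_self]
  have := ip_self_eq_zero h1
  exact sub_eq_zero.1 this

/-- coarser after finer, other order -/
theorem avg_avg_of_le' {R S : Ω → Ω → Prop} (hR : Equivalence R) (hS : Equivalence S)
    (hle : ∀ x y, R x y → S x y) (f : Ω → ℝ) : avg S (avg R f) = avg S f := by
  apply ip_ext
  intro g
  rw [avg_symm hS, avg_symm hR, avg_avg_of_le hR hS hle, avg_symm hS]

/-- `ip f (f - E f) = ip (f - E f) (f - E f)` -/
theorem ip_sub_avg_self {R : Ω → Ω → Prop} (hR : Equivalence R) (f : Ω → ℝ) :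
    ip f (f - avg R f) = ip (f - avg R f) (f - avg R f) := by
  have h : ip (avg R f) (f - avg R f) = 0 := by
    rw [avg_symm hR, avg_sub, avg_idem hR, sub_self]
    simp [ip]
  rw [ip_sub_left f (avg R f), h, sub_zero]

/-- transport of averages along a bijection of classes -/
theorem avg_eq_of_bij {R : Ω → Ω → Prop} (x x' : Ω) (e e' : Ω → Ω)
    (h1 : ∀ y ∈ cls R x, e y ∈ cls R x') (h2 : ∀ y ∈ cls R x', e' y ∈ cls R x)
    (h3 : ∀ y ∈ cls R x, e' (e y) = y) (h4 : ∀ y ∈ cls R x', e (e' y) = y) (h : Ω → ℝ) :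
    avg R h x' = avg R (fun y => h (e y)) x := by
  unfold avg
  have hs : ∑ y ∈ cls R x, h (e y) = ∑ y ∈ cls R x', h y :=
    Finset.sum_nbij' e e' h1 h2 h3 h4 (fun _ _ => rfl)
  have hc : (cls R x).card = (cls R x').card := Finset.card_nbij' e e' h1 h2 h3 h4
  rw [hs, hc]

end Vale.Agent.P335
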