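import Vale.Agent.P335.Core
import Vale.Agent.P335.Assemble

/-!
# The bipartite switch chain (checkerboard swaps on 0-1 matrices with fixed margins)
-/

set_option linter.unusedSectionVars false

namespace Vale.Agent.P335

open Finset

/-- `BOmega r c`: the 0-1 matrices with `m` rows and `n` columns having row sums `r` and column
sums `c`, i.e. the bipartite graphs on `Fin m + Fin n` with these degrees. -/
def BOmega {m n : ℕ} (r : Fin m → ℕ) (c : Fin n → ℕ) : Type :=
  {M : Mat (Fin m) (Fin n) // (∀ i, rs M i = r i) ∧ (∀ j, cs M j = c j)}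

noncomputable instance {m n : ℕ} (r : Fin m → ℕ) (c : Fin n → ℕ) : Fintype (BOmega r c) := by
  classical
  unfold BOmega
  infer_instance

noncomputable instance {m n : ℕ} (r : Fin m → ℕ) (c : Fin n → ℕ) : DecidableEq (BOmega r c) :=
  Classical.decEq _

/-- a proposal: an ordered pair of distinct rows and an ordered pair of distinct columns -/
abbrev BProp (m n : ℕ) : Type := (Fin 2 ↪ Fin m) × (Fin 2 ↪ Fin n)

open Classical in
/-- one proposal of the bipartite switch chain: if the 2x2 submatrix in the two chosen rows and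
the two chosen columns is one of the two checkerboards 10/01, 01/10, replace it by the other
one (flip the four cells), otherwise stay put. -/
noncomputable def bstep {m n : ℕ} (M : Mat (Fin m) (Fin n)) (t : BProp m n) :
    Mat (Fin m) (Fin n) :=
  if Valid M (t.1 0) (t.1 1) (t.2 0) (t.2 1) ∨ Valid M (t.1 1) (t.1 0) (t.2 0) (t.2 1) then
    sw (t.1 0) (t.1 1) (t.2 0) (t.2 1) M
  else M

open Classical in
/-- transition matrix of the lazy bipartite switch chain: with probability 1/2 stay put,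
otherwise apply `bstep` with two distinct rows and two distinct columns chosen uniformly. -/
noncomputable def bchain {m n : ℕ} (r : Fin m → ℕ) (c : Fin n → ℕ) :
    Matrix (BOmega r c) (BOmega r c) ℝ :=
  fun M M' => (1 / 2) * (if M = M' then 1 else 0) +
    (1 / 2) * (((univ.filter (fun t : BProp m n => bstep M.1 t = M'.1)).card : ℝ) /
      (Fintype.card (BProp m n) : ℝ))

/-- total variation distance between `P^t(M, .)` and the uniform distribution on `BOmega r c` -/
noncomputable def btv {m n : ℕ} (r : Fin m → ℕ) (c : Fin n → ℕ) (t : ℕ) (M : BOmega r c) : ℝ :=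
  (1 / 2) * ∑ M' : BOmega r c, |(bchain r c ^ t) M M' - 1 / (Fintype.card (BOmega r c) : ℝ)|

/-- the mixing time: least `t` with worst-case total variation distance at most 1/4 -/
noncomputable def btmix {m n : ℕ} (r : Fin m → ℕ) (c : Fin n → ℕ) : ℕ :=
  sInf {t : ℕ | ∀ M : BOmega r c, btv r c t M ≤ 1 / 4}

variable {m n : ℕ} {r : Fin m → ℕ} {c : Fin n → ℕ}

theorem bip_step_mem (M : BOmega r c) (t : BProp m n) :
    (∀ i, rs (bstep M.1 t) i = r i) ∧ (∀ j, cs (bstep M.1 t) j = c j) := by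
  unfold bstep
  split_ifs with h
  · rcases h with h | h
    · exact ⟨fun i => (rs_sw h i).trans (M.2.1 i), fun j => (cs_sw h j).trans (M.2.2 j)⟩
    · rw [sw_comm_rows]
      exact ⟨fun i => (rs_sw h i).trans (M.2.1 i), fun j => (cs_sw h j).trans (M.2.2 j)⟩
  · exact M.2

/-- `bstep` as a map of `BOmega r c` -/
noncomputable def bstepO (M : BOmega r c) (t : BProp m n) : BOmega r c :=
  ⟨bstep M.1 t, bip_step_mem M t⟩

theorem bip_step_rev {M M' : Mat (Fin m) (Fin n)} (hne : M ≠ M') {t : BProp m n}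
    (h : bstep M t = M') : bstep M' t = M := by
  unfold bstep at h
  split_ifs at h with hc
  · have hc' : Valid M' (t.1 0) (t.1 1) (t.2 0) (t.2 1) ∨
        Valid M' (t.1 1) (t.1 0) (t.2 0) (t.2 1) := by
      rw [← h]
      rcases hc with hc | hc
      · exact Or.inr hc.sw.symm
      · left
        rw [sw_comm_rows]
        exact hc.sw.symm
    unfold bstep
    rw [if_pos hc', ← h, sw_sw]
  · exact absurd h hne

open Classical in
theorem bip_card_symm (M M' : Mat (Fin m) (Fin n)) :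
    (univ.filter (fun t : BProp m n => bstep M t = M')).card =
      (univ.filter (fun t : BProp m n => bstep M' t = M)).card := by
  by_cases hne : M = M'
  · subst hne; rfl
  congr 1
  ext t
  simp only [mem_filter, mem_univ, true_and]
  exact ⟨fun h => bip_step_rev hne h, fun h => bip_step_rev (Ne.symm hne) h⟩

theorem bchain_symm (M M' : BOmega r c) : bchain r c M M' = bchain r c M' M := by
  classical
  unfold bchain
  rw [bip_card_symm M.1 M'.1]
  by_cases h : M = M'
  · subst h; rfl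
  · rw [if_neg h, if_neg (Ne.symm h)]

theorem bchain_nonneg (M M' : BOmega r c) : 0 ≤ bchain r c M M' := by
  unfold bchain
  have h1 : (0 : ℝ) ≤ (if M = M' then 1 else 0) := by split_ifs <;> norm_num
  positivity

theorem bchain_lazy (M : BOmega r c) : 1 / 2 ≤ bchain r c M M := by
  unfold bchain
  rw [if_pos rfl, mul_one]
  exact le_add_of_nonneg_right (by positivity)

theorem bip_card_prop (m n : ℕ) :
    Fintype.card (BProp m n) = (m * (m - 1)) * (n * (n - 1)) := by
  rw [Fintype.card_prod, Fintype.card_embedding_eq, Fintype.card_embedding_eq]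
  simp [Nat.descFactorial, mul_comm]

theorem bip_card_prop_pos (hm : 2 ≤ m) (hn : 2 ≤ n) : 0 < Fintype.card (BProp m n) := by
  rw [bip_card_prop]
  have h1 : 0 < m - 1 := by omega
  have h2 : 0 < n - 1 := by omega
  positivity

open Classical in
theorem bip_sum_fiber (M : BOmega r c) (g : BOmega r c → ℝ) :
    ∑ M' : BOmega r c, ((univ.filter (fun t : BProp m n => bstep M.1 t = M'.1)).card : ℝ) * g M' =
      ∑ t : BProp m n, g (bstepO M t) := by
  rw [← Finset.sum_fiberwise (s := univ) (g := fun t => bstepO M t) (f := fun t => g (bstepO M t))]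
  refine Finset.sum_congr rfl (fun M' _ => ?_)
  have e : (univ.filter (fun t : BProp m n => bstep M.1 t = M'.1)) =
      univ.filter (fun t : BProp m n => bstepO M t = M') := by
    ext t
    simp only [mem_filter, mem_univ, true_and]
    exact (Subtype.ext_iff (a1 := bstepO M t) (a2 := M')).symm
  rw [e, Finset.sum_congr rfl (g := fun _ => g M')
    (fun t ht => by rw [(mem_filter.1 ht).2]), Finset.sum_const, nsmul_eq_mul]

theorem bchain_row_sum (hm : 2 ≤ m) (hn : 2 ≤ n) (M : BOmega r c) :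
    ∑ M', bchain r c M M' = 1 := by
  classical
  have hN : (0 : ℝ) < (Fintype.card (BProp m n) : ℝ) := by
    exact_mod_cast bip_card_prop_pos hm hn
  unfold bchain
  rw [Finset.sum_add_distrib, ← Finset.mul_sum, ← Finset.mul_sum, ← Finset.sum_div]
  have h1 := bip_sum_fiber M (fun _ => 1)
  simp only [mul_one, Finset.sum_const, card_univ, nsmul_eq_mul] at h1
  rw [h1]
  simp only [Finset.sum_ite_eq, mem_univ, if_true]
  field_simp
  norm_num

theorem bchain_dirichlet (hm : 2 ≤ m) (hn : 2 ≤ n) (f : BOmega r c → ℝ) :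
    (1 / 2) * ∑ M, ∑ M', bchain r c M M' * (f M - f M') ^ 2 =
      (1 / (4 * (Fintype.card (BProp m n) : ℝ))) * ∑ M, ∑ t, (f (bstepO M t) - f M) ^ 2 := by
  classical
  have hN : (0 : ℝ) < (Fintype.card (BProp m n) : ℝ) := by
    exact_mod_cast bip_card_prop_pos hm hn
  rw [Finset.mul_sum, Finset.mul_sum]
  refine Finset.sum_congr rfl (fun M _ => ?_)
  rw [← bip_sum_fiber M (fun M' => (f M' - f M) ^ 2), Finset.mul_sum, Finset.mul_sum]
  refine Finset.sum_congr rfl (fun M' _ => ?_)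
  unfold bchain
  by_cases h : M = M'
  · subst h; simp
  · rw [if_neg h]
    field_simp
    ring

theorem bip_lazySymm (hm : 2 ≤ m) (hn : 2 ≤ n) : LazySymm (bchain r c) :=
  ⟨bchain_symm, bchain_nonneg, bchain_row_sum hm hn, bchain_lazy⟩

/-- the ordered pair `(a, b)` of distinct elements as an embedding of `Fin 2` -/
def emb2 {k : ℕ} (a b : Fin k) (h : a ≠ b) : Fin 2 ↪ Fin k :=
  ⟨![a, b], by
    intro i j hij
    fin_cases i <;> fin_cases j <;> simp at hij ⊢ <;>
      first | exact absurd hij h | exact absurd hij.symm h⟩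

theorem emb2_inj {k : ℕ} {a b a' b' : Fin k} {h : a ≠ b} {h' : a' ≠ b'}
    (he : emb2 a b h = emb2 a' b' h') : a = a' ∧ b = b' :=
  ⟨congrArg (fun t : Fin 2 ↪ Fin k => t 0) he, congrArg (fun t : Fin 2 ↪ Fin k => t 1) he⟩

theorem bip_mem_cls (M0 : BOmega r c) (M : Mat (Fin m) (Fin n)) :
    M ∈ cls (Rel univ) M0.1 ↔ (∀ i, rs M i = r i) ∧ (∀ j, cs M j = c j) := by
  rw [mem_cls]
  constructor
  · intro h
    exact ⟨fun i => (h.2.1 i).symm.trans (M0.2.1 i), fun j => (h.2.2 j).symm.trans (M0.2.2 j)⟩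
  · intro h
    exact ⟨fun i j hij => absurd (mem_univ _) hij, fun i => (M0.2.1 i).trans (h.1 i).symm,
      fun j => (M0.2.2 j).trans (h.2 j).symm⟩

theorem bip_step_valid (M : BOmega r c) {i i' : Fin m} {j j' : Fin n}
    (hv : Valid M.1 i i' j j') :
    (bstepO M (emb2 i i' hv.ne_row, emb2 j j' hv.ne_col)).1 = sw i i' j j' M.1 := by
  show bstep M.1 _ = _
  unfold bstep
  exact if_pos (Or.inl hv)

open Classical in
theorem bip_sum_le (M : BOmega r c) (f : BOmega r c → ℝ) (F : Mat (Fin m) (Fin n) → ℝ)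
    (hF : ∀ M : BOmega r c, F M.1 = f M) :
    ∑ i, ∑ i', ∑ j, ∑ j', (if Valid M.1 i i' j j' then
        (F (sw i i' j j' M.1) - F M.1) ^ 2 else 0) ≤
      ∑ t, (f (bstepO M t) - f M) ^ 2 := by
  have e1 : ∑ i, ∑ i', ∑ j, ∑ j', (if Valid M.1 i i' j j' then
        (F (sw i i' j j' M.1) - F M.1) ^ 2 else 0)
      = ∑ q : Fin m × Fin m × Fin n × Fin n,
        (if Valid M.1 q.1 q.2.1 q.2.2.1 q.2.2.2 then
        (F (sw q.1 q.2.1 q.2.2.1 q.2.2.2 M.1) - F M.1) ^ 2 else 0) := by
    simp only [Fintype.sum_prod_type]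
  rw [e1, ← Finset.sum_filter, ← Finset.sum_attach]
  set V := univ.filter (fun q : Fin m × Fin m × Fin n × Fin n =>
    Valid M.1 q.1 q.2.1 q.2.2.1 q.2.2.2) with hV
  have hv : ∀ q : {q // q ∈ V}, Valid M.1 q.1.1 q.1.2.1 q.1.2.2.1 q.1.2.2.2 :=
    fun q => (Finset.mem_filter.1 q.2).2
  let e : {q // q ∈ V} → BProp m n := fun q =>
    (emb2 q.1.1 q.1.2.1 (hv q).ne_row, emb2 q.1.2.2.1 q.1.2.2.2 (hv q).ne_col)
  have einj : Function.Injective e := by
    intro q q' h
    obtain ⟨a1, a2⟩ := emb2_inj (h := (hv q).ne_row) (h' := (hv q').ne_row) (congrArg Prod.fst h)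
    obtain ⟨a3, a4⟩ := emb2_inj (h := (hv q).ne_col) (h' := (hv q').ne_col) (congrArg Prod.snd h)
    apply Subtype.ext
    exact Prod.ext a1 (Prod.ext a2 (Prod.ext a3 a4))
  have e2 : ∀ q ∈ V.attach, (F (sw q.1.1 q.1.2.1 q.1.2.2.1 q.1.2.2.2 M.1)
      - F M.1) ^ 2 = (f (bstepO M (e q)) - f M) ^ 2 := by
    intro q _
    rw [← bip_step_valid M (hv q), hF, hF]
  rw [Finset.sum_congr rfl e2, ← Finset.sum_image (f := fun t => (f (bstepO M t) - f M) ^ 2)
    (einj.injOn)]
  exact Finset.sum_le_sum_of_subset_of_nonneg (Finset.subset_univ _)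
    (fun t _ _ => sq_nonneg _)

theorem bip_poincare (f : BOmega r c → ℝ) :
    ∑ M, ∑ M', (f M - f M') ^ 2 ≤
      (Fintype.card (BOmega r c) : ℝ) * ∑ M, ∑ t, (f (bstepO M t) - f M) ^ 2 := by
  classical
  by_cases hne : Nonempty (BOmega r c)
  swap
  · have : IsEmpty (BOmega r c) := not_nonempty_iff.1 hne
    simp
  obtain ⟨M0⟩ := hne
  set F : Mat (Fin m) (Fin n) → ℝ := fun M =>
    if h : (∀ i, rs M i = r i) ∧ (∀ j, cs M j = c j) then f ⟨M, h⟩ else 0 with hFdef
  have hF : ∀ M : BOmega r c, F M.1 = f M := by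
    intro M
    rw [hFdef]
    simp only
    rw [dif_pos M.2]
    rfl
  have key := poincare_switch M0.1 F
  have hsum : ∀ g : Mat (Fin m) (Fin n) → ℝ,
      ∑ M ∈ cls (Rel univ) M0.1, g M = ∑ M : BOmega r c, g M.1 :=
    fun g => Finset.sum_subtype _ (bip_mem_cls M0) g
  have hcard : ((cls (Rel univ) M0.1).card : ℝ) = (Fintype.card (BOmega r c) : ℝ) := by
    have := hsum (fun _ => 1)
    simpa using this
  rw [hsum, hsum, hcard] at key
  have e1 : ∀ M : BOmega r c, ∑ M' ∈ cls (Rel univ) M0.1, (F M.1 - F M') ^ 2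
      = ∑ M', (f M - f M') ^ 2 := by
    intro M
    rw [hsum]
    exact Finset.sum_congr rfl (fun M' _ => by rw [hF, hF])
  rw [Finset.sum_congr rfl (fun M _ => e1 M)] at key
  refine key.trans (mul_le_mul_of_nonneg_left ?_ (Nat.cast_nonneg _))
  refine Finset.sum_le_sum (fun M _ => ?_)
  convert bip_sum_le M f F hF using 1

theorem bip_Poincare (hm : 2 ≤ m) (hn : 2 ≤ n) :
    Poincare (bchain r c) (1 / (2 * (Fintype.card (BProp m n) : ℝ))) := by
  intro f hf
  have hN : (0 : ℝ) < (Fintype.card (BProp m n) : ℝ) := by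
    exact_mod_cast bip_card_prop_pos hm hn
  by_cases hne : Nonempty (BOmega r c)
  swap
  · have : IsEmpty (BOmega r c) := not_nonempty_iff.1 hne
    simp [dirichlet]
  have hO : (0 : ℝ) < (Fintype.card (BOmega r c) : ℝ) := by
    exact_mod_cast Fintype.card_pos_iff.2 hne
  unfold dirichlet
  rw [bchain_dirichlet hm hn f]
  have h1 := bip_poincare f
  rw [asm_double_sum f hf] at h1
  have h2 : 2 * ∑ x, f x ^ 2 ≤ ∑ M, ∑ t, (f (bstepO M t) - f M) ^ 2 := by
    have : (Fintype.card (BOmega r c) : ℝ) * (2 * ∑ x, f x ^ 2) ≤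
        (Fintype.card (BOmega r c) : ℝ) * ∑ M, ∑ t, (f (bstepO M t) - f M) ^ 2 := by
      calc (Fintype.card (BOmega r c) : ℝ) * (2 * ∑ x, f x ^ 2)
          = 2 * (Fintype.card (BOmega r c) : ℝ) * ∑ x, f x ^ 2 := by ring
        _ ≤ _ := h1
    exact le_of_mul_le_mul_left this hO
  calc 1 / (2 * (Fintype.card (BProp m n) : ℝ)) * ∑ x, f x ^ 2
      = 1 / (4 * (Fintype.card (BProp m n) : ℝ)) * (2 * ∑ x, f x ^ 2) := by
        field_simp
        ring
    _ ≤ _ := by
        apply mul_le_mul_of_nonneg_left h2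
        positivity

theorem bip_card_le (r : Fin m → ℕ) (c : Fin n → ℕ) :
    Fintype.card (BOmega r c) ≤ 2 ^ (m * n) := by
  classical
  have h1 : Fintype.card (BOmega r c) ≤ Fintype.card (Mat (Fin m) (Fin n)) :=
    Fintype.card_le_of_injective (fun M : BOmega r c => M.1) Subtype.val_injective
  have h2 : Fintype.card (Mat (Fin m) (Fin n)) = 2 ^ (m * n) := by
    simp [Fintype.card_pi, ← pow_mul, mul_comm]
  omega

theorem bip_card_prop_real (hm : 2 ≤ m) (hn : 2 ≤ n) :
    (Fintype.card (BProp m n) : ℝ) = ((m : ℝ) * ((m : ℝ) - 1)) * ((n : ℝ) * ((n : ℝ) - 1)) := by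
  rw [bip_card_prop]
  push_cast [Nat.cast_sub (by omega : 1 ≤ m), Nat.cast_sub (by omega : 1 ≤ n)]
  ring

theorem bip_log_le (hm : 2 ≤ m) (hn : 2 ≤ n) (M0 : BOmega r c) :
    Real.log (4 * (Fintype.card (BOmega r c) : ℝ)) ≤ ((m : ℝ) * n + 2) * 0.6931471808 := by
  have hO : (0 : ℝ) < (Fintype.card (BOmega r c) : ℝ) := by
    exact_mod_cast Fintype.card_pos_iff.2 ⟨M0⟩
  have h1 : (Fintype.card (BOmega r c) : ℝ) ≤ 2 ^ (m * n) := by exact_mod_cast bip_card_le r c
  have h2 : 4 * (Fintype.card (BOmega r c) : ℝ) ≤ 2 ^ (m * n + 2) := by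
    rw [pow_add]
    nlinarith
  have h3 : Real.log (4 * (Fintype.card (BOmega r c) : ℝ)) ≤ Real.log (2 ^ (m * n + 2)) :=
    Real.log_le_log (by positivity) h2
  rw [Real.log_pow] at h3
  have h4 : Real.log 2 < 0.6931471808 := Real.log_two_lt_d9
  push_cast at h3
  have h5 : (0 : ℝ) ≤ (m : ℝ) * n + 2 := by positivity
  nlinarith

theorem bip_main (hm : 2 ≤ m) (hn : 2 ≤ n) (r : Fin m → ℕ) (c : Fin n → ℕ) :
    (∀ f : BOmega r c → ℝ, ∑ M, f M = 0 →
      1 / (2 * (m : ℝ) ^ 2 * (n : ℝ) ^ 2) * ∑ M, f M ^ 2 ≤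
        (1 / 2) * ∑ M, ∑ M', bchain r c M M' * (f M - f M') ^ 2) ∧
    (∀ M : BOmega r c, btv r c (2 * m ^ 3 * n ^ 3) M ≤ 1 / 4) ∧
    btmix r c ≤ 2 * m ^ 3 * n ^ 3 := by
  have hN : (0 : ℝ) < (Fintype.card (BProp m n) : ℝ) := by
    exact_mod_cast bip_card_prop_pos hm hn
  have hK := bip_card_prop_real hm hn
  have hm' : (2 : ℝ) ≤ m := by exact_mod_cast hm
  have hn' : (2 : ℝ) ≤ n := by exact_mod_cast hn
  have hKle : (Fintype.card (BProp m n) : ℝ) ≤ (m : ℝ) ^ 2 * (n : ℝ) ^ 2 := by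
    rw [hK]
    have a1 : (m : ℝ) * ((m : ℝ) - 1) ≤ (m : ℝ) ^ 2 := by nlinarith
    have a2 : (n : ℝ) * ((n : ℝ) - 1) ≤ (n : ℝ) ^ 2 := by nlinarith
    have a3 : (0 : ℝ) ≤ (n : ℝ) * ((n : ℝ) - 1) := by nlinarith
    have a4 : (0 : ℝ) ≤ (m : ℝ) ^ 2 := by positivity
    calc (m : ℝ) * ((m : ℝ) - 1) * ((n : ℝ) * ((n : ℝ) - 1))
        ≤ (m : ℝ) ^ 2 * ((n : ℝ) * ((n : ℝ) - 1)) := mul_le_mul_of_nonneg_right a1 a3
      _ ≤ (m : ℝ) ^ 2 * (n : ℝ) ^ 2 := mul_le_mul_of_nonneg_left a2 a4
  have main : ∀ M : BOmega r c, btv r c (2 * m ^ 3 * n ^ 3) M ≤ 1 / 4 := by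
    intro M
    have : Nonempty (BOmega r c) := ⟨M⟩
    have hN1 : (1 : ℝ) ≤ (Fintype.card (BProp m n) : ℝ) := by
      exact_mod_cast bip_card_prop_pos hm hn
    unfold btv
    refine tv_le_quarter_of_log (bip_lazySymm hm hn) ?_ (bip_Poincare hm hn)
      (2 * m ^ 3 * n ^ 3) ?_ M
    · rw [div_le_one (by positivity)]
      linarith
    · refine (bip_log_le hm hn M).trans ?_
      push_cast
      rw [div_mul_eq_mul_div, le_div_iff₀ (by positivity), hK]
      set x : ℝ := (m : ℝ) with hx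
      set y : ℝ := (n : ℝ) with hy
      have b1 : (x - 1) * (y - 1) ≤ x * y - 3 := by nlinarith
      have b2 : 0 ≤ (x - 1) * (y - 1) := by nlinarith
      have b3 : 4 ≤ x * y := by nlinarith
      have b4 : (x * y + 2) * ((x - 1) * (y - 1)) ≤ (x * y) ^ 2 := by nlinarith
      have b5 : 0 ≤ x * y := by positivity
      have b6 : 0 ≤ (x * y + 2) * ((x - 1) * (y - 1)) := by positivity
      calc (x * y + 2) * 0.6931471808 * (2 * (x * (x - 1) * (y * (y - 1))))
          = 2 * 0.6931471808 * (x * y) * ((x * y + 2) * ((x - 1) * (y - 1))) := by ring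
        _ ≤ 2 * 1 * (x * y) * ((x * y) ^ 2) := by
            apply mul_le_mul _ b4 b6 (by positivity)
            nlinarith
        _ = 1 * (2 * x ^ 3 * y ^ 3) := by ring
  refine ⟨fun f hf => ?_, main, Nat.sInf_le main⟩
  have h := bip_Poincare (r := r) (c := c) hm hn f hf
  unfold dirichlet at h
  refine le_trans ?_ h
  apply mul_le_mul_of_nonneg_right _ (Finset.sum_nonneg (fun M _ => sq_nonneg _))
  apply one_div_le_one_div_of_le (by positivity)
  nlinarith

end Vale.Agent.P335
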