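import Vale.Agent.P335.Mat

/-!
# Dirichlet formula for averaging operators and commutation of disjoint blocks
-/

set_option linter.unusedSectionVars false

namespace Vale.Agent.P335

open Finset

theorem sum_avg {Ω : Type*} [Fintype Ω] {R : Ω → Ω → Prop} (hR : Equivalence R) (g : Ω → ℝ) :
    ∑ x, avg R g x = ∑ x, g x := by
  have h1 : avg R (fun _ : Ω => (1 : ℝ)) = fun _ => 1 := avg_of_inv hR (fun _ _ _ => rfl)
  have h := avg_symm hR g (fun _ => 1)
  rw [h1] at h
  simpa [ip] using h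

theorem ip_sub_avg {Ω : Type*} [Fintype Ω] {R : Ω → Ω → Prop} (hR : Equivalence R) (f : Ω → ℝ) :
    ip f (f - avg R f) = ∑ x, (∑ y ∈ cls R x, (f x - f y) ^ 2) / (2 * ((cls R x).card : ℝ)) := by
  have key := sum_avg hR (fun y => f y ^ 2)
  have e : ∀ x, (∑ y ∈ cls R x, (f x - f y) ^ 2) / (2 * ((cls R x).card : ℝ))
      = f x ^ 2 / 2 - f x * avg R f x + avg R (fun y => f y ^ 2) x / 2 := by
    intro x
    have hc := card_cls_pos hR x
    have e1 : ∑ y ∈ cls R x, (f x - f y) ^ 2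
        = ((cls R x).card : ℝ) * f x ^ 2 - 2 * f x * (∑ y ∈ cls R x, f y)
          + ∑ y ∈ cls R x, f y ^ 2 := by
      have : ∀ y, (f x - f y) ^ 2 = f x ^ 2 - 2 * f x * f y + f y ^ 2 := fun y => by ring
      simp_rw [this]
      rw [Finset.sum_add_distrib, Finset.sum_sub_distrib, Finset.sum_const, nsmul_eq_mul,
        Finset.mul_sum]
    rw [e1]
    unfold avg
    field_simp
  simp_rw [e]
  rw [Finset.sum_add_distrib, Finset.sum_sub_distrib, ← Finset.sum_div, ← Finset.sum_div, key]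
  unfold ip
  have : ∀ x, f x * (f - avg R f) x = f x ^ 2 - f x * avg R f x := by
    intro x
    simp only [Pi.sub_apply]
    ring
  simp_rw [this]
  rw [Finset.sum_sub_distrib]
  ring

variable {ι κ : Type*} [Fintype ι] [DecidableEq ι] [Fintype κ] [DecidableEq κ]

/-- take the cells of `Z` from `y` and the other cells from `x` -/
def comb (Z : Finset (ι × κ)) (y x : Mat ι κ) : Mat ι κ :=
  fun r c => if (r, c) ∈ Z then y r c else x r c

theorem comb_cell {Z Z' : Finset (ι × κ)} (h : Disjoint Z Z') {x x' y : Mat ι κ}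
    (hy : Rel Z x y) (hx : Rel Z' x x') (r : ι) (c : κ) :
    (comb Z y x' r c).toNat + (x r c).toNat = (y r c).toNat + (x' r c).toNat := by
  unfold comb
  by_cases hz : (r, c) ∈ Z
  · have hz' : (r, c) ∉ Z' := Finset.disjoint_left.1 h hz
    rw [if_pos hz, hx.1 r c hz']
  · rw [if_neg hz, hy.1 r c hz, add_comm]

theorem rs_comb {Z Z' : Finset (ι × κ)} (h : Disjoint Z Z') {x x' y : Mat ι κ}
    (hy : Rel Z x y) (hx : Rel Z' x x') (r : ι) : rs (comb Z y x') r = rs x' r := by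
  have e : rs (comb Z y x') r + rs x r = rs y r + rs x' r := by
    unfold rs
    rw [← Finset.sum_add_distrib, ← Finset.sum_add_distrib]
    exact Finset.sum_congr rfl (fun c _ => comb_cell h hy hx r c)
  have := hy.2.1 r
  omega

theorem cs_comb {Z Z' : Finset (ι × κ)} (h : Disjoint Z Z') {x x' y : Mat ι κ}
    (hy : Rel Z x y) (hx : Rel Z' x x') (c : κ) : cs (comb Z y x') c = cs x' c := by
  have e : cs (comb Z y x') c + cs x c = cs y c + cs x' c := by
    unfold cs
    rw [← Finset.sum_add_distrib, ← Finset.sum_add_distrib]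
    exact Finset.sum_congr rfl (fun r _ => comb_cell h hy hx r c)
  have := hy.2.2 c
  omega

theorem Rel_comb {Z Z' : Finset (ι × κ)} (h : Disjoint Z Z') {x x' y : Mat ι κ}
    (hy : Rel Z x y) (hx : Rel Z' x x') : Rel Z x' (comb Z y x') := by
  refine ⟨fun r c hz => ?_, fun r => (rs_comb h hy hx r).symm, fun c => (cs_comb h hy hx c).symm⟩
  simp [comb, hz]

theorem Rel_comb' {Z Z' : Finset (ι × κ)} (h : Disjoint Z Z') {x x' y : Mat ι κ}
    (hy : Rel Z x y) (hx : Rel Z' x x') : Rel Z' y (comb Z y x') := by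
  refine ⟨fun r c hz' => ?_, fun r => ?_, fun c => ?_⟩
  · unfold comb
    by_cases hz : (r, c) ∈ Z
    · rw [if_pos hz]
    · rw [if_neg hz, ← hx.1 r c hz', hy.1 r c hz]
  · rw [rs_comb h hy hx r, ← hx.2.1 r, hy.2.1 r]
  · rw [cs_comb h hy hx c, ← hx.2.2 c, hy.2.2 c]

theorem comb_comb {Z : Finset (ι × κ)} {x x' y : Mat ι κ} (hy : Rel Z x y) :
    comb Z (comb Z y x') x = y := by
  funext r c
  unfold comb
  by_cases hz : (r, c) ∈ Z
  · simp [hz]
  · simp [hz, hy.1 r c hz]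

theorem sum_cls_eq {Z Z' : Finset (ι × κ)} (h : Disjoint Z Z') {x x' : Mat ι κ}
    (hx : Rel Z' x x') {g : Mat ι κ → ℝ} (hg : Inv (Rel Z') g) :
    ∑ y ∈ cls (Rel Z) x, g y = ∑ y ∈ cls (Rel Z) x', g y := by
  have hx' : Rel Z' x' x := (Rel_equiv Z').symm hx
  refine Finset.sum_nbij' (fun y => comb Z y x') (fun y => comb Z y x) ?_ ?_ ?_ ?_ ?_
  · intro y hy
    exact mem_cls.2 (Rel_comb h (mem_cls.1 hy) hx)
  · intro y hy
    exact mem_cls.2 (Rel_comb h (mem_cls.1 hy) hx')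
  · intro y hy
    exact comb_comb (mem_cls.1 hy)
  · intro y hy
    exact comb_comb (mem_cls.1 hy)
  · intro y hy
    exact hg _ _ (Rel_comb' h (mem_cls.1 hy) hx)

theorem avg_preserves_inv {Z Z' : Finset (ι × κ)} (h : Disjoint Z Z') {g : Mat ι κ → ℝ}
    (hg : Inv (Rel Z') g) : Inv (Rel Z') (avg (Rel Z) g) := by
  intro x x' hx
  unfold avg
  have h1 := sum_cls_eq h hx hg
  have h2 := sum_cls_eq (g := fun _ => (1 : ℝ)) h hx (fun _ _ _ => rfl)
  simp only [Finset.sum_const, nsmul_eq_mul, mul_one] at h2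
  rw [h1, h2]

theorem eq_of_ip_eq {Ω : Type*} [Fintype Ω] {u v : Ω → ℝ} (h : ∀ g, ip u g = ip v g) : u = v := by
  classical
  funext x
  have := h (fun y => if y = x then 1 else 0)
  simpa [ip] using this

theorem avg_comm_of_disjoint {Z Z' : Finset (ι × κ)} (h : Disjoint Z Z') (f : Mat ι κ → ℝ) :
    avg (Rel Z) (avg (Rel Z') f) = avg (Rel Z') (avg (Rel Z) f) := by
  have hZ := Rel_equiv (ι := ι) (κ := κ) Z
  have hZ' := Rel_equiv (ι := ι) (κ := κ) Z'
  have key : ∀ g : Mat ι κ → ℝ,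
      avg (Rel Z') (avg (Rel Z) (avg (Rel Z') g)) = avg (Rel Z) (avg (Rel Z') g) :=
    fun g => avg_of_inv hZ' (avg_preserves_inv h (avg_inv hZ' g))
  apply eq_of_ip_eq
  intro g
  rw [← key f, avg_symm hZ', avg_symm hZ, avg_symm hZ', key g, ← avg_symm hZ, ← avg_symm hZ']

end Vale.Agent.P335
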