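import Vale.Agent.P335.Defs

/-!
# Module G1: basic properties of the switch chain on graphs
-/

set_option linter.unusedSectionVars false

namespace Vale.Agent.P335

open Finset

theorem chain_adj {n : ℕ} (G : SimpleGraph (Fin n)) (a b c d x y : Fin n) :
    (switchGraph G a b c d).Adj x y ↔
      (G.Adj x y ∧ s(x, y) ≠ s(a, b) ∧ s(x, y) ≠ s(c, d)) ∨
        ((s(x, y) = s(a, c) ∨ s(x, y) = s(b, d)) ∧ x ≠ y) := by
  simp [switchGraph, SimpleGraph.deleteEdges_adj, SimpleGraph.fromEdgeSet_adj, not_or]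

/-- the four vertices are distinct, `ab`, `cd` are edges and `ac`, `bd` are not -/
structure ChainValid {n : ℕ} (G : SimpleGraph (Fin n)) (a b c d : Fin n) : Prop where
  ab : a ≠ b
  ac : a ≠ c
  ad : a ≠ d
  bc : b ≠ c
  bd : b ≠ d
  cd : c ≠ d
  e1 : G.Adj a b
  e2 : G.Adj c d
  n1 : ¬ G.Adj a c
  n2 : ¬ G.Adj b d

theorem chain_adj_a {n : ℕ} {G : SimpleGraph (Fin n)} {a b c d : Fin n}
    (h : ChainValid G a b c d) (w : Fin n) :
    (switchGraph G a b c d).Adj a w ↔ (G.Adj a w ∧ w ≠ b) ∨ w = c := by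
  obtain ⟨ab, ac, ad, bc, bd, cd, e1, e2, n1, n2⟩ := h
  rw [chain_adj]
  simp only [Sym2.eq_iff, ne_eq]
  constructor
  · rintro (⟨h1, h2, h3⟩ | ⟨h1, h2⟩)
    · left
      refine ⟨h1, fun hw => h2 (Or.inl ⟨trivial, hw⟩)⟩
    · rcases h1 with (⟨_, h1⟩ | ⟨h1, _⟩) | (⟨h1, _⟩ | ⟨h1, _⟩)
      · exact Or.inr h1
      · exact absurd h1 ac
      · exact absurd h1 ab
      · exact absurd h1 ad
  · rintro (⟨h1, h2⟩ | rfl)
    · left
      refine ⟨h1, ?_, ?_⟩
      · rintro (⟨_, h3⟩ | ⟨h3, _⟩)
        · exact h2 h3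
        · exact ab h3
      · rintro (⟨h3, _⟩ | ⟨h3, _⟩)
        · exact ac h3
        · exact ad h3
    · right
      exact ⟨Or.inl (Or.inl ⟨trivial, rfl⟩), ac⟩

theorem chain_adj_other {n : ℕ} (G : SimpleGraph (Fin n)) {a b c d v : Fin n}
    (ha : v ≠ a) (hb : v ≠ b) (hc : v ≠ c) (hd : v ≠ d) (w : Fin n) :
    (switchGraph G a b c d).Adj v w ↔ G.Adj v w := by
  rw [chain_adj]
  simp only [Sym2.eq_iff, ne_eq]
  constructor
  · rintro (⟨h1, _⟩ | ⟨h1, _⟩)
    · exact h1
    · rcases h1 with (⟨h1, _⟩ | ⟨h1, _⟩) | (⟨h1, _⟩ | ⟨h1, _⟩)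
      · exact absurd h1 ha
      · exact absurd h1 hc
      · exact absurd h1 hb
      · exact absurd h1 hd
  · intro h1
    left
    refine ⟨h1, ?_, ?_⟩
    · rintro (⟨h3, _⟩ | ⟨h3, _⟩)
      · exact ha h3
      · exact hb h3
    · rintro (⟨h3, _⟩ | ⟨h3, _⟩)
      · exact hc h3
      · exact hd h3

theorem chain_switch_symm1 {n : ℕ} (G : SimpleGraph (Fin n)) (a b c d : Fin n) :
    switchGraph G a b c d = switchGraph G b a d c := by
  unfold switchGraph
  rw [Sym2.eq_swap (a := a) (b := b), Sym2.eq_swap (a := c) (b := d),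
    Set.pair_comm s(a, c) s(b, d)]

theorem chain_switch_symm2 {n : ℕ} (G : SimpleGraph (Fin n)) (a b c d : Fin n) :
    switchGraph G a b c d = switchGraph G c d a b := by
  unfold switchGraph
  rw [Sym2.eq_swap (a := a) (b := c), Sym2.eq_swap (a := b) (b := d),
    Set.pair_comm s(a, b) s(c, d)]

theorem ChainValid.symm1 {n : ℕ} {G : SimpleGraph (Fin n)} {a b c d : Fin n}
    (h : ChainValid G a b c d) : ChainValid G b a d c :=
  ⟨h.ab.symm, h.bd, h.bc, h.ad, h.ac, h.cd.symm, h.e1.symm, h.e2.symm, h.n2, h.n1⟩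

theorem ChainValid.symm2 {n : ℕ} {G : SimpleGraph (Fin n)} {a b c d : Fin n}
    (h : ChainValid G a b c d) : ChainValid G c d a b :=
  ⟨h.cd, h.ac.symm, h.bc.symm, h.ad.symm, h.bd.symm, h.ab, h.e2, h.e1,
    fun h' => h.n1 h'.symm, fun h' => h.n2 h'.symm⟩

open Classical in
theorem chain_degree_a {n : ℕ} {G : SimpleGraph (Fin n)} {a b c d : Fin n}
    (h : ChainValid G a b c d) : (switchGraph G a b c d).degree a = G.degree a := by
  have e : (switchGraph G a b c d).neighborFinset a = insert c ((G.neighborFinset a).erase b) := by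
    ext w
    simp only [SimpleGraph.mem_neighborFinset, mem_insert, mem_erase]
    rw [chain_adj_a h]
    tauto
  unfold SimpleGraph.degree
  rw [e, Finset.card_insert_of_notMem, Finset.card_erase_of_mem]
  · have : 0 < (G.neighborFinset a).card :=
      Finset.card_pos.2 ⟨b, by simpa using h.e1⟩
    omega
  · simpa using h.e1
  · simp only [mem_erase, SimpleGraph.mem_neighborFinset, not_and]
    exact fun _ => h.n1

open Classical in
theorem chain_degree {n : ℕ} {G : SimpleGraph (Fin n)} {a b c d : Fin n}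
    (h : ChainValid G a b c d) (v : Fin n) :
    (switchGraph G a b c d).degree v = G.degree v := by
  by_cases ha : v = a
  · subst ha; exact chain_degree_a h
  by_cases hb : v = b
  · subst hb
    rw [chain_switch_symm1]
    exact chain_degree_a h.symm1
  by_cases hc : v = c
  · subst hc
    rw [chain_switch_symm2]
    exact chain_degree_a h.symm2
  by_cases hd : v = d
  · subst hd
    rw [chain_switch_symm2, chain_switch_symm1]
    exact chain_degree_a h.symm2.symm1
  unfold SimpleGraph.degree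
  congr 1
  ext w
  simp only [SimpleGraph.mem_neighborFinset]
  exact chain_adj_other G ha hb hc hd w

theorem chain_valid_of_emb {n : ℕ} {G : SimpleGraph (Fin n)} (t : Fin 4 ↪ Fin n)
    (h : G.Adj (t 0) (t 1) ∧ G.Adj (t 2) (t 3) ∧ ¬ G.Adj (t 0) (t 2) ∧ ¬ G.Adj (t 1) (t 3)) :
    ChainValid G (t 0) (t 1) (t 2) (t 3) := by
  have hne : ∀ i j : Fin 4, i ≠ j → t i ≠ t j := fun i j hij h' => hij (t.injective h')
  exact ⟨hne _ _ (by decide), hne _ _ (by decide), hne _ _ (by decide), hne _ _ (by decide),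
    hne _ _ (by decide), hne _ _ (by decide), h.1, h.2.1, h.2.2.1, h.2.2.2⟩

open Classical in
theorem step_degree {n : ℕ} {d : Fin n → ℕ} (G : Omega d) (t : Fin 4 ↪ Fin n) :
    ∀ v, (step G.1 t).degree v = d v := by
  intro v
  by_cases h : G.1.Adj (t 0) (t 1) ∧ G.1.Adj (t 2) (t 3) ∧ ¬ G.1.Adj (t 0) (t 2) ∧
      ¬ G.1.Adj (t 1) (t 3)
  · have e : step G.1 t = switchGraph G.1 (t 0) (t 1) (t 2) (t 3) := if_pos h
    rw [e, chain_degree (chain_valid_of_emb t h) v]
    exact G.2 v
  · have e : step G.1 t = G.1 := if_neg h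
    rw [e]
    exact G.2 v

/-- one step of the chain, inside `Omega d` -/
noncomputable def stepO {n : ℕ} {d : Fin n → ℕ} (G : Omega d) (t : Fin 4 ↪ Fin n) : Omega d :=
  ⟨step G.1 t, step_degree G t⟩

theorem chain_step_pos {n : ℕ} {G : SimpleGraph (Fin n)} {t : Fin 4 ↪ Fin n}
    (h : G.Adj (t 0) (t 1) ∧ G.Adj (t 2) (t 3) ∧ ¬ G.Adj (t 0) (t 2) ∧ ¬ G.Adj (t 1) (t 3)) :
    step G t = switchGraph G (t 0) (t 1) (t 2) (t 3) := if_pos h

theorem chain_step_neg {n : ℕ} {G : SimpleGraph (Fin n)} {t : Fin 4 ↪ Fin n}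
    (h : ¬ (G.Adj (t 0) (t 1) ∧ G.Adj (t 2) (t 3) ∧ ¬ G.Adj (t 0) (t 2) ∧ ¬ G.Adj (t 1) (t 3))) :
    step G t = G := if_neg h

/-- after the switch the reverse switch is valid -/
theorem ChainValid.switch {n : ℕ} {G : SimpleGraph (Fin n)} {a b c d : Fin n}
    (h : ChainValid G a b c d) : ChainValid (switchGraph G a b c d) a c b d := by
  refine ⟨h.ac, h.ab, h.ad, h.bc.symm, h.cd, h.bd, ?_, ?_, ?_, ?_⟩
  · rw [chain_adj_a h]; exact Or.inr rfl
  · rw [chain_switch_symm1, chain_adj_a h.symm1]; exact Or.inr rfl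
  · rw [chain_adj_a h]
    rintro (⟨_, h1⟩ | h1)
    · exact h1 rfl
    · exact h.bc h1
  · rw [chain_switch_symm2, chain_adj_a h.symm2]
    rintro (⟨_, h1⟩ | h1)
    · exact h1 rfl
    · exact h.ad h1.symm

/-- the reverse switch undoes the switch -/
theorem chain_switch_switch {n : ℕ} {G : SimpleGraph (Fin n)} {a b c d : Fin n}
    (h : ChainValid G a b c d) : switchGraph (switchGraph G a b c d) a c b d = G := by
  have key : ∀ {G : SimpleGraph (Fin n)} {a b c d : Fin n}, ChainValid G a b c d → ∀ w,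
      ((switchGraph (switchGraph G a b c d) a c b d).Adj a w ↔ G.Adj a w) := by
    intro G a b c d h w
    rw [chain_adj_a h.switch, chain_adj_a h]
    constructor
    · rintro (⟨⟨h1, _⟩ | h1, h2⟩ | rfl)
      · exact h1
      · exact absurd h1 h2
      · exact h.e1
    · intro h1
      by_cases hw : w = b
      · exact Or.inr hw
      · refine Or.inl ⟨Or.inl ⟨h1, hw⟩, ?_⟩
        rintro rfl
        exact h.n1 h1
  ext v w
  by_cases ha : v = a
  · subst ha; exact key h w
  by_cases hb : v = b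
  · subst hb
    have := key h.symm1 w
    rwa [← chain_switch_symm1 G a v c d, chain_switch_symm2 _ v d a c] at this
  by_cases hc : v = c
  · subst hc
    have := key h.symm2 w
    rwa [← chain_switch_symm2 G a b v d, chain_switch_symm1 _ v a d b] at this
  by_cases hd : v = d
  · subst hd
    have := key h.symm2.symm1 w
    rwa [← chain_switch_symm1 G c v a b, ← chain_switch_symm2 G a b c v,
      chain_switch_symm1 _ v b c a, chain_switch_symm2 _ b v a c] at this
  rw [chain_adj_other _ ha hc hb hd, chain_adj_other _ ha hb hc hd]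

/-- the tuple `(a, c, b, d)` obtained from `(a, b, c, d)` -/
def chainRev {n : ℕ} (t : Fin 4 ↪ Fin n) : Fin 4 ↪ Fin n :=
  (Equiv.swap (1 : Fin 4) 2).toEmbedding.trans t

theorem chainRev_0 {n : ℕ} (t : Fin 4 ↪ Fin n) : chainRev t 0 = t 0 := by
  simp [chainRev, Equiv.swap_apply_def]
theorem chainRev_1 {n : ℕ} (t : Fin 4 ↪ Fin n) : chainRev t 1 = t 2 := by
  simp [chainRev]
theorem chainRev_2 {n : ℕ} (t : Fin 4 ↪ Fin n) : chainRev t 2 = t 1 := by
  simp [chainRev]
theorem chainRev_3 {n : ℕ} (t : Fin 4 ↪ Fin n) : chainRev t 3 = t 3 := by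
  simp [chainRev, Equiv.swap_apply_def]

theorem chainRev_chainRev {n : ℕ} (t : Fin 4 ↪ Fin n) : chainRev (chainRev t) = t := by
  ext i
  simp [chainRev]

theorem chain_step_rev {n : ℕ} {G G' : SimpleGraph (Fin n)} (hne : G ≠ G') {t : Fin 4 ↪ Fin n}
    (h : step G t = G') : step G' (chainRev t) = G := by
  by_cases hc : G.Adj (t 0) (t 1) ∧ G.Adj (t 2) (t 3) ∧ ¬ G.Adj (t 0) (t 2) ∧ ¬ G.Adj (t 1) (t 3)
  · rw [chain_step_pos hc] at h
    have hv := chain_valid_of_emb t hc
    have hv' := hv.switch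
    rw [h] at hv'
    have hc' : G'.Adj (chainRev t 0) (chainRev t 1) ∧ G'.Adj (chainRev t 2) (chainRev t 3) ∧
        ¬ G'.Adj (chainRev t 0) (chainRev t 2) ∧ ¬ G'.Adj (chainRev t 1) (chainRev t 3) := by
      rw [chainRev_0, chainRev_1, chainRev_2, chainRev_3]
      exact ⟨hv'.e1, hv'.e2, hv'.n1, hv'.n2⟩
    rw [chain_step_pos hc', chainRev_0, chainRev_1, chainRev_2, chainRev_3, ← h]
    exact chain_switch_switch hv
  · rw [chain_step_neg hc] at h
    exact absurd h hne

open Classical in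
theorem chain_card_symm {n : ℕ} (G G' : SimpleGraph (Fin n)) :
    (univ.filter (fun t : Fin 4 ↪ Fin n => step G t = G')).card =
      (univ.filter (fun t : Fin 4 ↪ Fin n => step G' t = G)).card := by
  by_cases hne : G = G'
  · subst hne; rfl
  refine Finset.card_nbij' chainRev chainRev ?_ ?_ ?_ ?_
  · intro t ht
    simp only [coe_filter, mem_univ, true_and, Set.mem_ofPred_eq] at ht ⊢
    exact chain_step_rev hne ht
  · intro t ht
    simp only [coe_filter, mem_univ, true_and, Set.mem_ofPred_eq] at ht ⊢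
    exact chain_step_rev (Ne.symm hne) ht
  · intro t _; exact chainRev_chainRev t
  · intro t _; exact chainRev_chainRev t

theorem switchChain_symm {n : ℕ} (d : Fin n → ℕ) (G G' : Omega d) :
    switchChain d G G' = switchChain d G' G := by
  classical
  unfold switchChain
  rw [chain_card_symm G.1 G'.1]
  by_cases h : G = G'
  · subst h; rfl
  · rw [if_neg h, if_neg (Ne.symm h)]

theorem switchChain_nonneg {n : ℕ} (d : Fin n → ℕ) (G G' : Omega d) :
    0 ≤ switchChain d G G' := by
  unfold switchChain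
  have h1 : (0 : ℝ) ≤ (if G = G' then 1 else 0) := by split_ifs <;> norm_num
  positivity

theorem switchChain_lazy {n : ℕ} (d : Fin n → ℕ) (G : Omega d) :
    1 / 2 ≤ switchChain d G G := by
  unfold switchChain
  rw [if_pos rfl, mul_one]
  exact le_add_of_nonneg_right (by positivity)

theorem chain_card_emb_pos {n : ℕ} (hn : 4 ≤ n) : 0 < Fintype.card (Fin 4 ↪ Fin n) := by
  rw [Fintype.card_embedding_eq]
  simp only [Fintype.card_fin]
  exact Nat.descFactorial_pos.2 hn

open Classical in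
theorem chain_filter_eq {n : ℕ} {d : Fin n → ℕ} (G G' : Omega d) :
    univ.filter (fun t : Fin 4 ↪ Fin n => step G.1 t = G'.1) =
      univ.filter (fun t : Fin 4 ↪ Fin n => stepO G t = G') := by
  ext t
  simp only [mem_filter, mem_univ, true_and]
  exact (Subtype.ext_iff (a1 := stepO G t) (a2 := G')).symm

open Classical in
/-- push a sum over proposals forward to a sum over targets -/
theorem chain_sum_fiber {n : ℕ} {d : Fin n → ℕ} (G : Omega d) (g : Omega d → ℝ) :
    ∑ G' : Omega d, ((univ.filter (fun t : Fin 4 ↪ Fin n => step G.1 t = G'.1)).card : ℝ) * g G' =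
      ∑ t : Fin 4 ↪ Fin n, g (stepO G t) := by
  rw [← Finset.sum_fiberwise (s := univ) (g := fun t => stepO G t) (f := fun t => g (stepO G t))]
  refine Finset.sum_congr rfl (fun G' _ => ?_)
  have e : (univ.filter (fun t : Fin 4 ↪ Fin n => step G.1 t = G'.1)) =
      univ.filter (fun t : Fin 4 ↪ Fin n => stepO G t = G') := by
    convert chain_filter_eq G G'
  rw [e, Finset.sum_congr rfl (g := fun _ => g G')
    (fun t ht => by rw [(mem_filter.1 ht).2]), Finset.sum_const, nsmul_eq_mul]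

theorem switchChain_row_sum {n : ℕ} (hn : 4 ≤ n) (d : Fin n → ℕ) (G : Omega d) :
    ∑ G', switchChain d G G' = 1 := by
  classical
  have hN : (0 : ℝ) < (Fintype.card (Fin 4 ↪ Fin n) : ℝ) := by exact_mod_cast chain_card_emb_pos hn
  unfold switchChain
  rw [Finset.sum_add_distrib, ← Finset.mul_sum, ← Finset.mul_sum, ← Finset.sum_div]
  have h1 := chain_sum_fiber G (fun _ => 1)
  simp only [mul_one, Finset.sum_const, card_univ, nsmul_eq_mul] at h1
  rw [h1]
  simp only [Finset.sum_ite_eq, mem_univ, if_true]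
  field_simp
  norm_num

theorem switchChain_dirichlet {n : ℕ} (hn : 4 ≤ n) (d : Fin n → ℕ) (f : Omega d → ℝ) :
    (1 / 2) * ∑ G, ∑ G', switchChain d G G' * (f G - f G') ^ 2 =
      (1 / (4 * (Fintype.card (Fin 4 ↪ Fin n) : ℝ))) * ∑ G, ∑ t, (f (stepO G t) - f G) ^ 2 := by
  classical
  have hN : (0 : ℝ) < (Fintype.card (Fin 4 ↪ Fin n) : ℝ) := by exact_mod_cast chain_card_emb_pos hn
  rw [Finset.mul_sum, Finset.mul_sum]
  refine Finset.sum_congr rfl (fun G _ => ?_)
  rw [← chain_sum_fiber G (fun G' => (f G' - f G) ^ 2), Finset.mul_sum, Finset.mul_sum]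
  refine Finset.sum_congr rfl (fun G' _ => ?_)
  unfold switchChain
  by_cases h : G = G'
  · subst h; simp
  · rw [if_neg h]
    field_simp
    ring

theorem card_Omega_le {n : ℕ} (d : Fin n → ℕ) : Fintype.card (Omega d) ≤ 2 ^ (n ^ 2) := by
  classical
  have hinj : Function.Injective
      (fun (G : Omega d) => fun (p : Fin n × Fin n) => decide (G.1.Adj p.1 p.2)) := by
    intro G G' h
    apply Subtype.ext
    ext x y
    have := congrFun h (x, y)
    simpa using this
  have := Fintype.card_le_of_injective _ hinj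
  simpa [Fintype.card_pi, sq] using this

end Vale.Agent.P335
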