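import Vale.Agent.P335.Mat

/-!
# Switch connectivity of 0-1 matrices with fixed margins
-/

set_option linter.unusedSectionVars false

namespace Vale.Agent.P335

open Finset

variable {ι κ : Type*} [Fintype ι] [DecidableEq ι] [Fintype κ] [DecidableEq κ]

/-- number of columns where the rows `r` of `M` and `N` differ -/
def rowDist (r : ι) (M N : Mat ι κ) : ℕ := (univ.filter (fun k => M r k ≠ N r k)).card

theorem rowDist_comm (r : ι) (M N : Mat ι κ) : rowDist r M N = rowDist r N M := by
  unfold rowDist
  congr 1
  ext k
  simp [ne_comm]

theorem rowDist_lt {r : ι} {M M1 N : Mat ι κ} {c c' : κ}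
    (h : ∀ k, k ≠ c → k ≠ c' → M1 r k = M r k) (h1 : M1 r c = N r c) (h2 : M1 r c' = N r c')
    (h3 : M r c ≠ N r c) : rowDist r M1 N < rowDist r M N := by
  unfold rowDist
  apply Finset.card_lt_card
  rw [Finset.ssubset_iff_of_subset]
  · exact ⟨c, by simp [h3], by simp [h1]⟩
  · intro k hk
    simp only [mem_filter, mem_univ, true_and] at hk ⊢
    by_cases hc : k = c
    · subst hc; exact absurd h1 hk
    · by_cases hc' : k = c'
      · subst hc'; exact absurd h2 hk
      · rwa [h k hc hc'] at hk

theorem exists_col {r : ι} {M N : Mat ι κ} (hrs : rs M r = rs N r) {c : κ}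
    (h1 : M r c = true) (h2 : N r c = false) : ∃ c', M r c' = false ∧ N r c' = true := by
  by_contra hcon
  push Not at hcon
  have : rs N r < rs M r := by
    unfold rs
    apply Finset.sum_lt_sum
    · intro k _
      cases hM : M r k
      · have := hcon k hM
        simp at this
        simp [this]
      · cases N r k <;> simp
    · exact ⟨c, mem_univ c, by simp [h1, h2]⟩
  omega

theorem exists_switch {A : Finset ι} {r : ι} {M N : Mat ι κ}
    (hoff : ∀ s, s ≠ r → s ∉ A → ∀ k, M s k = N s k)
    (hcs : ∀ k, cs M k = cs N k) {c c' : κ}
    (h1 : M r c = true) (h2 : N r c = false) (h3 : M r c' = false) (h4 : N r c' = true) :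
    (∃ s ∈ A, s ≠ r ∧ M s c = false ∧ M s c' = true) ∨
      (∃ s ∈ A, s ≠ r ∧ N s c' = false ∧ N s c = true) := by
  by_contra hcon
  push Not at hcon
  obtain ⟨hM, hN⟩ := hcon
  have hlt : ∑ s, ((N s c).toNat + (M s c').toNat) < ∑ s, ((M s c).toNat + (N s c').toNat) := by
    apply Finset.sum_lt_sum
    · intro s _
      by_cases hsr : s = r
      · subst hsr; simp [h1, h2, h3, h4]
      · by_cases hsA : s ∈ A
        · have a1 := hM s hsA hsr
          have a2 := hN s hsA hsr
          cases e1 : M s c <;> cases e2 : M s c' <;> cases e3 : N s c <;> cases e4 : N s c' <;>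
            simp_all
        · rw [hoff s hsr hsA c, hoff s hsr hsA c']
    · exact ⟨r, mem_univ r, by simp [h1, h2, h3, h4]⟩
  rw [Finset.sum_add_distrib, Finset.sum_add_distrib] at hlt
  have e1 := hcs c
  have e2 := hcs c'
  unfold cs at e1 e2
  omega

theorem switch_connected (A : Finset ι) (f : Mat ι κ → ℝ)
    (hf : ∀ M r s c c', r ∈ A → s ∈ A → Valid M r s c c' → f (sw r s c c' M) = f M) :
    Inv (Rel (A ×ˢ (univ : Finset κ))) f := by
  induction A using Finset.induction_on with
  | empty =>
    intro M N h
    have : M = N := by
      funext r c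
      exact h.1 r c (by simp)
    rw [this]
  | insert r A hr ih =>
    have ih' := ih (fun M a s c c' ha hs hv =>
      hf M a s c c' (Finset.mem_insert_of_mem ha) (Finset.mem_insert_of_mem hs) hv)
    have hsub : ∀ (s : ι) (c c' : κ), s ∈ A →
        ({r, s} : Finset ι) ×ˢ ({c, c'} : Finset κ) ⊆ (insert r A) ×ˢ (univ : Finset κ) := by
      intro s c c' hs x hx
      simp only [mem_product, mem_insert, mem_singleton, mem_univ, and_true] at hx ⊢
      rcases hx.1 with h | h
      · exact Or.inl h
      · exact Or.inr (h ▸ hs)
    have claim : ∀ d : ℕ, ∀ M N : Mat ι κ, Rel ((insert r A) ×ˢ (univ : Finset κ)) M N →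
        rowDist r M N = d → f M = f N := by
      intro d
      induction d using Nat.strong_induction_on with
      | _ d ihd =>
        have main : ∀ M N : Mat ι κ, Rel ((insert r A) ×ˢ (univ : Finset κ)) M N →
            rowDist r M N = d → ∀ c, M r c = true → N r c = false → f M = f N := by
          intro M N hMN hd c h1 h2
          obtain ⟨c', h3, h4⟩ := exists_col (hMN.2.1 r) h1 h2
          have hoff : ∀ s, s ≠ r → s ∉ A → ∀ k, M s k = N s k := by
            intro s hsr hsA k
            exact hMN.1 s k (by simp [hsr, hsA])
          rcases exists_switch hoff hMN.2.2 h1 h2 h3 h4 with ⟨s, hsA, hsr, a1, a2⟩ |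
            ⟨s, hsA, hsr, a1, a2⟩
          · have hv : Valid M r s c c' := ⟨h1, h3, a1, a2⟩
            have e1 : f (sw r s c c' M) = f M :=
              hf M r s c c' (Finset.mem_insert_self _ _) (Finset.mem_insert_of_mem hsA) hv
            have hrel : Rel ((insert r A) ×ˢ (univ : Finset κ)) (sw r s c c' M) N :=
              (Rel_equiv _).trans ((Rel_equiv _).symm (Rel_sw hv (hsub s c c' hsA))) hMN
            have hlt : rowDist r (sw r s c c' M) N < rowDist r M N := by
              apply rowDist_lt (c := c) (c' := c')
              · intro k hk hk'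
                exact sw_apply_of_col hk hk' r
              · simp [sw, h1, h2]
              · simp [sw, h3, h4]
              · simp [h1, h2]
            rw [← e1]
            exact ihd _ (hd ▸ hlt) _ _ hrel rfl
          · have hv : Valid N r s c' c := ⟨h4, h2, a1, a2⟩
            have e1 : f (sw r s c' c N) = f N :=
              hf N r s c' c (Finset.mem_insert_self _ _) (Finset.mem_insert_of_mem hsA) hv
            have hrel : Rel ((insert r A) ×ˢ (univ : Finset κ)) M (sw r s c' c N) :=
              (Rel_equiv _).trans hMN (Rel_sw hv (hsub s c' c hsA))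
            have hlt : rowDist r M (sw r s c' c N) < rowDist r M N := by
              rw [rowDist_comm r M, rowDist_comm r M]
              apply rowDist_lt (c := c) (c' := c')
              · intro k hk hk'
                exact sw_apply_of_col hk' hk r
              · simp [sw, h1, h2]
              · simp [sw, h3, h4]
              · simp [h1, h2]
            rw [← e1]
            exact ihd _ (hd ▸ hlt) _ _ hrel rfl
        intro M N hMN hd
        by_cases hall : ∀ k, M r k = N r k
        · apply ih' M N
          refine ⟨fun s k hsk => ?_, hMN.2.1, hMN.2.2⟩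
          by_cases hsr : s = r
          · subst hsr; exact hall k
          · apply hMN.1 s k
            simp only [mem_product, mem_insert, mem_univ, and_true] at hsk ⊢
            tauto
        · push Not at hall
          obtain ⟨c, hc⟩ := hall
          cases e1 : M r c <;> cases e2 : N r c
          · rw [e1, e2] at hc; exact absurd rfl hc
          · exact (main N M ((Rel_equiv _).symm hMN) (by rw [rowDist_comm]; exact hd) c e2 e1).symm
          · exact main M N hMN hd c e1 e2
          · rw [e1, e2] at hc; exact absurd rfl hc
    intro M N h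
    exact claim _ M N h rfl

end Vale.Agent.P335
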