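import Vale.Agent.P335.Abstract
import Vale.Agent.P335.Blocks
import Vale.Agent.P335.Connect

/-!
# P335, module D: two rows (Johnson fibres)
-/

set_option linter.unusedSectionVars false

namespace Vale.Agent.P335

open Finset

variable {ι κ : Type*} [Fintype ι] [DecidableEq ι] [Fintype κ] [DecidableEq κ]

/-- sums over a finset `T` agree if the total sums agree and the summands agree off `T` -/
theorem john_sum_on {α : Type*} [Fintype α] [DecidableEq α] (g g0 : α → ℕ) (T : Finset α)
    (h : ∀ k, k ∉ T → g k = g0 k) (hs : ∑ k, g k = ∑ k, g0 k) :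
    ∑ k ∈ T, g k = ∑ k ∈ T, g0 k := by
  have e1 := Finset.sum_add_sum_compl T g
  have e2 := Finset.sum_add_sum_compl T g0
  have e3 : ∑ k ∈ Tᶜ, g k = ∑ k ∈ Tᶜ, g0 k :=
    Finset.sum_congr rfl fun k hk => h k (Finset.mem_compl.1 hk)
  omega

/-- row sums restricted to the columns of a block -/
theorem john_row {A : Finset ι} {B : Finset κ} {M N : Mat ι κ} (h : Rel (A ×ˢ B) M N) (r : ι) :
    ∑ k ∈ B, (M r k).toNat = ∑ k ∈ B, (N r k).toNat := by
  refine john_sum_on _ _ B (fun k hk => ?_) (h.2.1 r)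
  rw [h.1 r k (by simp [hk])]

/-- column sums restricted to the rows of a block -/
theorem john_col {A : Finset ι} {B : Finset κ} {M N : Mat ι κ} (h : Rel (A ×ˢ B) M N) (k : κ) :
    ∑ i ∈ A, (M i k).toNat = ∑ i ∈ A, (N i k).toNat := by
  refine john_sum_on _ _ A (fun i hi => ?_) (h.2.2 k)
  rw [h.1 i k (by simp [hi])]

theorem cls_two_by_two {r s : ι} {c c' : κ} (hrs : r ≠ s) (hcc : c ≠ c') {M N : Mat ι κ}
    (h : Rel (({r, s} : Finset ι) ×ˢ ({c, c'} : Finset κ)) M N) :
    N = M ∨ ((Valid M r s c c' ∨ Valid M s r c c') ∧ N = sw r s c c' M) := by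
  have h1 := john_row h r
  have h2 := john_row h s
  have h3 := john_col h c
  have h4 := john_col h c'
  rw [Finset.sum_pair hcc, Finset.sum_pair hcc] at h1 h2
  rw [Finset.sum_pair hrs, Finset.sum_pair hrs] at h3 h4
  have hoff : ∀ i k, ¬ ((i = r ∨ i = s) ∧ (k = c ∨ k = c')) → N i k = M i k := by
    intro i k hik
    refine (h.1 i k ?_).symm
    simpa using hik
  by_cases ha : M r c = N r c
  · left
    have hb : M r c' = N r c' := by
      rw [ha] at h1
      cases hx : M r c' <;> cases hy : N r c' <;> simp_all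
    have he : M s c = N s c := by
      rw [ha] at h3
      cases hx : M s c <;> cases hy : N s c <;> simp_all
    have hg : M s c' = N s c' := by
      rw [he] at h2
      cases hx : M s c' <;> cases hy : N s c' <;> simp_all
    funext i k
    by_cases hik : (i = r ∨ i = s) ∧ (k = c ∨ k = c')
    · obtain ⟨hi | hi, hk | hk⟩ := hik <;> subst hi <;> subst hk
      · exact ha.symm
      · exact hb.symm
      · exact he.symm
      · exact hg.symm
    · exact hoff i k hik
  · right
    have hall : (Valid M r s c c' ∨ Valid M s r c c') ∧ N r c = !(M r c) ∧ N r c' = !(M r c')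
        ∧ N s c = !(M s c) ∧ N s c' = !(M s c') := by
      unfold Valid
      cases x1 : M r c <;> cases x2 : M r c' <;> cases x3 : M s c <;> cases x4 : M s c' <;>
      cases y1 : N r c <;> cases y2 : N r c' <;> cases y3 : N s c <;> cases y4 : N s c' <;>
      simp_all
    refine ⟨hall.1, ?_⟩
    funext i k
    by_cases hik : (i = r ∨ i = s) ∧ (k = c ∨ k = c')
    · have hsw : sw r s c c' M i k = !(M i k) := by simp [sw, hik]
      rw [hsw]
      obtain ⟨hi | hi, hk | hk⟩ := hik <;> subst hi <;> subst hk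
      · exact hall.2.1
      · exact hall.2.2.1
      · exact hall.2.2.2.1
      · exact hall.2.2.2.2
    · have hsw : sw r s c c' M i k = M i k := by simp [sw, hik]
      rw [hsw]
      exact hoff i k hik

/-- the class of a 2x2 block is contained in a pair -/
theorem john_cls_subset {r s : ι} {c c' : κ} (hrs : r ≠ s) (hcc : c ≠ c') (M : Mat ι κ) :
    cls (Rel (({r, s} : Finset ι) ×ˢ ({c, c'} : Finset κ))) M ⊆ {M, sw r s c c' M} := by
  intro N hN
  rcases cls_two_by_two hrs hcc (mem_cls.1 hN) with h | h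
  · simp [h]
  · simp [h.2]

theorem john_sw_ne (r s : ι) (c c' : κ) (M : Mat ι κ) : sw r s c c' M ≠ M := by
  intro h
  have := congrFun (congrFun h r) c
  simp [sw] at this

open Classical in
theorem two_by_two_dirichlet {r s : ι} {c c' : κ} (hrs : r ≠ s) (hcc : c ≠ c')
    (f : Mat ι κ → ℝ) :
    ip f (f - avg (Rel (({r, s} : Finset ι) ×ˢ ({c, c'} : Finset κ))) f) ≤
      (1 / 4) * ∑ M, (if Valid M r s c c' ∨ Valid M s r c c' then
        (f (sw r s c c' M) - f M) ^ 2 else 0) := by
  rw [ip_sub_avg (Rel_equiv _), Finset.mul_sum]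
  refine Finset.sum_le_sum fun M _ => ?_
  set R := Rel (ι := ι) (κ := κ) (({r, s} : Finset ι) ×ˢ ({c, c'} : Finset κ)) with hR
  have hne := john_sw_ne r s c c' M
  by_cases hV : Valid M r s c c' ∨ Valid M s r c c'
  · rw [if_pos hV]
    have hmem : sw r s c c' M ∈ cls R M := by
      rw [mem_cls]
      rcases hV with h | h
      · exact Rel_sw h (Finset.Subset.refl _)
      · rw [sw_comm_rows]
        refine Rel_sw h ?_
        rw [Finset.pair_comm]
    have hcls : cls R M = {M, sw r s c c' M} := by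
      refine Finset.Subset.antisymm (john_cls_subset hrs hcc M) ?_
      intro N hN
      rcases Finset.mem_insert.1 hN with h | h
      · rw [h]; exact self_mem_cls (Rel_equiv _) M
      · rw [Finset.mem_singleton.1 h]; exact hmem
    rw [hcls, Finset.sum_pair hne.symm, Finset.card_pair hne.symm]
    have : (f M - f M) ^ 2 + (f M - f (sw r s c c' M)) ^ 2 = (f (sw r s c c' M) - f M) ^ 2 := by
      ring
    rw [this]
    push_cast
    apply le_of_eq
    ring
  · rw [if_neg hV]
    have hcls : cls R M = {M} := by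
      ext N
      rw [mem_cls, Finset.mem_singleton]
      constructor
      · intro h
        rcases cls_two_by_two hrs hcc h with h' | h'
        · exact h'
        · exact absurd h'.1 hV
      · intro h
        rw [h]
        exact (Rel_equiv _).refl M
    rw [hcls]
    simp

/-- a matrix in the class of a 2x3 block lies in the class of one of the 2x2 sub-blocks -/
theorem john_exists_block {r s : ι} (hrs : r ≠ s) {T : Finset κ} (hT : T.card = 3)
    {M N : Mat ι κ} (h : Rel (({r, s} : Finset ι) ×ˢ T) M N) :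
    ∃ B ∈ powersetCard 2 T, Rel (({r, s} : Finset ι) ×ˢ B) M N := by
  have h1 := john_row h r
  have hex : ∃ k ∈ T, M r k = N r k := by
    by_contra hcon
    push Not at hcon
    have h2 : ∑ k ∈ T, ((M r k).toNat + (N r k).toNat) = ∑ _k ∈ T, 1 := by
      refine Finset.sum_congr rfl fun k hk => ?_
      have := hcon k hk
      cases hx : M r k <;> cases hy : N r k <;> simp_all
    rw [Finset.sum_add_distrib, Finset.sum_const, hT] at h2
    simp at h2
    omega
  obtain ⟨k, hkT, hk⟩ := hex
  have h3 := john_col h k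
  rw [Finset.sum_pair hrs, Finset.sum_pair hrs, hk] at h3
  have hk' : M s k = N s k := by
    cases hx : M s k <;> cases hy : N s k <;> simp_all
  refine ⟨T.erase k, ?_, ?_, h.2.1, h.2.2⟩
  · rw [Finset.mem_powersetCard]
    refine ⟨Finset.erase_subset _ _, ?_⟩
    rw [Finset.card_erase_of_mem hkT, hT]
  · intro i j hij
    by_cases hjk : j = k
    · subst hjk
      by_cases hi : i = r
      · subst hi; exact hk
      · by_cases hi' : i = s
        · subst hi'; exact hk'
        · exact h.1 i j (by simp [hi, hi'])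
    · refine h.1 i j ?_
      intro hmem
      apply hij
      rw [Finset.mem_product] at hmem ⊢
      exact ⟨hmem.1, Finset.mem_erase.2 ⟨hjk, hmem.2⟩⟩

/-- the local inequality for 2x3 blocks -/
theorem john_local {r s : ι} (hrs : r ≠ s) {T : Finset κ} (hT : T.card = 3)
    (f : Mat ι κ → ℝ) :
    ip f (f - avg (Rel (({r, s} : Finset ι) ×ˢ T)) f) ≤
      ∑ B ∈ powersetCard 2 T, ip f (f - avg (Rel (({r, s} : Finset ι) ×ˢ B)) f) := by
  classical
  rw [ip_sub_avg (Rel_equiv _)]
  have hrw : ∀ B : Finset κ, ip f (f - avg (Rel (({r, s} : Finset ι) ×ˢ B)) f)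
      = ∑ x, (∑ y ∈ cls (Rel (({r, s} : Finset ι) ×ˢ B)) x, (f x - f y) ^ 2)
        / (2 * ((cls (Rel (({r, s} : Finset ι) ×ˢ B)) x).card : ℝ)) :=
    fun B => ip_sub_avg (Rel_equiv _) f
  simp only [hrw]
  rw [Finset.sum_comm]
  refine Finset.sum_le_sum fun M _ => ?_
  set a : Mat ι κ → ℝ := fun N => (f M - f N) ^ 2 with ha
  have ha0 : ∀ N, 0 ≤ a N := fun N => sq_nonneg _
  set CT := cls (Rel (ι := ι) (κ := κ) (({r, s} : Finset ι) ×ˢ T)) M with hCT
  -- step 3
  have hstep3 : (∑ N ∈ CT, a N) / (2 * (CT.card : ℝ)) ≤ (∑ N ∈ CT, a N) / 4 := by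
    have hpos : 0 < CT.card := Finset.card_pos.2 ⟨M, self_mem_cls (Rel_equiv _) M⟩
    have hsum0 : 0 ≤ ∑ N ∈ CT, a N := Finset.sum_nonneg fun N _ => ha0 N
    by_cases h2 : 2 ≤ CT.card
    · have h2' : (2 : ℝ) ≤ (CT.card : ℝ) := by exact_mod_cast h2
      exact div_le_div_of_nonneg_left hsum0 (by norm_num) (by linarith)
    · have h1 : CT.card = 1 := by omega
      obtain ⟨x, hx⟩ := Finset.card_eq_one.1 h1
      have hMx : M = x := by
        have : M ∈ CT := self_mem_cls (Rel_equiv _) M
        rw [hx] at this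
        exact Finset.mem_singleton.1 this
      rw [hx, ← hMx]
      simp [ha]
  -- step 2
  have hstep2 : ∑ N ∈ CT, a N
      ≤ ∑ B ∈ powersetCard 2 T, ∑ N ∈ cls (Rel (({r, s} : Finset ι) ×ˢ B)) M, a N := by
    calc ∑ N ∈ CT, a N
        ≤ ∑ N ∈ CT, ∑ B ∈ powersetCard 2 T,
            (if N ∈ cls (Rel (({r, s} : Finset ι) ×ˢ B)) M then a N else 0) := by
          refine Finset.sum_le_sum fun N hN => ?_
          obtain ⟨B, hB, hBN⟩ := john_exists_block hrs hT (mem_cls.1 hN)
          have hle := Finset.single_le_sum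
            (f := fun B => if N ∈ cls (Rel (({r, s} : Finset ι) ×ˢ B)) M then a N else 0)
            (fun B _ => by
              show 0 ≤ (if N ∈ cls (Rel (({r, s} : Finset ι) ×ˢ B)) M then a N else 0)
              split_ifs
              · exact ha0 N
              · exact le_refl _) hB
          simp only [mem_cls.2 hBN, if_true] at hle
          exact hle
      _ = ∑ B ∈ powersetCard 2 T, ∑ N ∈ CT,
            (if N ∈ cls (Rel (({r, s} : Finset ι) ×ˢ B)) M then a N else 0) := Finset.sum_comm
      _ ≤ ∑ B ∈ powersetCard 2 T, ∑ N ∈ cls (Rel (({r, s} : Finset ι) ×ˢ B)) M, a N := by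
          refine Finset.sum_le_sum fun B _ => ?_
          rw [← Finset.sum_filter]
          refine Finset.sum_le_sum_of_subset_of_nonneg ?_ fun N _ _ => ha0 N
          intro N hN
          exact (Finset.mem_filter.1 hN).2
  -- step 1
  have hstep1 : ∀ B ∈ powersetCard 2 T,
      (∑ N ∈ cls (Rel (({r, s} : Finset ι) ×ˢ B)) M, a N) / 4
      ≤ (∑ N ∈ cls (Rel (({r, s} : Finset ι) ×ˢ B)) M, a N)
        / (2 * ((cls (Rel (({r, s} : Finset ι) ×ˢ B)) M).card : ℝ)) := by
    intro B hB
    obtain ⟨c, c', hcc, rfl⟩ := Finset.card_eq_two.1 (Finset.mem_powersetCard.1 hB).2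
    have hsum0 : 0 ≤ ∑ N ∈ cls (Rel (({r, s} : Finset ι) ×ˢ ({c, c'} : Finset κ))) M, a N :=
      Finset.sum_nonneg fun N _ => ha0 N
    have hpos := card_cls_pos (Rel_equiv (({r, s} : Finset ι) ×ˢ ({c, c'} : Finset κ))) M
    have hle : (cls (Rel (({r, s} : Finset ι) ×ˢ ({c, c'} : Finset κ))) M).card ≤ 2 :=
      (Finset.card_le_card (john_cls_subset hrs hcc M)).trans Finset.card_le_two
    have hle' : ((cls (Rel (({r, s} : Finset ι) ×ˢ ({c, c'} : Finset κ))) M).card : ℝ) ≤ 2 := by
      exact_mod_cast hle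
    exact div_le_div_of_nonneg_left hsum0 (by linarith) (by linarith)
  calc (∑ N ∈ CT, a N) / (2 * (CT.card : ℝ)) ≤ (∑ N ∈ CT, a N) / 4 := hstep3
    _ ≤ (∑ B ∈ powersetCard 2 T, ∑ N ∈ cls (Rel (({r, s} : Finset ι) ×ˢ B)) M, a N) / 4 :=
        div_le_div_of_nonneg_right hstep2 (by norm_num)
    _ = ∑ B ∈ powersetCard 2 T, (∑ N ∈ cls (Rel (({r, s} : Finset ι) ×ˢ B)) M, a N) / 4 :=
        Finset.sum_div _ _ _
    _ ≤ _ := Finset.sum_le_sum hstep1

theorem pair_poincare (p : Finset ι) (hp : p ∈ powersetCard 2 (univ : Finset ι))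
    (f : Mat ι κ → ℝ) :
    ip f (f - avg (Rel (p ×ˢ (univ : Finset κ))) f) ≤
      ∑ B ∈ powersetCard 2 (univ : Finset κ), ip f (f - avg (Rel (p ×ˢ B)) f) := by
  obtain ⟨r, s, hrs, rfl⟩ := Finset.card_eq_two.1 (Finset.mem_powersetCard.1 hp).2
  have key := knabe (Ω := Mat ι κ) (J := κ)
    (fun B => avgL (Rel (({r, s} : Finset ι) ×ˢ B)))
    (fun B f g => avg_symm (Rel_equiv _) f g)
    (fun B f => avg_idem (Rel_equiv _) f)
    (fun B B' hBB f => avg_avg_of_le (Rel_equiv _) (Rel_equiv _)
      (fun x y h => Rel_mono (Finset.product_subset_product_right hBB) h) f)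
    (fun B B' hBB f => avg_comm_of_disjoint (Finset.disjoint_product.2 (Or.inr hBB)) f)
    (fun T hT f => john_local hrs (Finset.mem_powersetCard.1 hT).2 f)
    (by
      intro g hg
      refine avg_of_inv (Rel_equiv _) (switch_connected _ g ?_)
      intro M a b c c' ha hb hV
      have hB : ({c, c'} : Finset κ) ∈ powersetCard 2 (univ : Finset κ) := by
        rw [Finset.mem_powersetCard]
        exact ⟨Finset.subset_univ _, Finset.card_pair hV.ne_col⟩
      have h1 := hg _ hB
      have h2 : Inv (Rel (({r, s} : Finset ι) ×ˢ ({c, c'} : Finset κ))) g := by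
        have := avg_inv (Rel_equiv (({r, s} : Finset ι) ×ˢ ({c, c'} : Finset κ))) g
        rw [avgL_apply] at h1
        rwa [h1] at this
      refine (h2 M _ (Rel_sw hV ?_)).symm
      refine Finset.product_subset_product_left ?_
      intro x hx
      rcases Finset.mem_insert.1 hx with h | h
      · rw [h]; exact ha
      · rw [Finset.mem_singleton.1 h]; exact hb)
    f
  exact key

end Vale.Agent.P335
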