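import Vale.Agent.P335.ThreeRow
import Vale.Agent.P335.Johnson

/-!
# The Poincare inequality for switches on 0-1 matrices with fixed margins
-/

set_option linter.unusedSectionVars false
set_option linter.unusedSimpArgs false

namespace Vale.Agent.P335

open Finset

variable {ι κ : Type*} [Fintype ι] [DecidableEq ι] [Fintype κ] [DecidableEq κ]

theorem core_sum_P2_le {α : Type*} [Fintype α] [DecidableEq α] (F : Finset α → ℝ)
    (hF : ∀ p, 0 ≤ F p) :
    ∑ p ∈ powersetCard 2 (univ : Finset α), F p ≤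
      ∑ r, ∑ s, (if r ≠ s then F {r, s} else 0) := by
  classical
  rcases isEmpty_or_nonempty α with he | hne
  · have h0 : powersetCard 2 (univ : Finset α) = ∅ := by
      rw [Finset.univ_eq_empty]
      exact Finset.powersetCard_eq_empty.2 (by simp)
    rw [h0]
    simp
  have hex : ∀ p ∈ powersetCard 2 (univ : Finset α), ∃ x : α × α, x.1 ≠ x.2 ∧ p = {x.1, x.2} := by
    intro p hp
    obtain ⟨r, s, hrs, rfl⟩ := Finset.card_eq_two.1 (Finset.mem_powersetCard.1 hp).2
    exact ⟨(r, s), hrs, rfl⟩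
  choose! o ho using hex
  set F' : α × α → ℝ := fun x => if x.1 ≠ x.2 then F {x.1, x.2} else 0 with hF'
  have h1 : ∑ p ∈ powersetCard 2 (univ : Finset α), F p
      = ∑ p ∈ powersetCard 2 (univ : Finset α), F' (o p) := by
    refine Finset.sum_congr rfl (fun p hp => ?_)
    rw [hF']
    simp only
    rw [if_pos (ho p hp).1, ← (ho p hp).2]
  have h2 : ∑ p ∈ powersetCard 2 (univ : Finset α), F' (o p)
      = ∑ x ∈ (powersetCard 2 (univ : Finset α)).image o, F' x := by
    rw [Finset.sum_image]
    intro p hp q hq hpq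
    rw [(ho p hp).2, (ho q hq).2, hpq]
  have h3 : ∑ x ∈ (powersetCard 2 (univ : Finset α)).image o, F' x ≤ ∑ x, F' x := by
    refine Finset.sum_le_sum_of_subset_of_nonneg (Finset.subset_univ _) (fun x _ _ => ?_)
    rw [hF']; simp only
    split_ifs
    · exact hF _
    · exact le_refl _
  rw [h1, h2]
  refine h3.trans (le_of_eq ?_)
  rw [Fintype.sum_prod_type]

/-- Knabe over the rows -/
theorem rows_poincare (f : Mat ι κ → ℝ) :
    ip f (f - avg (Rel ((univ : Finset ι) ×ˢ (univ : Finset κ))) f) ≤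
      ∑ p ∈ powersetCard 2 (univ : Finset ι), ip f (f - avg (Rel (p ×ˢ (univ : Finset κ))) f) := by
  have key := knabe (Ω := Mat ι κ) (J := ι)
    (fun A => avgL (Rel (A ×ˢ (univ : Finset κ))))
    (fun A f g => avg_symm (Rel_equiv _) f g)
    (fun A f => avg_idem (Rel_equiv _) f)
    (fun A A' hAA f => avg_avg_of_le (Rel_equiv _) (Rel_equiv _)
      (fun x y h => Rel_mono (Finset.product_subset_product_left hAA) h) f)
    (fun A A' hAA f => avg_comm_of_disjoint (Finset.disjoint_product.2 (Or.inl hAA)) f)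
    (fun T hT f => three_row T hT f)
    (by
      intro g hg
      refine avg_of_inv (Rel_equiv _) (switch_connected _ g ?_)
      intro M a b c c' _ _ hV
      have hB : ({a, b} : Finset ι) ∈ powersetCard 2 (univ : Finset ι) := by
        rw [Finset.mem_powersetCard]
        exact ⟨Finset.subset_univ _, Finset.card_pair hV.ne_row⟩
      have h1 := hg _ hB
      have h2 : Inv (Rel (({a, b} : Finset ι) ×ˢ (univ : Finset κ))) g := by
        have := avg_inv (Rel_equiv (({a, b} : Finset ι) ×ˢ (univ : Finset κ))) g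
        rw [avgL_apply] at h1
        rwa [h1] at this
      exact (h2 M _ (R2_sw hV)).symm)
    f
  exact key

open Classical in
/-- operator form of the switch Poincare inequality on the full space of matrices -/
theorem core_operator (g : Mat ι κ → ℝ) :
    ip g (g - avg (Rel (univ : Finset (ι × κ))) g) ≤
      (1 / 2) * ∑ r, ∑ s, ∑ c, ∑ c', ∑ M,
        (if Valid M r s c c' then (g (sw r s c c' M) - g M) ^ 2 else 0) := by
  set Ψ : ι → ι → κ → κ → ℝ := fun r s c c' =>
    ∑ M, (if Valid M r s c c' then (g (sw r s c c' M) - g M) ^ 2 else 0) with hΨ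
  have hΨ0 : ∀ r s c c', 0 ≤ Ψ r s c c' := by
    intro r s c c'
    refine Finset.sum_nonneg (fun M _ => ?_)
    split_ifs
    · positivity
    · exact le_refl _
  have hnn : ∀ (Z : Finset (ι × κ)), 0 ≤ ip g (g - avg (Rel Z) g) := by
    intro Z
    rw [ip_sub_avg_self (Rel_equiv Z)]
    exact ip_self_nonneg _
  have h1 := rows_poincare g
  rw [Finset.univ_product_univ] at h1
  have h2 : ∑ p ∈ powersetCard 2 (univ : Finset ι), ip g (g - avg (Rel (p ×ˢ (univ : Finset κ))) g)
      ≤ ∑ p ∈ powersetCard 2 (univ : Finset ι), ∑ B ∈ powersetCard 2 (univ : Finset κ),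
        ip g (g - avg (Rel (p ×ˢ B)) g) :=
    Finset.sum_le_sum (fun p hp => pair_poincare p hp g)
  have h3 : ∑ p ∈ powersetCard 2 (univ : Finset ι), ∑ B ∈ powersetCard 2 (univ : Finset κ),
        ip g (g - avg (Rel (p ×ˢ B)) g)
      ≤ ∑ r, ∑ s, (if r ≠ s then ∑ B ∈ powersetCard 2 (univ : Finset κ),
        ip g (g - avg (Rel (({r, s} : Finset ι) ×ˢ B)) g) else 0) :=
    core_sum_P2_le (fun p => ∑ B ∈ powersetCard 2 (univ : Finset κ),
        ip g (g - avg (Rel (p ×ˢ B)) g)) (fun p => Finset.sum_nonneg (fun B _ => hnn _))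
  have h4 : ∀ r s : ι, (if r ≠ s then ∑ B ∈ powersetCard 2 (univ : Finset κ),
        ip g (g - avg (Rel (({r, s} : Finset ι) ×ˢ B)) g) else 0)
      ≤ ∑ c, ∑ c', (1 / 4) * (Ψ r s c c' + Ψ s r c c') := by
    intro r s
    by_cases hrs : r ≠ s
    · rw [if_pos hrs]
      refine (core_sum_P2_le (fun B => ip g (g - avg (Rel (({r, s} : Finset ι) ×ˢ B)) g))
        (fun B => hnn _)).trans ?_
      refine Finset.sum_le_sum (fun c _ => Finset.sum_le_sum (fun c' _ => ?_))
      by_cases hcc : c ≠ c'
      · rw [if_pos hcc]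
        refine (two_by_two_dirichlet hrs hcc g).trans ?_
        refine mul_le_mul_of_nonneg_left ?_ (by norm_num)
        rw [hΨ]
        simp only
        rw [← Finset.sum_add_distrib]
        refine Finset.sum_le_sum (fun M _ => ?_)
        rw [sw_comm_rows s r c c' M]
        by_cases hA : Valid M r s c c' <;> by_cases hB : Valid M s r c c' <;>
          simp [hA, hB]
        positivity
      · rw [if_neg hcc]
        have := hΨ0 r s c c'
        have := hΨ0 s r c c'
        positivity
    · rw [if_neg hrs]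
      refine Finset.sum_nonneg (fun c _ => Finset.sum_nonneg (fun c' _ => ?_))
      have := hΨ0 r s c c'
      have := hΨ0 s r c c'
      positivity
  have h5 : ∑ r, ∑ s, ∑ c, ∑ c', (1 / 4) * (Ψ r s c c' + Ψ s r c c')
      = (1 / 2) * ∑ r, ∑ s, ∑ c, ∑ c', Ψ r s c c' := by
    have e1 : ∑ r, ∑ s, ∑ c, ∑ c', Ψ s r c c' = ∑ r, ∑ s, ∑ c, ∑ c', Ψ r s c c' :=
      Finset.sum_comm
    simp only [← Finset.mul_sum, Finset.sum_add_distrib, e1]
    ring
  calc ip g (g - avg (Rel (univ : Finset (ι × κ))) g)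
      ≤ _ := h1
    _ ≤ _ := h2
    _ ≤ _ := h3
    _ ≤ ∑ r, ∑ s, ∑ c, ∑ c', (1 / 4) * (Ψ r s c c' + Ψ s r c c') :=
        Finset.sum_le_sum (fun r _ => Finset.sum_le_sum (fun s _ => h4 r s))
    _ = _ := h5

open Classical in
theorem poincare_switch (M0 : Mat ι κ) (f : Mat ι κ → ℝ) :
    ∑ M ∈ cls (Rel univ) M0, ∑ M' ∈ cls (Rel univ) M0, (f M - f M') ^ 2 ≤
      ((cls (Rel univ) M0).card : ℝ) * ∑ M ∈ cls (Rel univ) M0, ∑ r, ∑ s, ∑ c, ∑ c',
        (if Valid M r s c c' then (f (sw r s c c' M) - f M) ^ 2 else 0) := by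
  set R : Mat ι κ → Mat ι κ → Prop := Rel (univ : Finset (ι × κ)) with hRdef
  have hR : Equivalence R := Rel_equiv _
  set C := cls R M0 with hC
  set g : Mat ι κ → ℝ := fun M => if M ∈ C then f M else 0 with hg
  have hcard : 0 < (C.card : ℝ) := card_cls_pos hR M0
  have hcls : ∀ M ∈ C, cls R M = C := fun M hM => (cls_eq_of_rel hR (mem_cls.1 hM)).symm
  have hout : ∀ M, M ∉ C → ∀ N ∈ cls R M, N ∉ C := by
    intro M hM N hN hNC
    apply hM
    exact mem_cls.2 (hR.trans (mem_cls.1 hNC) (hR.symm (mem_cls.1 hN)))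
  have hsw : ∀ M r s c c', Valid M r s c c' → (sw r s c c' M ∈ C ↔ M ∈ C) := by
    intro M r s c c' hV
    have hrel : R M (sw r s c c' M) := Rel_sw hV (Finset.subset_univ _)
    constructor
    · intro h; exact mem_cls.2 (hR.trans (mem_cls.1 h) (hR.symm hrel))
    · intro h; exact mem_cls.2 (hR.trans (mem_cls.1 h) hrel)
  have hop := core_operator g
  -- left side
  have hL : ip g (g - avg R g)
      = (∑ M ∈ C, ∑ M' ∈ C, (f M - f M') ^ 2) / (2 * (C.card : ℝ)) := by
    rw [ip_sub_avg hR, Finset.sum_div]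
    rw [← Finset.sum_subset (Finset.subset_univ C)]
    · refine Finset.sum_congr rfl (fun M hM => ?_)
      rw [hcls M hM]
      congr 1
      refine Finset.sum_congr rfl (fun N hN => ?_)
      rw [hg]; simp only; rw [if_pos hM, if_pos hN]
    · intro M _ hM
      have : ∑ y ∈ cls R M, (g M - g y) ^ 2 = 0 := by
        refine Finset.sum_eq_zero (fun N hN => ?_)
        rw [hg]; simp only; rw [if_neg hM, if_neg (hout M hM N hN)]; simp
      rw [this, zero_div]
  -- right side
  have hRt : ∑ r, ∑ s, ∑ c, ∑ c', ∑ M,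
        (if Valid M r s c c' then (g (sw r s c c' M) - g M) ^ 2 else 0)
      = ∑ M ∈ C, ∑ r, ∑ s, ∑ c, ∑ c',
        (if Valid M r s c c' then (f (sw r s c c' M) - f M) ^ 2 else 0) := by
    have e : ∀ r s c c', ∑ M, (if Valid M r s c c' then (g (sw r s c c' M) - g M) ^ 2 else 0)
        = ∑ M ∈ C, (if Valid M r s c c' then (f (sw r s c c' M) - f M) ^ 2 else 0) := by
      intro r s c c'
      rw [← Finset.sum_subset (Finset.subset_univ C)]
      · refine Finset.sum_congr rfl (fun M hM => ?_)
        by_cases hV : Valid M r s c c'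
        · rw [if_pos hV, if_pos hV, hg]; simp only
          rw [if_pos hM, if_pos ((hsw M r s c c' hV).2 hM)]
        · rw [if_neg hV, if_neg hV]
      · intro M _ hM
        by_cases hV : Valid M r s c c'
        · rw [if_pos hV, hg]; simp only
          rw [if_neg hM, if_neg (fun h => hM ((hsw M r s c c' hV).1 h))]; simp
        · rw [if_neg hV]
    simp only [e]
    symm
    rw [Finset.sum_comm]
    refine Finset.sum_congr rfl (fun r _ => ?_)
    rw [Finset.sum_comm]
    refine Finset.sum_congr rfl (fun s _ => ?_)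
    rw [Finset.sum_comm]
    refine Finset.sum_congr rfl (fun c _ => ?_)
    rw [Finset.sum_comm]
  rw [hRt] at hop
  have hop' : ip g (g - avg R g) ≤ _ := hop
  rw [hL, div_le_iff₀ (by positivity)] at hop'
  calc _ ≤ _ := hop'
    _ = _ := by ring

end Vale.Agent.P335
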