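import Mathlib

/-!
# The switch chain on simple graphs with a given degree vector (definitions of problem P335)
-/

namespace Vale.Agent.P335

open Finset

open Classical in
/-- `Omega d`: the labelled simple graphs on `Fin n` having degree `d v` at every vertex `v`. -/
def Omega {n : ℕ} (d : Fin n → ℕ) : Type :=
  {G : SimpleGraph (Fin n) // ∀ v, G.degree v = d v}

noncomputable instance {n : ℕ} (d : Fin n → ℕ) : Fintype (Omega d) := by
  classical
  unfold Omega
  infer_instance

noncomputable instance {n : ℕ} (d : Fin n → ℕ) : DecidableEq (Omega d) := Classical.decEq _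

/-- delete the edges `ab`, `cd` and insert the edges `ac`, `bd` -/
def switchGraph {n : ℕ} (G : SimpleGraph (Fin n)) (a b c d : Fin n) : SimpleGraph (Fin n) :=
  G.deleteEdges {s(a, b), s(c, d)} ⊔ SimpleGraph.fromEdgeSet {s(a, c), s(b, d)}

open Classical in
/-- one proposal of the switch chain.  The injective 4-tuple `t = (a,b,c,d)` encodes the 4-set
`S = {a,b,c,d}` and the ordered pair of perfect matchings `F = {ab, cd}`, `F' = {ac, bd}`:
if both edges of `F` are present and both edges of `F'` are absent, replace `F` by `F'`,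
otherwise stay put. -/
noncomputable def step {n : ℕ} (G : SimpleGraph (Fin n)) (t : Fin 4 ↪ Fin n) :
    SimpleGraph (Fin n) :=
  if G.Adj (t 0) (t 1) ∧ G.Adj (t 2) (t 3) ∧ ¬ G.Adj (t 0) (t 2) ∧ ¬ G.Adj (t 1) (t 3) then
    switchGraph G (t 0) (t 1) (t 2) (t 3)
  else G

open Classical in
/-- transition matrix of the (lazy) switch chain: with probability 1/2 stay put, otherwise
apply `step` with a uniformly random injective 4-tuple. -/
noncomputable def switchChain {n : ℕ} (d : Fin n → ℕ) : Matrix (Omega d) (Omega d) ℝ :=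
  fun G G' => (1 / 2) * (if G = G' then 1 else 0) +
    (1 / 2) * (((univ.filter (fun t : Fin 4 ↪ Fin n => step G.1 t = G'.1)).card : ℝ) /
      (Fintype.card (Fin 4 ↪ Fin n) : ℝ))

/-- total variation distance between `P^t(G, .)` and the uniform distribution on `Omega d` -/
noncomputable def tvDist {n : ℕ} (d : Fin n → ℕ) (t : ℕ) (G : Omega d) : ℝ :=
  (1 / 2) * ∑ G' : Omega d, |(switchChain d ^ t) G G' - 1 / (Fintype.card (Omega d) : ℝ)|

/-- the mixing time: least `t` with worst-case total variation distance at most 1/4 -/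
noncomputable def tmix {n : ℕ} (d : Fin n → ℕ) : ℕ :=
  sInf {t : ℕ | ∀ G : Omega d, tvDist d t G ≤ 1 / 4}

/-- `d` is the degree vector of a split graph: some realization has a clique `K` whose
complement is an independent set. -/
def IsSplitSeq {n : ℕ} (d : Fin n → ℕ) : Prop :=
  ∃ (G : Omega d) (K : Finset (Fin n)),
    (∀ u ∈ K, ∀ v ∈ K, u ≠ v → G.1.Adj u v) ∧ (∀ u, u ∉ K → ∀ v, v ∉ K → ¬ G.1.Adj u v)

end Vale.Agent.P335
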