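import Vale.Agent.P335.Defs

/-!
# The switch chain worded exactly as in problem P335 (4-sets and ordered pairs of perfect matchings)
-/

namespace Vale.Agent.P335

open Finset

/-- `F` is a perfect matching of the complete graph on the vertex set `S`: a set of edges
(unordered pairs of distinct vertices of `S`) such that every vertex of `S` lies in exactly one
of them. -/
def IsPM {n : ℕ} (S : Finset (Fin n)) (F : Finset (Sym2 (Fin n))) : Prop :=
  (∀ e ∈ F, ¬ e.IsDiag ∧ ∀ v ∈ e, v ∈ S) ∧ ∀ v ∈ S, ∃! e, e ∈ F ∧ v ∈ e

open Classical in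
/-- the set of all perfect matchings of the complete graph on `S` -/
noncomputable def PMs {n : ℕ} (S : Finset (Fin n)) : Finset (Finset (Sym2 (Fin n))) :=
  univ.filter (IsPM S)

open Classical in
/-- one proposal `(F, F')`: if all edges of `F` are present and all edges of `F'` are absent,
replace `F` by `F'`, otherwise stay put -/
noncomputable def stepL {n : ℕ} (G : SimpleGraph (Fin n)) (F F' : Finset (Sym2 (Fin n))) :
    SimpleGraph (Fin n) :=
  if (∀ e ∈ F, e ∈ G.edgeSet) ∧ (∀ e ∈ F', e ∉ G.edgeSet) then
    G.deleteEdges (F : Set (Sym2 (Fin n))) ⊔ SimpleGraph.fromEdgeSet (F' : Set (Sym2 (Fin n)))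
  else G

open Classical in
/-- transition matrix of the switch chain: with probability 1/2 stay put; otherwise choose a
4-element set `S` uniformly, then choose uniformly an ordered pair `(F, F')` of distinct perfect
matchings of the complete graph on `S` and apply `stepL`. -/
noncomputable def chainL {n : ℕ} (d : Fin n → ℕ) : Matrix (Omega d) (Omega d) ℝ :=
  fun G G' => (1 / 2) * (if G = G' then 1 else 0) +
    (1 / 2) * ∑ S ∈ powersetCard 4 (univ : Finset (Fin n)),
      (1 / ((powersetCard 4 (univ : Finset (Fin n))).card : ℝ)) *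
        ((((PMs S).offDiag.filter (fun x => stepL G.1 x.1 x.2 = G'.1)).card : ℝ) /
          ((PMs S).offDiag.card : ℝ))

/-- total variation distance between `P^t(G, .)` and the uniform distribution on `Omega d` -/
noncomputable def tvDistL {n : ℕ} (d : Fin n → ℕ) (t : ℕ) (G : Omega d) : ℝ :=
  (1 / 2) * ∑ G' : Omega d, |(chainL d ^ t) G G' - 1 / (Fintype.card (Omega d) : ℝ)|

/-- the mixing time: least `t` with worst-case total variation distance at most 1/4 -/
noncomputable def tmixL {n : ℕ} (d : Fin n → ℕ) : ℕ :=
  sInf {t : ℕ | ∀ G : Omega d, tvDistL d t G ≤ 1 / 4}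

end Vale.Agent.P335
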