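import Vale.Agent.P335.AbstractD
import Vale.Agent.P335.Blocks

/-!
# Abstract lemmas on averaging operators used for general graphs (P335)
-/

namespace Vale.Agent.P335

open Finset

variable {Ω : Type*} [Fintype Ω]

theorem gabs_sum_cls_eq {R R' : Ω → Ω → Prop} (hR' : Equivalence R')
    (cb : Ω → Ω → Ω)
    (h1 : ∀ x x' y, R' x x' → R x y → R x' (cb y x'))
    (h2 : ∀ x x' y, R' x x' → R x y → R' y (cb y x'))
    (h3 : ∀ x x' y, R' x x' → R x y → cb (cb y x') x = y)
    {x x' : Ω} (hx : R' x x') {g : Ω → ℝ} (hg : Inv R' g) :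
    ∑ y ∈ cls R x, g y = ∑ y ∈ cls R x', g y := by
  have hx' : R' x' x := hR'.symm hx
  refine Finset.sum_nbij' (fun y => cb y x') (fun y => cb y x) ?_ ?_ ?_ ?_ ?_
  · intro y hy
    exact mem_cls.2 (h1 x x' y hx (mem_cls.1 hy))
  · intro y hy
    exact mem_cls.2 (h1 x' x y hx' (mem_cls.1 hy))
  · intro y hy
    exact h3 x x' y hx (mem_cls.1 hy)
  · intro y hy
    exact h3 x' x y hx' (mem_cls.1 hy)
  · intro y hy
    exact hg _ _ (h2 x x' y hx (mem_cls.1 hy))

/-- commutation of two averaging operators from a combination map -/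
theorem avg_comm_of_comb {R R' : Ω → Ω → Prop} (hR : Equivalence R) (hR' : Equivalence R')
    (cb : Ω → Ω → Ω)
    (h1 : ∀ x x' y, R' x x' → R x y → R x' (cb y x'))
    (h2 : ∀ x x' y, R' x x' → R x y → R' y (cb y x'))
    (h3 : ∀ x x' y, R' x x' → R x y → cb (cb y x') x = y) (f : Ω → ℝ) :
    avg R (avg R' f) = avg R' (avg R f) := by
  have pres : ∀ g : Ω → ℝ, Inv R' g → Inv R' (avg R g) := by
    intro g hg x x' hx
    unfold avg
    have e1 := gabs_sum_cls_eq hR' cb h1 h2 h3 hx hg
    have e2 := gabs_sum_cls_eq (g := fun _ => (1 : ℝ)) hR' cb h1 h2 h3 hx (fun _ _ _ => rfl)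
    simp only [Finset.sum_const, nsmul_eq_mul, mul_one] at e2
    rw [e1, e2]
  have key : ∀ g : Ω → ℝ, avg R' (avg R (avg R' g)) = avg R (avg R' g) :=
    fun g => avg_of_inv hR' (pres _ (avg_inv hR' g))
  apply eq_of_ip_eq
  intro g
  rw [← key f, avg_symm hR', avg_symm hR, avg_symm hR', key g, ← avg_symm hR, ← avg_symm hR']

/-- commuting projections have a nonnegative cross term -/
theorem cross_nonneg_of_comm {R R' : Ω → Ω → Prop} (hR : Equivalence R) (hR' : Equivalence R')
    (hc : ∀ f, avg R (avg R' f) = avg R' (avg R f)) (g : Ω → ℝ) :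
    0 ≤ ip (g - avg R g) (g - avg R' g) := by
  set u := g - avg R g - avg R' g + avg R (avg R' g) with hu
  have e1 : avg R u = 0 := by
    rw [hu, avg_add, avg_sub, avg_sub, avg_idem hR, avg_idem hR]
    abel
  have e2 : avg R' u = 0 := by
    rw [hu, avg_add, avg_sub, avg_sub, avg_idem hR', hc g, avg_idem hR']
    abel
  have a1 : g - avg R g = u + (avg R' g - avg R (avg R' g)) := by rw [hu]; abel
  have a2 : g - avg R' g = u + (avg R g - avg R (avg R' g)) := by rw [hu]; abel
  have z1 : ip u (avg R g - avg R (avg R' g)) = 0 := by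
    have : avg R g - avg R (avg R' g) = avg R (g - avg R' g) := by rw [avg_sub]
    rw [this, ← avg_symm hR, e1]
    simp [ip]
  have z2 : ip (avg R' g - avg R (avg R' g)) u = 0 := by
    have : avg R' g - avg R (avg R' g) = avg R' (g - avg R g) := by rw [avg_sub, hc]
    rw [this, avg_symm hR', e2]
    simp [ip]
  have z3 : ip (avg R' g - avg R (avg R' g)) (avg R g - avg R (avg R' g)) = 0 := by
    have t1 : avg R g - avg R (avg R' g) = avg R (g - avg R' g) := by rw [avg_sub]
    rw [t1, ← avg_symm hR, avg_sub, avg_idem hR, sub_self]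
    simp [ip]
  have := ip_self_nonneg u
  clear_value u
  rw [a1, a2, ip_add_left, ip_add_right, ip_add_right, z1, z2, z3]
  linarith

open Classical in
/-- on an invariant sector where the two relations commute, the cross term is nonnegative -/
theorem sector_nonneg {R R' : Ω → Ω → Prop} (hR : Equivalence R) (hR' : Equivalence R')
    (S : Ω → Prop) (hS : ∀ x y, R x y → (S x ↔ S y)) (hS' : ∀ x y, R' x y → (S x ↔ S y))
    (cb : Ω → Ω → Ω)
    (h1 : ∀ x x' y, S x → R' x x' → R x y → R x' (cb y x'))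
    (h2 : ∀ x x' y, S x → R' x x' → R x y → R' y (cb y x'))
    (h3 : ∀ x x' y, S x → R' x x' → R x y → cb (cb y x') x = y) (g : Ω → ℝ) :
    0 ≤ ∑ x, if S x then (g x - avg R g x) * (g x - avg R' g x) else 0 := by
  -- restricted relations
  have mk : ∀ (T : Ω → Ω → Prop), Equivalence T → (∀ x y, T x y → (S x ↔ S y)) →
      Equivalence (fun x y => x = y ∨ (S x ∧ T x y)) := by
    intro T hT hST
    refine ⟨fun x => Or.inl rfl, ?_, ?_⟩
    · rintro x y (rfl | ⟨hs, ht⟩)
      · exact Or.inl rfl
      · exact Or.inr ⟨(hST x y ht).1 hs, hT.symm ht⟩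
    · rintro x y z (rfl | ⟨hs, ht⟩) h'
      · exact h'
      · rcases h' with rfl | ⟨hs', ht'⟩
        · exact Or.inr ⟨hs, ht⟩
        · exact Or.inr ⟨hs, hT.trans ht ht'⟩
  have val : ∀ (T : Ω → Ω → Prop), Equivalence T → ∀ x,
      g x - avg (fun x y => x = y ∨ (S x ∧ T x y)) g x = if S x then g x - avg T g x else 0 := by
    intro T hT x
    by_cases hs : S x
    · rw [if_pos hs]
      have : cls (fun x y => x = y ∨ (S x ∧ T x y)) x = cls T x := by
        ext y
        rw [mem_cls, mem_cls]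
        constructor
        · rintro (rfl | h)
          · exact hT.refl _
          · exact h.2
        · intro h; exact Or.inr ⟨hs, h⟩
      unfold avg
      rw [this]
    · rw [if_neg hs]
      have : cls (fun x y => x = y ∨ (S x ∧ T x y)) x = {x} := by
        ext y
        rw [mem_cls, Finset.mem_singleton]
        constructor
        · rintro (rfl | h)
          · rfl
          · exact absurd h.1 hs
        · rintro rfl; exact Or.inl rfl
      unfold avg
      rw [this]
      simp
  have eR := mk R hR hS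
  have eR' := mk R' hR' hS'
  have hc := avg_comm_of_comb eR eR' (fun y x' => if S x' then cb y x' else x')
    (by
      rintro x x' y (rfl | ⟨hs, ht⟩) (rfl | ⟨hs2, ht2⟩)
      · by_cases hs : S x
        · simp only [if_pos hs]
          exact Or.inr ⟨hs, h1 x x x hs (hR'.refl x) (hR.refl x)⟩
        · simp [hs]
      · simp only [if_pos hs2]
        exact Or.inr ⟨hs2, h1 x x y hs2 (hR'.refl x) ht2⟩
      · have hs' := (hS' x x' ht).1 hs
        simp only [if_pos hs']
        exact Or.inr ⟨hs', h1 x x' x hs ht (hR.refl x)⟩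
      · have hs' := (hS' x x' ht).1 hs
        simp only [if_pos hs']
        exact Or.inr ⟨hs', h1 x x' y hs ht ht2⟩)
    (by
      rintro x x' y (rfl | ⟨hs, ht⟩) (rfl | ⟨hs2, ht2⟩)
      · by_cases hs : S x
        · simp only [if_pos hs]
          exact Or.inr ⟨hs, h2 x x x hs (hR'.refl x) (hR.refl x)⟩
        · simp [hs]
      · simp only [if_pos hs2]
        exact Or.inr ⟨(hS x y ht2).1 hs2, h2 x x y hs2 (hR'.refl x) ht2⟩
      · have hs' := (hS' x x' ht).1 hs
        simp only [if_pos hs']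
        exact Or.inr ⟨hs, h2 x x' x hs ht (hR.refl x)⟩
      · have hs' := (hS' x x' ht).1 hs
        simp only [if_pos hs']
        exact Or.inr ⟨(hS x y ht2).1 hs, h2 x x' y hs ht ht2⟩)
    (by
      rintro x x' y (rfl | ⟨hs, ht⟩) (rfl | ⟨hs2, ht2⟩)
      · by_cases hs : S x
        · simp only [if_pos hs]
          exact h3 x x x hs (hR'.refl x) (hR.refl x)
        · simp only [if_neg hs]
      · simp only [if_pos hs2]
        exact h3 x x y hs2 (hR'.refl x) ht2
      · have hs' := (hS' x x' ht).1 hs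
        simp only [if_pos hs', if_pos hs]
        exact h3 x x' x hs ht (hR.refl x)
      · have hs' := (hS' x x' ht).1 hs
        simp only [if_pos hs', if_pos hs]
        exact h3 x x' y hs ht ht2)
  have key := cross_nonneg_of_comm eR eR' hc g
  unfold ip at key
  refine le_of_le_of_eq key (Finset.sum_congr rfl fun x _ => ?_)
  simp only [Pi.sub_apply]
  rw [val R hR x, val R' hR' x]
  by_cases hs : S x
  · simp only [if_pos hs]
  · simp only [if_neg hs, mul_zero]

/-- decomposition used for peeling -/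
theorem peel_eq {Rp Rq RA : Ω → Ω → Prop} (hp : Equivalence Rp) (_hq : Equivalence Rq)
    (hA : Equivalence RA) (hle : ∀ x y, RA x y → Rp x y)
    (hcomm : ∀ f, avg RA (avg Rq f) = avg Rq (avg RA f)) (f : Ω → ℝ) :
    ip (f - avg Rp f) (f - avg Rq f) =
      ip (f - avg RA f) ((f - avg RA f) - avg Rq (f - avg RA f)) +
      ip (avg RA f - avg Rp (avg RA f)) (avg RA f - avg Rq (avg RA f)) := by
  set fA := avg RA f with hfA
  set fo := f - fA with hfo
  have hpA : avg Rp fA = avg Rp f := avg_avg_of_le' hA hp hle f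
  have hAo : avg RA fo = 0 := by rw [hfo, avg_sub, hfA, avg_idem hA, sub_self]
  have d1 : f - avg Rp f = fo + (fA - avg Rp fA) := by rw [hpA, hfo]; abel
  have d2 : f - avg Rq f = (fo - avg Rq fo) + (fA - avg Rq fA) := by
    rw [hfo, avg_sub]; abel
  -- invariance
  have i1 : avg RA (fA - avg Rp fA) = fA - avg Rp fA := by
    rw [avg_sub, hfA, avg_idem hA, avg_avg_of_le hA hp hle]
  have i2 : avg RA (fA - avg Rq fA) = fA - avg Rq fA := by
    rw [avg_sub, hcomm, hfA, avg_idem hA]
  have i3 : avg RA (fo - avg Rq fo) = 0 := by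
    rw [avg_sub, hcomm, hAo]
    have : avg Rq (0 : Ω → ℝ) = 0 := by
      have := avg_smul Rq 0 (0 : Ω → ℝ)
      simpa using this
    rw [this, sub_self]
  have z1 : ip fo (fA - avg Rq fA) = 0 := by
    rw [← i2, ← avg_symm hA, hAo]; simp [ip]
  have z2 : ip (fA - avg Rp fA) (fo - avg Rq fo) = 0 := by
    rw [← i1, avg_symm hA, i3]; simp [ip]
  rw [d1, d2, ip_add_left, ip_add_right, ip_add_right, z1, z2]
  ring

/-- peeling a finer projection that commutes with the other one -/
theorem peel {Rp Rq RA : Ω → Ω → Prop} (hp : Equivalence Rp) (hq : Equivalence Rq)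
    (hA : Equivalence RA) (hle : ∀ x y, RA x y → Rp x y)
    (hcomm : ∀ f, avg RA (avg Rq f) = avg Rq (avg RA f)) (f : Ω → ℝ) :
    ip (avg RA f - avg Rp (avg RA f)) (avg RA f - avg Rq (avg RA f)) ≤
      ip (f - avg Rp f) (f - avg Rq f) := by
  rw [peel_eq hp hq hA hle hcomm f, ip_sub_avg_self hq]
  have := ip_self_nonneg ((f - avg RA f) - avg Rq (f - avg RA f))
  linarith

/-- peeling a projection finer than both -/
theorem peel_both {Rp Rq RA : Ω → Ω → Prop} (hp : Equivalence Rp) (hq : Equivalence Rq)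
    (hA : Equivalence RA) (hle : ∀ x y, RA x y → Rp x y) (hle' : ∀ x y, RA x y → Rq x y)
    (f : Ω → ℝ) :
    ip (f - avg Rp f) (f - avg Rq f) = ip f (f - avg RA f) +
      ip (avg RA f - avg Rp (avg RA f)) (avg RA f - avg Rq (avg RA f)) := by
  have hcomm : ∀ f, avg RA (avg Rq f) = avg Rq (avg RA f) := by
    intro f
    rw [avg_avg_of_le hA hq hle', avg_avg_of_le' hA hq hle']
  rw [peel_eq hp hq hA hle hcomm f]
  congr 1
  have : avg Rq (f - avg RA f) = 0 := by
    rw [avg_sub, avg_avg_of_le' hA hq hle', sub_self]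
  rw [this, sub_zero, ip_sub_avg_self hA]

open Classical in
/-- contraction of an averaging operator on an invariant set -/
theorem jensen_on {R : Ω → Ω → Prop} (hR : Equivalence R) (S : Ω → Prop)
    (hS : ∀ x y, R x y → (S x ↔ S y)) (h : Ω → ℝ) :
    (∑ x, if S x then (avg R h x) ^ 2 else 0) ≤ ∑ x, if S x then (h x) ^ 2 else 0 := by
  set hS' : Ω → ℝ := fun x => if S x then h x else 0 with hdef
  have e1 : ∀ x, avg R hS' x = if S x then avg R h x else 0 := by
    intro x
    unfold avg
    by_cases hs : S x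
    · rw [if_pos hs]
      congr 1
      refine Finset.sum_congr rfl fun y hy => ?_
      rw [hdef]
      simp only
      rw [if_pos ((hS x y (mem_cls.1 hy)).1 hs)]
    · rw [if_neg hs]
      have : ∑ y ∈ cls R x, hS' y = 0 := by
        refine Finset.sum_eq_zero fun y hy => ?_
        rw [hdef]
        simp only
        rw [if_neg (fun h' => hs ((hS x y (mem_cls.1 hy)).2 h'))]
      rw [this, zero_div]
  have e2 : ip (avg R hS') (avg R hS') ≤ ip hS' hS' := by
    have a1 := ip_sub_avg_self hR hS'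
    have a2 := ip_self_nonneg (hS' - avg R hS')
    have a3 : ip (avg R hS') (avg R hS') = ip hS' (avg R hS') := by
      rw [avg_symm hR, avg_idem hR]
    rw [ip_sub_right] at a1
    linarith
  unfold ip at e2
  refine le_trans (le_of_eq ?_) (le_trans e2 (le_of_eq ?_))
  · refine Finset.sum_congr rfl fun x _ => ?_
    rw [e1 x]
    by_cases hs : S x
    · simp only [if_pos hs]; ring
    · simp only [if_neg hs]; ring
  · refine Finset.sum_congr rfl fun x _ => ?_
    rw [hdef]
    by_cases hs : S x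
    · simp only [if_pos hs]; ring
    · simp only [if_neg hs]; ring

/-- class-wise comparison -/
theorem sum_le_of_cls_le {R : Ω → Ω → Prop} (hR : Equivalence R) (Φ Ψ : Ω → ℝ)
    (h : ∀ x0, ∑ y ∈ cls R x0, Φ y ≤ ∑ y ∈ cls R x0, Ψ y) : ∑ x, Φ x ≤ ∑ x, Ψ x := by
  rw [← sum_avg hR Φ, ← sum_avg hR Ψ]
  refine Finset.sum_le_sum fun x _ => ?_
  unfold avg
  exact div_le_div_of_nonneg_right (h x) (card_cls_pos hR x).le

/-- pointwise transfer of an average along an injective encoding -/
theorem transfer_avg {Ω' : Type*} [Fintype Ω'] (φ : Ω → Ω') (hφ : Function.Injective φ)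
    {R : Ω → Ω → Prop} {R' : Ω' → Ω' → Prop}
    (T1 : ∀ x y, R x y → R' (φ x) (φ y))
    (T2 : ∀ x y', R' (φ x) y' → ∃ y, φ y = y' ∧ R x y) (f : Ω → ℝ) (x : Ω) :
    avg R' (Function.extend φ f 0) (φ x) = avg R f x := by
  classical
  have hc : cls R' (φ x) = (cls R x).image φ := by
    ext y'
    rw [mem_cls, Finset.mem_image]
    constructor
    · intro h
      obtain ⟨y, hy, hr⟩ := T2 x y' h
      exact ⟨y, mem_cls.2 hr, hy⟩
    · rintro ⟨y, hy, rfl⟩
      exact T1 x y (mem_cls.1 hy)
  unfold avg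
  rw [hc, Finset.sum_image hφ.injOn, Finset.card_image_of_injective _ hφ]
  congr 1
  exact Finset.sum_congr rfl fun y _ => hφ.extend_apply f 0 y

/-- transfer of a Dirichlet form along an injective encoding -/
theorem transfer {Ω' : Type*} [Fintype Ω'] (φ : Ω → Ω') (hφ : Function.Injective φ)
    {R : Ω → Ω → Prop} {R' : Ω' → Ω' → Prop}
    (T1 : ∀ x y, R x y → R' (φ x) (φ y))
    (T2 : ∀ x y', R' (φ x) y' → ∃ y, φ y = y' ∧ R x y) (f : Ω → ℝ) :
    ip (Function.extend φ f 0) (Function.extend φ f 0 - avg R' (Function.extend φ f 0))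
      = ip f (f - avg R f) := by
  classical
  unfold ip
  have h0 : ∀ y' ∈ (univ : Finset Ω'), y' ∉ (univ : Finset Ω).image φ →
      Function.extend φ f 0 y' *
        (Function.extend φ f 0 - avg R' (Function.extend φ f 0)) y' = 0 := by
    intro y' _ hy'
    have : Function.extend φ f 0 y' = 0 := by
      rw [Function.extend_apply']
      · rfl
      · rintro ⟨y, rfl⟩
        exact hy' (Finset.mem_image_of_mem _ (mem_univ _))
    rw [this, zero_mul]
  rw [← Finset.sum_subset (Finset.subset_univ _) h0, Finset.sum_image hφ.injOn]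
  refine Finset.sum_congr rfl fun x _ => ?_
  simp only [Pi.sub_apply]
  rw [transfer_avg φ hφ T1 T2 f x, hφ.extend_apply]

/-- sum over 2-subsets versus ordered pairs -/
theorem sum_P2_eq_half_offDiag {α : Type*} [DecidableEq α] (S : Finset α) (F : Finset α → ℝ) :
    ∑ q ∈ powersetCard 2 S, F q = (1 / 2) * ∑ x ∈ S.offDiag, F {x.1, x.2} := by
  have hmaps : ∀ x ∈ S.offDiag, ({x.1, x.2} : Finset α) ∈ powersetCard 2 S := by
    intro x hx
    obtain ⟨h1, h2, h3⟩ := Finset.mem_offDiag.1 hx
    rw [Finset.mem_powersetCard]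
    refine ⟨?_, Finset.card_pair h3⟩
    intro y hy
    rcases Finset.mem_insert.1 hy with rfl | hy
    · exact h1
    · rw [Finset.mem_singleton.1 hy]; exact h2
  rw [← Finset.sum_fiberwise_of_maps_to hmaps, Finset.mul_sum]
  refine Finset.sum_congr rfl fun q hq => ?_
  obtain ⟨hqS, hq2⟩ := Finset.mem_powersetCard.1 hq
  obtain ⟨a, b, hab, rfl⟩ := Finset.card_eq_two.1 hq2
  have hfib : S.offDiag.filter (fun x => ({x.1, x.2} : Finset α) = {a, b}) = {(a, b), (b, a)} := by
    ext ⟨u, v⟩
    simp only [Finset.mem_filter, Finset.mem_offDiag, Finset.mem_insert, Finset.mem_singleton,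
      Prod.mk.injEq]
    constructor
    · rintro ⟨⟨-, -, huv⟩, he⟩
      have hu : u ∈ ({a, b} : Finset α) := he ▸ (by simp)
      have hv : v ∈ ({a, b} : Finset α) := he ▸ (by simp)
      simp only [Finset.mem_insert, Finset.mem_singleton] at hu hv
      rcases hu with rfl | rfl <;> rcases hv with rfl | rfl
      · exact absurd rfl huv
      · exact Or.inl ⟨rfl, rfl⟩
      · exact Or.inr ⟨rfl, rfl⟩
      · exact absurd rfl huv
    · have ha : a ∈ S := hqS (by simp)
      have hb : b ∈ S := hqS (by simp)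
      rintro (⟨rfl, rfl⟩ | ⟨rfl, rfl⟩)
      · exact ⟨⟨ha, hb, hab⟩, rfl⟩
      · exact ⟨⟨hb, ha, hab.symm⟩, Finset.pair_comm _ _⟩
  rw [hfib, Finset.sum_pair (by
    intro h
    exact hab (Prod.mk.injEq _ _ _ _ ▸ h).1)]
  simp only
  rw [Finset.pair_comm b a]
  ring

/-- `knabe` with the commutation hypothesis replaced by nonnegativity of the total
cross term of the disjoint pairs -/
theorem knabe' {Ω J : Type*} [Fintype Ω] [Fintype J] [DecidableEq J]
    (E : Finset J → (Ω → ℝ) →ₗ[ℝ] (Ω → ℝ))
    (hsym : ∀ p f g, ip (E p f) g = ip f (E p g))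
    (hidem : ∀ p f, E p (E p f) = E p f)
    (hmono : ∀ p q, p ⊆ q → ∀ f, E p (E q f) = E q f)
    (hdisj : ∀ f, 0 ≤ ∑ x ∈ (powersetCard 2 (univ : Finset J)).offDiag.filter
        (fun x => Disjoint x.1 x.2), ip (f - E x.1 f) (f - E x.2 f))
    (hloc : ∀ T ∈ powersetCard 3 (univ : Finset J), ∀ f,
        ip f (f - E T f) ≤ ∑ p ∈ powersetCard 2 T, ip f (f - E p f))
    (hker : ∀ f, (∀ p ∈ powersetCard 2 (univ : Finset J), E p f = f) → E univ f = f) :
    ∀ f, ip f (f - E univ f) ≤ ∑ p ∈ powersetCard 2 (univ : Finset J), ip f (f - E p f) :=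
  knabeD E hsym hidem hmono hdisj hloc hker

end Vale.Agent.P335
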