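import Vale.Agent.P335.YSector

/-!
# Peeling lemmas, Jensen on an invariant set, class-wise comparison
-/

set_option linter.unusedSectionVars false

namespace Vale.Agent.P335

open Finset

variable {Ω : Type*} [Fintype Ω]

theorem ip_avg_sub_avg_zero {R : Ω → Ω → Prop} (hR : Equivalence R) (f g : Ω → ℝ)
    (hg : avg R g = g) : ip (f - avg R f) g = 0 := by
  rw [ip_sub_left, avg_symm hR, hg, sub_self]

/-- peeling a projection finer than both -/
theorem peel_both2 {Rp Rq RA : Ω → Ω → Prop} (hp : Equivalence Rp) (hq : Equivalence Rq)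
    (hA : Equivalence RA) (hle : ∀ x y, RA x y → Rp x y) (hle' : ∀ x y, RA x y → Rq x y)
    (f : Ω → ℝ) :
    ip (f - avg Rp f) (f - avg Rq f) = ip f (f - avg RA f) +
      ip (avg RA f - avg Rp (avg RA f)) (avg RA f - avg Rq (avg RA f)) := by
  rw [avg_avg_of_le' hA hp hle, avg_avg_of_le' hA hq hle', ip_sub_avg_self hA]
  have e1 : f - avg Rp f = (f - avg RA f) + (avg RA f - avg Rp f) := by abel
  have e2 : f - avg Rq f = (f - avg RA f) + (avg RA f - avg Rq f) := by abel
  have i1 : avg RA (avg RA f - avg Rq f) = avg RA f - avg Rq f := by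
    rw [avg_sub, avg_idem hA, avg_avg_of_le hA hq hle']
  have i2 : avg RA (avg RA f - avg Rp f) = avg RA f - avg Rp f := by
    rw [avg_sub, avg_idem hA, avg_avg_of_le hA hp hle]
  have z1 := ip_avg_sub_avg_zero hA f _ i1
  have z2 := ip_avg_sub_avg_zero hA f _ i2
  rw [e1, e2, ip_add_left, ip_add_right, ip_add_right, z1, ip_comm (avg RA f - avg Rp f), z2]
  ring

/-- peeling a finer projection that commutes with the other one -/
theorem peel2 {Rp Rq RA : Ω → Ω → Prop} (hp : Equivalence Rp) (hq : Equivalence Rq)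
    (hA : Equivalence RA) (hle : ∀ x y, RA x y → Rp x y)
    (hcomm : ∀ f, avg RA (avg Rq f) = avg Rq (avg RA f)) (f : Ω → ℝ) :
    ip (avg RA f - avg Rp (avg RA f)) (avg RA f - avg Rq (avg RA f)) ≤
      ip (f - avg Rp f) (f - avg Rq f) := by
  rw [avg_avg_of_le' hA hp hle]
  have e1 : f - avg Rp f = (f - avg RA f) + (avg RA f - avg Rp f) := by abel
  have i2 : avg RA (avg RA f - avg Rp f) = avg RA f - avg Rp f := by
    rw [avg_sub, avg_idem hA, avg_avg_of_le hA hp hle]
  -- second part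
  have s2 : ip (avg RA f - avg Rp f) (f - avg Rq f)
      = ip (avg RA f - avg Rp f) (avg RA f - avg Rq (avg RA f)) := by
    rw [← i2, avg_symm hA, avg_sub, hcomm, i2]
  -- first part
  have s1 : 0 ≤ ip (f - avg RA f) (f - avg Rq f) := by
    have sA := (symIdem_avgL hA).one_sub
    have sq := (symIdem_avgL hq).one_sub
    have hc : avgL RA * avgL Rq = avgL Rq * avgL RA := avgL_mul_eq hcomm
    have hc' : (1 - avgL RA) * (1 - avgL Rq) = (1 - avgL Rq) * (1 - avgL RA) :=
      yr_comm_one_sub (yr_comm_one_sub hc.symm).symm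
    have := (sA.mul sq hc').nonneg f
    have e := sA.1 f ((1 - avgL Rq) f)
    simp only [LinearMap.sub_apply, avgL_apply, Module.End.mul_apply, Module.End.one_apply]
      at this e
    rw [e]
    exact this
  rw [e1, ip_add_left, s2]
  linarith

open Classical in
/-- class-wise comparison -/
theorem sum_le_of_cls_le2 {R : Ω → Ω → Prop} (hR : Equivalence R) (Φ Ψ : Ω → ℝ)
    (h : ∀ x0, ∑ y ∈ cls R x0, Φ y ≤ ∑ y ∈ cls R x0, Ψ y) : ∑ x, Φ x ≤ ∑ x, Ψ x := by
  have e : ∀ g : Ω → ℝ, ∑ x, g x = ∑ x, avg R g x := by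
    intro g
    have h1 : avg R (fun _ : Ω => (1 : ℝ)) = fun _ => 1 := avg_of_inv hR (fun _ _ _ => rfl)
    have h2 := avg_symm hR g (fun _ => 1)
    rw [h1] at h2
    simpa [ip] using h2.symm
  rw [e Φ, e Ψ]
  refine Finset.sum_le_sum (fun x _ => ?_)
  unfold avg
  exact div_le_div_of_nonneg_right (h x) (card_cls_pos hR x).le

open Classical in
/-- contraction of an averaging operator on an invariant set -/
theorem jensen_on2 {R : Ω → Ω → Prop} (hR : Equivalence R) (S : Ω → Prop)
    (hS : ∀ x y, R x y → (S x ↔ S y)) (h : Ω → ℝ) :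
    (∑ x, if S x then (avg R h x) ^ 2 else 0) ≤ ∑ x, if S x then (h x) ^ 2 else 0 := by
  refine sum_le_of_cls_le2 hR _ _ (fun x0 => ?_)
  by_cases hx : S x0
  · have e1 : ∑ y ∈ cls R x0, (if S y then (avg R h y) ^ 2 else 0)
        = ((cls R x0).card : ℝ) * (avg R h x0) ^ 2 := by
      rw [← nsmul_eq_mul, ← Finset.sum_const]
      refine Finset.sum_congr rfl (fun y hy => ?_)
      rw [if_pos ((hS x0 y (mem_cls.1 hy)).1 hx), avg_inv hR h x0 y (mem_cls.1 hy)]
    have e2 : ∑ y ∈ cls R x0, (if S y then (h y) ^ 2 else 0) = ∑ y ∈ cls R x0, (h y) ^ 2 :=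
      Finset.sum_congr rfl (fun y hy => by rw [if_pos ((hS x0 y (mem_cls.1 hy)).1 hx)])
    rw [e1, e2]
    have hc := card_cls_pos hR x0
    have cs := sq_sum_le_card_mul_sum_sq (s := cls R x0) (f := h)
    unfold avg
    rw [div_pow, mul_div_assoc']
    rw [div_le_iff₀ (by positivity)]
    nlinarith
  · have e : ∀ (u : Ω → ℝ), ∑ y ∈ cls R x0, (if S y then u y else 0) = 0 := by
      intro u
      refine Finset.sum_eq_zero (fun y hy => ?_)
      rw [if_neg (fun hy' => hx ((hS x0 y (mem_cls.1 hy)).2 hy'))]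
    rw [e, e]

end Vale.Agent.P335
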