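import Vale.Agent.P335.Transfer
import Vale.Agent.P335.AbstractD

/-!
# Transfer of a Dirichlet form along an injective encoding (form used for general graphs)
-/

set_option linter.unusedSectionVars false

namespace Vale.Agent.P335

open Finset

variable {Ω : Type*} [Fintype Ω]

/-- transfer of a Dirichlet form along an injective encoding -/
theorem transfer_aux {Ω' : Type*} [Fintype Ω'] (φ : Ω → Ω') (hφ : Function.Injective φ)
    {R : Ω → Ω → Prop} {R' : Ω' → Ω' → Prop}
    (T1 : ∀ x y, R x y → R' (φ x) (φ y))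
    (T2 : ∀ x y', R' (φ x) y' → ∃ y, φ y = y' ∧ R x y) (f : Ω → ℝ) :
    ip (Function.extend φ f 0) (Function.extend φ f 0 - avg R' (Function.extend φ f 0))
      = ip f (f - avg R f) := by
  classical
  have h1 : ∀ x y, R x y ↔ R' (φ x) (φ y) := by
    intro x y
    refine ⟨T1 x y, fun h => ?_⟩
    obtain ⟨y0, e, hy0⟩ := T2 x (φ y) h
    rwa [hφ e] at hy0
  have h2 : ∀ x z, R' (φ x) z → ∃ y, φ y = z := by
    intro x z h
    obtain ⟨y, e, _⟩ := T2 x z h
    exact ⟨y, e⟩
  change ip (ext0 φ f) (ext0 φ f - avg R' (ext0 φ f)) = ip f (f - avg R f)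
  unfold ip
  rw [sum_eq_sum_comp hφ]
  · refine Finset.sum_congr rfl (fun x _ => ?_)
    simp only [Pi.sub_apply]
    rw [ext0_apply hφ]
    congr 2
    unfold avg
    rw [cls_image h1 h2 x, Finset.sum_image (fun a _ b _ h => hφ h),
      Finset.card_image_of_injective _ hφ]
    congr 1
    exact Finset.sum_congr rfl (fun y _ => ext0_apply hφ f y)
  · intro z hz
    rw [ext0_apply' f z hz, zero_mul]

end Vale.Agent.P335
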