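import Vale.Agent.P335.Johnson

/-!
# General graphs as symmetric 0-1 matrices: definitions (P335, general degree sequences)
-/

set_option linter.unusedSectionVars false

namespace Vale.Agent.P335

open Finset

variable {V : Type*} [Fintype V] [DecidableEq V]

/-- symmetric with zero diagonal -/
def IsG (M : Mat V V) : Prop := (∀ i k, M i k = M k i) ∧ ∀ i, M i i = false

/-- simple graphs on `V` as symmetric 0-1 matrices with zero diagonal -/
def Gph (V : Type*) : Type _ := {M : Mat V V // IsG M}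

noncomputable instance : Fintype (Gph V) := by
  classical
  unfold Gph
  infer_instance

noncomputable instance : DecidableEq (Gph V) := Classical.decEq _

theorem Gph.symm (x : Gph V) (i k : V) : x.1 i k = x.1 k i := x.2.1 i k

theorem Gph.diag (x : Gph V) (i : V) : x.1 i i = false := x.2.2 i

theorem Gph.ext' {x y : Gph V} (h : ∀ i k, x.1 i k = y.1 i k) : x = y :=
  Subtype.ext (funext fun i => funext fun k => h i k)

/-- agree off the cells of `Z`, same degrees -/
def GRel (Z : Finset (V × V)) (x y : Gph V) : Prop := Rel Z x.1 y.1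

theorem GRel_equiv (Z : Finset (V × V)) : Equivalence (GRel Z (V := V)) where
  refl := fun x => (Rel_equiv Z).refl x.1
  symm := fun h => (Rel_equiv Z).symm h
  trans := fun h h' => (Rel_equiv Z).trans h h'

theorem GRel_mono {Z Z' : Finset (V × V)} (h : Z ⊆ Z') {x y : Gph V} (hr : GRel Z x y) :
    GRel Z' x y := Rel_mono h hr

/-- the symmetric block of cells between `A` and `B` -/
def Zb (A B : Finset V) : Finset (V × V) := A ×ˢ B ∪ B ×ˢ A

theorem mem_Zb {A B : Finset V} {i k : V} :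
    (i, k) ∈ Zb A B ↔ (i ∈ A ∧ k ∈ B) ∨ (i ∈ B ∧ k ∈ A) := by
  simp [Zb]

theorem Zb_comm (A B : Finset V) : Zb A B = Zb B A := by
  unfold Zb; rw [Finset.union_comm]

theorem Zb_swap {A B : Finset V} {i k : V} (h : (i, k) ∈ Zb A B) : (k, i) ∈ Zb A B := by
  rw [mem_Zb] at h ⊢
  tauto

theorem Zb_mono {A A' B B' : Finset V} (hA : A ⊆ A') (hB : B ⊆ B') : Zb A B ⊆ Zb A' B' := by
  intro x hx
  obtain ⟨i, k⟩ := x
  rw [mem_Zb] at hx ⊢
  rcases hx with h | h
  · exact Or.inl ⟨hA h.1, hB h.2⟩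
  · exact Or.inr ⟨hB h.1, hA h.2⟩

theorem Zb_disjoint {A B A' B' : Finset V} (h1 : Disjoint A A' ∨ Disjoint B B')
    (h2 : Disjoint A B' ∨ Disjoint B A') : Disjoint (Zb A B) (Zb A' B') := by
  rw [Finset.disjoint_left]
  rintro ⟨i, k⟩ hx hx'
  rw [mem_Zb] at hx hx'
  rcases hx with h | h <;> rcases hx' with h' | h'
  · rcases h1 with g | g
    · exact Finset.disjoint_left.1 g h.1 h'.1
    · exact Finset.disjoint_left.1 g h.2 h'.2
  · rcases h2 with g | g
    · exact Finset.disjoint_left.1 g h.1 h'.1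
    · exact Finset.disjoint_left.1 g h.2 h'.2
  · rcases h2 with g | g
    · exact Finset.disjoint_left.1 g h.2 h'.2
    · exact Finset.disjoint_left.1 g h.1 h'.1
  · rcases h1 with g | g
    · exact Finset.disjoint_left.1 g h.2 h'.2
    · exact Finset.disjoint_left.1 g h.1 h'.1

/-- a valid switch position in a graph: edges `rk`, `sl`, non-edges `rl`, `sk`,
four distinct vertices -/
def GValid (x : Gph V) (r s k l : V) : Prop := Valid x.1 r s k l ∧ r ≠ l ∧ s ≠ k

/-- flip the eight cells `{r,s} x {k,l}` and `{k,l} x {r,s}` -/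
def gswM (r s k l : V) (M : Mat V V) : Mat V V := sw k l r s (sw r s k l M)

theorem gswM_apply (r s k l : V) (M : Mat V V) (i j : V)
    (hd : r ≠ k ∧ r ≠ l ∧ s ≠ k ∧ s ≠ l) :
    gswM r s k l M i j = if ((i = r ∨ i = s) ∧ (j = k ∨ j = l)) ∨ ((i = k ∨ i = l) ∧ (j = r ∨ j = s))
      then !(M i j) else M i j := by
  obtain ⟨h1, h2, h3, h4⟩ := hd
  unfold gswM sw
  by_cases a : (i = k ∨ i = l) ∧ (j = r ∨ j = s)
  · have b : ¬ ((i = r ∨ i = s) ∧ (j = k ∨ j = l)) := by
      rintro ⟨b1, -⟩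
      rcases a.1 with rfl | rfl <;> rcases b1 with b1 | b1 <;> simp_all
    simp [a, b]
  · simp [a]

theorem gswM_isG {r s k l : V} (hd : r ≠ k ∧ r ≠ l ∧ s ≠ k ∧ s ≠ l) {M : Mat V V} (hM : IsG M) :
    IsG (gswM r s k l M) := by
  constructor
  · intro i j
    rw [gswM_apply r s k l M i j hd, gswM_apply r s k l M j i hd, hM.1 i j]
    by_cases a : ((i = r ∨ i = s) ∧ (j = k ∨ j = l)) ∨ ((i = k ∨ i = l) ∧ (j = r ∨ j = s))
    · have b : ((j = r ∨ j = s) ∧ (i = k ∨ i = l)) ∨ ((j = k ∨ j = l) ∧ (i = r ∨ i = s)) := by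
        tauto
      rw [if_pos a, if_pos b]
    · have b : ¬ (((j = r ∨ j = s) ∧ (i = k ∨ i = l)) ∨ ((j = k ∨ j = l) ∧ (i = r ∨ i = s))) := by
        tauto
      rw [if_neg a, if_neg b]
  · intro i
    rw [gswM_apply r s k l M i i hd, hM.2 i]
    obtain ⟨h1, h2, h3, h4⟩ := hd
    have b : ¬ (((i = r ∨ i = s) ∧ (i = k ∨ i = l)) ∨ ((i = k ∨ i = l) ∧ (i = r ∨ i = s))) := by
      rintro (⟨b1, b2⟩ | ⟨b2, b1⟩) <;> rcases b1 with rfl | rfl <;> rcases b2 with b2 | b2 <;>
        simp_all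
    rw [if_neg b]

open Classical in
/-- the graph switch (identity if the four vertices are not suitably distinct) -/
noncomputable def gsw (r s k l : V) (x : Gph V) : Gph V :=
  if hd : r ≠ k ∧ r ≠ l ∧ s ≠ k ∧ s ≠ l then ⟨gswM r s k l x.1, gswM_isG hd x.2⟩ else x

/-- the block `p x q` of `x` is switchable -/
def GAct (p q : Finset V) (x : Gph V) : Prop :=
  ∃ r s k l, p = {r, s} ∧ q = {k, l} ∧ GValid x r s k l

/-- same class of the two stars of `p`, same switchability status of the block `p x q` -/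
def RA (p q : Finset V) (x y : Gph V) : Prop :=
  GRel (Zb p univ) x y ∧ (GAct p q x ↔ GAct p q y)

theorem RA_equiv (p q : Finset V) : Equivalence (RA p q (V := V)) where
  refl := fun x => ⟨(GRel_equiv _).refl x, Iff.rfl⟩
  symm := fun h => ⟨(GRel_equiv _).symm h.1, h.2.symm⟩
  trans := fun h h' => ⟨(GRel_equiv _).trans h.1 h'.1, h.2.trans h'.2⟩

open Classical in
/-- the Johnson term -/
noncomputable def nn (p q : Finset V) (f : Gph V → ℝ) : ℝ :=
  ∑ x, if GAct p q x then (avg (RA p q) f x - avg (GRel (Zb p univ)) f x) ^ 2 else 0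

/-- the number of edges between `p` and `q` is odd -/
def oddO (p q : Finset V) (x : Gph V) : Prop :=
  (∑ i ∈ p, ∑ k ∈ q, (x.1 i k).toNat) % 2 = 1

end Vale.Agent.P335
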