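import Vale.Agent.P335.GSw
import Vale.Agent.P335.Connect

/-!
# Connectivity of the graphs with given degrees under switches
-/

set_option linter.unusedSectionVars false

namespace Vale.Agent.P335

open Finset

variable {V : Type*} [Fintype V] [DecidableEq V]

theorem gconn_split (x : Gph V) {a b : V} (hab : a ≠ b) :
    rs x.1 a = (x.1 a b).toNat + ∑ w ∈ (univ.erase a).erase b, (x.1 a w).toNat := by
  unfold rs
  rw [← Finset.add_sum_erase univ _ (mem_univ a), x.diag a,
    ← Finset.add_sum_erase (univ.erase a) _ (Finset.mem_erase.2 ⟨hab.symm, mem_univ b⟩)]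
  simp

theorem gconn_exists_switch {x y : Gph V} {A : Finset V} {v a b : V}
    (hxy : GRel (Zb (insert v A) (insert v A)) x y)
    (h1 : x.1 v a = true) (h2 : y.1 v a = false) (h3 : x.1 v b = false) (h4 : y.1 v b = true) :
    (∃ w ∈ A, w ≠ v ∧ w ≠ a ∧ w ≠ b ∧ x.1 w b = true ∧ x.1 w a = false) ∨
      (∃ w ∈ A, w ≠ v ∧ w ≠ a ∧ w ≠ b ∧ y.1 w a = true ∧ y.1 w b = false) := by
  have hab : a ≠ b := by
    rintro rfl
    rw [h1] at h3
    exact absurd h3 (by simp)
  have hva : v ≠ a := by
    rintro rfl
    rw [x.diag] at h1
    exact absurd h1 (by simp)
  have hvb : v ≠ b := by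
    rintro rfl
    rw [y.diag] at h4
    exact absurd h4 (by simp)
  by_contra hcon
  push Not at hcon
  obtain ⟨hM, hN⟩ := hcon
  set S := (univ.erase a).erase b with hS
  have hlt : ∑ w ∈ S, ((y.1 a w).toNat + (x.1 b w).toNat)
      < ∑ w ∈ S, ((x.1 a w).toNat + (y.1 b w).toNat) := by
    apply Finset.sum_lt_sum
    · intro w hw
      have hwb : w ≠ b := (Finset.mem_erase.1 hw).1
      have hwa : w ≠ a := (Finset.mem_erase.1 (Finset.mem_erase.1 hw).2).1
      by_cases hwv : w = v
      · subst hwv
        rw [y.symm a w, h2, x.symm b w, h3]
        simp
      · by_cases hwA : w ∈ A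
        · have a1 := hM w hwA hwv hwa hwb
          have a2 := hN w hwA hwv hwa hwb
          rw [x.symm a w, x.symm b w, y.symm a w, y.symm b w]
          cases e1 : x.1 w a <;> cases e2 : x.1 w b <;> cases e3 : y.1 w a <;>
            cases e4 : y.1 w b <;> simp_all
        · have hw' : w ∉ insert v A := by
            simp [hwv, hwA]
          have e1 : x.1 a w = y.1 a w := hxy.1 a w (by
            rw [mem_Zb]
            rintro (h | h)
            · exact hw' h.2
            · exact hw' h.2)
          have e2 : x.1 b w = y.1 b w := hxy.1 b w (by
            rw [mem_Zb]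
            rintro (h | h)
            · exact hw' h.2
            · exact hw' h.2)
          rw [e1, e2, add_comm]
    · refine ⟨v, ?_, ?_⟩
      · rw [hS]
        exact Finset.mem_erase.2 ⟨hvb, Finset.mem_erase.2 ⟨hva, mem_univ v⟩⟩
      · rw [y.symm a v, h2, x.symm b v, h3, x.symm a v, h1, y.symm b v, h4]
        simp
  rw [Finset.sum_add_distrib, Finset.sum_add_distrib] at hlt
  have e1 := gconn_split x hab
  have e2 := gconn_split y hab
  have e3 := gconn_split x hab.symm
  have e4 := gconn_split y hab.symm
  have e5 : (univ.erase b).erase a = S := by
    rw [hS, Finset.erase_right_comm]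
  rw [e5] at e3 e4
  rw [← hS] at e1 e2
  rw [x.symm b a] at e3
  rw [y.symm b a] at e4
  have r1 := hxy.2.1 a
  have r2 := hxy.2.1 b
  omega

theorem gconn_row {x : Gph V} {v c a b : V} (h : GValid x v c a b) (k : V) :
    (gsw v c a b x).1 v k = if k = a ∨ k = b then !(x.1 v k) else x.1 v k := by
  obtain ⟨d1, d2, d3, d4, d5, d6⟩ := h.distinct
  rw [gsw_val ⟨d3, d4, d5, d6⟩, gswM_apply v c a b x.1 v k ⟨d3, d4, d5, d6⟩]
  by_cases hk : k = a ∨ k = b
  · rw [if_pos hk, if_pos (Or.inl ⟨Or.inl rfl, hk⟩)]
  · rw [if_neg hk, if_neg]
    rintro (⟨_, h'⟩ | ⟨h', _⟩)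
    · exact hk h'
    · rcases h' with h' | h'
      · exact d3 h'
      · exact d4 h'

theorem gconn_aux (f : Gph V → ℝ)
    (hf : ∀ x r s k l, GValid x r s k l → f (gsw r s k l x) = f x) (A : Finset V) :
    Inv (GRel (Zb A A)) f := by
  induction A using Finset.induction_on with
  | empty =>
    intro x y h
    have : x = y := Gph.ext' (fun i k => h.1 i k (by simp [mem_Zb]))
    rw [this]
  | insert v A hv ih =>
    have hsub : ∀ {c a b : V}, c ∈ insert v A → a ∈ insert v A → b ∈ insert v A →
        Zb ({v, c} : Finset V) {a, b} ⊆ Zb (insert v A) (insert v A) := by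
      intro c a b hc ha hb
      apply Zb_mono
      · intro z hz
        simp only [mem_insert, mem_singleton] at hz
        rcases hz with rfl | rfl
        · exact Finset.mem_insert_self _ _
        · exact hc
      · intro z hz
        simp only [mem_insert, mem_singleton] at hz
        rcases hz with rfl | rfl
        · exact ha
        · exact hb
    have claim : ∀ m : ℕ, ∀ x y : Gph V, GRel (Zb (insert v A) (insert v A)) x y →
        rowDist v x.1 y.1 = m → f x = f y := by
      intro m
      induction m using Nat.strong_induction_on with
      | _ m ihm =>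
        have main : ∀ x y : Gph V, GRel (Zb (insert v A) (insert v A)) x y →
            rowDist v x.1 y.1 = m → ∀ a, x.1 v a = true → y.1 v a = false → f x = f y := by
          intro x y hxy hm a h1 h2
          obtain ⟨b, h3, h4⟩ := exists_col (hxy.2.1 v) h1 h2
          have haA : a ∈ insert v A := by
            by_contra hcon
            have := hxy.1 v a (by
              rw [mem_Zb]
              rintro (h | h)
              · exact hcon h.2
              · exact hcon h.2)
            rw [h1, h2] at this
            exact absurd this (by simp)
          have hbA : b ∈ insert v A := by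
            by_contra hcon
            have := hxy.1 v b (by
              rw [mem_Zb]
              rintro (h | h)
              · exact hcon h.2
              · exact hcon h.2)
            rw [h3, h4] at this
            exact absurd this (by simp)
          have hvb : v ≠ b := by
            rintro rfl
            rw [y.diag] at h4
            exact absurd h4 (by simp)
          have hva : v ≠ a := by
            rintro rfl
            rw [x.diag] at h1
            exact absurd h1 (by simp)
          rcases gconn_exists_switch hxy h1 h2 h3 h4 with ⟨w, hwA, hwv, hwa, hwb, a1, a2⟩ |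
            ⟨w, hwA, hwv, hwa, hwb, a1, a2⟩
          · have hval : GValid x v w a b := ⟨⟨h1, h3, a2, a1⟩, hvb, hwa⟩
            have e1 : f (gsw v w a b x) = f x := hf x v w a b hval
            have hrel : GRel (Zb (insert v A) (insert v A)) (gsw v w a b x) y :=
              (GRel_equiv _).trans ((GRel_equiv _).symm
                (GRel_gsw hval (hsub (Finset.mem_insert_of_mem hwA) haA hbA))) hxy
            have hlt : rowDist v (gsw v w a b x).1 y.1 < rowDist v x.1 y.1 := by
              apply rowDist_lt (c := a) (c' := b)
              · intro k hk hk'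
                rw [gconn_row hval, if_neg (by tauto)]
              · rw [gconn_row hval, if_pos (Or.inl rfl), h1, h2]; rfl
              · rw [gconn_row hval, if_pos (Or.inr rfl), h3, h4]; rfl
              · rw [h1, h2]; simp
            rw [← e1]
            exact ihm _ (hm ▸ hlt) _ _ hrel rfl
          · have hval : GValid y v w b a := ⟨⟨h4, h2, a2, a1⟩, hva, hwb⟩
            have e1 : f (gsw v w b a y) = f y := hf y v w b a hval
            have hrel : GRel (Zb (insert v A) (insert v A)) x (gsw v w b a y) :=
              (GRel_equiv _).trans hxy
                (GRel_gsw hval (hsub (Finset.mem_insert_of_mem hwA) hbA haA))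
            have hlt : rowDist v x.1 (gsw v w b a y).1 < rowDist v x.1 y.1 := by
              rw [rowDist_comm v x.1, rowDist_comm v x.1]
              apply rowDist_lt (c := a) (c' := b)
              · intro k hk hk'
                rw [gconn_row hval, if_neg (by tauto)]
              · rw [gconn_row hval, if_pos (Or.inr rfl), h1, h2]; rfl
              · rw [gconn_row hval, if_pos (Or.inl rfl), h3, h4]; rfl
              · rw [h1, h2]; simp
            rw [← e1]
            exact ihm _ (hm ▸ hlt) _ _ hrel rfl
        intro x y hxy hm
        by_cases hall : ∀ k, x.1 v k = y.1 v k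
        · apply ih x y
          refine ⟨fun i k hik => ?_, hxy.2.1, hxy.2.2⟩
          by_cases hi : i = v
          · subst hi; exact hall k
          · by_cases hk : k = v
            · subst hk
              rw [x.symm, y.symm]
              exact hall i
            · apply hxy.1 i k
              rw [mem_Zb] at hik ⊢
              simp only [mem_insert, hi, hk, false_or]
              exact hik
        · push Not at hall
          obtain ⟨a, ha⟩ := hall
          cases e1 : x.1 v a <;> cases e2 : y.1 v a
          · rw [e1, e2] at ha; exact absurd rfl ha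
          · exact (main y x ((GRel_equiv _).symm hxy) (by rw [rowDist_comm]; exact hm) a e2 e1).symm
          · exact main x y hxy hm a e1 e2
          · rw [e1, e2] at ha; exact absurd rfl ha
    intro x y hxy
    exact claim _ x y hxy rfl

theorem g_conn (f : Gph V → ℝ)
    (hf : ∀ x r s k l, GValid x r s k l → f (gsw r s k l x) = f x) :
    Inv (GRel (Zb univ univ)) f := gconn_aux f hf univ

end Vale.Agent.P335
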