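import Vale.Agent.P335.StageB
import Vale.Agent.P335.Abstract
import Vale.Agent.P335.Connect

/-!
# The sharp three-row inequality
-/

set_option linter.unusedSectionVars false
set_option linter.unusedSimpArgs false

namespace Vale.Agent.P335

open Finset

variable {ι κ : Type*} [Fintype ι] [DecidableEq ι] [Fintype κ] [DecidableEq κ]

theorem sum_powersetCard_two_eq (T : Finset ι) (hT : T.card = 3) (F : Finset ι → ℝ) :
    ∑ p ∈ powersetCard 2 T, F p = ∑ u ∈ T, F (T.erase u) := by
  symm
  refine Finset.sum_nbij (fun u => T.erase u) ?_ ?_ ?_ (fun _ _ => rfl)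
  · intro u hu
    rw [mem_powersetCard]
    exact ⟨erase_subset _ _, by rw [card_erase_of_mem hu, hT]⟩
  · intro u hu v hv huv
    simp only at huv
    by_contra hne
    have h1 : u ∈ T.erase v := mem_erase.2 ⟨hne, hu⟩
    rw [← huv] at h1
    exact (notMem_erase u T) h1
  · intro p hp
    have hp' := mem_powersetCard.1 hp
    have hc : (T \ p).card = 1 := by rw [card_sdiff_of_subset hp'.1, hT, hp'.2]
    obtain ⟨u, hu⟩ := card_eq_one.1 hc
    have hu1 : u ∈ T \ p := by rw [hu]; exact mem_singleton_self u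
    refine ⟨u, (mem_sdiff.1 hu1).1, ?_⟩
    ext x
    simp only [mem_erase]
    constructor
    · rintro ⟨hx1, hx2⟩
      by_contra hxp
      have : x ∈ T \ p := mem_sdiff.2 ⟨hx2, hxp⟩
      rw [hu, mem_singleton] at this
      exact hx1 this
    · intro hx
      refine ⟨?_, hp'.1 hx⟩
      rintro rfl
      exact (mem_sdiff.1 hu1).2 hx

theorem Tri.eq_set {T : Finset ι} (hT : T.card = 3) {u v w : ι} (h : Tri T u v w) :
    T = {u, v, w} := by
  symm
  apply Finset.eq_of_subset_of_card_le
  · intro x hx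
    simp only [mem_insert, mem_singleton] at hx
    rcases hx with rfl | rfl | rfl
    · exact h.1
    · exact h.2.1
    · exact h.2.2.1
  · rw [hT, card_eq_three.2 ⟨u, v, w, h.2.2.2.1, h.2.2.2.2.1, h.2.2.2.2.2, rfl⟩]

theorem Tri.erase_eq {T : Finset ι} (hT : T.card = 3) {u v w : ι} (h : Tri T u v w) :
    T.erase u = {v, w} := by
  rw [h.eq_set hT]
  ext x
  simp only [mem_erase, mem_insert, mem_singleton]
  constructor
  · rintro ⟨h1, h2 | h2 | h2⟩
    · exact absurd h2 h1
    · exact Or.inl h2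
    · exact Or.inr h2
  · rintro (rfl | rfl)
    · exact ⟨h.2.2.2.1.symm, Or.inr (Or.inl rfl)⟩
    · exact ⟨h.2.2.2.2.1.symm, Or.inr (Or.inr rfl)⟩

theorem exists_third {T : Finset ι} (hT : T.card = 3) {r s : ι} (hr : r ∈ T) (hs : s ∈ T)
    (hrs : r ≠ s) : ∃ w, Tri T r s w := by
  have hc : ((T.erase r).erase s).card = 1 := by
    rw [card_erase_of_mem (mem_erase.2 ⟨hrs.symm, hs⟩), card_erase_of_mem hr, hT]
  obtain ⟨w, hw⟩ := card_eq_one.1 hc
  have hw1 : w ∈ (T.erase r).erase s := by rw [hw]; exact mem_singleton_self w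
  simp only [mem_erase] at hw1
  exact ⟨w, hr, hs, hw1.2.2, hrs, fun h => hw1.2.1 h.symm, fun h => hw1.1 h.symm⟩

theorem three_row_ev (T : Finset ι) (hT : T.card = 3) (l : ℝ) (f : Mat ι κ → ℝ) (hf : f ≠ 0)
    (hH : (∑ u ∈ T, avg (Rel ((T.erase u) ×ˢ (univ : Finset κ))) f)
      - avg (Rel (T ×ˢ (univ : Finset κ))) f = l • f) : l ≤ 2 := by
  by_contra hl
  rw [not_le] at hl
  set RT : Mat ι κ → Mat ι κ → Prop := Rel (T ×ˢ (univ : Finset κ)) with hRT
  set Ru : ι → Mat ι κ → Mat ι κ → Prop := fun u => Rel ((T.erase u) ×ˢ (univ : Finset κ)) with hRu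
  have eT : Equivalence RT := Rel_equiv _
  have eU : ∀ u, Equivalence (Ru u) := fun u => Rel_equiv _
  have hle : ∀ u x y, Ru u x y → RT x y := fun u x y h =>
    Rel_mono (Finset.product_subset_product_left (erase_subset _ _)) h
  have avg_sum : ∀ (R : Mat ι κ → Mat ι κ → Prop) (s : Finset ι) (F : ι → Mat ι κ → ℝ),
      avg R (∑ u ∈ s, F u) = ∑ u ∈ s, avg R (F u) := by
    intro R s F
    exact map_sum (avgL R) F s
  -- step 1 : the coarse average vanishes
  have h1 : avg RT f = 0 := by
    have := congrArg (avg RT) hH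
    rw [avg_sub, avg_sum, avg_idem eT, avg_smul] at this
    have e : ∑ u ∈ T, avg RT (avg (Ru u) f) = (3 : ℝ) • avg RT f := by
      rw [Finset.sum_congr rfl (fun u _ => avg_avg_of_le' (eU u) eT (hle u) f), Finset.sum_const, hT]
      funext x
      simp only [Pi.smul_apply, nsmul_eq_mul, smul_eq_mul]
      norm_num
    rw [e] at this
    have h2 : (l - 2) • avg RT f = 0 := by
      rw [sub_smul, ← this]
      funext x; simp; ring
    rcases smul_eq_zero.1 h2 with h3 | h3
    · linarith
    · exact h3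
  rw [h1, sub_zero] at hH
  set ψ : ι → Mat ι κ → ℝ := fun u => avg (Ru u) f with hψ
  have hS : Sys T (l - 1) ψ := by
    constructor
    · intro u v w ht
      have : (R2 v w : Mat ι κ → Mat ι κ → Prop) = Ru u := by
        rw [hRu]; simp only; rw [ht.erase_eq hT]
      rw [this]
      exact avg_inv (eU u) f
    · intro u v w ht M
      have hR : (R2 v w : Mat ι κ → Mat ι κ → Prop) = Ru u := by
        rw [hRu]; simp only; rw [ht.erase_eq hT]
      rw [hR]
      have h3 := congrArg (avg (Ru u)) hH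
      rw [avg_sum, avg_smul] at h3
      have hsum : ∑ x ∈ T, avg (Ru u) (avg (Ru x) f)
          = avg (Ru u) f + (avg (Ru u) (ψ v) + avg (Ru u) (ψ w)) := by
        rw [ht.eq_set hT, Finset.sum_insert (by simp [ht.2.2.2.1, ht.2.2.2.2.1]),
          Finset.sum_insert (by simp [ht.2.2.2.2.2]), Finset.sum_singleton, avg_idem (eU u)]
      rw [hsum] at h3
      have h4 := congrFun h3 M
      have h5 : avg (Ru u) (fun N => ψ v N + ψ w N) M = avg (Ru u) (ψ v) M + avg (Ru u) (ψ w) M :=
        congrFun (avg_add (Ru u) (ψ v) (ψ w)) M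
      rw [h5]
      simp only [Pi.add_apply, Pi.smul_apply, smul_eq_mul] at h4
      have : ψ u M = avg (Ru u) f M := rfl
      rw [this]
      linarith
  have hμ : 1 < l - 1 := by linarith
  -- f is invariant under switches in T
  have hinv : ∀ M r s c c', r ∈ T → s ∈ T → Valid M r s c c' → f (sw r s c c' M) = f M := by
    intro M r s c c' hr hs hV
    obtain ⟨w, ht⟩ := exists_third hT hr hs hV.ne_row
    have g1 : ψ r (sw r s c c' M) = ψ r M := grad_vanish hS hμ ht hV
    have g2 : ψ s (sw r s c c' M) = ψ s M := by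
      have := grad_vanish hS hμ ht.s12 hV.symm
      rwa [sw_comm_rows, sw_comm_cols] at this
    have g3 : ψ w (sw r s c c' M) = ψ w M := (hS.inv w r s ht.rot' M _ (R2_sw hV)).symm
    have hsum : ∀ N, l * f N = ψ r N + (ψ s N + ψ w N) := by
      intro N
      have := congrFun hH N
      rw [ht.eq_set hT, Finset.sum_insert (by simp [ht.2.2.2.1, ht.2.2.2.2.1]),
          Finset.sum_insert (by simp [ht.2.2.2.2.2]), Finset.sum_singleton] at this
      simp only [Pi.add_apply, Pi.smul_apply, smul_eq_mul] at this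
      exact this.symm
    have h6 : l * f (sw r s c c' M) = l * f M := by rw [hsum, hsum, g1, g2, g3]
    have hl0 : l ≠ 0 := by linarith
    exact mul_left_cancel₀ hl0 h6
  have h7 : Inv RT f := switch_connected T f hinv
  have h8 : avg RT f = f := avg_of_inv eT h7
  exact hf (h8.symm.trans h1)

theorem three_row (T : Finset ι) (hT : T ∈ powersetCard 3 (univ : Finset ι)) (f : Mat ι κ → ℝ) :
    ip f (f - avg (Rel (T ×ˢ (univ : Finset κ))) f) ≤
      ∑ p ∈ powersetCard 2 T, ip f (f - avg (Rel (p ×ˢ (univ : Finset κ))) f) := by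
  have hT3 : T.card = 3 := (mem_powersetCard.1 hT).2
  rw [sum_powersetCard_two_eq T hT3]
  set H : (Mat ι κ → ℝ) →ₗ[ℝ] (Mat ι κ → ℝ) :=
    (∑ u ∈ T, avgL (Rel ((T.erase u) ×ˢ (univ : Finset κ)))) - avgL (Rel (T ×ˢ (univ : Finset κ)))
    with hHdef
  have hHapp : ∀ g, H g = (∑ u ∈ T, avg (Rel ((T.erase u) ×ˢ (univ : Finset κ))) g)
      - avg (Rel (T ×ˢ (univ : Finset κ))) g := by
    intro g
    rw [hHdef, LinearMap.sub_apply, LinearMap.sum_apply]
    rfl
  have hsym : ∀ g g', ip (H g) g' = ip g (H g') := by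
    intro g g'
    rw [hHapp, hHapp, ip_sub_left, ip_sub_right, ip_sum_left, ip_sum_right,
      avg_symm (Rel_equiv _)]
    congr 1
    exact Finset.sum_congr rfl (fun u _ => avg_symm (Rel_equiv _) g g')
  have hray := rayleigh H hsym 2 (fun l g hg hl => by
    rw [hHapp] at hl
    exact three_row_ev T hT3 l g hg hl) f
  rw [hHapp, ip_sub_left, ip_sum_left] at hray
  have e1 : ∑ u ∈ T, ip f (f - avg (Rel ((T.erase u) ×ˢ (univ : Finset κ))) f)
      = 3 * ip f f - ∑ u ∈ T, ip (avg (Rel ((T.erase u) ×ˢ (univ : Finset κ))) f) f := by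
    rw [Finset.sum_congr rfl (fun u _ => by rw [ip_sub_right, ip_comm f (avg _ f)]),
      Finset.sum_sub_distrib, Finset.sum_const, hT3]
    simp
  rw [e1, ip_sub_right, ip_comm f (avg _ f)]
  linarith

end Vale.Agent.P335
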