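import Vale.Agent.P335.GBase
import Vale.Agent.P335.GAbs
import Vale.Agent.P335.ThreeRow

/-!
# Encoding the stars of a small vertex set as rows of a 0-1 matrix with two virtual columns
-/

set_option linter.unusedSectionVars false

namespace Vale.Agent.P335

open Finset

variable {V : Type*} [Fintype V] [DecidableEq V]

/-- degree of `i` inside `S` -/
def degIn (S : Finset V) (x : Gph V) (i : V) : ℕ := ∑ k ∈ S, (x.1 i k).toNat

/-- the encoding: the columns of `S` are emptied, the rows of `S` get two virtual cells recording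
their degree inside `S` in unary -/
def enc (S : Finset V) (x : Gph V) : Mat V (V ⊕ Bool) := fun i c =>
  match c with
  | Sum.inl k => if k ∈ S then false else x.1 i k
  | Sum.inr false => decide (i ∈ S ∧ 1 ≤ degIn S x i)
  | Sum.inr true => decide (i ∈ S ∧ 2 ≤ degIn S x i)

theorem enc_inl (S : Finset V) (x : Gph V) (i k : V) :
    enc S x i (Sum.inl k) = if k ∈ S then false else x.1 i k := rfl

theorem enc_inr_false (S : Finset V) (x : Gph V) (i : V) :
    enc S x i (Sum.inr false) = decide (i ∈ S ∧ 1 ≤ degIn S x i) := rfl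

theorem enc_inr_true (S : Finset V) (x : Gph V) (i : V) :
    enc S x i (Sum.inr true) = decide (i ∈ S ∧ 2 ≤ degIn S x i) := rfl

theorem gph_rs_eq_cs (x : Gph V) (i : V) : rs x.1 i = cs x.1 i := by
  unfold rs cs
  exact Finset.sum_congr rfl fun k _ => by rw [x.symm]

theorem enc_rs_split (S : Finset V) (x : Gph V) (i : V) :
    rs x.1 i = degIn S x i + ∑ k, (if k ∈ S then false else x.1 i k).toNat := by
  unfold rs degIn
  have e : ∀ k, (x.1 i k).toNat = (if k ∈ S then (x.1 i k).toNat else 0)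
      + (if k ∈ S then false else x.1 i k).toNat := by
    intro k
    split_ifs <;> simp
  rw [Finset.sum_congr rfl fun k _ => e k, Finset.sum_add_distrib, Finset.sum_ite_mem,
    Finset.univ_inter]

theorem enc_rs (S : Finset V) (x : Gph V) (i : V) :
    rs (enc S x) i = (∑ k, (if k ∈ S then false else x.1 i k).toNat)
      + ((decide (i ∈ S ∧ 2 ≤ degIn S x i)).toNat + (decide (i ∈ S ∧ 1 ≤ degIn S x i)).toNat) := by
  unfold rs
  rw [Fintype.sum_sum_type, Fintype.sum_bool]
  rfl

theorem degIn_le (S : Finset V) (x : Gph V) {i : V} (hi : i ∈ S) :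
    degIn S x i + 1 ≤ S.card := by
  unfold degIn
  rw [← Finset.add_sum_erase S _ hi, x.diag]
  have h1 : ∑ k ∈ S.erase i, (x.1 i k).toNat ≤ ∑ _k ∈ S.erase i, 1 :=
    Finset.sum_le_sum fun k _ => Bool.toNat_le _
  rw [Finset.sum_const, smul_eq_mul, mul_one, Finset.card_erase_of_mem hi] at h1
  have := Finset.card_pos.2 ⟨i, hi⟩
  simp only [Bool.toNat_false]
  omega

/-- rows of `S` keep their sums when `S` has at most three elements -/
theorem enc_rs_in {S : Finset V} (hS : S.card ≤ 3) (x : Gph V) {i : V} (hi : i ∈ S) :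
    rs (enc S x) i = rs x.1 i := by
  rw [enc_rs, enc_rs_split S x i]
  have := degIn_le S x hi
  by_cases h1 : 1 ≤ degIn S x i <;> by_cases h2 : 2 ≤ degIn S x i <;> simp [hi, h1, h2] <;> omega

theorem enc_rs_out (S : Finset V) (x : Gph V) {i : V} (hi : i ∉ S) :
    rs (enc S x) i = ∑ k, (if k ∈ S then false else x.1 i k).toNat := by
  rw [enc_rs]
  simp [hi]

theorem enc_cs_out (S : Finset V) (x : Gph V) {k : V} (hk : k ∉ S) :
    cs (enc S x) (Sum.inl k) = cs x.1 k := by
  unfold cs
  exact Finset.sum_congr rfl fun i _ => by rw [enc_inl, if_neg hk]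

theorem enc_cs_in (S : Finset V) (x : Gph V) {k : V} (hk : k ∈ S) :
    cs (enc S x) (Sum.inl k) = 0 := by
  unfold cs
  exact Finset.sum_eq_zero fun i _ => by rw [enc_inl, if_pos hk]; rfl

theorem enc_cs_false (S : Finset V) (x : Gph V) :
    cs (enc S x) (Sum.inr false) = ∑ i ∈ S, (decide (1 ≤ degIn S x i)).toNat := by
  unfold cs
  have e : ∀ i, (enc S x i (Sum.inr false)).toNat
      = if i ∈ S then (decide (1 ≤ degIn S x i)).toNat else 0 := by
    intro i
    rw [enc_inr_false]
    by_cases hi : i ∈ S <;> simp [hi]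
  rw [Finset.sum_congr rfl fun i _ => e i, Finset.sum_ite_mem, Finset.univ_inter]

theorem enc_cs_true (S : Finset V) (x : Gph V) :
    cs (enc S x) (Sum.inr true) = ∑ i ∈ S, (decide (2 ≤ degIn S x i)).toNat := by
  unfold cs
  have e : ∀ i, (enc S x i (Sum.inr true)).toNat
      = if i ∈ S then (decide (2 ≤ degIn S x i)).toNat else 0 := by
    intro i
    rw [enc_inr_true]
    by_cases hi : i ∈ S <;> simp [hi]
  rw [Finset.sum_congr rfl fun i _ => e i, Finset.sum_ite_mem, Finset.univ_inter]

theorem enc_out_sum (S : Finset V) (z : Gph V) (i : V) :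
    ∑ k, (if k ∈ S then false else z.1 i k).toNat = ∑ k ∈ Sᶜ, (z.1 i k).toNat := by
  have e : ∀ k, (if k ∈ S then false else z.1 i k).toNat
      = if k ∈ Sᶜ then (z.1 i k).toNat else 0 := by
    intro k
    by_cases hk : k ∈ S <;> simp [hk]
  rw [Finset.sum_congr rfl fun k _ => e k, Finset.sum_ite_mem, Finset.univ_inter]

/-- the number of (ordered) edges inside `S` is constant on a star class -/
theorem enc_inner_const (S : Finset V) {x y : Gph V} (h : GRel (Zb S univ) x y) :
    ∑ i ∈ S, degIn S x i = ∑ i ∈ S, degIn S y i := by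
  have bal : ∀ z : Gph V, (∑ i ∈ S, degIn S z i) + ∑ i ∈ Sᶜ, rs z.1 i
      = (∑ i ∈ S, rs z.1 i) + ∑ i ∈ Sᶜ, ∑ k, (if k ∈ S then false else z.1 i k).toNat := by
    intro z
    have e1 : ∑ i ∈ S, rs z.1 i = ∑ i ∈ S, degIn S z i
        + ∑ i ∈ S, ∑ k, (if k ∈ S then false else z.1 i k).toNat := by
      rw [← Finset.sum_add_distrib]
      exact Finset.sum_congr rfl fun i _ => enc_rs_split S z i
    have e2 : ∑ i ∈ Sᶜ, rs z.1 i = ∑ i ∈ Sᶜ, degIn S z i
        + ∑ i ∈ Sᶜ, ∑ k, (if k ∈ S then false else z.1 i k).toNat := by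
      rw [← Finset.sum_add_distrib]
      exact Finset.sum_congr rfl fun i _ => enc_rs_split S z i
    have e3 : ∑ i ∈ S, ∑ k, (if k ∈ S then false else z.1 i k).toNat
        = ∑ i ∈ Sᶜ, degIn S z i := by
      unfold degIn
      rw [Finset.sum_congr rfl fun i _ => enc_out_sum S z i, Finset.sum_comm]
      exact Finset.sum_congr rfl fun i _ => Finset.sum_congr rfl fun k _ => by rw [z.symm]
    rw [e1, e2, e3]
    ring
  have b1 := bal x
  have b2 := bal y
  have c1 : ∑ i ∈ Sᶜ, rs x.1 i = ∑ i ∈ Sᶜ, rs y.1 i :=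
    Finset.sum_congr rfl fun i _ => h.2.1 i
  have c2 : ∑ i ∈ S, rs x.1 i = ∑ i ∈ S, rs y.1 i :=
    Finset.sum_congr rfl fun i _ => h.2.1 i
  have c3 : ∑ i ∈ Sᶜ, ∑ k, (if k ∈ S then false else x.1 i k).toNat
      = ∑ i ∈ Sᶜ, ∑ k, (if k ∈ S then false else y.1 i k).toNat := by
    refine Finset.sum_congr rfl fun i hi => Finset.sum_congr rfl fun k _ => ?_
    by_cases hk : k ∈ S
    · simp [hk]
    · rw [if_neg hk, if_neg hk, h.1 i k]
      rw [mem_Zb]
      simp [Finset.mem_compl.1 hi, hk]
  omega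

/-- the parts of `enc3_T1` that hold for every `S` with at most three elements: everything except
the sums of the two virtual columns -/
theorem enc_T1_core {S : Finset V} (hS : S.card ≤ 3) {x y : Gph V} (h : GRel (Zb S univ) x y)
    (hf : cs (enc S x) (Sum.inr false) = cs (enc S y) (Sum.inr false))
    (ht : cs (enc S x) (Sum.inr true) = cs (enc S y) (Sum.inr true)) :
    Rel (S ×ˢ (univ : Finset (V ⊕ Bool))) (enc S x) (enc S y) := by
  have hcell : ∀ i k, i ∉ S → k ∉ S → x.1 i k = y.1 i k := by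
    intro i k hi hk
    apply h.1 i k
    rw [mem_Zb]
    simp [hi, hk]
  refine ⟨?_, ?_, ?_⟩
  · intro i c hic
    have hi : i ∉ S := by
      intro hi
      exact hic (by simp [hi])
    rcases c with k | b
    · rw [enc_inl, enc_inl]
      by_cases hk : k ∈ S
      · rw [if_pos hk, if_pos hk]
      · rw [if_neg hk, if_neg hk, hcell i k hi hk]
    · cases b
      · rw [enc_inr_false, enc_inr_false]; simp [hi]
      · rw [enc_inr_true, enc_inr_true]; simp [hi]
  · intro i
    by_cases hi : i ∈ S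
    · rw [enc_rs_in hS x hi, enc_rs_in hS y hi]
      exact h.2.1 i
    · rw [enc_rs_out S x hi, enc_rs_out S y hi]
      refine Finset.sum_congr rfl fun k _ => ?_
      by_cases hk : k ∈ S
      · rw [if_pos hk, if_pos hk]
      · rw [if_neg hk, if_neg hk, hcell i k hi hk]
  · intro c
    rcases c with k | b
    · by_cases hk : k ∈ S
      · rw [enc_cs_in S x hk, enc_cs_in S y hk]
      · rw [enc_cs_out S x hk, enc_cs_out S y hk]
        exact h.2.2 k
    · cases b
      · exact hf
      · exact ht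

theorem sum_three {u v w : V} (huv : u ≠ v) (huw : u ≠ w) (hvw : v ≠ w) (F : V → ℕ) :
    ∑ i ∈ ({u, v, w} : Finset V), F i = F u + F v + F w := by
  rw [Finset.sum_insert (by simp [huv, huw]), Finset.sum_pair hvw]
  ring

end Vale.Agent.P335
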