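import Vale.Agent.P335.GMain
import Vale.Agent.P335.Chain
import Vale.Agent.P335.Assemble

/-!
# Transfer of the switch Poincare inequality to `Omega d`
-/

set_option linter.unusedSectionVars false
set_option linter.unusedSimpArgs false

namespace Vale.Agent.P335

open Finset

open Classical in
/-- the adjacency matrix of a simple graph -/
noncomputable def toG {n : ℕ} (G : SimpleGraph (Fin n)) : Gph (Fin n) :=
  ⟨fun u v => decide (G.Adj u v), by
    constructor
    · intro i k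
      simp only [G.adj_comm]
    · intro i
      simp⟩

/-- the 4-tuple (r, k, l, s) -/
def gTup {n : ℕ} (r s k l : Fin n) (h : r ≠ s ∧ k ≠ l ∧ r ≠ k ∧ r ≠ l ∧ s ≠ k ∧ s ≠ l) :
    Fin 4 ↪ Fin n :=
  ⟨![r, k, l, s], by
    obtain ⟨a1, a2, a3, a4, a5, a6⟩ := h
    intro i j hij
    fin_cases i <;> fin_cases j <;> simp at hij ⊢ <;>
      first
        | exact absurd hij a1 | exact absurd hij a2 | exact absurd hij a3 | exact absurd hij a4
        | exact absurd hij a5 | exact absurd hij a6 | exact absurd hij.symm a1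
        | exact absurd hij.symm a2 | exact absurd hij.symm a3 | exact absurd hij.symm a4
        | exact absurd hij.symm a5 | exact absurd hij.symm a6⟩

theorem toG_true {n : ℕ} {G : SimpleGraph (Fin n)} {u v : Fin n} :
    (toG G).1 u v = true ↔ G.Adj u v := by
  classical
  simp [toG]

theorem toG_false {n : ℕ} {G : SimpleGraph (Fin n)} {u v : Fin n} :
    (toG G).1 u v = false ↔ ¬ G.Adj u v := by
  classical
  simp [toG]

theorem toG_step {n : ℕ} {d : Fin n → ℕ} (G : Omega d) {r s k l : Fin n}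
    (hv : GValid (toG G.1) r s k l) :
    toG (stepO G (gTup r s k l hv.distinct)).1 = gsw r s k l (toG G.1) := by
  classical
  obtain ⟨a1, a2, a3, a4, a5, a6⟩ := hv.distinct
  have b1 : G.1.Adj r k := toG_true.1 hv.1.1
  have b2 : ¬ G.1.Adj r l := toG_false.1 hv.1.2.1
  have b3 : ¬ G.1.Adj s k := toG_false.1 hv.1.2.2.1
  have b4 : G.1.Adj s l := toG_true.1 hv.1.2.2.2
  have e : (stepO G (gTup r s k l hv.distinct)).1 = switchGraph G.1 r k l s := by
    show step G.1 _ = _
    unfold step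
    rw [if_pos]
    · rfl
    · exact ⟨b1, b4.symm, b2, fun h => b3 h.symm⟩
  rw [e]
  apply Gph.ext'
  intro i j
  rw [gsw_val ⟨a3, a4, a5, a6⟩, gswM_apply r s k l _ i j ⟨a3, a4, a5, a6⟩]
  rw [Bool.eq_iff_iff, toG_true, chain_adj]
  simp only [Sym2.eq_iff, ne_eq]
  by_cases hc : ((i = r ∨ i = s) ∧ (j = k ∨ j = l)) ∨ ((i = k ∨ i = l) ∧ (j = r ∨ j = s))
  · rw [if_pos hc]
    rcases hc with ⟨rfl | rfl, rfl | rfl⟩ | ⟨rfl | rfl, rfl | rfl⟩
    · simp [toG_true.2 b1, a1, a2, a3, a4, a5, a6, a1.symm, a2.symm, a3.symm, a4.symm, a5.symm, a6.symm]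
    · simp [toG_false.2 b2, a1, a2, a3, a4, a5, a6, a1.symm, a2.symm, a3.symm, a4.symm, a5.symm, a6.symm]
    · simp [toG_false.2 b3, a1, a2, a3, a4, a5, a6, a1.symm, a2.symm, a3.symm, a4.symm, a5.symm, a6.symm]
    · simp [toG_true.2 b4, a1, a2, a3, a4, a5, a6, a1.symm, a2.symm, a3.symm, a4.symm, a5.symm, a6.symm]
    · simp [toG_true.2 b1.symm, a1, a2, a3, a4, a5, a6, a1.symm, a2.symm, a3.symm, a4.symm, a5.symm, a6.symm]
    · simp [toG_false.2 (fun h => b3 h.symm), a1, a2, a3, a4, a5, a6, a1.symm, a2.symm, a3.symm, a4.symm, a5.symm, a6.symm]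
    · simp [toG_false.2 (fun h => b2 h.symm), a1, a2, a3, a4, a5, a6, a1.symm, a2.symm, a3.symm, a4.symm, a5.symm, a6.symm]
    · simp [toG_true.2 b4.symm, a1, a2, a3, a4, a5, a6, a1.symm, a2.symm, a3.symm, a4.symm, a5.symm, a6.symm]
  · rw [if_neg hc, toG_true]
    constructor
    · rintro (h | h)
      · exact h.1
      · exfalso; apply hc; tauto
    · intro h
      left
      refine ⟨h, ?_, ?_⟩ <;> intro h' <;> apply hc <;> tauto

open Classical in
theorem g_poincare_switch {V : Type*} [Fintype V] [DecidableEq V] (M0 : Gph V) (f : Gph V → ℝ) :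
    ∑ M ∈ cls (GRel (Zb univ univ)) M0, ∑ M' ∈ cls (GRel (Zb univ univ)) M0, (f M - f M') ^ 2 ≤
      ((cls (GRel (Zb univ univ)) M0).card : ℝ) * ∑ M ∈ cls (GRel (Zb univ univ)) M0,
        ∑ r, ∑ s, ∑ c, ∑ c',
        (if GValid M r s c c' then (f (gsw r s c c' M) - f M) ^ 2 else 0) := by
  set R : Gph V → Gph V → Prop := GRel (Zb (univ : Finset V) univ) with hRdef
  have hR : Equivalence R := GRel_equiv _
  set C := cls R M0 with hC
  set g : Gph V → ℝ := fun M => if M ∈ C then f M else 0 with hg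
  have hcard : 0 < (C.card : ℝ) := card_cls_pos hR M0
  have hcls : ∀ M ∈ C, cls R M = C := fun M hM => (cls_eq_of_rel hR (mem_cls.1 hM)).symm
  have hout : ∀ M, M ∉ C → ∀ N ∈ cls R M, N ∉ C := by
    intro M hM N hN hNC
    apply hM
    exact mem_cls.2 (hR.trans (mem_cls.1 hNC) (hR.symm (mem_cls.1 hN)))
  have hsw : ∀ M r s c c', GValid M r s c c' → (gsw r s c c' M ∈ C ↔ M ∈ C) := by
    intro M r s c c' hV
    have hrel : R M (gsw r s c c' M) :=
      GRel_gsw hV (Zb_mono (Finset.subset_univ _) (Finset.subset_univ _))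
    constructor
    · intro h; exact mem_cls.2 (hR.trans (mem_cls.1 h) (hR.symm hrel))
    · intro h; exact mem_cls.2 (hR.trans (mem_cls.1 h) hrel)
  have hop := g_operator g
  -- left side
  have hL : ip g (g - avg R g)
      = (∑ M ∈ C, ∑ M' ∈ C, (f M - f M') ^ 2) / (2 * (C.card : ℝ)) := by
    rw [ip_sub_avg hR, Finset.sum_div]
    rw [← Finset.sum_subset (Finset.subset_univ C)]
    · refine Finset.sum_congr rfl (fun M hM => ?_)
      rw [hcls M hM]
      congr 1
      refine Finset.sum_congr rfl (fun N hN => ?_)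
      rw [hg]; simp only; rw [if_pos hM, if_pos hN]
    · intro M _ hM
      have : ∑ y ∈ cls R M, (g M - g y) ^ 2 = 0 := by
        refine Finset.sum_eq_zero (fun N hN => ?_)
        rw [hg]; simp only; rw [if_neg hM, if_neg (hout M hM N hN)]; simp
      rw [this, zero_div]
  -- right side
  have hRt : ∑ r, ∑ s, ∑ c, ∑ c', ∑ M,
        (if GValid M r s c c' then (g (gsw r s c c' M) - g M) ^ 2 else 0)
      = ∑ M ∈ C, ∑ r, ∑ s, ∑ c, ∑ c',
        (if GValid M r s c c' then (f (gsw r s c c' M) - f M) ^ 2 else 0) := by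
    have e : ∀ r s c c', ∑ M, (if GValid M r s c c' then (g (gsw r s c c' M) - g M) ^ 2 else 0)
        = ∑ M ∈ C, (if GValid M r s c c' then (f (gsw r s c c' M) - f M) ^ 2 else 0) := by
      intro r s c c'
      rw [← Finset.sum_subset (Finset.subset_univ C)]
      · refine Finset.sum_congr rfl (fun M hM => ?_)
        by_cases hV : GValid M r s c c'
        · rw [if_pos hV, if_pos hV, hg]; simp only
          rw [if_pos hM, if_pos ((hsw M r s c c' hV).2 hM)]
        · rw [if_neg hV, if_neg hV]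
      · intro M _ hM
        by_cases hV : GValid M r s c c'
        · rw [if_pos hV, hg]; simp only
          rw [if_neg hM, if_neg (fun h => hM ((hsw M r s c c' hV).1 h))]; simp
        · rw [if_neg hV]
    simp only [e]
    symm
    rw [Finset.sum_comm]
    refine Finset.sum_congr rfl (fun r _ => ?_)
    rw [Finset.sum_comm]
    refine Finset.sum_congr rfl (fun s _ => ?_)
    rw [Finset.sum_comm]
    refine Finset.sum_congr rfl (fun c _ => ?_)
    rw [Finset.sum_comm]
  rw [hRt] at hop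
  have hop' : ip g (g - avg R g) ≤ _ := hop
  rw [hL, div_le_iff₀ (by positivity)] at hop'
  calc _ ≤ _ := hop'
    _ = _ := by ring

theorem toG_inj {n : ℕ} {G G' : SimpleGraph (Fin n)} (h : toG G = toG G') : G = G' := by
  ext u v
  rw [← toG_true, ← toG_true, h]

open Classical in
theorem toG_rs {n : ℕ} (G : SimpleGraph (Fin n)) (v : Fin n) : rs (toG G).1 v = G.degree v := by
  unfold rs
  rw [← SimpleGraph.card_neighborFinset_eq_degree, Finset.card_eq_sum_ones,
    ← Finset.sum_filter_add_sum_filter_not univ (fun u => G.Adj v u)]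
  have e1 : ∑ u ∈ univ.filter (fun u => ¬ G.Adj v u), ((toG G).1 v u).toNat = 0 :=
    Finset.sum_eq_zero (fun u hu => by
      rw [toG_false.2 (Finset.mem_filter.1 hu).2]; rfl)
  rw [e1, add_zero]
  refine Finset.sum_congr ?_ (fun u hu => ?_)
  · ext u; simp
  · rw [toG_true.2 ((SimpleGraph.mem_neighborFinset _ _ _).1 hu)]; rfl

theorem toG_cs {n : ℕ} (x : Gph (Fin n)) (v : Fin n) : cs x.1 v = rs x.1 v := by
  unfold cs rs
  exact Finset.sum_congr rfl (fun u _ => by rw [x.symm])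

/-- the graph of a symmetric matrix -/
def ofG {n : ℕ} (x : Gph (Fin n)) : SimpleGraph (Fin n) where
  Adj u v := x.1 u v = true
  symm := ⟨by
    intro u v h
    show x.1 v u = true
    rw [x.symm]; exact h⟩
  loopless := ⟨by
    intro u h
    have h' : x.1 u u = true := h
    rw [x.diag] at h'
    exact Bool.false_ne_true h'⟩

theorem toG_ofG {n : ℕ} (x : Gph (Fin n)) : toG (ofG x) = x := by
  apply Gph.ext'
  intro i k
  rw [Bool.eq_iff_iff, toG_true]
  exact Iff.rfl

open Classical in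
theorem g_image {n : ℕ} {d : Fin n → ℕ} (G0 : Omega d) :
    cls (GRel (Zb univ univ)) (toG G0.1) = univ.image (fun G : Omega d => toG G.1) := by
  ext x
  rw [mem_cls]
  constructor
  · intro hx
    refine Finset.mem_image.2 ⟨⟨ofG x, fun v => ?_⟩, mem_univ _, toG_ofG x⟩
    have h1 := hx.2.1 v
    rw [toG_rs, G0.2 v] at h1
    have h2 := toG_rs (ofG x) v
    rw [toG_ofG] at h2
    rw [← h2, ← h1]
  · intro hx
    obtain ⟨G, _, rfl⟩ := Finset.mem_image.1 hx
    refine ⟨fun r c hrc => absurd (by simp [mem_Zb]) hrc, fun r => ?_, fun c => ?_⟩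
    · rw [toG_rs, toG_rs, G0.2, G.2]
    · rw [toG_cs, toG_cs, toG_rs, toG_rs, G0.2, G.2]

theorem g_tup_inj {n : ℕ} {r s k l r' s' k' l' : Fin n}
    {h : r ≠ s ∧ k ≠ l ∧ r ≠ k ∧ r ≠ l ∧ s ≠ k ∧ s ≠ l}
    {h' : r' ≠ s' ∧ k' ≠ l' ∧ r' ≠ k' ∧ r' ≠ l' ∧ s' ≠ k' ∧ s' ≠ l'}
    (he : gTup r s k l h = gTup r' s' k' l' h') :
    r = r' ∧ s = s' ∧ k = k' ∧ l = l' := by
  have h0 := congrArg (fun t : Fin 4 ↪ Fin n => t 0) he
  have h1 := congrArg (fun t : Fin 4 ↪ Fin n => t 1) he
  have h2 := congrArg (fun t : Fin 4 ↪ Fin n => t 2) he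
  have h3 := congrArg (fun t : Fin 4 ↪ Fin n => t 3) he
  exact ⟨h0, h3, h1, h2⟩

open Classical in
theorem g_sum_le {n : ℕ} {d : Fin n → ℕ} (G : Omega d)
    (f : Omega d → ℝ) (F : Gph (Fin n) → ℝ)
    (hF : ∀ G : Omega d, F (toG G.1) = f G) :
    ∑ r, ∑ s, ∑ c, ∑ c', (if GValid (toG G.1) r s c c' then
        (F (gsw r s c c' (toG G.1)) - F (toG G.1)) ^ 2 else 0) ≤
      ∑ t, (f (stepO G t) - f G) ^ 2 := by
  have e1 : ∑ r, ∑ s, ∑ c, ∑ c', (if GValid (toG G.1) r s c c' then
        (F (gsw r s c c' (toG G.1)) - F (toG G.1)) ^ 2 else 0)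
      = ∑ q : Fin n × Fin n × Fin n × Fin n,
        (if GValid (toG G.1) q.1 q.2.1 q.2.2.1 q.2.2.2 then
        (F (gsw q.1 q.2.1 q.2.2.1 q.2.2.2 (toG G.1)) - F (toG G.1)) ^ 2 else 0) := by
    simp only [Fintype.sum_prod_type]
  rw [e1, ← Finset.sum_filter, ← Finset.sum_attach]
  set V := univ.filter (fun q : Fin n × Fin n × Fin n × Fin n =>
    GValid (toG G.1) q.1 q.2.1 q.2.2.1 q.2.2.2) with hV
  have hv : ∀ q : {q // q ∈ V}, GValid (toG G.1) q.1.1 q.1.2.1 q.1.2.2.1 q.1.2.2.2 :=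
    fun q => (Finset.mem_filter.1 q.2).2
  let e : {q // q ∈ V} → (Fin 4 ↪ Fin n) := fun q =>
    gTup q.1.1 q.1.2.1 q.1.2.2.1 q.1.2.2.2 (hv q).distinct
  have einj : Function.Injective e := by
    intro q q' h
    obtain ⟨a1, a2, a3, a4⟩ := g_tup_inj h
    apply Subtype.ext
    exact Prod.ext a1 (Prod.ext a2 (Prod.ext a3 a4))
  have e2 : ∀ q ∈ V.attach, (F (gsw q.1.1 q.1.2.1 q.1.2.2.1 q.1.2.2.2 (toG G.1))
      - F (toG G.1)) ^ 2 = (f (stepO G (e q)) - f G) ^ 2 := by
    intro q _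
    rw [← toG_step G (hv q), hF, hF]
  rw [Finset.sum_congr rfl e2, ← Finset.sum_image (f := fun t => (f (stepO G t) - f G) ^ 2)
    (einj.injOn)]
  exact Finset.sum_le_sum_of_subset_of_nonneg (Finset.subset_univ _)
    (fun t _ _ => sq_nonneg _)

theorem g_graph_poincare {n : ℕ} (d : Fin n → ℕ) (f : Omega d → ℝ) :
    ∑ G, ∑ G', (f G - f G') ^ 2 ≤
      (Fintype.card (Omega d) : ℝ) * ∑ G, ∑ t, (f (stepO G t) - f G) ^ 2 := by
  classical
  rcases isEmpty_or_nonempty (Omega d) with hE | ⟨⟨G0⟩⟩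
  · simp
  have hinj : Function.Injective (fun G : Omega d => toG G.1) :=
    fun G G' he => Subtype.ext (toG_inj he)
  have hF : ∀ G : Omega d, Function.extend (fun G : Omega d => toG G.1) f 0 (toG G.1) = f G :=
    fun G => hinj.extend_apply f 0 G
  have key := g_poincare_switch (toG G0.1) (Function.extend (fun G : Omega d => toG G.1) f 0)
  rw [g_image G0, Finset.card_image_of_injective _ hinj, Finset.sum_image hinj.injOn,
    Finset.sum_image hinj.injOn, Finset.card_univ] at key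
  have e1 : ∀ G : Omega d, ∑ M' ∈ univ.image (fun G : Omega d => toG G.1),
      (Function.extend (fun G : Omega d => toG G.1) f 0 (toG G.1)
        - Function.extend (fun G : Omega d => toG G.1) f 0 M') ^ 2
      = ∑ G', (f G - f G') ^ 2 := by
    intro G
    rw [Finset.sum_image hinj.injOn]
    exact Finset.sum_congr rfl (fun G' _ => by rw [hF, hF])
  rw [Finset.sum_congr rfl (fun G _ => e1 G)] at key
  refine key.trans (mul_le_mul_of_nonneg_left ?_ (Nat.cast_nonneg _))
  refine Finset.sum_le_sum (fun G _ => ?_)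
  convert g_sum_le G f _ hF using 1

theorem g_main : ∀ n : ℕ, 4 ≤ n → ∀ d : Fin n → ℕ,
    (∀ G : Omega d, tvDist d (2 * n ^ 6) G ≤ 1 / 4) ∧ tmix d ≤ 2 * n ^ 6 :=
  fun _ hn d => assemble hn d (g_graph_poincare d)

end Vale.Agent.P335
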