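import Mathlib

/-!
# P335, module J0: the abstract Johnson lemma
-/

set_option linter.unusedSectionVars false
set_option linter.unusedVariables false

namespace Vale.Agent.P335

open Finset

theorem jc_sum_sq_diff {α : Type*} (s : Finset α) (a : α → ℝ) :
    ∑ t ∈ s, ∑ j ∈ s, (a t - a j) ^ 2
      = 2 * (s.card : ℝ) * ∑ t ∈ s, a t ^ 2 - 2 * (∑ t ∈ s, a t) ^ 2 := by
  have e : ∀ t, ∑ j ∈ s, (a t - a j) ^ 2
      = (s.card : ℝ) * a t ^ 2 - 2 * a t * (∑ j ∈ s, a j) + ∑ j ∈ s, a j ^ 2 := by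
    intro t
    have : ∀ j, (a t - a j) ^ 2 = a t ^ 2 - 2 * a t * a j + a j ^ 2 := fun j => by ring
    simp_rw [this]
    rw [Finset.sum_add_distrib, Finset.sum_sub_distrib, ← Finset.mul_sum]
    simp
  simp_rw [e]
  rw [Finset.sum_add_distrib, Finset.sum_sub_distrib, ← Finset.mul_sum, ← Finset.sum_mul,
    ← Finset.mul_sum]
  simp
  ring

theorem jc_swap {κ : Type*} [DecidableEq κ] (F : Finset κ) (φ : κ → κ → ℝ) :
    ∑ w ∈ F, ∑ t ∈ F.erase w, φ w t = ∑ t ∈ F, ∑ w ∈ F.erase t, φ w t := by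
  refine Finset.sum_comm' ?_
  intro x y
  simp only [mem_erase]
  constructor
  · rintro ⟨h1, h2, h3⟩
    exact ⟨⟨h2.symm, h1⟩, h3⟩
  · rintro ⟨⟨h1, h2⟩, h3⟩
    exact ⟨h2, h1.symm, h3⟩

/-- sharp Poincare inequality on the triangular graph (ordered form) -/
theorem tri_poincare {κ : Type*} [DecidableEq κ] (F : Finset κ) (g : κ → κ → ℝ)
    (hsym : ∀ t j, g t j = g j t)
    (hmean : ∑ t ∈ F, ∑ j ∈ F.erase t, g t j = 0) :
    (F.card : ℝ) * ∑ t ∈ F, ∑ j ∈ F.erase t, g t j ^ 2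
      ≤ ∑ w ∈ F, ∑ t ∈ F.erase w, ∑ j ∈ F.erase w, (g w t - g w j) ^ 2 := by
  set m : ℝ := (F.card : ℝ) with hm
  set A : κ → ℝ := fun w => ∑ t ∈ F.erase w, g w t with hA
  set S2 : ℝ := ∑ t ∈ F, ∑ j ∈ F.erase t, g t j ^ 2 with hS2
  set X : ℝ := ∑ w ∈ F, A w ^ 2 with hX
  have hA0 : ∑ w ∈ F, A w = 0 := hmean
  have hS2n : 0 ≤ S2 := Finset.sum_nonneg fun t _ => Finset.sum_nonneg fun j _ => sq_nonneg _
  have hXn : 0 ≤ X := Finset.sum_nonneg fun t _ => sq_nonneg _
  have hR : ∑ w ∈ F, ∑ t ∈ F.erase w, ∑ j ∈ F.erase w, (g w t - g w j) ^ 2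
      = 2 * (m - 1) * S2 - 2 * X := by
    have : ∀ w ∈ F, ∑ t ∈ F.erase w, ∑ j ∈ F.erase w, (g w t - g w j) ^ 2
        = 2 * (m - 1) * (∑ t ∈ F.erase w, g w t ^ 2) - 2 * A w ^ 2 := by
      intro w hw
      rw [jc_sum_sq_diff, Finset.cast_card_erase_of_mem hw]
    rw [Finset.sum_congr rfl this, Finset.sum_sub_distrib, ← Finset.mul_sum, ← Finset.mul_sum]
  have id1 : ∑ w ∈ F, ∑ t ∈ F.erase w, (A w + A t) * g w t = 2 * X := by
    have e1 : ∑ w ∈ F, ∑ t ∈ F.erase w, A w * g w t = X := by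
      refine Finset.sum_congr rfl fun w _ => ?_
      rw [← Finset.mul_sum, sq]
    have e2 : ∑ w ∈ F, ∑ t ∈ F.erase w, A t * g w t = X := by
      rw [jc_swap]
      refine Finset.sum_congr rfl fun t _ => ?_
      rw [← Finset.mul_sum, sq]
      congr 1
      exact Finset.sum_congr rfl fun w _ => hsym w t
    have : ∀ w t, (A w + A t) * g w t = A w * g w t + A t * g w t := fun w t => by ring
    simp_rw [this, Finset.sum_add_distrib]
    rw [e1, e2]
    ring
  have id2 : ∑ w ∈ F, ∑ t ∈ F.erase w, (A w + A t) ^ 2 = 2 * (m - 2) * X := by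
    have e1 : ∀ w ∈ F, ∑ t ∈ F.erase w, (A w + A t) ^ 2
        = m * A w ^ 2 + 2 * A w * (∑ t ∈ F, A t) + X - 4 * A w ^ 2 := by
      intro w hw
      rw [Finset.sum_erase_eq_sub hw]
      have : ∀ t, (A w + A t) ^ 2 = A w ^ 2 + 2 * A w * A t + A t ^ 2 := fun t => by ring
      simp_rw [this]
      rw [Finset.sum_add_distrib, Finset.sum_add_distrib, ← Finset.mul_sum]
      simp only [Finset.sum_const, nsmul_eq_mul]
      ring
    rw [Finset.sum_congr rfl e1, hA0]
    simp only [mul_zero, add_zero]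
    rw [Finset.sum_sub_distrib, Finset.sum_add_distrib, ← Finset.mul_sum, ← Finset.mul_sum]
    simp only [Finset.sum_const, nsmul_eq_mul]
    ring
  have key : 2 * X ≤ (m - 2) * S2 := by
    rcases lt_trichotomy F.card 2 with hlt | heq | hgt
    · -- all sums are empty
      have hempty : ∀ w ∈ F, F.erase w = ∅ := by
        intro w hw
        rw [← Finset.card_eq_zero, Finset.card_erase_of_mem hw]
        omega
      have h1 : X = 0 := by
        refine Finset.sum_eq_zero fun w hw => ?_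
        simp [hA, hempty w hw]
      have h2 : S2 = 0 := by
        refine Finset.sum_eq_zero fun w hw => ?_
        simp [hempty w hw]
      rw [h1, h2]
      simp
    · have hm2 : m = 2 := by rw [hm, heq]; norm_num
      rw [hm2] at id2 ⊢
      simp only [sub_self, mul_zero, zero_mul] at id2 ⊢
      have h1 : ∀ w ∈ F, ∀ t ∈ F.erase w, (A w + A t) ^ 2 = 0 := by
        intro w hw
        have h2 := (Finset.sum_eq_zero_iff_of_nonneg
          (fun w _ => Finset.sum_nonneg fun t _ => sq_nonneg (A w + A t))).1 id2 w hw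
        exact (Finset.sum_eq_zero_iff_of_nonneg (fun t _ => sq_nonneg (A w + A t))).1 h2
      have h3 : ∑ w ∈ F, ∑ t ∈ F.erase w, (A w + A t) * g w t = 0 := by
        refine Finset.sum_eq_zero fun w hw => Finset.sum_eq_zero fun t ht => ?_
        have := h1 w hw t ht
        rw [pow_eq_zero_iff (by norm_num)] at this
        rw [this, zero_mul]
      linarith
    · have hm3 : 0 < m - 2 := by
        have : (2 : ℝ) < m := by rw [hm]; exact_mod_cast hgt
        linarith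
      have h0 : 0 ≤ ∑ w ∈ F, ∑ t ∈ F.erase w, ((m - 2) * g w t - (A w + A t)) ^ 2 :=
        Finset.sum_nonneg fun t _ => Finset.sum_nonneg fun j _ => sq_nonneg _
      have e : ∑ w ∈ F, ∑ t ∈ F.erase w, ((m - 2) * g w t - (A w + A t)) ^ 2
          = (m - 2) ^ 2 * S2 - 2 * (m - 2) * (2 * X) + 2 * (m - 2) * X := by
        have : ∀ w t, ((m - 2) * g w t - (A w + A t)) ^ 2
            = (m - 2) ^ 2 * g w t ^ 2 - 2 * (m - 2) * ((A w + A t) * g w t) + (A w + A t) ^ 2 :=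
          fun w t => by ring
        simp_rw [this, Finset.sum_add_distrib, Finset.sum_sub_distrib, ← Finset.mul_sum]
        rw [id1, id2]
      rw [e] at h0
      have h1 : 0 ≤ (m - 2) * ((m - 2) * S2 - 2 * X) := by nlinarith
      have := nonneg_of_mul_nonneg_right h1 hm3
      linarith
  rw [hR]
  nlinarith


theorem jc_ite_mul {Ω : Type*} (C : Finset Ω) (p : Ω → Prop) [DecidablePred p] (x : ℝ) :
    ∑ N ∈ C, (if p N then x else 0) = (∑ N ∈ C, if p N then (1 : ℝ) else 0) * x := by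
  rw [Finset.sum_mul]
  refine Finset.sum_congr rfl fun N _ => ?_
  split_ifs <;> simp

theorem jc_cs {Ω : Type*} (C : Finset Ω) (p : Ω → Prop) [DecidablePred p] (x : Ω → ℝ) :
    (∑ N ∈ C, if p N then x N else 0) ^ 2
      ≤ (∑ N ∈ C, if p N then (1 : ℝ) else 0) * ∑ N ∈ C, if p N then x N ^ 2 else 0 := by
  have h := Finset.sum_mul_sq_le_sq_mul_sq C (fun N => if p N then (1 : ℝ) else 0)
    (fun N => if p N then x N else 0)
  have e1 : ∑ N ∈ C, (if p N then (1 : ℝ) else 0) * (if p N then x N else 0)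
      = ∑ N ∈ C, if p N then x N else 0 :=
    Finset.sum_congr rfl fun N _ => by split_ifs <;> simp
  have e2 : ∑ N ∈ C, (if p N then (1 : ℝ) else 0) ^ 2 = ∑ N ∈ C, if p N then (1 : ℝ) else 0 :=
    Finset.sum_congr rfl fun N _ => by split_ifs <;> simp
  have e3 : ∑ N ∈ C, (if p N then x N else 0) ^ 2 = ∑ N ∈ C, if p N then x N ^ 2 else 0 :=
    Finset.sum_congr rfl fun N _ => by split_ifs <;> simp
  rw [e1, e2, e3] at h
  exact h

/-- number of ordered pairs of columns on which a 0-1 vector differs -/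
theorem jc_count {κ : Type*} [DecidableEq κ] (F : Finset κ) (b : κ → Bool) (a : ℕ)
    (ha : (F.filter (fun k => b k = true)).card = a) :
    ∑ t ∈ F, ∑ j ∈ F.erase t, (if b t ≠ b j then (1 : ℝ) else 0)
      = 2 * (F.card : ℝ) * a - 2 * (a : ℝ) ^ 2 := by
  have e0 : ∀ t ∈ F, ∑ j ∈ F.erase t, (if b t ≠ b j then (1 : ℝ) else 0)
      = ∑ j ∈ F, (if b t ≠ b j then (1 : ℝ) else 0) := by
    intro t _
    exact Finset.sum_erase _ (by simp)
  rw [Finset.sum_congr rfl e0]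
  set u : κ → ℝ := fun k => if b k = true then 1 else 0 with hu
  have hs : ∑ k ∈ F, u k = a := by
    rw [hu, Finset.sum_boole, ha]
  have e1 : ∀ t j, (if b t ≠ b j then (1 : ℝ) else 0) = u t + u j - 2 * (u t * u j) := by
    intro t j
    simp only [hu]
    cases b t <;> cases b j <;> norm_num
  simp_rw [e1]
  simp only [Finset.sum_sub_distrib, Finset.sum_add_distrib, Finset.sum_const, nsmul_eq_mul,
    ← Finset.mul_sum, ← Finset.sum_mul, hs]
  ring


theorem johnson_core {Ω κ : Type*} [DecidableEq κ] (C : Finset Ω) (F : Finset κ)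
    (β : Ω → κ → Bool) (σ : κ → κ → Ω → Ω) (a : ℕ)
    (h1 : ∀ t ∈ F, ∀ j ∈ F, ∀ N ∈ C, σ t j N ∈ C)
    (h2 : ∀ t ∈ F, ∀ j ∈ F, ∀ N ∈ C, σ t j (σ t j N) = N)
    (h3 : ∀ t ∈ F, ∀ j ∈ F, ∀ N ∈ C, ∀ k, β (σ t j N) k = β N (Equiv.swap t j k))
    (h4 : ∀ t ∈ F, ∀ j ∈ F, ∀ N ∈ C, β N t = β N j → σ t j N = N)
    (h5 : ∀ N ∈ C, (F.filter (fun k => β N k = true)).card = a)
    (h6 : ∀ t ∈ F, ∀ j ∈ F, ∀ N ∈ C, σ t j N = σ j t N)
    (f : Ω → ℝ) (H : κ → κ → ℝ) (fb : ℝ)
    (hH : ∀ t ∈ F, ∀ j ∈ F, t ≠ j →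
      (∑ N ∈ C, if β N t ≠ β N j then (1 : ℝ) else 0) * H t j
        = ∑ N ∈ C, if β N t ≠ β N j then f N else 0)
    (hfb : (C.card : ℝ) * fb = ∑ N ∈ C, f N) :
    ∑ t ∈ F, ∑ j ∈ F.erase t, ∑ N ∈ C, (if β N t ≠ β N j then (H t j - fb) ^ 2 else 0)
      ≤ ∑ t ∈ F, ∑ j ∈ F.erase t, ∑ N ∈ C,
          (if β N t ≠ β N j then ((f N - f (σ t j N)) / 2) ^ 2 else 0) := by
  set c : κ → κ → ℝ := fun t j => ∑ N ∈ C, if β N t ≠ β N j then (1 : ℝ) else 0 with hc
  set T : κ → κ → ℝ := fun t j => ∑ N ∈ C, if β N t ≠ β N j then f N else 0 with hT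
  set P : κ → κ → ℝ := fun t j =>
    ∑ N ∈ C, if β N t ≠ β N j then (f N - f (σ t j N)) ^ 2 else 0 with hP
  set Pw : κ → κ → κ → ℝ := fun w t j =>
    ∑ N ∈ C, if β N w ≠ β N t ∧ β N t ≠ β N j then (f N - f (σ t j N)) ^ 2 else 0 with hPw
  have hRHS : ∑ t ∈ F, ∑ j ∈ F.erase t, ∑ N ∈ C,
      (if β N t ≠ β N j then ((f N - f (σ t j N)) / 2) ^ 2 else 0)
      = (1 / 4) * ∑ t ∈ F, ∑ j ∈ F.erase t, P t j := by
    simp only [hP, Finset.mul_sum]
    refine Finset.sum_congr rfl fun t _ => Finset.sum_congr rfl fun j _ =>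
      Finset.sum_congr rfl fun N _ => ?_
    split_ifs
    · ring
    · ring
  have hLHS : ∑ t ∈ F, ∑ j ∈ F.erase t, ∑ N ∈ C,
      (if β N t ≠ β N j then (H t j - fb) ^ 2 else 0)
      = ∑ t ∈ F, ∑ j ∈ F.erase t, c t j * (H t j - fb) ^ 2 :=
    Finset.sum_congr rfl fun t _ => Finset.sum_congr rfl fun j _ => jc_ite_mul C _ _
  have hPn : ∀ t j, 0 ≤ P t j := fun t j => Finset.sum_nonneg fun N _ => by
    split_ifs
    · exact sq_nonneg _
    · exact le_refl _
  have hPwn : ∀ w t j, 0 ≤ Pw w t j := fun w t j => Finset.sum_nonneg fun N _ => by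
    split_ifs
    · exact sq_nonneg _
    · exact le_refl _
  have hPtot : 0 ≤ ∑ t ∈ F, ∑ j ∈ F.erase t, P t j :=
    Finset.sum_nonneg fun t _ => Finset.sum_nonneg fun j _ => hPn t j
  rw [hRHS, hLHS]
  -- invariance of sums under sigma
  have inv : ∀ t ∈ F, ∀ j ∈ F, ∀ G : Ω → ℝ, ∑ N ∈ C, G (σ t j N) = ∑ N ∈ C, G N := by
    intro t ht j hj G
    exact Finset.sum_nbij' (σ t j) (σ t j) (h1 t ht j hj) (h1 t ht j hj) (h2 t ht j hj)
      (h2 t ht j hj) (fun _ _ => rfl)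
  have csym : ∀ t j, c t j = c j t := fun t j =>
    Finset.sum_congr rfl fun N _ => if_congr ne_comm rfl rfl
  have Tsym : ∀ t j, T t j = T j t := fun t j =>
    Finset.sum_congr rfl fun N _ => if_congr ne_comm rfl rfl
  have cA : ∀ w ∈ F, ∀ t ∈ F, ∀ j ∈ F, t ≠ w → j ≠ w → c w t = c w j := by
    intro w hw t ht j hj htw hjw
    have := inv t ht j hj (fun N => if β N w ≠ β N j then (1 : ℝ) else 0)
    rw [hc]
    simp only
    rw [← this]
    refine Finset.sum_congr rfl fun N hN => ?_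
    rw [h3 t ht j hj N hN, h3 t ht j hj N hN, Equiv.swap_apply_of_ne_of_ne htw.symm hjw.symm,
      Equiv.swap_apply_right]
  have call : ∀ t ∈ F, ∀ j ∈ F, ∀ t' ∈ F, ∀ j' ∈ F, t ≠ j → t' ≠ j' → c t j = c t' j' := by
    intro t ht j hj t' ht' j' hj' htj htj'
    by_cases htt : t = t'
    · subst htt
      exact cA t ht j hj j' hj' htj.symm htj'.symm
    · rw [cA t ht j hj t' ht' htj.symm (Ne.symm htt), csym t t']
      exact cA t' ht' t ht j' hj' htt htj'.symm
  by_cases hex : ∃ t ∈ F, ∃ j ∈ F, t ≠ j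
  swap
  · have : ∑ t ∈ F, ∑ j ∈ F.erase t, c t j * (H t j - fb) ^ 2 = 0 := by
      refine Finset.sum_eq_zero fun t ht => Finset.sum_eq_zero fun j hj => ?_
      exact absurd ⟨t, ht, j, (Finset.mem_erase.1 hj).2, (Finset.mem_erase.1 hj).1.symm⟩ hex
    rw [this]
    positivity
  obtain ⟨t0, ht0, j0, hj0, htj0⟩ := hex
  set c0 : ℝ := c t0 j0 with hc0
  have hcc : ∀ t ∈ F, ∀ j ∈ F, t ≠ j → c t j = c0 := fun t ht j hj htj =>
    call t ht j hj t0 ht0 j0 hj0 htj htj0
  have hc0n : 0 ≤ c0 := Finset.sum_nonneg fun N _ => by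
    split_ifs
    · exact zero_le_one
    · exact le_refl _
  have hL2 : ∑ t ∈ F, ∑ j ∈ F.erase t, c t j * (H t j - fb) ^ 2
      = c0 * ∑ t ∈ F, ∑ j ∈ F.erase t, (H t j - fb) ^ 2 := by
    simp only [Finset.mul_sum]
    refine Finset.sum_congr rfl fun t ht => Finset.sum_congr rfl fun j hj => ?_
    rw [hcc t ht j (Finset.mem_erase.1 hj).2 (Finset.mem_erase.1 hj).1.symm]
  rw [hL2]
  rcases hc0n.eq_or_lt with hz | hpos
  · rw [← hz, zero_mul]
    positivity
  -- main case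
  set g : κ → κ → ℝ := fun t j => T t j / c0 - fb with hg
  have hHg : ∀ t ∈ F, ∀ j ∈ F, t ≠ j → H t j - fb = g t j := by
    intro t ht j hj htj
    have := hH t ht j hj htj
    have e : c0 * H t j = T t j := by rw [← hcc t ht j hj htj]; exact this
    rw [hg]
    simp only
    rw [← e]
    field_simp
  have hL3 : ∑ t ∈ F, ∑ j ∈ F.erase t, (H t j - fb) ^ 2 = ∑ t ∈ F, ∑ j ∈ F.erase t, g t j ^ 2 := by
    refine Finset.sum_congr rfl fun t ht => Finset.sum_congr rfl fun j hj => ?_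
    rw [hHg t ht j (Finset.mem_erase.1 hj).2 (Finset.mem_erase.1 hj).1.symm]
  rw [hL3]
  have gsym : ∀ t j, g t j = g j t := fun t j => by simp only [hg, Tsym t j]
  -- the mean of g vanishes
  set K : ℝ := 2 * (F.card : ℝ) * a - 2 * (a : ℝ) ^ 2 with hK
  have hsumG : ∀ G : Ω → ℝ, ∑ t ∈ F, ∑ j ∈ F.erase t, ∑ N ∈ C,
      (if β N t ≠ β N j then G N else 0) = K * ∑ N ∈ C, G N := by
    intro G
    have e1 : ∑ t ∈ F, ∑ j ∈ F.erase t, ∑ N ∈ C, (if β N t ≠ β N j then G N else 0)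
        = ∑ N ∈ C, ∑ t ∈ F, ∑ j ∈ F.erase t, (if β N t ≠ β N j then G N else 0) := by
      rw [Finset.sum_comm]
      refine Finset.sum_congr rfl fun t _ => ?_
      rw [Finset.sum_comm]
    rw [e1, Finset.mul_sum]
    refine Finset.sum_congr rfl fun N hN => ?_
    rw [hK, ← jc_count F (β N) a (h5 N hN), Finset.sum_mul]
    refine Finset.sum_congr rfl fun t _ => ?_
    rw [Finset.sum_mul]
    refine Finset.sum_congr rfl fun j _ => ?_
    split_ifs <;> simp
  set M : ℝ := ∑ t ∈ F, ∑ j ∈ F.erase t, (1 : ℝ) with hM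
  have hMc : M * c0 = K * (C.card : ℝ) := by
    have e := hsumG (fun _ => 1)
    rw [Finset.sum_const, nsmul_eq_mul, mul_one] at e
    rw [← e, hM, Finset.sum_mul]
    refine Finset.sum_congr rfl fun t ht => ?_
    rw [Finset.sum_mul]
    refine Finset.sum_congr rfl fun j hj => ?_
    rw [one_mul, ← hcc t ht j (Finset.mem_erase.1 hj).2 (Finset.mem_erase.1 hj).1.symm]
  have hmean : ∑ t ∈ F, ∑ j ∈ F.erase t, g t j = 0 := by
    have e1 : ∑ t ∈ F, ∑ j ∈ F.erase t, g t j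
        = (∑ t ∈ F, ∑ j ∈ F.erase t, T t j) / c0 - M * fb := by
      simp only [hg, hM, Finset.sum_sub_distrib, Finset.sum_div, Finset.sum_mul, one_mul]
    rw [e1, hsumG f, ← hfb]
    have : K * ((C.card : ℝ) * fb) = M * c0 * fb := by rw [hMc]; ring
    rw [this]
    field_simp
    ring
  have hpoin := tri_poincare F g gsym hmean
  -- difference formula
  have hdiff : ∀ w ∈ F, ∀ t ∈ F, ∀ j ∈ F, t ≠ w → j ≠ w →
      T w t - T w j
        = ∑ N ∈ C, if β N w ≠ β N t ∧ β N t ≠ β N j then (f N - f (σ t j N)) else 0 := by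
    intro w hw t ht j hj htw hjw
    have e := inv t ht j hj (fun N => if β N w ≠ β N j then f N else 0)
    have e2 : T w j = ∑ N ∈ C, if β N w ≠ β N t then f (σ t j N) else 0 := by
      rw [hT]
      simp only
      rw [← e]
      refine Finset.sum_congr rfl fun N hN => ?_
      rw [h3 t ht j hj N hN, h3 t ht j hj N hN, Equiv.swap_apply_of_ne_of_ne htw.symm hjw.symm,
        Equiv.swap_apply_right]
    rw [e2, hT]
    simp only
    rw [← Finset.sum_sub_distrib]
    refine Finset.sum_congr rfl fun N hN => ?_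
    by_cases hA : β N w ≠ β N t
    · by_cases hB : β N t ≠ β N j
      · rw [if_pos hA, if_pos hA, if_pos ⟨hA, hB⟩]
      · rw [if_pos hA, if_pos hA, if_neg (fun h => hB h.2)]
        rw [h4 t ht j hj N hN (not_not.1 hB), sub_self]
    · rw [if_neg hA, if_neg hA, if_neg (fun h => hA h.1), sub_self]
  -- the size of the difference set
  have hd : ∀ w ∈ F, ∀ t ∈ F, ∀ j ∈ F, t ≠ w → j ≠ w →
      2 * (∑ N ∈ C, if β N w ≠ β N t ∧ β N t ≠ β N j then (1 : ℝ) else 0) = c t j := by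
    intro w hw t ht j hj htw hjw
    have e := inv t ht j hj (fun N => if β N w ≠ β N t ∧ β N t ≠ β N j then (1 : ℝ) else 0)
    have e2 : ∑ N ∈ C, (if β N w ≠ β N t ∧ β N t ≠ β N j then (1 : ℝ) else 0)
        = ∑ N ∈ C, if β N w ≠ β N j ∧ β N j ≠ β N t then (1 : ℝ) else 0 := by
      rw [← e]
      refine Finset.sum_congr rfl fun N hN => ?_
      rw [h3 t ht j hj N hN, h3 t ht j hj N hN, h3 t ht j hj N hN,
        Equiv.swap_apply_of_ne_of_ne htw.symm hjw.symm, Equiv.swap_apply_right,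
        Equiv.swap_apply_left]
    rw [two_mul]
    nth_rewrite 2 [e2]
    rw [← Finset.sum_add_distrib, hc]
    refine Finset.sum_congr rfl fun N _ => ?_
    cases β N w <;> cases β N t <;> cases β N j <;> simp
  -- bound on each difference
  have hstep : ∀ w ∈ F, ∀ t ∈ F.erase w, ∀ j ∈ F.erase w,
      (g w t - g w j) ^ 2 ≤ Pw w t j / (2 * c0) := by
    intro w hw t ht j hj
    obtain ⟨htw, htF⟩ := Finset.mem_erase.1 ht
    obtain ⟨hjw, hjF⟩ := Finset.mem_erase.1 hj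
    by_cases htj : t = j
    · subst htj
      rw [sub_self]
      have := hPwn w t t
      have h0 : (0 : ℝ) ^ 2 = 0 := by norm_num
      rw [h0]
      exact div_nonneg this (by positivity)
    · have e1 : g w t - g w j = (T w t - T w j) / c0 := by
        simp only [hg]
        ring
      rw [e1, hdiff w hw t htF j hjF htw hjw, div_pow]
      have hcs := jc_cs C (fun N => β N w ≠ β N t ∧ β N t ≠ β N j) (fun N => f N - f (σ t j N))
      have hd' := hd w hw t htF j hjF htw hjw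
      rw [hcc t htF j hjF htj] at hd'
      have hd2 : (∑ N ∈ C, if β N w ≠ β N t ∧ β N t ≠ β N j then (1 : ℝ) else 0) = c0 / 2 := by
        linarith
      rw [hd2] at hcs
      rw [div_le_div_iff₀ (by positivity) (by positivity)]
      have hPwe : Pw w t j
          = ∑ N ∈ C, if β N w ≠ β N t ∧ β N t ≠ β N j then (f N - f (σ t j N)) ^ 2 else 0 := rfl
      rw [hPwe]
      nlinarith
  -- summation of the local terms
  have hpair : ∀ w, ∀ t ∈ F, ∀ j ∈ F, Pw w t j + Pw w j t = P t j := by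
    intro w t ht j hj
    simp only [hPw, hP]
    rw [← Finset.sum_add_distrib]
    refine Finset.sum_congr rfl fun N hN => ?_
    rw [h6 j hj t ht N hN]
    cases β N w <;> cases β N t <;> cases β N j <;> simp
  have hPdiag : ∀ t, P t t = 0 := fun t => Finset.sum_eq_zero fun N _ => by simp
  have hsumw : ∀ w ∈ F, ∑ t ∈ F.erase w, ∑ j ∈ F.erase w, Pw w t j
      ≤ (1 / 2) * ∑ t ∈ F, ∑ j ∈ F.erase t, P t j := by
    intro w hw
    have e1 : ∑ t ∈ F.erase w, ∑ j ∈ F.erase w, Pw w t j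
        = ∑ t ∈ F.erase w, ∑ j ∈ F.erase w, Pw w j t := Finset.sum_comm
    have e2 : 2 * ∑ t ∈ F.erase w, ∑ j ∈ F.erase w, Pw w t j
        = ∑ t ∈ F.erase w, ∑ j ∈ F.erase w, P t j := by
      rw [two_mul]
      nth_rewrite 2 [e1]
      rw [← Finset.sum_add_distrib]
      refine Finset.sum_congr rfl fun t ht => ?_
      rw [← Finset.sum_add_distrib]
      refine Finset.sum_congr rfl fun j hj => ?_
      exact hpair w t (Finset.mem_erase.1 ht).2 j (Finset.mem_erase.1 hj).2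
    have e3 : ∑ t ∈ F.erase w, ∑ j ∈ F.erase w, P t j ≤ ∑ t ∈ F, ∑ j ∈ F, P t j := by
      calc ∑ t ∈ F.erase w, ∑ j ∈ F.erase w, P t j
          ≤ ∑ t ∈ F.erase w, ∑ j ∈ F, P t j :=
            Finset.sum_le_sum fun t _ => Finset.sum_le_sum_of_subset_of_nonneg
              (Finset.erase_subset _ _) fun j _ _ => hPn t j
        _ ≤ ∑ t ∈ F, ∑ j ∈ F, P t j :=
            Finset.sum_le_sum_of_subset_of_nonneg (Finset.erase_subset _ _)
              fun t _ _ => Finset.sum_nonneg fun j _ => hPn t j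
    have e4 : ∑ t ∈ F, ∑ j ∈ F, P t j = ∑ t ∈ F, ∑ j ∈ F.erase t, P t j :=
      Finset.sum_congr rfl fun t _ => (Finset.sum_erase _ (hPdiag t)).symm
    linarith
  have hm : 0 < (F.card : ℝ) := by
    have : 0 < F.card := Finset.card_pos.2 ⟨t0, ht0⟩
    exact_mod_cast this
  have hbig : ∑ w ∈ F, ∑ t ∈ F.erase w, ∑ j ∈ F.erase w, (g w t - g w j) ^ 2
      ≤ (F.card : ℝ) * ((1 / 2) * ∑ t ∈ F, ∑ j ∈ F.erase t, P t j) / (2 * c0) := by
    calc ∑ w ∈ F, ∑ t ∈ F.erase w, ∑ j ∈ F.erase w, (g w t - g w j) ^ 2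
        ≤ ∑ w ∈ F, ∑ t ∈ F.erase w, ∑ j ∈ F.erase w, Pw w t j / (2 * c0) :=
          Finset.sum_le_sum fun w hw => Finset.sum_le_sum fun t ht =>
            Finset.sum_le_sum fun j hj => hstep w hw t ht j hj
      _ = (∑ w ∈ F, ∑ t ∈ F.erase w, ∑ j ∈ F.erase w, Pw w t j) / (2 * c0) := by
          simp only [Finset.sum_div]
      _ ≤ (∑ _w ∈ F, (1 / 2) * ∑ t ∈ F, ∑ j ∈ F.erase t, P t j) / (2 * c0) := by
          apply div_le_div_of_nonneg_right (Finset.sum_le_sum hsumw)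
          positivity
      _ = _ := by rw [Finset.sum_const, nsmul_eq_mul]
  have hfin : (F.card : ℝ) * ∑ t ∈ F, ∑ j ∈ F.erase t, g t j ^ 2
      ≤ (F.card : ℝ) * ((1 / 2) * ∑ t ∈ F, ∑ j ∈ F.erase t, P t j) / (2 * c0) :=
    hpoin.trans hbig
  rw [mul_div_assoc] at hfin
  have hfin2 := le_of_mul_le_mul_left hfin hm
  rw [le_div_iff₀ (by positivity)] at hfin2
  nlinarith

end Vale.Agent.P335
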