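import Vale.Agent.P335.GSw
import Vale.Agent.P335.JCore

/-!
# The Johnson lemma on graphs
-/

set_option linter.unusedSectionVars false
set_option linter.unusedVariables false
set_option linter.unusedSimpArgs false

namespace Vale.Agent.P335

open Finset

variable {V : Type*} [Fintype V] [DecidableEq V]

/-- exchange the columns `k`, `l` in the two stars of `r`, `s` (if the entries differ) -/
noncomputable def gsig (r s k l : V) (y : Gph V) : Gph V :=
  if y.1 r k ≠ y.1 r l then gsw r s k l y else y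

theorem gj_gsw_row {r s k l : V} (hd : r ≠ k ∧ r ≠ l ∧ s ≠ k ∧ s ≠ l) (y : Gph V) (j : V) :
    (gsw r s k l y).1 r j = if j = k ∨ j = l then !(y.1 r j) else y.1 r j := by
  rw [gsw_val hd, gswM_apply r s k l y.1 r j hd]
  obtain ⟨h1, h2, h3, h4⟩ := hd
  by_cases hj : j = k ∨ j = l
  · rw [if_pos hj, if_pos (Or.inl ⟨Or.inl rfl, hj⟩)]
  · rw [if_neg hj, if_neg]
    rintro (⟨-, h⟩ | ⟨h, -⟩)
    · exact hj h
    · rcases h with h | h
      · exact h1 h
      · exact h2 h

theorem gsig_row {r s k l : V} (hd : r ≠ k ∧ r ≠ l ∧ s ≠ k ∧ s ≠ l) (y : Gph V) (j : V) :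
    (gsig r s k l y).1 r j = y.1 r (Equiv.swap k l j) := by
  unfold gsig
  by_cases h : y.1 r k ≠ y.1 r l
  · rw [if_pos h, gj_gsw_row hd]
    by_cases hjk : j = k
    · subst hjk
      rw [Equiv.swap_apply_left, if_pos (Or.inl rfl)]
      cases h1 : y.1 r j <;> cases h2 : y.1 r l <;> simp_all
    · by_cases hjl : j = l
      · subst hjl
        rw [Equiv.swap_apply_right, if_pos (Or.inr rfl)]
        cases h1 : y.1 r j <;> cases h2 : y.1 r k <;> simp_all
      · rw [if_neg (by tauto), Equiv.swap_apply_of_ne_of_ne hjk hjl]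
  · rw [if_neg h]
    have h' : y.1 r k = y.1 r l := not_not.1 h
    by_cases hjk : j = k
    · subst hjk
      rw [Equiv.swap_apply_left, h']
    · by_cases hjl : j = l
      · subst hjl
        rw [Equiv.swap_apply_right, h']
      · rw [Equiv.swap_apply_of_ne_of_ne hjk hjl]

theorem gsig_of_ne {r s k l : V} {y : Gph V} (h : y.1 r k ≠ y.1 r l) :
    gsig r s k l y = gsw r s k l y := by
  unfold gsig; rw [if_pos h]

theorem gsig_gsig {r s k l : V} (hd : r ≠ k ∧ r ≠ l ∧ s ≠ k ∧ s ≠ l) (y : Gph V) :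
    gsig r s k l (gsig r s k l y) = y := by
  by_cases h : y.1 r k ≠ y.1 r l
  · have h2 : (gsig r s k l y).1 r k ≠ (gsig r s k l y).1 r l := by
      rw [gsig_row hd, gsig_row hd, Equiv.swap_apply_left, Equiv.swap_apply_right]
      exact h.symm
    rw [gsig_of_ne h2, gsig_of_ne h, gsw_gsw]
  · have e : gsig r s k l y = y := by unfold gsig; rw [if_neg h]
    rw [e, e]

theorem gsig_comm (r s k l : V) (y : Gph V) : gsig r s k l y = gsig r s l k y := by
  unfold gsig
  by_cases h : y.1 r k ≠ y.1 r l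
  · rw [if_pos h, if_pos h.symm, gsw_comm_cols]
  · rw [if_neg h, if_neg (fun h' => h h'.symm)]

theorem gj_free {r s : V} (hrs : r ≠ s) {x y : Gph V} (h : GRel (Zb {r, s} univ) x y) {k : V}
    (hkr : k ≠ r) (hks : k ≠ s) : (y.1 r k ≠ y.1 s k) ↔ (x.1 r k ≠ x.1 s k) := by
  have := star_pair_sum hrs h hkr hks
  cases h1 : x.1 r k <;> cases h2 : x.1 s k <;> cases h3 : y.1 r k <;> cases h4 : y.1 s k <;>
    simp_all

theorem gj_frozen {r s : V} (hrs : r ≠ s) {x y : Gph V} (h : GRel (Zb {r, s} univ) x y) {k : V}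
    (hkr : k ≠ r) (hks : k ≠ s) (hk : x.1 r k = x.1 s k) : y.1 r k = x.1 r k := by
  have := star_pair_sum hrs h hkr hks
  cases h1 : x.1 r k <;> cases h2 : x.1 s k <;> cases h3 : y.1 r k <;> cases h4 : y.1 s k <;>
    simp_all

theorem gj_act_iff {r s k l : V} (hd : r ≠ k ∧ r ≠ l ∧ s ≠ k ∧ s ≠ l) (y : Gph V) :
    (GValid y r s k l ∨ GValid y s r k l) ↔
      (y.1 r k ≠ y.1 s k ∧ y.1 r l ≠ y.1 s l ∧ y.1 r k ≠ y.1 r l) := by
  obtain ⟨h1, h2, h3, h4⟩ := hd
  unfold GValid Valid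
  cases e1 : y.1 r k <;> cases e2 : y.1 s k <;> cases e3 : y.1 r l <;> cases e4 : y.1 s l <;>
    simp_all

theorem gsig_mem {r s k l : V} (hrs : r ≠ s) (hd : r ≠ k ∧ r ≠ l ∧ s ≠ k ∧ s ≠ l)
    {x0 y : Gph V} (hy : GRel (Zb {r, s} univ) x0 y)
    (hk : x0.1 r k ≠ x0.1 s k) (hl : x0.1 r l ≠ x0.1 s l) :
    GRel (Zb {r, s} univ) x0 (gsig r s k l y) := by
  by_cases h : y.1 r k ≠ y.1 r l
  · rw [gsig_of_ne h]
    have hk' := (gj_free hrs hy hd.1.symm hd.2.2.1.symm).2 hk
    have hl' := (gj_free hrs hy hd.2.1.symm hd.2.2.2.symm).2 hl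
    rcases (gj_act_iff hd y).2 ⟨hk', hl', h⟩ with hV | hV
    · exact (GRel_equiv _).trans hy (GRel_gsw hV (Zb_mono (Finset.Subset.refl _)
        (Finset.subset_univ _)))
    · rw [gsw_comm_rows]
      refine (GRel_equiv _).trans hy (GRel_gsw hV (Zb_mono ?_ (Finset.subset_univ _)))
      rw [Finset.pair_comm]
  · have e : gsig r s k l y = y := by unfold gsig; rw [if_neg h]
    rw [e]
    exact hy


theorem gj_count {r s : V} (hrs : r ≠ s) {x0 y : Gph V} (hy : GRel (Zb {r, s} univ) x0 y) :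
    ((univ.filter (fun k => k ≠ r ∧ k ≠ s ∧ x0.1 r k ≠ x0.1 s k)).filter
        (fun k => y.1 r k = true)).card
      = ((univ.filter (fun k => k ≠ r ∧ k ≠ s ∧ x0.1 r k ≠ x0.1 s k)).filter
        (fun k => x0.1 r k = true)).card := by
  have h1 : rs x0.1 r = rs y.1 r := hy.2.1 r
  unfold rs at h1
  have e : ∀ X : Gph V, ∑ k, (X.1 r k).toNat
      = ((univ.filter (fun k => k ≠ r ∧ k ≠ s ∧ x0.1 r k ≠ x0.1 s k)).filter
          (fun k => X.1 r k = true)).card
        + ∑ k ∈ univ.filter (fun k => ¬ (k ≠ r ∧ k ≠ s ∧ x0.1 r k ≠ x0.1 s k)),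
            (X.1 r k).toNat := by
    intro X
    rw [← Finset.sum_filter_add_sum_filter_not univ
      (fun k => k ≠ r ∧ k ≠ s ∧ x0.1 r k ≠ x0.1 s k)]
    congr 1
    rw [Finset.card_filter]
    refine Finset.sum_congr rfl fun k _ => ?_
    cases X.1 r k <;> simp
  rw [e x0, e y] at h1
  have e2 : ∑ k ∈ univ.filter (fun k => ¬ (k ≠ r ∧ k ≠ s ∧ x0.1 r k ≠ x0.1 s k)),
        (y.1 r k).toNat
      = ∑ k ∈ univ.filter (fun k => ¬ (k ≠ r ∧ k ≠ s ∧ x0.1 r k ≠ x0.1 s k)),
        (x0.1 r k).toNat := by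
    refine Finset.sum_congr rfl fun k hk => ?_
    have hk' := (Finset.mem_filter.1 hk).2
    by_cases hkr : k = r
    · subst hkr
      rw [y.diag, x0.diag]
    · by_cases hks : k = s
      · subst hks
        rw [star_forced hrs hy]
      · have : x0.1 r k = x0.1 s k := by
          by_contra hcon
          exact hk' ⟨hkr, hks, hcon⟩
        rw [gj_frozen hrs hy hkr hks this]
  omega

theorem gj_offDiag {α : Type*} [DecidableEq α] (F : Finset α) (G : α → α → ℝ) :
    ∑ t ∈ F, ∑ j ∈ F.erase t, G t j = ∑ x ∈ F.offDiag, G x.1 x.2 := by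
  have e : F.offDiag = (F ×ˢ F).filter (fun a => a.1 ≠ a.2) := by
    ext ⟨a, b⟩
    simp only [Finset.mem_offDiag, Finset.mem_filter, Finset.mem_product]
    tauto
  rw [e, Finset.sum_filter, Finset.sum_product]
  refine Finset.sum_congr rfl fun t _ => ?_
  rw [← Finset.filter_ne, Finset.sum_filter]


theorem gj_cond {r s k l : V} (hrs : r ≠ s) (hd : r ≠ k ∧ r ≠ l ∧ s ≠ k ∧ s ≠ l)
    {x0 y : Gph V} (hy : GRel (Zb {r, s} univ) x0 y) :
    (GValid y r s k l ∨ GValid y s r k l) ↔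
      (k ∈ univ.filter (fun k => k ≠ r ∧ k ≠ s ∧ x0.1 r k ≠ x0.1 s k) ∧
        l ∈ univ.filter (fun k => k ≠ r ∧ k ≠ s ∧ x0.1 r k ≠ x0.1 s k) ∧
        y.1 r k ≠ y.1 r l) := by
  rw [gj_act_iff hd, gj_free hrs hy hd.1.symm hd.2.2.1.symm,
    gj_free hrs hy hd.2.1.symm hd.2.2.2.symm]
  simp only [Finset.mem_filter, Finset.mem_univ, true_and]
  obtain ⟨h1, h2, h3, h4⟩ := hd
  constructor
  · rintro ⟨a, b, c⟩
    exact ⟨⟨h1.symm, h3.symm, a⟩, ⟨h2.symm, h4.symm, b⟩, c⟩
  · rintro ⟨a, b, c⟩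
    exact ⟨a.2.2, b.2.2, c⟩

theorem gj_mem_S {r s : V} {x : V × V} (hx : x ∈ (({r, s} : Finset V)ᶜ).offDiag) :
    x.1 ≠ x.2 ∧ (r ≠ x.1 ∧ r ≠ x.2 ∧ s ≠ x.1 ∧ s ≠ x.2) := by
  obtain ⟨h1, h2, h3⟩ := Finset.mem_offDiag.1 hx
  simp only [Finset.mem_compl, Finset.mem_insert, Finset.mem_singleton, not_or] at h1 h2
  exact ⟨h3, Ne.symm h1.1, Ne.symm h2.1, Ne.symm h1.2, Ne.symm h2.2⟩

open Classical in
theorem gj_class {r s : V} (hrs : r ≠ s) (f : Gph V → ℝ) (x0 : Gph V) :
    ∑ y ∈ cls (GRel (Zb {r, s} univ)) x0, ∑ x ∈ (({r, s} : Finset V)ᶜ).offDiag,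
      (if GAct {r, s} {x.1, x.2} y then
        (avg (RA {r, s} {x.1, x.2}) f y - avg (GRel (Zb {r, s} univ)) f y) ^ 2 else 0)
    ≤ ∑ y ∈ cls (GRel (Zb {r, s} univ)) x0, ∑ x ∈ (({r, s} : Finset V)ᶜ).offDiag,
      (if GValid y r s x.1 x.2 ∨ GValid y s r x.1 x.2 then
        ((f y - f (gsw r s x.1 x.2 y)) / 2) ^ 2 else 0) := by
  set R := GRel (V := V) (Zb {r, s} univ) with hR
  have hRe : Equivalence R := GRel_equiv _
  set C := cls R x0 with hC
  set S := (({r, s} : Finset V)ᶜ) with hS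
  set F := univ.filter (fun k => k ≠ r ∧ k ≠ s ∧ x0.1 r k ≠ x0.1 s k) with hF
  set cc : V → V → ℝ := fun t j => ∑ y ∈ C, (if y.1 r t ≠ y.1 r j then (1 : ℝ) else 0) with hcc
  set TT : V → V → ℝ := fun t j => ∑ y ∈ C, (if y.1 r t ≠ y.1 r j then f y else 0) with hTT
  set H : V → V → ℝ := fun t j => TT t j / cc t j with hH
  set fb : ℝ := avg R f x0 with hfb
  have hFd : ∀ t ∈ F, ∀ j ∈ F, r ≠ t ∧ r ≠ j ∧ s ≠ t ∧ s ≠ j := by
    intro t ht j hj
    have a := (Finset.mem_filter.1 ht).2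
    have b := (Finset.mem_filter.1 hj).2
    exact ⟨a.1.symm, b.1.symm, a.2.1.symm, b.2.1.symm⟩
  have hfr : ∀ k ∈ F, x0.1 r k ≠ x0.1 s k := fun k hk => (Finset.mem_filter.1 hk).2.2.2
  have core := johnson_core C F (fun y k => y.1 r k) (gsig r s)
    ((F.filter (fun k => x0.1 r k = true)).card)
    (fun t ht j hj N hN => mem_cls.2 (gsig_mem hrs (hFd t ht j hj) (mem_cls.1 hN)
      (hfr t ht) (hfr j hj)))
    (fun t ht j hj N _ => gsig_gsig (hFd t ht j hj) N)
    (fun t ht j hj N _ k => gsig_row (hFd t ht j hj) N k)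
    (fun t _ j _ N _ h => by unfold gsig; rw [if_neg (not_not.2 h)])
    (fun N hN => gj_count hrs (mem_cls.1 hN))
    (fun t _ j _ N _ => gsig_comm r s t j N)
    f H fb
    (by
      intro t _ j _ _
      show cc t j * (TT t j / cc t j) = TT t j
      by_cases h0 : cc t j = 0
      · have h1 : ∀ y ∈ C, (if y.1 r t ≠ y.1 r j then (1 : ℝ) else 0) = 0 :=
          (Finset.sum_eq_zero_iff_of_nonneg (fun y _ => by split_ifs <;> norm_num)).1 h0
        have h2 : TT t j = 0 := by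
          refine Finset.sum_eq_zero fun y hy => ?_
          have := h1 y hy
          by_cases hy' : y.1 r t ≠ y.1 r j
          · rw [if_pos hy'] at this
            norm_num at this
          · rw [if_neg hy']
        rw [h0, h2]
        simp
      · field_simp)
    (by
      have hp : 0 < (C.card : ℝ) := card_cls_pos hRe x0
      show (C.card : ℝ) * ((∑ y ∈ C, f y) / (C.card : ℝ)) = ∑ y ∈ C, f y
      field_simp)
  rw [gj_offDiag F (fun t j => ∑ N ∈ C, (if N.1 r t ≠ N.1 r j then (H t j - fb) ^ 2 else 0)),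
    gj_offDiag F (fun t j => ∑ N ∈ C,
      (if N.1 r t ≠ N.1 r j then ((f N - f (gsig r s t j N)) / 2) ^ 2 else 0))] at core
  have hFS : F.offDiag ⊆ S.offDiag := by
    intro x hx
    obtain ⟨h1, h2, h3⟩ := Finset.mem_offDiag.1 hx
    have d := hFd x.1 h1 x.2 h2
    refine Finset.mem_offDiag.2 ⟨?_, ?_, h3⟩
    · simp only [hS, Finset.mem_compl, Finset.mem_insert, Finset.mem_singleton, not_or]
      exact ⟨d.1.symm, d.2.2.1.symm⟩
    · simp only [hS, Finset.mem_compl, Finset.mem_insert, Finset.mem_singleton, not_or]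
      exact ⟨d.2.1.symm, d.2.2.2.symm⟩
  refine le_trans (le_of_eq ?_) (le_trans core (le_of_eq ?_))
  · rw [Finset.sum_comm]
    symm
    rw [← Finset.sum_subset hFS]
    · refine Finset.sum_congr rfl fun x hx => Finset.sum_congr rfl fun y hy => ?_
      obtain ⟨hne, hd⟩ := gj_mem_S (hFS hx)
      obtain ⟨hx1, hx2, -⟩ := Finset.mem_offDiag.1 hx
      have hyR := mem_cls.1 hy
      have hiff : ∀ z, R x0 z → (GAct {r, s} {x.1, x.2} z ↔ z.1 r x.1 ≠ z.1 r x.2) := by
        intro z hz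
        rw [GAct_pair hrs hne, gj_cond hrs hd hz]
        constructor
        · intro h; exact h.2.2
        · intro h; exact ⟨hx1, hx2, h⟩
      by_cases hact : y.1 r x.1 ≠ y.1 r x.2
      · rw [if_pos hact, if_pos ((hiff y hyR).2 hact)]
        have hcls : cls (RA {r, s} {x.1, x.2}) y = C.filter (fun z => z.1 r x.1 ≠ z.1 r x.2) := by
          ext z
          rw [mem_cls, Finset.mem_filter, hC, mem_cls]
          constructor
          · rintro ⟨a1, a2⟩
            have hz : R x0 z := hRe.trans hyR a1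
            exact ⟨hz, (hiff z hz).1 (a2.1 ((hiff y hyR).2 hact))⟩
          · rintro ⟨a1, a2⟩
            refine ⟨hRe.trans (hRe.symm hyR) a1, ?_⟩
            constructor
            · intro _; exact (hiff z a1).2 a2
            · intro _; exact (hiff y hyR).2 hact
        have e1 : avg (RA {r, s} {x.1, x.2}) f y = H x.1 x.2 := by
          show _ = TT x.1 x.2 / cc x.1 x.2
          unfold avg
          rw [hcls, Finset.sum_filter]
          congr 1
          rw [hcc]
          simp only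
          rw [Finset.sum_boole]
        have e2 : avg R f y = fb := (avg_inv hRe f x0 y hyR).symm
        rw [e1, e2]
      · rw [if_neg hact, if_neg (fun h => hact ((hiff y hyR).1 h))]
    · intro x hx hxF
      refine Finset.sum_eq_zero fun y hy => ?_
      obtain ⟨hne, hd⟩ := gj_mem_S hx
      rw [if_neg]
      rw [GAct_pair hrs hne, gj_cond hrs hd (mem_cls.1 hy)]
      rintro ⟨a1, a2, -⟩
      exact hxF (Finset.mem_offDiag.2 ⟨a1, a2, hne⟩)
  · rw [Finset.sum_comm (s := C)]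
    rw [← Finset.sum_subset hFS]
    · refine Finset.sum_congr rfl fun x hx => Finset.sum_congr rfl fun y hy => ?_
      obtain ⟨hne, hd⟩ := gj_mem_S (hFS hx)
      obtain ⟨hx1, hx2, -⟩ := Finset.mem_offDiag.1 hx
      have hyR := mem_cls.1 hy
      by_cases hact : y.1 r x.1 ≠ y.1 r x.2
      · rw [if_pos hact, if_pos ((gj_cond hrs hd hyR).2 ⟨hx1, hx2, hact⟩), gsig_of_ne hact]
      · rw [if_neg hact, if_neg (fun h => hact ((gj_cond hrs hd hyR).1 h).2.2)]
    · intro x hx hxF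
      refine Finset.sum_eq_zero fun y hy => ?_
      obtain ⟨hne, hd⟩ := gj_mem_S hx
      rw [if_neg]
      rw [gj_cond hrs hd (mem_cls.1 hy)]
      rintro ⟨a1, a2, -⟩
      exact hxF (Finset.mem_offDiag.2 ⟨a1, a2, hne⟩)

theorem J_graph (p : Finset V) (hp : p.card = 2) (f : Gph V → ℝ) :
    ∑ q ∈ (powersetCard 2 (univ : Finset V)).filter (fun q => Disjoint p q), nn p q f ≤
      ∑ q ∈ (powersetCard 2 (univ : Finset V)).filter (fun q => Disjoint p q),
        ip f (f - avg (GRel (Zb p q)) f) := by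
  classical
  obtain ⟨r, s, hrs, rfl⟩ := Finset.card_eq_two.1 hp
  have hP : (powersetCard 2 (univ : Finset V)).filter (fun q => Disjoint ({r, s} : Finset V) q)
      = powersetCard 2 (({r, s} : Finset V)ᶜ) := by
    ext q
    simp only [Finset.mem_filter, Finset.mem_powersetCard, Finset.subset_univ, true_and]
    rw [Finset.subset_compl_iff_disjoint_left]
    tauto
  rw [hP, sum_P2_eq_half_offDiag, sum_P2_eq_half_offDiag]
  refine mul_le_mul_of_nonneg_left ?_ (by norm_num)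
  have e2 : ∑ x ∈ (({r, s} : Finset V)ᶜ).offDiag,
      ip f (f - avg (GRel (Zb {r, s} {x.1, x.2})) f)
      = ∑ x ∈ (({r, s} : Finset V)ᶜ).offDiag, ∑ y,
        (if GValid y r s x.1 x.2 ∨ GValid y s r x.1 x.2 then
          ((f y - f (gsw r s x.1 x.2 y)) / 2) ^ 2 else 0) := by
    refine Finset.sum_congr rfl fun x hx => ?_
    obtain ⟨hne, hd⟩ := gj_mem_S hx
    exact g_two_by_two hrs hne hd f
  rw [e2]
  unfold nn
  rw [Finset.sum_comm, Finset.sum_comm (s := (({r, s} : Finset V)ᶜ).offDiag)]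
  exact sum_le_of_cls_le (GRel_equiv (Zb {r, s} univ)) _ _ (fun x0 => gj_class hrs f x0)

end Vale.Agent.P335
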