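import Vale.Agent.P335.GBase
import Vale.Agent.P335.GAbs

/-!
# Basic facts on graph switches (first part of GSw)
-/

set_option linter.unusedSectionVars false

namespace Vale.Agent.P335

open Finset

variable {V : Type*} [Fintype V] [DecidableEq V]

theorem GValid.distinct {x : Gph V} {r s k l : V} (h : GValid x r s k l) :
    r ≠ s ∧ k ≠ l ∧ r ≠ k ∧ r ≠ l ∧ s ≠ k ∧ s ≠ l := by
  obtain ⟨hv, h1, h2⟩ := h
  refine ⟨hv.ne_row, hv.ne_col, ?_, h1, h2, ?_⟩
  · rintro rfl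
    have := x.diag r
    rw [hv.1] at this
    simp at this
  · rintro rfl
    have := x.diag s
    rw [hv.2.2.2] at this
    simp at this

theorem gsw_val {r s k l : V} (hd : r ≠ k ∧ r ≠ l ∧ s ≠ k ∧ s ≠ l) (x : Gph V) :
    (gsw r s k l x).1 = gswM r s k l x.1 := by
  have e : gsw r s k l x = ⟨gswM r s k l x.1, gswM_isG hd x.2⟩ := dif_pos hd
  rw [e]

theorem gsw_of_not {r s k l : V} (hd : ¬ (r ≠ k ∧ r ≠ l ∧ s ≠ k ∧ s ≠ l)) (x : Gph V) :
    gsw r s k l x = x := dif_neg hd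

theorem gsw_apply {r s k l : V} (hd : r ≠ k ∧ r ≠ l ∧ s ≠ k ∧ s ≠ l) (x : Gph V) (i j : V) :
    (gsw r s k l x).1 i j =
      if ((i = r ∨ i = s) ∧ (j = k ∨ j = l)) ∨ ((i = k ∨ i = l) ∧ (j = r ∨ j = s))
      then !(x.1 i j) else x.1 i j := by
  rw [gsw_val hd, gswM_apply r s k l x.1 i j hd]

theorem gsw_gsw (r s k l : V) (x : Gph V) : gsw r s k l (gsw r s k l x) = x := by
  by_cases hd : r ≠ k ∧ r ≠ l ∧ s ≠ k ∧ s ≠ l
  · refine Gph.ext' fun i j => ?_
    rw [gsw_apply hd, gsw_apply hd]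
    by_cases a : ((i = r ∨ i = s) ∧ (j = k ∨ j = l)) ∨ ((i = k ∨ i = l) ∧ (j = r ∨ j = s))
    · simp [a]
    · simp [a]
  · rw [gsw_of_not hd, gsw_of_not hd]

theorem gsw_comm_rows (r s k l : V) (x : Gph V) : gsw r s k l x = gsw s r k l x := by
  by_cases hd : r ≠ k ∧ r ≠ l ∧ s ≠ k ∧ s ≠ l
  · have hd' : s ≠ k ∧ s ≠ l ∧ r ≠ k ∧ r ≠ l := ⟨hd.2.2.1, hd.2.2.2, hd.1, hd.2.1⟩
    refine Subtype.ext ?_
    rw [gsw_val hd, gsw_val hd']
    unfold gswM
    rw [sw_comm_rows r s, sw_comm_cols k l r s]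
  · have hd' : ¬ (s ≠ k ∧ s ≠ l ∧ r ≠ k ∧ r ≠ l) :=
      fun h => hd ⟨h.2.2.1, h.2.2.2, h.1, h.2.1⟩
    rw [gsw_of_not hd, gsw_of_not hd']

theorem gsw_comm_cols (r s k l : V) (x : Gph V) : gsw r s k l x = gsw r s l k x := by
  by_cases hd : r ≠ k ∧ r ≠ l ∧ s ≠ k ∧ s ≠ l
  · have hd' : r ≠ l ∧ r ≠ k ∧ s ≠ l ∧ s ≠ k := ⟨hd.2.1, hd.1, hd.2.2.2, hd.2.2.1⟩
    refine Subtype.ext ?_
    rw [gsw_val hd, gsw_val hd']
    unfold gswM
    rw [sw_comm_cols r s, sw_comm_rows k l r s]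
  · have hd' : ¬ (r ≠ l ∧ r ≠ k ∧ s ≠ l ∧ s ≠ k) :=
      fun h => hd ⟨h.2.1, h.1, h.2.2.2, h.2.2.1⟩
    rw [gsw_of_not hd, gsw_of_not hd']

theorem gsw_transpose (r s k l : V) (x : Gph V) : gsw r s k l x = gsw k l r s x := by
  by_cases hd : r ≠ k ∧ r ≠ l ∧ s ≠ k ∧ s ≠ l
  · have hd' : k ≠ r ∧ k ≠ s ∧ l ≠ r ∧ l ≠ s :=
      ⟨hd.1.symm, hd.2.2.1.symm, hd.2.1.symm, hd.2.2.2.symm⟩
    refine Gph.ext' fun i j => ?_
    rw [gsw_apply hd, gsw_apply hd']
    by_cases a : ((i = r ∨ i = s) ∧ (j = k ∨ j = l)) ∨ ((i = k ∨ i = l) ∧ (j = r ∨ j = s))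
    · rw [if_pos a, if_pos (Or.symm a)]
    · rw [if_neg a, if_neg (fun b => a (Or.symm b))]
  · have hd' : ¬ (k ≠ r ∧ k ≠ s ∧ l ≠ r ∧ l ≠ s) :=
      fun h => hd ⟨h.1.symm, h.2.2.1.symm, h.2.1.symm, h.2.2.2.symm⟩
    rw [gsw_of_not hd, gsw_of_not hd']

theorem GValid.symm {x : Gph V} {r s k l : V} (h : GValid x r s k l) : GValid x s r l k :=
  ⟨h.1.symm, h.2.2, h.2.1⟩

theorem GValid.transpose {x : Gph V} {r s k l : V} (h : GValid x r s k l) : GValid x k l r s := by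
  obtain ⟨⟨h1, h2, h3, h4⟩, h5, h6⟩ := h
  refine ⟨⟨?_, ?_, ?_, ?_⟩, h6.symm, h5.symm⟩
  · rw [x.symm]; exact h1
  · rw [x.symm]; exact h3
  · rw [x.symm]; exact h2
  · rw [x.symm]; exact h4

theorem GValid.gsw {x : Gph V} {r s k l : V} (h : GValid x r s k l) :
    GValid (gsw r s k l x) r s l k := by
  obtain ⟨hrs, hkl, h1, h2, h3, h4⟩ := h.distinct
  have hd : r ≠ k ∧ r ≠ l ∧ s ≠ k ∧ s ≠ l := ⟨h1, h2, h3, h4⟩
  obtain ⟨⟨a1, a2, a3, a4⟩, -, -⟩ := h
  refine ⟨⟨?_, ?_, ?_, ?_⟩, h1, h4⟩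
  · rw [gsw_apply hd]; simp [a2]
  · rw [gsw_apply hd]; simp [a1]
  · rw [gsw_apply hd]; simp [a4]
  · rw [gsw_apply hd]; simp [a3]

theorem GRel_gsw {x : Gph V} {r s k l : V} (h : GValid x r s k l) {Z : Finset (V × V)}
    (hZ : Zb {r, s} {k, l} ⊆ Z) : GRel Z x (gsw r s k l x) := by
  obtain ⟨hrs, hkl, h1, h2, h3, h4⟩ := h.distinct
  have hd : r ≠ k ∧ r ≠ l ∧ s ≠ k ∧ s ≠ l := ⟨h1, h2, h3, h4⟩
  unfold GRel
  rw [gsw_val hd]
  unfold gswM
  have e1 : Rel Z x.1 (sw r s k l x.1) :=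
    Rel_sw h.1 (fun a ha => hZ (Finset.mem_union_left _ ha))
  have hv : Valid (sw r s k l x.1) k l r s := by
    obtain ⟨b1, b2, b3, b4⟩ := h.transpose.1
    refine ⟨?_, ?_, ?_, ?_⟩
    · rw [sw_apply_of_row h1.symm h3.symm]; exact b1
    · rw [sw_apply_of_row h1.symm h3.symm]; exact b2
    · rw [sw_apply_of_row h2.symm h4.symm]; exact b3
    · rw [sw_apply_of_row h2.symm h4.symm]; exact b4
  have e2 : Rel Z (sw r s k l x.1) (sw k l r s (sw r s k l x.1)) :=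
    Rel_sw hv (fun a ha => hZ (Finset.mem_union_right _ ha))
  exact (Rel_equiv Z).trans e1 e2

theorem gsw_ne {x : Gph V} {r s k l : V} (h : GValid x r s k l) : gsw r s k l x ≠ x := by
  obtain ⟨hrs, hkl, h1, h2, h3, h4⟩ := h.distinct
  have hd : r ≠ k ∧ r ≠ l ∧ s ≠ k ∧ s ≠ l := ⟨h1, h2, h3, h4⟩
  intro e
  have := congrArg (fun y : Gph V => y.1 r k) e
  simp only [gsw_apply hd] at this
  simp at this

theorem gcls_bool_aux : ∀ a b c d a' b' c' d' : Bool,
    a.toNat + b.toNat = a'.toNat + b'.toNat → c.toNat + d.toNat = c'.toNat + d'.toNat →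
    a.toNat + c.toNat = a'.toNat + c'.toNat → b.toNat + d.toNat = b'.toNat + d'.toNat →
    a ≠ a' →
    ((a = true ∧ b = false ∧ c = false ∧ d = true) ∨ (c = true ∧ d = false ∧ a = false ∧ b = true))
      ∧ a' = (!a) ∧ b' = (!b) ∧ c' = (!c) ∧ d' = (!d) := by
  decide

/-- classes of a 2x2 block -/
theorem gcls_two_by_two {r s k l : V} (hrs : r ≠ s) (hkl : k ≠ l)
    (hd : r ≠ k ∧ r ≠ l ∧ s ≠ k ∧ s ≠ l) {x y : Gph V}
    (h : GRel (Zb {r, s} {k, l}) x y) :
    y = x ∨ ((GValid x r s k l ∨ GValid x s r k l) ∧ y = gsw r s k l x) := by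
  obtain ⟨d1, d2, d3, d4⟩ := hd
  have hd : r ≠ k ∧ r ≠ l ∧ s ≠ k ∧ s ≠ l := ⟨d1, d2, d3, d4⟩
  have hoff : ∀ i j, ¬ (((i = r ∨ i = s) ∧ (j = k ∨ j = l)) ∨ ((i = k ∨ i = l) ∧ (j = r ∨ j = s)))
      → y.1 i j = x.1 i j := by
    intro i j hij
    refine (h.1 i j ?_).symm
    rw [mem_Zb]
    simpa using hij
  have h1 : ∑ j ∈ ({k, l} : Finset V), (x.1 r j).toNat = ∑ j ∈ ({k, l} : Finset V), (y.1 r j).toNat := by
    refine john_sum_on _ _ _ (fun j hj => ?_) (h.2.1 r)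
    rw [hoff r j]
    simp only [Finset.mem_insert, Finset.mem_singleton] at hj
    rintro (⟨-, b⟩ | ⟨b, -⟩)
    · exact hj b
    · rcases b with b | b
      · exact d1 b
      · exact d2 b
  have h2 : ∑ j ∈ ({k, l} : Finset V), (x.1 s j).toNat = ∑ j ∈ ({k, l} : Finset V), (y.1 s j).toNat := by
    refine john_sum_on _ _ _ (fun j hj => ?_) (h.2.1 s)
    rw [hoff s j]
    simp only [Finset.mem_insert, Finset.mem_singleton] at hj
    rintro (⟨-, b⟩ | ⟨b, -⟩)
    · exact hj b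
    · rcases b with b | b
      · exact d3 b
      · exact d4 b
  have h3 : ∑ i ∈ ({r, s} : Finset V), (x.1 i k).toNat = ∑ i ∈ ({r, s} : Finset V), (y.1 i k).toNat := by
    refine john_sum_on _ _ _ (fun i hi => ?_) (h.2.2 k)
    rw [hoff i k]
    simp only [Finset.mem_insert, Finset.mem_singleton] at hi
    rintro (⟨b, -⟩ | ⟨-, b⟩)
    · exact hi b
    · rcases b with b | b
      · exact d1 b.symm
      · exact d3 b.symm
  have h4 : ∑ i ∈ ({r, s} : Finset V), (x.1 i l).toNat = ∑ i ∈ ({r, s} : Finset V), (y.1 i l).toNat := by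
    refine john_sum_on _ _ _ (fun i hi => ?_) (h.2.2 l)
    rw [hoff i l]
    simp only [Finset.mem_insert, Finset.mem_singleton] at hi
    rintro (⟨b, -⟩ | ⟨-, b⟩)
    · exact hi b
    · rcases b with b | b
      · exact d2 b.symm
      · exact d4 b.symm
  rw [Finset.sum_pair hkl, Finset.sum_pair hkl] at h1 h2
  rw [Finset.sum_pair hrs, Finset.sum_pair hrs] at h3 h4
  by_cases ha : x.1 r k = y.1 r k
  · left
    have hb : x.1 r l = y.1 r l := by
      rw [ha] at h1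
      cases hx : x.1 r l <;> cases hy : y.1 r l <;> simp_all
    have he : x.1 s k = y.1 s k := by
      rw [ha] at h3
      cases hx : x.1 s k <;> cases hy : y.1 s k <;> simp_all
    have hg : x.1 s l = y.1 s l := by
      rw [he] at h2
      cases hx : x.1 s l <;> cases hy : y.1 s l <;> simp_all
    have key : ∀ i j, (i = r ∨ i = s) ∧ (j = k ∨ j = l) → y.1 i j = x.1 i j := by
      rintro i j ⟨hi | hi, hj | hj⟩ <;> subst hi <;> subst hj
      · exact ha.symm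
      · exact hb.symm
      · exact he.symm
      · exact hg.symm
    refine Gph.ext' fun i j => ?_
    by_cases hij : (i = r ∨ i = s) ∧ (j = k ∨ j = l)
    · exact key i j hij
    · by_cases hij' : (i = k ∨ i = l) ∧ (j = r ∨ j = s)
      · rw [y.symm, x.symm i j]
        exact key j i ⟨hij'.2, hij'.1⟩
      · exact hoff i j (fun b => b.elim hij hij')
  · right
    have hall : (Valid x.1 r s k l ∨ Valid x.1 s r k l) ∧ y.1 r k = !(x.1 r k)
        ∧ y.1 r l = !(x.1 r l) ∧ y.1 s k = !(x.1 s k) ∧ y.1 s l = !(x.1 s l) := by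
      exact gcls_bool_aux _ _ _ _ _ _ _ _ h1 h2 h3 h4 ha
    refine ⟨?_, ?_⟩
    · rcases hall.1 with hv | hv
      · exact Or.inl ⟨hv, d2, d3⟩
      · exact Or.inr ⟨hv, d4, d1⟩
    have key : ∀ i j, (i = r ∨ i = s) ∧ (j = k ∨ j = l) → y.1 i j = !(x.1 i j) := by
      rintro i j ⟨hi | hi, hj | hj⟩ <;> subst hi <;> subst hj
      · exact hall.2.1
      · exact hall.2.2.1
      · exact hall.2.2.2.1
      · exact hall.2.2.2.2
    refine Gph.ext' fun i j => ?_
    rw [gsw_apply hd]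
    by_cases hij : (i = r ∨ i = s) ∧ (j = k ∨ j = l)
    · rw [if_pos (Or.inl hij)]
      exact key i j hij
    · by_cases hij' : (i = k ∨ i = l) ∧ (j = r ∨ j = s)
      · rw [if_pos (Or.inr hij'), y.symm, x.symm i j]
        exact key j i ⟨hij'.2, hij'.1⟩
      · have hn : ¬ (((i = r ∨ i = s) ∧ (j = k ∨ j = l)) ∨ ((i = k ∨ i = l) ∧ (j = r ∨ j = s))) :=
          fun b => b.elim hij hij'
        rw [if_neg hn]
        exact hoff i j hn

theorem GAct_comm (p q : Finset V) (x : Gph V) : GAct p q x ↔ GAct q p x := by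
  constructor
  · rintro ⟨r, s, k, l, hp, hq, hv⟩
    exact ⟨k, l, r, s, hq, hp, hv.transpose⟩
  · rintro ⟨r, s, k, l, hp, hq, hv⟩
    exact ⟨k, l, r, s, hq, hp, hv.transpose⟩

theorem finset_pair_eq_pair {α : Type*} [DecidableEq α] {x y z w : α}
    (h : ({x, y} : Finset α) = {z, w}) : (x = z ∧ y = w) ∨ (x = w ∧ y = z) := by
  have h' : ({x, y} : Set α) = {z, w} := by
    have := congrArg (fun t : Finset α => (t : Set α)) h
    simpa using this
  exact Set.pair_eq_pair_iff.1 h'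

/-- explicit form of `GAct` -/
theorem GAct_pair {r s k l : V} (hrs : r ≠ s) (hkl : k ≠ l) (x : Gph V) :
    GAct {r, s} {k, l} x ↔ GValid x r s k l ∨ GValid x s r k l := by
  constructor
  · rintro ⟨r', s', k', l', hp, hq, hv⟩
    rcases finset_pair_eq_pair hp with ⟨rfl, rfl⟩ | ⟨rfl, rfl⟩ <;>
      rcases finset_pair_eq_pair hq with ⟨rfl, rfl⟩ | ⟨rfl, rfl⟩
    · exact Or.inl hv
    · exact Or.inr hv.symm
    · exact Or.inr hv
    · exact Or.inl hv.symm
  · rintro (h | h)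
    · exact ⟨r, s, k, l, rfl, rfl, h⟩
    · exact ⟨s, r, k, l, Finset.pair_comm r s, rfl, h⟩

open Classical in
/-- Dirichlet form of a 2x2 block -/
theorem g_two_by_two {r s k l : V} (hrs : r ≠ s) (hkl : k ≠ l)
    (hd : r ≠ k ∧ r ≠ l ∧ s ≠ k ∧ s ≠ l) (f : Gph V → ℝ) :
    ip f (f - avg (GRel (Zb {r, s} {k, l})) f) =
      ∑ x, (if GValid x r s k l ∨ GValid x s r k l then
        ((f x - f (gsw r s k l x)) / 2) ^ 2 else 0) := by
  rw [ip_sub_avg (GRel_equiv _)]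
  refine Finset.sum_congr rfl fun x _ => ?_
  set R := GRel (V := V) (Zb {r, s} {k, l}) with hR
  by_cases hV : GValid x r s k l ∨ GValid x s r k l
  · rw [if_pos hV]
    have hne : gsw r s k l x ≠ x := by
      rcases hV with h | h
      · exact gsw_ne h
      · rw [gsw_comm_rows]; exact gsw_ne h
    have hmem : gsw r s k l x ∈ cls R x := by
      rw [mem_cls]
      rcases hV with h | h
      · exact GRel_gsw h (Finset.Subset.refl _)
      · rw [gsw_comm_rows]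
        refine GRel_gsw h ?_
        rw [Finset.pair_comm]
    have hcls : cls R x = {x, gsw r s k l x} := by
      ext y
      rw [Finset.mem_insert, Finset.mem_singleton]
      constructor
      · intro hy
        rcases gcls_two_by_two hrs hkl hd (mem_cls.1 hy) with h' | h'
        · exact Or.inl h'
        · exact Or.inr h'.2
      · rintro (h | h)
        · rw [h]; exact self_mem_cls (GRel_equiv _) x
        · rw [h]; exact hmem
    rw [hcls, Finset.sum_pair hne.symm, Finset.card_pair hne.symm]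
    push_cast
    ring
  · rw [if_neg hV]
    have hcls : cls R x = {x} := by
      ext y
      rw [mem_cls, Finset.mem_singleton]
      constructor
      · intro h
        rcases gcls_two_by_two hrs hkl hd h with h' | h'
        · exact h'
        · exact absurd h'.1 hV
      · intro h
        rw [h]
        exact (GRel_equiv _).refl x
    rw [hcls]
    simp

end Vale.Agent.P335
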