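import Vale.Agent.P335.GBase
import Vale.Agent.P335.GAbs
import Vale.Agent.P335.GSwA

/-!
# Basic facts on graph switches, stars and commutation of disjoint symmetric blocks
-/

set_option linter.unusedSectionVars false

namespace Vale.Agent.P335

open Finset

variable {V : Type*} [Fintype V] [DecidableEq V]

/-- (S1) the sum of the two entries of a column outside `{r,s}` is constant on a star class -/
theorem star_pair_sum {r s : V} (hrs : r ≠ s) {x y : Gph V}
    (h : GRel (Zb {r, s} univ) x y) {k : V} (hkr : k ≠ r) (hks : k ≠ s) :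
    (x.1 r k).toNat + (x.1 s k).toNat = (y.1 r k).toNat + (y.1 s k).toNat := by
  have h3 : ∑ i ∈ ({r, s} : Finset V), (x.1 i k).toNat
      = ∑ i ∈ ({r, s} : Finset V), (y.1 i k).toNat := by
    refine john_sum_on _ _ _ (fun i hi => ?_) (h.2.2 k)
    rw [h.1 i k]
    rw [mem_Zb]
    rintro (⟨b, -⟩ | ⟨-, b⟩)
    · exact hi b
    · simp only [Finset.mem_insert, Finset.mem_singleton] at b
      rcases b with b | b
      · exact hkr b
      · exact hks b
  rwa [Finset.sum_pair hrs, Finset.sum_pair hrs] at h3

/-- (S2) the slot `rs` is constant on a star class -/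
theorem star_forced {r s : V} (hrs : r ≠ s) {x y : Gph V}
    (h : GRel (Zb {r, s} univ) x y) : x.1 r s = y.1 r s := by
  have key : ∀ z : Gph V, rs z.1 r + rs z.1 s = 2 * (z.1 r s).toNat
      + ∑ k ∈ ({r, s} : Finset V)ᶜ, ((z.1 r k).toNat + (z.1 s k).toNat) := by
    intro z
    unfold rs
    rw [← Finset.sum_add_distrib, ← Finset.sum_add_sum_compl ({r, s} : Finset V),
      Finset.sum_pair hrs, z.diag r, z.diag s, z.symm s r]
    simp
    ring
  have e : ∑ k ∈ ({r, s} : Finset V)ᶜ, ((x.1 r k).toNat + (x.1 s k).toNat)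
      = ∑ k ∈ ({r, s} : Finset V)ᶜ, ((y.1 r k).toNat + (y.1 s k).toNat) := by
    refine Finset.sum_congr rfl fun k hk => ?_
    simp only [Finset.mem_compl, Finset.mem_insert, Finset.mem_singleton, not_or] at hk
    exact star_pair_sum hrs h hk.1 hk.2
  have a1 := key x
  have a2 := key y
  have a3 := h.2.1 r
  have a4 := h.2.1 s
  have a5 : (x.1 r s).toNat = (y.1 r s).toNat := by omega
  cases hx : x.1 r s <;> cases hy : y.1 r s <;> simp_all

/-- the star relation only changes the cells between `p` and its complement -/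
theorem star_iff {p : Finset V} (hp : p.card = 2) (x y : Gph V) :
    GRel (Zb p univ) x y ↔ GRel (Zb p pᶜ) x y := by
  constructor
  · intro h
    obtain ⟨r, s, hrs, rfl⟩ := Finset.card_eq_two.1 hp
    refine ⟨fun i k hik => ?_, h.2.1, h.2.2⟩
    by_cases hz : (i, k) ∈ Zb ({r, s} : Finset V) univ
    · rw [mem_Zb] at hik hz
      have hi : i ∈ ({r, s} : Finset V) := by
        by_contra hi
        rcases hz with hz | hz
        · exact hi hz.1
        · exact hik (Or.inr ⟨Finset.mem_compl.2 hi, hz.2⟩)
      have hk : k ∈ ({r, s} : Finset V) := by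
        by_contra hk
        exact hik (Or.inl ⟨hi, Finset.mem_compl.2 hk⟩)
      simp only [Finset.mem_insert, Finset.mem_singleton] at hi hk
      rcases hi with rfl | rfl <;> rcases hk with rfl | rfl
      · rw [x.diag, y.diag]
      · exact star_forced hrs h
      · rw [x.symm, y.symm i k]
        exact star_forced hrs h
      · rw [x.diag, y.diag]
    · exact h.1 i k hz
  · exact GRel_mono (Zb_mono (Finset.Subset.refl _) (Finset.subset_univ _))

theorem comb_isG {Z : Finset (V × V)} (hs : ∀ i k, (i, k) ∈ Z → (k, i) ∈ Z) (y x : Gph V) :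
    IsG (comb Z y.1 x.1) := by
  constructor
  · intro i k
    unfold comb
    by_cases hz : (i, k) ∈ Z
    · rw [if_pos hz, if_pos (hs i k hz), y.symm]
    · rw [if_neg hz, if_neg (fun hz' => hz (hs k i hz')), x.symm]
  · intro i
    unfold comb
    by_cases hz : (i, i) ∈ Z
    · rw [if_pos hz, y.diag]
    · rw [if_neg hz, x.diag]

/-- commutation of disjoint symmetric blocks -/
theorem gavg_comm {Z Z' : Finset (V × V)} (hs : ∀ i k, (i, k) ∈ Z → (k, i) ∈ Z)
    (h : Disjoint Z Z') (f : Gph V → ℝ) :
    avg (GRel Z) (avg (GRel Z') f) = avg (GRel Z') (avg (GRel Z) f) := by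
  refine avg_comm_of_comb (GRel_equiv Z) (GRel_equiv Z')
    (fun y x => (⟨comb Z y.1 x.1, comb_isG hs y x⟩ : Gph V)) ?_ ?_ ?_ f
  · intro x x' y hx hy
    exact Rel_comb h hy hx
  · intro x x' y hx hy
    exact Rel_comb' h hy hx
  · intro x x' y hx hy
    exact Subtype.ext (comb_comb hy)

end Vale.Agent.P335
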