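import Vale.Agent.P335.GEnc
import Vale.Agent.P335.GSw
import Vale.Agent.P335.Core

/-!
# The Poincare inequality of two stars in terms of switches
-/

set_option linter.unusedSectionVars false

namespace Vale.Agent.P335

open Finset

variable {V : Type*} [Fintype V] [DecidableEq V]

theorem gpair_degIn_r {r s : V} (hrs : r ≠ s) (x : Gph V) :
    degIn {r, s} x r = (x.1 r s).toNat := by
  unfold degIn
  rw [Finset.sum_pair hrs, x.diag]
  simp

theorem gpair_degIn_s {r s : V} (hrs : r ≠ s) (x : Gph V) :
    degIn {r, s} x s = (x.1 r s).toNat := by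
  unfold degIn
  rw [Finset.sum_pair hrs, x.diag, x.symm s r]
  simp

theorem gpair_enc_inl (S : Finset V) (x : Gph V) (i k : V) :
    enc S x i (Sum.inl k) = if k ∈ S then false else x.1 i k := rfl

theorem gpair_enc_f (S : Finset V) (x : Gph V) (i : V) :
    enc S x i (Sum.inr false) = decide (i ∈ S ∧ 1 ≤ degIn S x i) := rfl

theorem gpair_enc_t (S : Finset V) (x : Gph V) (i : V) :
    enc S x i (Sum.inr true) = decide (i ∈ S ∧ 2 ≤ degIn S x i) := rfl

theorem gpair_enc_false {r s : V} (hrs : r ≠ s) (x : Gph V) (i : V) :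
    enc {r, s} x i (Sum.inr false) = (decide (i = r ∨ i = s) && x.1 r s) := by
  rw [gpair_enc_f]
  by_cases hr : i = r
  · subst hr
    rw [gpair_degIn_r hrs]
    cases x.1 i s <;> simp
  · by_cases hs : i = s
    · subst hs
      rw [gpair_degIn_s hrs]
      cases x.1 r i <;> simp
    · simp [hr, hs]

theorem gpair_enc_true {r s : V} (hrs : r ≠ s) (x : Gph V) (i : V) :
    enc {r, s} x i (Sum.inr true) = false := by
  rw [gpair_enc_t]
  by_cases hr : i = r
  · subst hr
    rw [gpair_degIn_r hrs]
    cases x.1 i s <;> simp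
  · by_cases hs : i = s
    · subst hs
      rw [gpair_degIn_s hrs]
      cases x.1 r i <;> simp
    · simp [hr, hs]

theorem gpair_rs {r s : V} (hrs : r ≠ s) (x : Gph V) {i : V} (hi : i = r ∨ i = s) :
    rs (enc {r, s} x) i = rs x.1 i := by
  unfold rs
  rw [Fintype.sum_sum_type, Fintype.sum_bool, gpair_enc_true hrs, gpair_enc_false hrs]
  have h1 : ∑ k, (x.1 i k).toNat
      = ∑ k, (enc {r, s} x i (Sum.inl k)).toNat + ∑ k ∈ ({r, s} : Finset V), (x.1 i k).toNat := by
    rw [← Finset.sum_add_sum_compl ({r, s} : Finset V) (fun k => (x.1 i k).toNat),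
      ← Finset.sum_add_sum_compl ({r, s} : Finset V)
        (fun k => (enc {r, s} x i (Sum.inl k)).toNat)]
    have e1 : ∑ k ∈ ({r, s} : Finset V), (enc {r, s} x i (Sum.inl k)).toNat = 0 := by
      refine Finset.sum_eq_zero (fun k hk => ?_)
      rw [gpair_enc_inl, if_pos hk]
      rfl
    have e2 : ∑ k ∈ ({r, s} : Finset V)ᶜ, (enc {r, s} x i (Sum.inl k)).toNat
        = ∑ k ∈ ({r, s} : Finset V)ᶜ, (x.1 i k).toNat := by
      refine Finset.sum_congr rfl (fun k hk => ?_)
      rw [gpair_enc_inl, if_neg (Finset.mem_compl.1 hk)]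
    rw [e1, e2]
    ring
  rw [h1, Finset.sum_pair hrs]
  rcases hi with rfl | rfl
  · rw [x.diag]
    simp
  · rw [x.diag, x.symm i r]
    simp

theorem gpair_cs_inl (S : Finset V) (x : Gph V) {k : V} (hk : k ∉ S) :
    cs (enc S x) (Sum.inl k) = cs x.1 k := by
  unfold cs
  refine Finset.sum_congr rfl (fun i _ => ?_)
  rw [gpair_enc_inl, if_neg hk]

theorem gpair_cs_inl' (S : Finset V) (x : Gph V) {k : V} (hk : k ∈ S) :
    cs (enc S x) (Sum.inl k) = 0 := by
  unfold cs
  refine Finset.sum_eq_zero (fun i _ => ?_)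
  rw [gpair_enc_inl, if_pos hk]
  rfl

theorem gpair_rs_eq_cs (x : Gph V) (i : V) : rs x.1 i = cs x.1 i := by
  unfold rs cs
  exact Finset.sum_congr rfl (fun k _ => by rw [x.symm i k])

theorem gpair_enc_inj {r s : V} (hrs : r ≠ s) :
    Function.Injective (enc ({r, s} : Finset V)) := by
  intro x y h
  have hc : ∀ i c, enc {r, s} x i c = enc {r, s} y i c := fun i c => by rw [h]
  have h1 : ∀ i k, k ∉ ({r, s} : Finset V) → x.1 i k = y.1 i k := by
    intro i k hk
    have := hc i (Sum.inl k)
    rwa [gpair_enc_inl, gpair_enc_inl, if_neg hk, if_neg hk] at this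
  have h2 : x.1 r s = y.1 r s := by
    have := hc r (Sum.inr false)
    rw [gpair_enc_false hrs, gpair_enc_false hrs] at this
    simpa using this
  apply Gph.ext'
  intro i k
  by_cases hk : k ∈ ({r, s} : Finset V)
  · by_cases hi : i ∈ ({r, s} : Finset V)
    · simp only [mem_insert, mem_singleton] at hi hk
      rcases hi with rfl | rfl <;> rcases hk with rfl | rfl
      · rw [x.diag, y.diag]
      · exact h2
      · rw [x.symm, y.symm]; exact h2
      · rw [x.diag, y.diag]
    · rw [x.symm, y.symm]; exact h1 k i hi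
  · exact h1 i k hk

theorem gpair_T1 {r s : V} (hrs : r ≠ s) {x y : Gph V} (h : GRel (Zb {r, s} univ) x y) :
    Rel (({r, s} : Finset V) ×ˢ (univ : Finset (V ⊕ Bool))) (enc {r, s} x) (enc {r, s} y) := by
  have hf := star_forced hrs h
  have hv : ∀ i b, enc {r, s} x i (Sum.inr b) = enc {r, s} y i (Sum.inr b) := by
    intro i b
    cases b
    · rw [gpair_enc_false hrs, gpair_enc_false hrs, hf]
    · rw [gpair_enc_true hrs, gpair_enc_true hrs]
  have hoff : ∀ i c, i ∉ ({r, s} : Finset V) → enc {r, s} x i c = enc {r, s} y i c := by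
    intro i c hi
    rcases c with k | b
    · rw [gpair_enc_inl, gpair_enc_inl]
      by_cases hk : k ∈ ({r, s} : Finset V)
      · rw [if_pos hk, if_pos hk]
      · rw [if_neg hk, if_neg hk]
        refine h.1 i k ?_
        rw [mem_Zb]
        tauto
    · exact hv i b
  refine ⟨fun i c hic => hoff i c (by simpa using hic), fun i => ?_, fun c => ?_⟩
  · by_cases hi : i ∈ ({r, s} : Finset V)
    · have hi' : i = r ∨ i = s := by simpa using hi
      rw [gpair_rs hrs x hi', gpair_rs hrs y hi']
      exact h.2.1 i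
    · unfold rs
      exact Finset.sum_congr rfl (fun c _ => by rw [hoff i c hi])
  · rcases c with k | b
    · by_cases hk : k ∈ ({r, s} : Finset V)
      · rw [gpair_cs_inl' _ _ hk, gpair_cs_inl' _ _ hk]
      · rw [gpair_cs_inl _ _ hk, gpair_cs_inl _ _ hk]
        exact h.2.2 k
    · unfold cs
      exact Finset.sum_congr rfl (fun i _ => by rw [hv i b])

theorem gpair_col_zero {N : Mat V (V ⊕ Bool)} {c : V ⊕ Bool} (h : cs N c = 0) (i : V) :
    N i c = false := by
  unfold cs at h
  have := (Finset.sum_eq_zero_iff.1 h) i (mem_univ i)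
  cases hN : N i c
  · rfl
  · rw [hN] at this
    simp at this

theorem gpair_T2 {r s : V} (hrs : r ≠ s) (x : Gph V) (N : Mat V (V ⊕ Bool))
    (h : Rel (({r, s} : Finset V) ×ˢ (univ : Finset (V ⊕ Bool))) (enc {r, s} x) N) :
    ∃ y, enc {r, s} y = N ∧ GRel (Zb {r, s} univ) x y := by
  have hr : r ∈ ({r, s} : Finset V) := by simp
  have hs : s ∈ ({r, s} : Finset V) := by simp
  let Y : Mat V V := fun i k =>
    if i ∈ ({r, s} : Finset V) then (if k ∈ ({r, s} : Finset V) then x.1 i k else N i (Sum.inl k))
    else (if k ∈ ({r, s} : Finset V) then N k (Sum.inl i) else x.1 i k)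
  have hY : IsG Y := by
    constructor
    · intro i k
      simp only [Y]
      by_cases hi : i ∈ ({r, s} : Finset V) <;> by_cases hk : k ∈ ({r, s} : Finset V) <;>
        simp only [hi, hk, if_true, if_false, x.symm i k]
    · intro i
      simp only [Y]
      by_cases hi : i ∈ ({r, s} : Finset V) <;> simp only [hi, if_true, if_false, x.diag]
  have hoff : ∀ i c, i ∉ ({r, s} : Finset V) → enc {r, s} x i c = N i c := by
    intro i c hi
    exact h.1 i c (by simpa using hi)
  have hN1 : ∀ i k, k ∈ ({r, s} : Finset V) → N i (Sum.inl k) = false := by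
    intro i k hk
    refine gpair_col_zero ?_ i
    rw [← h.2.2, gpair_cs_inl' _ _ hk]
  have hN2 : ∀ i, N i (Sum.inr true) = false := by
    intro i
    refine gpair_col_zero ?_ i
    rw [← h.2.2]
    unfold cs
    refine Finset.sum_eq_zero (fun j _ => ?_)
    rw [gpair_enc_true hrs]
    rfl
  have hN3 : N r (Sum.inr false) = x.1 r s ∧ N s (Sum.inr false) = x.1 r s := by
    have h3 := john_col h (Sum.inr false)
    rw [Finset.sum_pair hrs, Finset.sum_pair hrs, gpair_enc_false hrs, gpair_enc_false hrs] at h3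
    cases h4 : x.1 r s <;> cases h5 : N r (Sum.inr false) <;> cases h6 : N s (Sum.inr false) <;>
      simp_all
  obtain ⟨y, hy⟩ : ∃ y : Gph V, y.1 = Y := ⟨⟨Y, hY⟩, rfl⟩
  have hYrs : y.1 r s = x.1 r s := by
    rw [hy]
    simp only [Y, hr, hs, if_true]
  have henc : enc {r, s} y = N := by
    funext i c
    rcases c with k | b
    · rw [gpair_enc_inl]
      by_cases hk : k ∈ ({r, s} : Finset V)
      · rw [if_pos hk, hN1 i k hk]
      · rw [if_neg hk, hy]
        by_cases hi : i ∈ ({r, s} : Finset V)
        · simp only [Y, hi, hk, if_true, if_false]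
        · simp only [Y, hi, hk, if_false]
          rw [← hoff i _ hi, gpair_enc_inl, if_neg hk]
    · cases b
      · rw [gpair_enc_false hrs, hYrs]
        by_cases hir : i = r
        · subst hir
          rw [hN3.1]
          simp
        · by_cases his : i = s
          · subst his
            rw [hN3.2]
            simp
          · rw [← hoff i _ (by simp [hir, his]), gpair_enc_false hrs]
      · rw [gpair_enc_true hrs, hN2]
  have hrows : ∀ i, rs x.1 i = rs y.1 i := by
    intro i
    by_cases hi : i ∈ ({r, s} : Finset V)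
    · have hi' : i = r ∨ i = s := by simpa using hi
      rw [← gpair_rs hrs x hi', h.2.1 i, ← henc, gpair_rs hrs _ hi']
    · rw [gpair_rs_eq_cs x i, ← gpair_cs_inl _ x hi, h.2.2, ← henc, gpair_cs_inl _ _ hi,
        gpair_rs_eq_cs y i]
  refine ⟨y, henc, ?_, hrows, ?_⟩
  · intro i k hik
    rw [mem_Zb] at hik
    have hi : i ∉ ({r, s} : Finset V) := fun hi => hik (Or.inl ⟨hi, mem_univ _⟩)
    have hk : k ∉ ({r, s} : Finset V) := fun hk => hik (Or.inr ⟨mem_univ _, hk⟩)
    rw [hy]
    simp only [Y, hi, hk, if_false]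
  · intro k
    rw [← gpair_rs_eq_cs x k, hrows k, gpair_rs_eq_cs y k]

theorem gpair_valid {r s : V} (hrs : r ≠ s) (x : Gph V) {c c' : V ⊕ Bool}
    (h : Valid (enc {r, s} x) r s c c') :
    ∃ k l, c = Sum.inl k ∧ c' = Sum.inl l ∧ GValid x r s k l := by
  obtain ⟨h1, h2, h3, h4⟩ := h
  rcases c with k | b
  · rcases c' with l | b'
    · rw [gpair_enc_inl] at h1 h2 h3 h4
      have hk : k ∉ ({r, s} : Finset V) := by
        intro hk
        rw [if_pos hk] at h1
        simp at h1
      have hl : l ∉ ({r, s} : Finset V) := by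
        intro hl
        rw [if_pos hl] at h4
        simp at h4
      rw [if_neg hk] at h1 h3
      rw [if_neg hl] at h2 h4
      refine ⟨k, l, rfl, rfl, ⟨h1, h2, h3, h4⟩, ?_, ?_⟩
      · rintro rfl
        exact hl (by simp)
      · rintro rfl
        exact hk (by simp)
    · exfalso
      cases b'
      · rw [gpair_enc_false hrs] at h2 h4
        simp at h2 h4
        rw [h2] at h4
        simp at h4
      · rw [gpair_enc_true hrs] at h4
        simp at h4
  · exfalso
    cases b
    · rw [gpair_enc_false hrs] at h1 h3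
      simp at h1 h3
      rw [h1] at h3
      simp at h3
    · rw [gpair_enc_true hrs] at h1
      simp at h1

theorem gpair_sw {r s k l : V} (hrs : r ≠ s) (hd : r ≠ k ∧ r ≠ l ∧ s ≠ k ∧ s ≠ l) (x : Gph V) :
    sw r s (Sum.inl k) (Sum.inl l) (enc {r, s} x) = enc {r, s} (gsw r s k l x) := by
  have hrs' : (gsw r s k l x).1 r s = x.1 r s := by
    rw [gsw_val hd, gswM_apply r s k l x.1 r s hd, if_neg]
    obtain ⟨h1, h2, h3, h4⟩ := hd
    rintro (⟨-, h | h⟩ | ⟨h | h, -⟩)
    · exact h3 h
    · exact h4 h
    · exact h1 h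
    · exact h2 h
  funext i c
  rcases c with j | b
  · rw [gpair_enc_inl]
    unfold sw
    rw [gpair_enc_inl]
    by_cases hj : j ∈ ({r, s} : Finset V)
    · rw [if_pos hj, if_pos hj, if_neg]
      rintro ⟨-, h | h⟩
      · have := Sum.inl.inj h
        subst this
        simp at hj
        tauto
      · have := Sum.inl.inj h
        subst this
        simp at hj
        tauto
    · rw [if_neg hj, if_neg hj, gsw_val hd, gswM_apply r s k l x.1 i j hd]
      have hj' : ¬ (j = r ∨ j = s) := by simpa using hj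
      by_cases hc : (i = r ∨ i = s) ∧ (j = k ∨ j = l)
      · rw [if_pos (Or.inl hc), if_pos]
        exact ⟨hc.1, hc.2.imp (fun h => by rw [h]) (fun h => by rw [h])⟩
      · rw [if_neg, if_neg]
        · rintro (h | h)
          · exact hc h
          · exact hj' h.2
        · rintro ⟨h1, h2⟩
          exact hc ⟨h1, h2.imp Sum.inl.inj Sum.inl.inj⟩
  · have hns : sw r s (Sum.inl k) (Sum.inl l) (enc {r, s} x) i (Sum.inr b)
        = enc {r, s} x i (Sum.inr b) := by
      unfold sw
      rw [if_neg]
      rintro ⟨-, h | h⟩ <;> cases h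
    rw [hns]
    cases b
    · rw [gpair_enc_false hrs, gpair_enc_false hrs, hrs']
    · rw [gpair_enc_true hrs, gpair_enc_true hrs]

open Classical in
theorem gpair_term {r s : V} (hrs : r ≠ s) (f : Gph V → ℝ) (c c' : V ⊕ Bool) :
    ∑ M, (if Valid M r s c c' ∨ Valid M s r c c' then
        (Function.extend (enc {r, s}) f 0 (sw r s c c' M)
          - Function.extend (enc {r, s}) f 0 M) ^ 2 else 0)
    = ∑ x, (if Valid (enc {r, s} x) r s c c' ∨ Valid (enc {r, s} x) s r c c' then
        (Function.extend (enc {r, s}) f 0 (sw r s c c' (enc {r, s} x)) - f x) ^ 2 else 0) := by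
  symm
  apply Fintype.sum_of_injective (enc {r, s}) (gpair_enc_inj hrs)
  · intro M hM
    by_cases hV : Valid M r s c c' ∨ Valid M s r c c'
    · rw [if_pos hV]
      have hrel : Rel (({r, s} : Finset V) ×ˢ (univ : Finset (V ⊕ Bool))) M (sw r s c c' M) := by
        rcases hV with h | h
        · exact Rel_sw h (Finset.product_subset_product_right (Finset.subset_univ _))
        · rw [sw_comm_rows]
          refine Rel_sw h ?_
          rw [Finset.pair_comm]
          exact Finset.product_subset_product_right (Finset.subset_univ _)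
      have h1 : ¬ ∃ y, enc {r, s} y = sw r s c c' M := by
        rintro ⟨y, hy⟩
        obtain ⟨z, hz, -⟩ := gpair_T2 hrs y M (by rw [hy]; exact (Rel_equiv _).symm hrel)
        exact hM ⟨z, hz⟩
      have h2 : ¬ ∃ y, enc {r, s} y = M := fun ⟨y, hy⟩ => hM ⟨y, hy⟩
      rw [Function.extend_apply' _ _ _ h1, Function.extend_apply' _ _ _ h2]
      simp
    · rw [if_neg hV]
  · intro x
    rw [(gpair_enc_inj hrs).extend_apply]

open Classical in
/-- the switch energy of the two stars, indexed by the columns of the encoding -/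
noncomputable def gpairH (r s : V) (f : Gph V → ℝ) (c c' : V ⊕ Bool) : ℝ :=
  Sum.elim (fun k => Sum.elim (fun l =>
      (∑ x, if GValid x r s k l then (f (gsw r s k l x) - f x) ^ 2 else 0) +
       (∑ x, if GValid x s r k l then (f (gsw s r k l x) - f x) ^ 2 else 0)) (fun _ => 0) c')
    (fun _ => 0) c

theorem gpairH_nonneg (r s : V) (f : Gph V → ℝ) (c c' : V ⊕ Bool) : 0 ≤ gpairH r s f c c' := by
  classical
  unfold gpairH
  rcases c with k | b
  · rcases c' with l | b'
    · simp only [Sum.elim_inl]
      refine add_nonneg (Finset.sum_nonneg fun x _ => ?_) (Finset.sum_nonneg fun x _ => ?_) <;>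
      · split_ifs
        · positivity
        · exact le_refl _
    · simp
  · simp

open Classical in
theorem gpair_term_le {r s : V} (hrs : r ≠ s) (f : Gph V → ℝ) (c c' : V ⊕ Bool) :
    ∑ x, (if Valid (enc {r, s} x) r s c c' ∨ Valid (enc {r, s} x) s r c c' then
        (Function.extend (enc {r, s}) f 0 (sw r s c c' (enc {r, s} x)) - f x) ^ 2 else 0)
    ≤ gpairH r s f c c' := by
  have hzero : (∀ k l, ¬ (c = Sum.inl k ∧ c' = Sum.inl l)) →
      ∑ x, (if Valid (enc {r, s} x) r s c c' ∨ Valid (enc {r, s} x) s r c c' then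
        (Function.extend (enc {r, s}) f 0 (sw r s c c' (enc {r, s} x)) - f x) ^ 2 else 0) = 0 := by
    intro hc
    refine Finset.sum_eq_zero (fun x _ => ?_)
    rw [if_neg]
    rintro (h | h)
    · obtain ⟨k, l, h1, h2, -⟩ := gpair_valid hrs x h
      exact hc k l ⟨h1, h2⟩
    · obtain ⟨k, l, h1, h2, -⟩ := gpair_valid hrs x h.symm
      exact hc l k ⟨h2, h1⟩
  rcases c with k | b
  · rcases c' with l | b'
    · unfold gpairH
      simp only [Sum.elim_inl]
      rw [← Finset.sum_add_distrib]
      refine Finset.sum_le_sum (fun x _ => ?_)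
      have hA : (0 : ℝ) ≤ if GValid x r s k l then (f (gsw r s k l x) - f x) ^ 2 else 0 := by
        split_ifs
        · positivity
        · exact le_refl _
      have hB : (0 : ℝ) ≤ if GValid x s r k l then (f (gsw s r k l x) - f x) ^ 2 else 0 := by
        split_ifs
        · positivity
        · exact le_refl _
      by_cases hV : Valid (enc {r, s} x) r s (Sum.inl k) (Sum.inl l) ∨
          Valid (enc {r, s} x) s r (Sum.inl k) (Sum.inl l)
      · rw [if_pos hV]
        rcases hV with h | h
        · obtain ⟨k', l', h1, h2, hG⟩ := gpair_valid hrs x h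
          have e1 := Sum.inl.inj h1
          have e2 := Sum.inl.inj h2
          subst e1
          subst e2
          have hd := hG.distinct
          rw [gpair_sw hrs hd.2.2, (gpair_enc_inj hrs).extend_apply, if_pos hG]
          exact le_add_of_nonneg_right hB
        · obtain ⟨k', l', h1, h2, hG⟩ := gpair_valid hrs x h.symm
          have e1 := Sum.inl.inj h1
          have e2 := Sum.inl.inj h2
          subst e1
          subst e2
          have hG' := hG.symm
          have hd := hG.distinct
          rw [gpair_sw hrs ⟨hd.2.2.2.1, hd.2.2.1, hd.2.2.2.2.2, hd.2.2.2.2.1⟩,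
            (gpair_enc_inj hrs).extend_apply, if_pos hG', ← gsw_comm_rows r s]
          exact le_add_of_nonneg_left hA
      · rw [if_neg hV]
        exact add_nonneg hA hB
    · rw [hzero (by rintro k' l' ⟨-, h⟩; cases h)]
      exact gpairH_nonneg _ _ _ _ _
  · rw [hzero (by rintro k' l' ⟨h, -⟩; cases h)]
    exact gpairH_nonneg _ _ _ _ _

open Classical in
theorem g_pair {r s : V} (hrs : r ≠ s) (f : Gph V → ℝ) :
    ip f (f - avg (GRel (Zb {r, s} univ)) f) ≤
      ∑ k, ∑ l, (1 / 4) *
        ((∑ x, if GValid x r s k l then (f (gsw r s k l x) - f x) ^ 2 else 0) +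
         (∑ x, if GValid x s r k l then (f (gsw s r k l x) - f x) ^ 2 else 0)) := by
  have ht := transfer (enc ({r, s} : Finset V)) (gpair_enc_inj hrs)
    (R := GRel (Zb {r, s} univ))
    (R' := Rel (({r, s} : Finset V) ×ˢ (univ : Finset (V ⊕ Bool))))
    (fun x y h => gpair_T1 hrs h) (fun x N h => gpair_T2 hrs x N h) f
  rw [← ht]
  set F : Mat V (V ⊕ Bool) → ℝ := Function.extend (enc ({r, s} : Finset V)) f 0 with hF
  have hp : ({r, s} : Finset V) ∈ powersetCard 2 (univ : Finset V) := by
    rw [Finset.mem_powersetCard]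
    exact ⟨Finset.subset_univ _, Finset.card_pair hrs⟩
  have hnn : ∀ (Z : Finset (V × (V ⊕ Bool))), 0 ≤ ip F (F - avg (Rel Z) F) := by
    intro Z
    rw [ip_sub_avg_self (Rel_equiv Z)]
    exact ip_self_nonneg _
  refine (pair_poincare _ hp F).trans ?_
  refine (core_sum_P2_le (fun B => ip F (F - avg (Rel (({r, s} : Finset V) ×ˢ B)) F))
    (fun B => hnn _)).trans ?_
  have hstep : ∀ c c' : V ⊕ Bool,
      (if c ≠ c' then ip F (F - avg (Rel (({r, s} : Finset V) ×ˢ ({c, c'} : Finset (V ⊕ Bool)))) F)
        else 0) ≤ (1 / 4) * gpairH r s f c c' := by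
    intro c c'
    by_cases hcc : c ≠ c'
    · rw [if_pos hcc]
      refine (two_by_two_dirichlet hrs hcc F).trans ?_
      refine mul_le_mul_of_nonneg_left ?_ (by norm_num)
      refine le_trans (le_of_eq ?_) (gpair_term_le hrs f c c')
      rw [hF]
      convert gpair_term hrs f c c'
    · rw [if_neg hcc]
      have := gpairH_nonneg r s f c c'
      positivity
  refine (Finset.sum_le_sum (fun c _ => Finset.sum_le_sum (fun c' _ => hstep c c'))).trans ?_
  apply le_of_eq
  simp only [Fintype.sum_sum_type, gpairH, Sum.elim_inl, Sum.elim_inr, mul_zero,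
    Finset.sum_const_zero, add_zero]

end Vale.Agent.P335
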