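import Vale.Agent.P335.GEnc

/-!
# The local inequality for three stars
-/

set_option linter.unusedSectionVars false

namespace Vale.Agent.P335

open Finset

variable {V : Type*} [Fintype V] [DecidableEq V]

theorem enc3_deg {u v w : V} (huv : u ≠ v) (huw : u ≠ w) (hvw : v ≠ w) (z : Gph V) :
    degIn {u, v, w} z u = (z.1 u v).toNat + (z.1 u w).toNat ∧
      degIn {u, v, w} z v = (z.1 u v).toNat + (z.1 v w).toNat ∧
      degIn {u, v, w} z w = (z.1 u w).toNat + (z.1 v w).toNat := by
  unfold degIn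
  rw [sum_three huv huw hvw, sum_three huv huw hvw, sum_three huv huw hvw, z.diag, z.diag,
    z.diag, z.symm v u, z.symm w u, z.symm w v]
  simp

theorem enc_inj3 (T : Finset V) (hT : T.card = 3) : Function.Injective (enc T) := by
  obtain ⟨u, v, w, huv, huw, hvw, rfl⟩ := Finset.card_eq_three.1 hT
  intro x y hxy
  have hout : ∀ i k, k ∉ ({u, v, w} : Finset V) → x.1 i k = y.1 i k := by
    intro i k hk
    have := congrFun (congrFun hxy i) (Sum.inl k)
    rwa [enc_inl, enc_inl, if_neg hk, if_neg hk] at this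
  obtain ⟨x1, x2, x3⟩ := enc3_deg huv huw hvw x
  obtain ⟨y1, y2, y3⟩ := enc3_deg huv huw hvw y
  have hF : ∀ i, decide (i ∈ ({u, v, w} : Finset V) ∧ 1 ≤ degIn {u, v, w} x i)
      = decide (i ∈ ({u, v, w} : Finset V) ∧ 1 ≤ degIn {u, v, w} y i) :=
    fun i => congrFun (congrFun hxy i) (Sum.inr false)
  have hTr : ∀ i, decide (i ∈ ({u, v, w} : Finset V) ∧ 2 ≤ degIn {u, v, w} x i)
      = decide (i ∈ ({u, v, w} : Finset V) ∧ 2 ≤ degIn {u, v, w} y i) :=
    fun i => congrFun (congrFun hxy i) (Sum.inr true)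
  have f1 := hF u
  have f2 := hF v
  have f3 := hF w
  have t1 := hTr u
  have t2 := hTr v
  have t3 := hTr w
  rw [x1, y1] at f1 t1
  rw [x2, y2] at f2 t2
  rw [x3, y3] at f3 t3
  have hin : x.1 u v = y.1 u v ∧ x.1 u w = y.1 u w ∧ x.1 v w = y.1 v w := by
    revert f1 f2 f3 t1 t2 t3
    cases x.1 u v <;> cases x.1 u w <;> cases x.1 v w <;> cases y.1 u v <;> cases y.1 u w <;>
      cases y.1 v w <;> simp
  obtain ⟨a1, a2, a3⟩ := hin
  apply Gph.ext'
  intro i k
  by_cases hk : k ∈ ({u, v, w} : Finset V)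
  · by_cases hi : i ∈ ({u, v, w} : Finset V)
    · simp only [Finset.mem_insert, Finset.mem_singleton] at hi hk
      rcases hi with rfl | rfl | rfl <;> rcases hk with rfl | rfl | rfl <;>
        first
          | rw [x.diag, y.diag]
          | assumption
          | (rw [x.symm, y.symm]; assumption)
    · rw [x.symm, y.symm]
      exact hout k i hi
  · exact hout i k hk

theorem enc3_T1 (T : Finset V) (hT : T.card = 3) (x y : Gph V) (h : GRel (Zb T univ) x y) :
    Rel (T ×ˢ (univ : Finset (V ⊕ Bool))) (enc T x) (enc T y) := by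
  have hin := enc_inner_const T h
  obtain ⟨u, v, w, huv, huw, hvw, rfl⟩ := Finset.card_eq_three.1 hT
  have key : ∀ z : Gph V, degIn {u, v, w} z u = (z.1 u v).toNat + (z.1 u w).toNat ∧
      degIn {u, v, w} z v = (z.1 u v).toNat + (z.1 v w).toNat ∧
      degIn {u, v, w} z w = (z.1 u w).toNat + (z.1 v w).toNat := by
    intro z
    unfold degIn
    rw [sum_three huv huw hvw, sum_three huv huw hvw, sum_three huv huw hvw, z.diag, z.diag,
      z.diag, z.symm v u, z.symm w u, z.symm w v]
    simp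
  obtain ⟨x1, x2, x3⟩ := key x
  obtain ⟨y1, y2, y3⟩ := key y
  rw [sum_three huv huw hvw, sum_three huv huw hvw, x1, x2, x3, y1, y2, y3] at hin
  refine enc_T1_core hT.le h ?_ ?_
  · rw [enc_cs_false, enc_cs_false, sum_three huv huw hvw, sum_three huv huw hvw,
      x1, x2, x3, y1, y2, y3]
    revert hin
    cases x.1 u v <;> cases x.1 u w <;> cases x.1 v w <;> cases y.1 u v <;> cases y.1 u w <;>
      cases y.1 v w <;> simp
  · rw [enc_cs_true, enc_cs_true, sum_three huv huw hvw, sum_three huv huw hvw,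
      x1, x2, x3, y1, y2, y3]
    revert hin
    cases x.1 u v <;> cases x.1 u w <;> cases x.1 v w <;> cases y.1 u v <;> cases y.1 u w <;>
      cases y.1 v w <;> simp

/-- virtual degree read off an encoded matrix -/
def dv (y' : Mat V (V ⊕ Bool)) (j : V) : ℕ :=
  (y' j (Sum.inr false)).toNat + (y' j (Sum.inr true)).toNat

/-- decoding of a matrix in the class of an encoded graph -/
def dec3 (T : Finset V) (x : Gph V) (y' : Mat V (V ⊕ Bool)) : Mat V V := fun i k =>
  if i ∈ T then
    (if k ∈ T then decide (i ≠ k) && decide (∑ j ∈ T, dv y' j < 2 * (dv y' i + dv y' k))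
      else y' i (Sum.inl k))
  else (if k ∈ T then y' k (Sum.inl i) else x.1 i k)

theorem dec3_isG (T : Finset V) (x : Gph V) (y' : Mat V (V ⊕ Bool)) : IsG (dec3 T x y') := by
  constructor
  · intro i k
    unfold dec3
    by_cases hi : i ∈ T <;> by_cases hk : k ∈ T
    · simp only [if_pos hi, if_pos hk, ne_comm (a := i), add_comm (dv y' i)]
    · simp only [if_pos hi, if_neg hk]
    · simp only [if_neg hi, if_pos hk]
    · simp only [if_neg hi, if_neg hk]
      exact x.symm i k
  · intro i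
    unfold dec3
    by_cases hi : i ∈ T
    · simp [hi]
    · simp only [if_neg hi]
      exact x.diag i

theorem tri_sums : ∀ A B C : Bool,
    let s1 := (decide (1 ≤ A.toNat + B.toNat)).toNat + (decide (1 ≤ A.toNat + C.toNat)).toNat
      + (decide (1 ≤ B.toNat + C.toNat)).toNat
    let s2 := (decide (2 ≤ A.toNat + B.toNat)).toNat + (decide (2 ≤ A.toNat + C.toNat)).toNat
      + (decide (2 ≤ B.toNat + C.toNat)).toNat
    (s1 = 0 ∧ s2 = 0) ∨ (s1 = 2 ∧ s2 = 0) ∨ (s1 = 3 ∧ s2 = 1) ∨ (s1 = 3 ∧ s2 = 3) := by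
  decide

theorem tri_dec : ∀ a1 b1 c1 a2 b2 c2 : Bool,
    ((a1.toNat + b1.toNat + c1.toNat = 0 ∧ a2.toNat + b2.toNat + c2.toNat = 0) ∨
     (a1.toNat + b1.toNat + c1.toNat = 2 ∧ a2.toNat + b2.toNat + c2.toNat = 0) ∨
     (a1.toNat + b1.toNat + c1.toNat = 3 ∧ a2.toNat + b2.toNat + c2.toNat = 1) ∨
     (a1.toNat + b1.toNat + c1.toNat = 3 ∧ a2.toNat + b2.toNat + c2.toNat = 3)) →
    let da := a1.toNat + a2.toNat
    let db := b1.toNat + b2.toNat
    let dc := c1.toNat + c2.toNat
    let ab := decide (da + db + dc < 2 * (da + db))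
    let ac := decide (da + db + dc < 2 * (da + dc))
    let bc := decide (da + db + dc < 2 * (db + dc))
    decide (1 ≤ ab.toNat + ac.toNat) = a1 ∧ decide (2 ≤ ab.toNat + ac.toNat) = a2 ∧
    decide (1 ≤ ab.toNat + bc.toNat) = b1 ∧ decide (2 ≤ ab.toNat + bc.toNat) = b2 ∧
    decide (1 ≤ ac.toNat + bc.toNat) = c1 ∧ decide (2 ≤ ac.toNat + bc.toNat) = c2 := by
  decide

theorem enc3_T2 (T : Finset V) (hT : T.card = 3) (x : Gph V) (y' : Mat V (V ⊕ Bool))
    (h : Rel (T ×ˢ (univ : Finset (V ⊕ Bool))) (enc T x) y') :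
    ∃ y, enc T y = y' ∧ GRel (Zb T univ) x y := by
  have hoff : ∀ i, i ∉ T → ∀ c, enc T x i c = y' i c := by
    intro i hi c
    exact h.1 i c (by simp [hi])
  have F1 : ∀ i, ∀ k ∈ T, y' i (Sum.inl k) = false := by
    intro i k hk
    have e := h.2.2 (Sum.inl k)
    rw [enc_cs_in T x hk] at e
    have := (Finset.sum_eq_zero_iff.1 e.symm) i (mem_univ i)
    cases hh : y' i (Sum.inl k)
    · rfl
    · rw [hh] at this; simp at this
  have Fv : ∀ b, cs y' (Sum.inr b) = ∑ i ∈ T, (y' i (Sum.inr b)).toNat := by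
    intro b
    unfold cs
    have e : ∀ i, (y' i (Sum.inr b)).toNat = if i ∈ T then (y' i (Sum.inr b)).toNat else 0 := by
      intro i
      by_cases hi : i ∈ T
      · rw [if_pos hi]
      · rw [if_neg hi, ← hoff i hi]
        cases b
        · rw [enc_inr_false]; simp [hi]
        · rw [enc_inr_true]; simp [hi]
    rw [Finset.sum_congr rfl fun i _ => e i, Finset.sum_ite_mem, Finset.univ_inter]
  have c1 := h.2.2 (Sum.inr false)
  have c2 := h.2.2 (Sum.inr true)
  rw [enc_cs_false, Fv] at c1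
  rw [enc_cs_true, Fv] at c2
  set Y : Gph V := ⟨dec3 T x y', dec3_isG T x y'⟩ with hY
  have hYv : ∀ i k, Y.1 i k = dec3 T x y' i k := fun _ _ => rfl
  have G1 : enc T Y = y' := by
    obtain ⟨u, v, w, huv, huw, hvw, rfl⟩ := Finset.card_eq_three.1 hT
    obtain ⟨x1, x2, x3⟩ := enc3_deg huv huw hvw x
    obtain ⟨y1, y2, y3⟩ := enc3_deg huv huw hvw Y
    rw [sum_three huv huw hvw, sum_three huv huw hvw, x1, x2, x3] at c1 c2
    have hs := tri_sums (x.1 u v) (x.1 u w) (x.1 v w)
    simp only at hs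
    rw [c1, c2] at hs
    have hd := tri_dec _ _ _ _ _ _ hs
    simp only at hd
    have huT : u ∈ ({u, v, w} : Finset V) := by simp
    have hvT : v ∈ ({u, v, w} : Finset V) := by simp
    have hwT : w ∈ ({u, v, w} : Finset V) := by simp
    have euv : Y.1 u v = decide (dv y' u + dv y' v + dv y' w < 2 * (dv y' u + dv y' v)) := by
      rw [hYv]; unfold dec3
      rw [if_pos huT, if_pos hvT, sum_three huv huw hvw]
      simp [huv]
    have euw : Y.1 u w = decide (dv y' u + dv y' v + dv y' w < 2 * (dv y' u + dv y' w)) := by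
      rw [hYv]; unfold dec3
      rw [if_pos huT, if_pos hwT, sum_three huv huw hvw]
      simp [huw]
    have evw : Y.1 v w = decide (dv y' u + dv y' v + dv y' w < 2 * (dv y' v + dv y' w)) := by
      rw [hYv]; unfold dec3
      rw [if_pos hvT, if_pos hwT, sum_three huv huw hvw]
      simp [hvw]
    rw [euv, euw] at y1
    rw [euv, evw] at y2
    rw [euw, evw] at y3
    obtain ⟨d1, d2, d3, d4, d5, d6⟩ := hd
    funext i c
    rcases c with k | b
    · rw [enc_inl]
      by_cases hk : k ∈ ({u, v, w} : Finset V)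
      · rw [if_pos hk, F1 i k hk]
      · rw [if_neg hk, hYv]
        unfold dec3
        by_cases hi : i ∈ ({u, v, w} : Finset V)
        · rw [if_pos hi, if_neg hk]
        · rw [if_neg hi, if_neg hk, ← hoff i hi, enc_inl, if_neg hk]
    · by_cases hi : i ∈ ({u, v, w} : Finset V)
      · have hi' := hi
        simp only [Finset.mem_insert, Finset.mem_singleton] at hi'
        cases b
        · rw [enc_inr_false]
          rcases hi' with rfl | rfl | rfl
          · rw [y1]; refine Eq.trans ?_ d1; rw [decide_eq_decide]; exact ⟨fun h => h.2, fun h => ⟨huT, h⟩⟩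
          · rw [y2]; refine Eq.trans ?_ d3; rw [decide_eq_decide]; exact ⟨fun h => h.2, fun h => ⟨hvT, h⟩⟩
          · rw [y3]; refine Eq.trans ?_ d5; rw [decide_eq_decide]; exact ⟨fun h => h.2, fun h => ⟨hwT, h⟩⟩
        · rw [enc_inr_true]
          rcases hi' with rfl | rfl | rfl
          · rw [y1]; refine Eq.trans ?_ d2; rw [decide_eq_decide]; exact ⟨fun h => h.2, fun h => ⟨huT, h⟩⟩
          · rw [y2]; refine Eq.trans ?_ d4; rw [decide_eq_decide]; exact ⟨fun h => h.2, fun h => ⟨hvT, h⟩⟩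
          · rw [y3]; refine Eq.trans ?_ d6; rw [decide_eq_decide]; exact ⟨fun h => h.2, fun h => ⟨hwT, h⟩⟩
      · rw [← hoff i hi]
        cases b
        · rw [enc_inr_false, enc_inr_false]; simp [hi]
        · rw [enc_inr_true, enc_inr_true]; simp [hi]
  have hrs : ∀ i, rs x.1 i = rs Y.1 i := by
    intro i
    by_cases hi : i ∈ T
    · rw [← enc_rs_in hT.le x hi, ← enc_rs_in hT.le Y hi, G1]
      exact h.2.1 i
    · rw [gph_rs_eq_cs, gph_rs_eq_cs, ← enc_cs_out T x hi, ← enc_cs_out T Y hi, G1]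
      exact h.2.2 _
  refine ⟨Y, G1, ?_, hrs, ?_⟩
  · intro i k hik
    rw [mem_Zb] at hik
    have hi : i ∉ T := fun hi => hik (Or.inl ⟨hi, mem_univ _⟩)
    have hk : k ∉ T := fun hk => hik (Or.inr ⟨mem_univ _, hk⟩)
    rw [hYv]
    unfold dec3
    rw [if_neg hi, if_neg hk]
  · intro k
    rw [← gph_rs_eq_cs, ← gph_rs_eq_cs]
    exact hrs k

theorem enc3_T1p (T : Finset V) (hT : T.card = 3) (p : Finset V) (hp : p ∈ powersetCard 2 T)
    (x y : Gph V) (h : GRel (Zb p univ) x y) :
    Rel (p ×ˢ (univ : Finset (V ⊕ Bool))) (enc T x) (enc T y) := by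
  have hpT : p ⊆ T := (mem_powersetCard.1 hp).1
  have hR := enc3_T1 T hT x y (GRel_mono (Zb_mono hpT (Finset.Subset.refl _)) h)
  refine ⟨?_, hR.2.1, hR.2.2⟩
  intro i c hic
  have hi : i ∉ p := fun hi => hic (by simp [hi])
  by_cases hiT : i ∈ T
  · have hcell : ∀ k, k ∉ T → x.1 i k = y.1 i k := by
      intro k hk
      apply h.1 i k
      rw [mem_Zb]
      have : k ∉ p := fun hk' => hk (hpT hk')
      simp [hi, this]
    have hsum : ∑ k, (if k ∈ T then false else x.1 i k).toNat
        = ∑ k, (if k ∈ T then false else y.1 i k).toNat := by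
      refine Finset.sum_congr rfl fun k _ => ?_
      by_cases hk : k ∈ T
      · rw [if_pos hk, if_pos hk]
      · rw [if_neg hk, if_neg hk, hcell k hk]
    have hdeg : degIn T x i = degIn T y i := by
      have e1 := enc_rs_split T x i
      have e2 := enc_rs_split T y i
      have e3 := h.2.1 i
      omega
    rcases c with k | b
    · rw [enc_inl, enc_inl]
      by_cases hk : k ∈ T
      · rw [if_pos hk, if_pos hk]
      · rw [if_neg hk, if_neg hk, hcell k hk]
    · cases b
      · rw [enc_inr_false, enc_inr_false, hdeg]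
      · rw [enc_inr_true, enc_inr_true, hdeg]
  · exact hR.1 i c (by simp [hiT])

theorem enc3_T2p (T : Finset V) (hT : T.card = 3) (p : Finset V) (hp : p ∈ powersetCard 2 T)
    (x : Gph V) (y' : Mat V (V ⊕ Bool))
    (h : Rel (p ×ˢ (univ : Finset (V ⊕ Bool))) (enc T x) y') :
    ∃ y, enc T y = y' ∧ GRel (Zb p univ) x y := by
  obtain ⟨hpT, hp2⟩ := mem_powersetCard.1 hp
  obtain ⟨y, hy, hR⟩ := enc3_T2 T hT x y'
    (Rel_mono (Finset.product_subset_product_left hpT) h)
  refine ⟨y, hy, ?_, hR.2.1, hR.2.2⟩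
  have hrow : ∀ i, i ∉ p → ∀ k, k ∉ T → x.1 i k = y.1 i k := by
    intro i hi k hk
    have e := h.1 i (Sum.inl k) (by simp [hi])
    rw [← hy, enc_inl, enc_inl, if_neg hk, if_neg hk] at e
    exact e
  intro i k hik
  rw [mem_Zb] at hik
  have hi : i ∉ p := fun hi => hik (Or.inl ⟨hi, mem_univ _⟩)
  have hk : k ∉ p := fun hk => hik (Or.inr ⟨mem_univ _, hk⟩)
  by_cases hkT : k ∈ T
  · by_cases hiT : i ∈ T
    · by_cases hik' : i = k
      · subst hik'
        rw [x.diag, y.diag]
      · exfalso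
        have hsub : insert i (insert k p) ⊆ T := by
          intro a ha
          rcases Finset.mem_insert.1 ha with rfl | ha
          · exact hiT
          · rcases Finset.mem_insert.1 ha with rfl | ha
            · exact hkT
            · exact hpT ha
        have hc := Finset.card_le_card hsub
        rw [Finset.card_insert_of_notMem (by simp [hik', hi]),
          Finset.card_insert_of_notMem hk, hp2, hT] at hc
        omega
    · rw [x.symm, y.symm]
      exact hrow k hk i hiT
  · exact hrow i hi k hkT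

theorem g_hloc (T : Finset V) (hT : T ∈ powersetCard 3 (univ : Finset V)) (f : Gph V → ℝ) :
    ip f (f - avg (GRel (Zb T univ)) f) ≤
      ∑ p ∈ powersetCard 2 T, ip f (f - avg (GRel (Zb p univ)) f) := by
  have hT3 := (mem_powersetCard.1 hT).2
  have h := three_row T hT (Function.extend (enc T) f 0)
  rw [transfer (enc T) (enc_inj3 T hT3) (enc3_T1 T hT3) (enc3_T2 T hT3) f] at h
  refine h.trans (le_of_eq (Finset.sum_congr rfl fun p hp => ?_))
  exact transfer (enc T) (enc_inj3 T hT3) (enc3_T1p T hT3 p hp) (enc3_T2p T hT3 p hp) f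

end Vale.Agent.P335
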