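import Vale.Agent.P335.GY
import Vale.Agent.P335.GJ
import Vale.Agent.P335.GTriple
import Vale.Agent.P335.GPair
import Vale.Agent.P335.GConn
import Vale.Agent.P335.Core

/-!
# The Poincare inequality for switches on graphs with given degrees
-/

set_option linter.unusedSectionVars false

namespace Vale.Agent.P335

open Finset

variable {V : Type*} [Fintype V] [DecidableEq V]

theorem g_sum_disj (F : Finset V → Finset V → ℝ) :
    ∑ x ∈ (powersetCard 2 (univ : Finset V)).offDiag.filter (fun x => Disjoint x.1 x.2),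
      F x.1 x.2 = ∑ p ∈ powersetCard 2 (univ : Finset V),
        ∑ q ∈ (powersetCard 2 (univ : Finset V)).filter (fun q => Disjoint p q), F p q := by
  rw [Finset.sum_sigma']
  refine Finset.sum_nbij' (fun x => ⟨x.1, x.2⟩) (fun y => (y.1, y.2)) ?_ ?_ ?_ ?_ ?_
  · intro x hx
    obtain ⟨h1, h2⟩ := Finset.mem_filter.1 hx
    obtain ⟨ha, hb, -⟩ := Finset.mem_offDiag.1 h1
    exact Finset.mem_sigma.2 ⟨ha, Finset.mem_filter.2 ⟨hb, h2⟩⟩
  · intro y hy
    obtain ⟨h1, h2⟩ := Finset.mem_sigma.1 hy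
    obtain ⟨h3, h4⟩ := Finset.mem_filter.1 h2
    refine Finset.mem_filter.2 ⟨Finset.mem_offDiag.2 ⟨h1, h3, ?_⟩, h4⟩
    intro he
    have hc := (Finset.mem_powersetCard.1 h1).2
    simp only at he h4
    rw [← he, Finset.disjoint_self_iff_empty] at h4
    rw [h4] at hc
    simp at hc
  · intro x _; rfl
  · intro y _; rfl
  · intro x _; rfl

theorem g_sum_disj_swap (F : Finset V → Finset V → ℝ) :
    ∑ x ∈ (powersetCard 2 (univ : Finset V)).offDiag.filter (fun x => Disjoint x.1 x.2),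
      F x.2 x.1 = ∑ x ∈ (powersetCard 2 (univ : Finset V)).offDiag.filter
        (fun x => Disjoint x.1 x.2), F x.1 x.2 := by
  refine Finset.sum_nbij' (fun x => (x.2, x.1)) (fun x => (x.2, x.1)) ?_ ?_ ?_ ?_ ?_
  · intro x hx
    obtain ⟨h1, h2⟩ := Finset.mem_filter.1 hx
    obtain ⟨ha, hb, hne⟩ := Finset.mem_offDiag.1 h1
    exact Finset.mem_filter.2 ⟨Finset.mem_offDiag.2 ⟨hb, ha, hne.symm⟩, h2.symm⟩
  · intro x hx
    obtain ⟨h1, h2⟩ := Finset.mem_filter.1 hx
    obtain ⟨ha, hb, hne⟩ := Finset.mem_offDiag.1 h1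
    exact Finset.mem_filter.2 ⟨Finset.mem_offDiag.2 ⟨hb, ha, hne.symm⟩, h2.symm⟩
  · intro x _; rfl
  · intro x _; rfl
  · intro x _; rfl

theorem g_hdisj (f : Gph V → ℝ) :
    0 ≤ ∑ x ∈ (powersetCard 2 (univ : Finset V)).offDiag.filter (fun x => Disjoint x.1 x.2),
      ip (f - avg (GRel (Zb x.1 univ)) f) (f - avg (GRel (Zb x.2 univ)) f) := by
  set D := (powersetCard 2 (univ : Finset V)).offDiag.filter (fun x => Disjoint x.1 x.2) with hD
  have h1 : ∑ x ∈ D, (ip f (f - avg (GRel (Zb x.1 x.2)) f) - (nn x.1 x.2 f + nn x.2 x.1 f) / 2)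
      ≤ ∑ x ∈ D, ip (f - avg (GRel (Zb x.1 univ)) f) (f - avg (GRel (Zb x.2 univ)) f) := by
    refine Finset.sum_le_sum fun x hx => ?_
    obtain ⟨h1, h2⟩ := Finset.mem_filter.1 hx
    obtain ⟨ha, hb, -⟩ := Finset.mem_offDiag.1 h1
    exact Y_pair x.1 x.2 (Finset.mem_powersetCard.1 ha).2 (Finset.mem_powersetCard.1 hb).2 h2 f
  have h2 : ∑ x ∈ D, (ip f (f - avg (GRel (Zb x.1 x.2)) f) - (nn x.1 x.2 f + nn x.2 x.1 f) / 2)
      = ∑ x ∈ D, ip f (f - avg (GRel (Zb x.1 x.2)) f) - ∑ x ∈ D, nn x.1 x.2 f := by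
    have e := g_sum_disj_swap (fun p q => nn p q f)
    rw [Finset.sum_sub_distrib, ← Finset.sum_div, Finset.sum_add_distrib, e]
    ring
  have h3 : ∑ x ∈ D, nn x.1 x.2 f ≤ ∑ x ∈ D, ip f (f - avg (GRel (Zb x.1 x.2)) f) := by
    rw [hD, g_sum_disj (fun p q => nn p q f),
      g_sum_disj (fun p q => ip f (f - avg (GRel (Zb p q)) f))]
    exact Finset.sum_le_sum fun p hp => J_graph p (Finset.mem_powersetCard.1 hp).2 f
  linarith

/-- Knabe over the stars -/
theorem g_stars (f : Gph V → ℝ) :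
    ip f (f - avg (GRel (Zb univ univ)) f) ≤
      ∑ p ∈ powersetCard 2 (univ : Finset V), ip f (f - avg (GRel (Zb p univ)) f) := by
  have key := knabe' (Ω := Gph V) (J := V)
    (fun A => avgL (GRel (Zb A univ)))
    (fun A f g => avg_symm (GRel_equiv _) f g)
    (fun A f => avg_idem (GRel_equiv _) f)
    (fun A A' hAA f => avg_avg_of_le (GRel_equiv _) (GRel_equiv _)
      (fun x y h => GRel_mono (Zb_mono hAA (Finset.Subset.refl _)) h) f)
    (fun f => g_hdisj f)
    (fun T hT f => g_hloc T hT f)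
    (by
      intro g hg
      refine avg_of_inv (GRel_equiv _) (g_conn g ?_)
      intro x r s k l hV
      have hB : ({r, s} : Finset V) ∈ powersetCard 2 (univ : Finset V) := by
        rw [Finset.mem_powersetCard]
        exact ⟨Finset.subset_univ _, Finset.card_pair hV.distinct.1⟩
      have h1 := hg _ hB
      have h2 : Inv (GRel (Zb ({r, s} : Finset V) univ)) g := by
        have := avg_inv (GRel_equiv (Zb ({r, s} : Finset V) univ)) g
        rw [avgL_apply] at h1
        rwa [h1] at this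
      exact (h2 x _ (GRel_gsw hV (Zb_mono (Finset.Subset.refl _) (Finset.subset_univ _)))).symm)
    f
  exact key

open Classical in
/-- operator form of the switch Poincare inequality on the space of all graphs -/
theorem g_operator (g : Gph V → ℝ) :
    ip g (g - avg (GRel (Zb univ univ)) g) ≤
      (1 / 2) * ∑ r, ∑ s, ∑ k, ∑ l, ∑ x,
        (if GValid x r s k l then (g (gsw r s k l x) - g x) ^ 2 else 0) := by
  set Ψ : V → V → V → V → ℝ := fun r s k l =>
    ∑ x, (if GValid x r s k l then (g (gsw r s k l x) - g x) ^ 2 else 0) with hΨ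
  have hΨ0 : ∀ r s k l, 0 ≤ Ψ r s k l := by
    intro r s k l
    refine Finset.sum_nonneg (fun M _ => ?_)
    split_ifs
    · positivity
    · exact le_refl _
  have hnn : ∀ (Z : Finset (V × V)), 0 ≤ ip g (g - avg (GRel Z) g) := by
    intro Z
    rw [ip_sub_avg_self (GRel_equiv Z)]
    exact ip_self_nonneg _
  have h1 := g_stars g
  have h3 : ∑ p ∈ powersetCard 2 (univ : Finset V), ip g (g - avg (GRel (Zb p univ)) g)
      ≤ ∑ r, ∑ s, (if r ≠ s then ip g (g - avg (GRel (Zb ({r, s} : Finset V) univ)) g) else 0) :=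
    core_sum_P2_le (fun p => ip g (g - avg (GRel (Zb p univ)) g)) (fun p => hnn _)
  have h4 : ∀ r s : V, (if r ≠ s then ip g (g - avg (GRel (Zb ({r, s} : Finset V) univ)) g) else 0)
      ≤ ∑ k, ∑ l, (1 / 4) * (Ψ r s k l + Ψ s r k l) := by
    intro r s
    by_cases hrs : r ≠ s
    · rw [if_pos hrs]
      exact g_pair hrs g
    · rw [if_neg hrs]
      refine Finset.sum_nonneg (fun c _ => Finset.sum_nonneg (fun c' _ => ?_))
      have := hΨ0 r s c c'
      have := hΨ0 s r c c'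
      positivity
  have h5 : ∑ r, ∑ s, ∑ k, ∑ l, (1 / 4) * (Ψ r s k l + Ψ s r k l)
      = (1 / 2) * ∑ r, ∑ s, ∑ k, ∑ l, Ψ r s k l := by
    have e1 : ∑ r, ∑ s, ∑ k, ∑ l, Ψ s r k l = ∑ r, ∑ s, ∑ k, ∑ l, Ψ r s k l :=
      Finset.sum_comm
    simp only [← Finset.mul_sum, Finset.sum_add_distrib, e1]
    ring
  calc ip g (g - avg (GRel (Zb univ univ)) g)
      ≤ _ := h1
    _ ≤ _ := h3
    _ ≤ ∑ r, ∑ s, ∑ k, ∑ l, (1 / 4) * (Ψ r s k l + Ψ s r k l) :=
        Finset.sum_le_sum (fun r _ => Finset.sum_le_sum (fun s _ => h4 r s))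
    _ = _ := h5

end Vale.Agent.P335
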