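import Vale.Agent.P335.GEnc

/-!
# Three stars: decoding a matrix of the encoded class
-/

set_option linter.unusedSectionVars false

namespace Vale.Agent.P335

open Finset

variable {V : Type*} [Fintype V] [DecidableEq V]

/-- the edge rule inside the triple: degrees `a`, `b` of the end points, total degree `s` -/
def triE (a b s : ℕ) : Bool := decide (2 * (a + b) = s + 2)

theorem triE_comm (a b s : ℕ) : triE a b s = triE b a s := by
  unfold triE
  rw [add_comm]

theorem gt2_tri_dec : ∀ (X1 X2 X3 p1 p2 p3 q1 q2 q3 : Bool),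
    p1.toNat + p2.toNat + p3.toNat = (decide (1 ≤ X1.toNat + X2.toNat)).toNat
      + (decide (1 ≤ X1.toNat + X3.toNat)).toNat + (decide (1 ≤ X2.toNat + X3.toNat)).toNat →
    q1.toNat + q2.toNat + q3.toNat = (decide (2 ≤ X1.toNat + X2.toNat)).toNat
      + (decide (2 ≤ X1.toNat + X3.toNat)).toNat + (decide (2 ≤ X2.toNat + X3.toNat)).toNat →
    (decide (1 ≤ (triE (p1.toNat + q1.toNat) (p2.toNat + q2.toNat)
        ((p1.toNat + q1.toNat) + (p2.toNat + q2.toNat) + (p3.toNat + q3.toNat))).toNat +
      (triE (p1.toNat + q1.toNat) (p3.toNat + q3.toNat)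
        ((p1.toNat + q1.toNat) + (p2.toNat + q2.toNat) + (p3.toNat + q3.toNat))).toNat) = p1) ∧
    (decide (2 ≤ (triE (p1.toNat + q1.toNat) (p2.toNat + q2.toNat)
        ((p1.toNat + q1.toNat) + (p2.toNat + q2.toNat) + (p3.toNat + q3.toNat))).toNat +
      (triE (p1.toNat + q1.toNat) (p3.toNat + q3.toNat)
        ((p1.toNat + q1.toNat) + (p2.toNat + q2.toNat) + (p3.toNat + q3.toNat))).toNat) = q1) ∧
    (decide (1 ≤ (triE (p1.toNat + q1.toNat) (p2.toNat + q2.toNat)
        ((p1.toNat + q1.toNat) + (p2.toNat + q2.toNat) + (p3.toNat + q3.toNat))).toNat +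
      (triE (p2.toNat + q2.toNat) (p3.toNat + q3.toNat)
        ((p1.toNat + q1.toNat) + (p2.toNat + q2.toNat) + (p3.toNat + q3.toNat))).toNat) = p2) ∧
    (decide (2 ≤ (triE (p1.toNat + q1.toNat) (p2.toNat + q2.toNat)
        ((p1.toNat + q1.toNat) + (p2.toNat + q2.toNat) + (p3.toNat + q3.toNat))).toNat +
      (triE (p2.toNat + q2.toNat) (p3.toNat + q3.toNat)
        ((p1.toNat + q1.toNat) + (p2.toNat + q2.toNat) + (p3.toNat + q3.toNat))).toNat) = q2) ∧
    (decide (1 ≤ (triE (p1.toNat + q1.toNat) (p3.toNat + q3.toNat)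
        ((p1.toNat + q1.toNat) + (p2.toNat + q2.toNat) + (p3.toNat + q3.toNat))).toNat +
      (triE (p2.toNat + q2.toNat) (p3.toNat + q3.toNat)
        ((p1.toNat + q1.toNat) + (p2.toNat + q2.toNat) + (p3.toNat + q3.toNat))).toNat) = p3) ∧
    (decide (2 ≤ (triE (p1.toNat + q1.toNat) (p3.toNat + q3.toNat)
        ((p1.toNat + q1.toNat) + (p2.toNat + q2.toNat) + (p3.toNat + q3.toNat))).toNat +
      (triE (p2.toNat + q2.toNat) (p3.toNat + q3.toNat)
        ((p1.toNat + q1.toNat) + (p2.toNat + q2.toNat) + (p3.toNat + q3.toNat))).toNat) = q3) := by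
  decide

theorem gt2_sum_three {u v w : V} (huv : u ≠ v) (huw : u ≠ w) (hvw : v ≠ w) (F : V → ℕ) :
    ∑ i ∈ ({u, v, w} : Finset V), F i = F u + F v + F w := by
  rw [Finset.sum_insert (by simp [huv, huw]), Finset.sum_insert (by simp [hvw]),
    Finset.sum_singleton, add_assoc]

theorem gt2_rs (M : Mat V (V ⊕ Bool)) (i : V) :
    rs M i = ∑ k, (M i (Sum.inl k)).toNat + ((M i (Sum.inr true)).toNat
      + (M i (Sum.inr false)).toNat) := by
  unfold rs
  rw [Fintype.sum_sum_type, Fintype.sum_bool]

theorem gt2_cs_eq_rs (x : Gph V) (i : V) : cs x.1 i = rs x.1 i := by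
  unfold cs rs
  exact Finset.sum_congr rfl (fun k _ => by rw [x.symm])

theorem gt2_enc_inl_mem {T : Finset V} (x : Gph V) (i : V) {k : V} (hk : k ∈ T) :
    enc T x i (Sum.inl k) = false := if_pos hk

theorem gt2_enc_inl {T : Finset V} (x : Gph V) (i : V) {k : V} (hk : k ∉ T) :
    enc T x i (Sum.inl k) = x.1 i k := if_neg hk

theorem gt2_enc_inr_not {T : Finset V} (x : Gph V) {i : V} (hi : i ∉ T) (b : Bool) :
    enc T x i (Sum.inr b) = false := by
  cases b
  · show decide (i ∈ T ∧ 1 ≤ degIn T x i) = false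
    simp [hi]
  · show decide (i ∈ T ∧ 2 ≤ degIn T x i) = false
    simp [hi]

theorem gt2_enc_inr_false {T : Finset V} (x : Gph V) {i : V} (hi : i ∈ T) :
    enc T x i (Sum.inr false) = decide (1 ≤ degIn T x i) := by
  show decide (i ∈ T ∧ 1 ≤ degIn T x i) = _
  simp [hi]

theorem gt2_enc_inr_true {T : Finset V} (x : Gph V) {i : V} (hi : i ∈ T) :
    enc T x i (Sum.inr true) = decide (2 ≤ degIn T x i) := by
  show decide (i ∈ T ∧ 2 ≤ degIn T x i) = _
  simp [hi]

theorem gt2_degIn_le {T : Finset V} (hT : T.card = 3) (x : Gph V) {i : V} (hi : i ∈ T) :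
    degIn T x i ≤ 2 := by
  unfold degIn
  rw [← Finset.add_sum_erase T _ hi, x.diag]
  have h1 : ∑ k ∈ T.erase i, (x.1 i k).toNat ≤ (T.erase i).card • 1 :=
    Finset.sum_le_card_nsmul _ _ _ (fun k _ => Bool.toNat_le _)
  rw [Finset.card_erase_of_mem hi, hT] at h1
  simpa using h1

/-- row sums of the encoding are the degrees, for the rows of `T` -/
theorem gt2_rs_enc {T : Finset V} (hT : T.card = 3) (x : Gph V) {i : V} (hi : i ∈ T) :
    rs (enc T x) i = rs x.1 i := by
  rw [gt2_rs, gt2_enc_inr_false x hi, gt2_enc_inr_true x hi]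
  have h1 : ∑ k, (enc T x i (Sum.inl k)).toNat = ∑ k ∈ Tᶜ, (x.1 i k).toNat := by
    rw [← Finset.sum_add_sum_compl T]
    rw [Finset.sum_eq_zero (fun k hk => by rw [gt2_enc_inl_mem x i hk]; rfl), zero_add]
    exact Finset.sum_congr rfl (fun k hk => by rw [gt2_enc_inl x i (Finset.mem_compl.1 hk)])
  have h2 : rs x.1 i = degIn T x i + ∑ k ∈ Tᶜ, (x.1 i k).toNat := by
    unfold rs degIn
    rw [Finset.sum_add_sum_compl]
  have h3 := gt2_degIn_le hT x hi
  rw [h1, h2]
  generalize degIn T x i = a at h3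
  interval_cases a <;> simp <;> omega

/-- column sums of the encoding are the degrees, for the columns outside `T` -/
theorem gt2_cs_enc {T : Finset V} (x : Gph V) {k : V} (hk : k ∉ T) :
    cs (enc T x) (Sum.inl k) = cs x.1 k := by
  unfold cs
  exact Finset.sum_congr rfl (fun i _ => by rw [gt2_enc_inl x i hk])

theorem gt2_degIn_u {u v w : V} (huv : u ≠ v) (huw : u ≠ w) (hvw : v ≠ w) (x : Gph V) :
    degIn {u, v, w} x u = (x.1 u v).toNat + (x.1 u w).toNat := by
  unfold degIn
  rw [gt2_sum_three huv huw hvw, x.diag]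
  simp

theorem gt2_degIn_v {u v w : V} (huv : u ≠ v) (huw : u ≠ w) (hvw : v ≠ w) (x : Gph V) :
    degIn {u, v, w} x v = (x.1 u v).toNat + (x.1 v w).toNat := by
  unfold degIn
  rw [gt2_sum_three huv huw hvw, x.diag, x.symm v u]
  simp

theorem gt2_degIn_w {u v w : V} (huv : u ≠ v) (huw : u ≠ w) (hvw : v ≠ w) (x : Gph V) :
    degIn {u, v, w} x w = (x.1 u w).toNat + (x.1 v w).toNat := by
  unfold degIn
  rw [gt2_sum_three huv huw hvw, x.diag, x.symm w u, x.symm w v]
  simp

/-- partial column sums over the rows of `T` -/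
theorem gt2_colsum {T : Finset V} {M N : Mat V (V ⊕ Bool)}
    (h : Rel (T ×ˢ (univ : Finset (V ⊕ Bool))) M N) (c : V ⊕ Bool) :
    ∑ i ∈ T, (M i c).toNat = ∑ i ∈ T, (N i c).toNat := by
  have h1 := h.2.2 c
  unfold cs at h1
  rw [← Finset.sum_add_sum_compl T, ← Finset.sum_add_sum_compl T (fun r => (N r c).toNat)] at h1
  have e : ∑ i ∈ Tᶜ, (M i c).toNat = ∑ i ∈ Tᶜ, (N i c).toNat :=
    Finset.sum_congr rfl (fun i hi => by
      rw [h.1 i c (fun h' => (Finset.mem_compl.1 hi) (Finset.mem_product.1 h').1)])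
  omega

/-- the decoded matrix -/
def decM (T : Finset V) (x : Gph V) (y' : Mat V (V ⊕ Bool)) : Mat V V := fun i k =>
  if i ∈ T then
    (if k ∈ T then (decide (i ≠ k) &&
      triE ((y' i (Sum.inr false)).toNat + (y' i (Sum.inr true)).toNat)
        ((y' k (Sum.inr false)).toNat + (y' k (Sum.inr true)).toNat)
        (∑ j ∈ T, ((y' j (Sum.inr false)).toNat + (y' j (Sum.inr true)).toNat)))
      else y' i (Sum.inl k))
  else (if k ∈ T then y' k (Sum.inl i) else x.1 i k)

theorem decM_isG (T : Finset V) (x : Gph V) (y' : Mat V (V ⊕ Bool)) : IsG (decM T x y') := by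
  constructor
  · intro i k
    unfold decM
    by_cases hi : i ∈ T <;> by_cases hk : k ∈ T
    · simp only [hi, hk, if_true]
      rw [triE_comm]
      congr 1
      simp only [ne_comm]
    · simp only [hi, hk, if_true, if_false]
    · simp only [hi, hk, if_true, if_false]
    · simp only [hi, hk, if_false]
      exact x.symm i k
  · intro i
    unfold decM
    by_cases hi : i ∈ T
    · simp [hi]
    · simp only [hi, if_false]
      exact x.diag i

theorem enc3_T2_aux (T : Finset V) (hT : T.card = 3) (x : Gph V) (y' : Mat V (V ⊕ Bool))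
    (h : Rel (T ×ˢ (univ : Finset (V ⊕ Bool))) (enc T x) y') :
    ∃ y, enc T y = y' ∧ GRel (Zb T univ) x y := by
  have hoff : ∀ i, i ∉ T → ∀ c, y' i c = enc T x i c := by
    intro i hi c
    exact (h.1 i c (fun h' => hi (Finset.mem_product.1 h').1)).symm
  have hcol := gt2_colsum h
  have hcolT : ∀ k ∈ T, ∀ i, y' i (Sum.inl k) = false := by
    intro k hk i
    by_cases hi : i ∈ T
    · have h1 := hcol (Sum.inl k)
      rw [Finset.sum_eq_zero (fun j _ => by rw [gt2_enc_inl_mem x j hk]; rfl)] at h1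
      have h2 := (Finset.sum_eq_zero_iff.1 h1.symm) i hi
      cases e : y' i (Sum.inl k)
      · rfl
      · rw [e] at h2; simp at h2
    · rw [hoff i hi, gt2_enc_inl_mem x i hk]
  set y : Gph V := ⟨decM T x y', decM_isG T x y'⟩ with hy
  have henc : enc T y = y' := by
    funext i c
    rcases c with k | b
    · by_cases hk : k ∈ T
      · rw [gt2_enc_inl_mem y i hk, hcolT k hk i]
      · rw [gt2_enc_inl y i hk]
        show decM T x y' i k = _
        unfold decM
        by_cases hi : i ∈ T
        · simp only [hi, hk, if_true, if_false]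
        · simp only [hi, hk, if_false]
          rw [hoff i hi, gt2_enc_inl x i hk]
    · by_cases hi : i ∈ T
      · obtain ⟨u, v, w, huv, huw, hvw, rfl⟩ := Finset.card_eq_three.1 hT
        have hu : u ∈ ({u, v, w} : Finset V) := by simp
        have hv : v ∈ ({u, v, w} : Finset V) := by simp
        have hw : w ∈ ({u, v, w} : Finset V) := by simp
        have c1 := hcol (Sum.inr false)
        have c2 := hcol (Sum.inr true)
        rw [gt2_sum_three huv huw hvw, gt2_sum_three huv huw hvw,
          gt2_enc_inr_false x hu, gt2_enc_inr_false x hv, gt2_enc_inr_false x hw,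
          gt2_degIn_u huv huw hvw, gt2_degIn_v huv huw hvw, gt2_degIn_w huv huw hvw] at c1
        rw [gt2_sum_three huv huw hvw, gt2_sum_three huv huw hvw,
          gt2_enc_inr_true x hu, gt2_enc_inr_true x hv, gt2_enc_inr_true x hw,
          gt2_degIn_u huv huw hvw, gt2_degIn_v huv huw hvw, gt2_degIn_w huv huw hvw] at c2
        obtain ⟨t1, t2, t3, t4, t5, t6⟩ := gt2_tri_dec _ _ _ _ _ _ _ _ _ c1.symm c2.symm
        have euv : y.1 u v = triE ((y' u (Sum.inr false)).toNat + (y' u (Sum.inr true)).toNat)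
            ((y' v (Sum.inr false)).toNat + (y' v (Sum.inr true)).toNat)
            (((y' u (Sum.inr false)).toNat + (y' u (Sum.inr true)).toNat) +
              ((y' v (Sum.inr false)).toNat + (y' v (Sum.inr true)).toNat) +
              ((y' w (Sum.inr false)).toNat + (y' w (Sum.inr true)).toNat)) := by
          show decM _ x y' u v = _
          unfold decM
          rw [if_pos hu, if_pos hv, gt2_sum_three huv huw hvw]
          simp [huv]
        have euw : y.1 u w = triE ((y' u (Sum.inr false)).toNat + (y' u (Sum.inr true)).toNat)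
            ((y' w (Sum.inr false)).toNat + (y' w (Sum.inr true)).toNat)
            (((y' u (Sum.inr false)).toNat + (y' u (Sum.inr true)).toNat) +
              ((y' v (Sum.inr false)).toNat + (y' v (Sum.inr true)).toNat) +
              ((y' w (Sum.inr false)).toNat + (y' w (Sum.inr true)).toNat)) := by
          show decM _ x y' u w = _
          unfold decM
          rw [if_pos hu, if_pos hw, gt2_sum_three huv huw hvw]
          simp [huw]
        have evw : y.1 v w = triE ((y' v (Sum.inr false)).toNat + (y' v (Sum.inr true)).toNat)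
            ((y' w (Sum.inr false)).toNat + (y' w (Sum.inr true)).toNat)
            (((y' u (Sum.inr false)).toNat + (y' u (Sum.inr true)).toNat) +
              ((y' v (Sum.inr false)).toNat + (y' v (Sum.inr true)).toNat) +
              ((y' w (Sum.inr false)).toNat + (y' w (Sum.inr true)).toNat)) := by
          show decM _ x y' v w = _
          unfold decM
          rw [if_pos hv, if_pos hw, gt2_sum_three huv huw hvw]
          simp [hvw]
        simp only [mem_insert, mem_singleton] at hi
        rcases hi with rfl | rfl | rfl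
        · cases b
          · rw [gt2_enc_inr_false y hu, gt2_degIn_u huv huw hvw, euv, euw]; exact t1
          · rw [gt2_enc_inr_true y hu, gt2_degIn_u huv huw hvw, euv, euw]; exact t2
        · cases b
          · rw [gt2_enc_inr_false y hv, gt2_degIn_v huv huw hvw, euv, evw]; exact t3
          · rw [gt2_enc_inr_true y hv, gt2_degIn_v huv huw hvw, euv, evw]; exact t4
        · cases b
          · rw [gt2_enc_inr_false y hw, gt2_degIn_w huv huw hvw, euw, evw]; exact t5
          · rw [gt2_enc_inr_true y hw, gt2_degIn_w huv huw hvw, euw, evw]; exact t6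
      · rw [gt2_enc_inr_not y hi, hoff i hi, gt2_enc_inr_not x hi]
  have hrs : ∀ i, rs x.1 i = rs y.1 i := by
    intro i
    by_cases hi : i ∈ T
    · rw [← gt2_rs_enc hT x hi, ← gt2_rs_enc hT y hi, henc]
      exact h.2.1 i
    · rw [← gt2_cs_eq_rs x, ← gt2_cs_eq_rs y, ← gt2_cs_enc x hi, ← gt2_cs_enc y hi, henc]
      exact h.2.2 _
  refine ⟨y, henc, ?_, hrs, ?_⟩
  · intro i k hik
    rw [mem_Zb] at hik
    have hi : i ∉ T := fun h' => hik (Or.inl ⟨h', mem_univ _⟩)
    have hk : k ∉ T := fun h' => hik (Or.inr ⟨mem_univ _, h'⟩)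
    show x.1 i k = decM T x y' i k
    unfold decM
    simp only [hi, hk, if_false]
  · intro k
    rw [gt2_cs_eq_rs x, gt2_cs_eq_rs y]
    exact hrs k

end Vale.Agent.P335
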