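import Vale.Agent.P335.GEnc

/-!
# Three stars: the pair relations inside a triple
-/

set_option linter.unusedSectionVars false

namespace Vale.Agent.P335

open Finset

variable {V : Type*} [Fintype V] [DecidableEq V]

theorem gtp_mem_Zb_univ {p : Finset V} {i k : V} : (i, k) ∈ Zb p univ ↔ i ∈ p ∨ k ∈ p := by
  rw [mem_Zb]
  simp

/-- two elements of `T` outside the 2-subset `p` coincide -/
theorem gtp_third {T p : Finset V} (hT : T.card = 3) (hp : p ∈ powersetCard 2 T) {i k : V}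
    (hi : i ∈ T) (hk : k ∈ T) (hip : i ∉ p) (hkp : k ∉ p) : i = k := by
  obtain ⟨hpT, hp2⟩ := Finset.mem_powersetCard.1 hp
  have h1 : (T \ p).card = 1 := by
    rw [Finset.card_sdiff_of_subset hpT, hT, hp2]
  exact Finset.card_le_one.1 (le_of_eq h1) i (Finset.mem_sdiff.2 ⟨hi, hip⟩) k
    (Finset.mem_sdiff.2 ⟨hk, hkp⟩)

/-- the degree inside `T` of a vertex whose cells outside `T` are unchanged -/
theorem gtp_degIn_eq {T : Finset V} {x y : Gph V} {t : V} (hrs : rs x.1 t = rs y.1 t)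
    (h : ∀ k, k ∉ T → x.1 t k = y.1 t k) : degIn T x t = degIn T y t := by
  unfold rs at hrs
  rw [← Finset.sum_add_sum_compl T, ← Finset.sum_add_sum_compl T (fun c => (y.1 t c).toNat)] at hrs
  have e : ∑ k ∈ Tᶜ, (x.1 t k).toNat = ∑ k ∈ Tᶜ, (y.1 t k).toNat :=
    Finset.sum_congr rfl (fun k hk => by rw [h k (Finset.mem_compl.1 hk)])
  unfold degIn
  omega

theorem enc3_T1p_aux (T : Finset V) (hT : T.card = 3) (p : Finset V) (hp : p ∈ powersetCard 2 T)
    (x y : Gph V) (h : GRel (Zb p univ) x y)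
    (hT1 : Rel (T ×ˢ (univ : Finset (V ⊕ Bool))) (enc T x) (enc T y)) :
    Rel (p ×ˢ (univ : Finset (V ⊕ Bool))) (enc T x) (enc T y) := by
  obtain ⟨hpT, hp2⟩ := Finset.mem_powersetCard.1 hp
  refine ⟨fun i c hic => ?_, hT1.2.1, hT1.2.2⟩
  have hip : i ∉ p := fun h' => hic (Finset.mem_product.2 ⟨h', mem_univ _⟩)
  by_cases hiT : i ∈ T
  · have hcell : ∀ k, k ∉ T → x.1 i k = y.1 i k := by
      intro k hk
      apply h.1 i k
      rw [gtp_mem_Zb_univ]
      rintro (h' | h')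
      · exact hip h'
      · exact hk (hpT h')
    have hdeg : degIn T x i = degIn T y i := gtp_degIn_eq (h.2.1 i) hcell
    rcases c with k | b
    · show (if k ∈ T then false else x.1 i k) = (if k ∈ T then false else y.1 i k)
      by_cases hk : k ∈ T
      · rw [if_pos hk, if_pos hk]
      · rw [if_neg hk, if_neg hk, hcell k hk]
    · cases b
      · show decide (i ∈ T ∧ 1 ≤ degIn T x i) = decide (i ∈ T ∧ 1 ≤ degIn T y i)
        rw [hdeg]
      · show decide (i ∈ T ∧ 2 ≤ degIn T x i) = decide (i ∈ T ∧ 2 ≤ degIn T y i)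
        rw [hdeg]
  · exact hT1.1 i c (fun h' => hiT (Finset.mem_product.1 h').1)

theorem enc3_T2p_aux (T : Finset V) (hT : T.card = 3) (p : Finset V) (hp : p ∈ powersetCard 2 T)
    (x y : Gph V) (hy : GRel (Zb T univ) x y)
    (h : Rel (p ×ˢ (univ : Finset (V ⊕ Bool))) (enc T x) (enc T y)) :
    GRel (Zb p univ) x y := by
  have key : ∀ i k, i ∉ p → k ∉ T → x.1 i k = y.1 i k := by
    intro i k hi hk
    have := h.1 i (Sum.inl k) (fun h' => hi (Finset.mem_product.1 h').1)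
    have e1 : enc T x i (Sum.inl k) = x.1 i k := if_neg hk
    have e2 : enc T y i (Sum.inl k) = y.1 i k := if_neg hk
    rwa [e1, e2] at this
  refine ⟨fun i k hik => ?_, hy.2.1, hy.2.2⟩
  rw [gtp_mem_Zb_univ, not_or] at hik
  obtain ⟨hi, hk⟩ := hik
  by_cases hkT : k ∈ T
  · by_cases hiT : i ∈ T
    · have := gtp_third hT hp hiT hkT hi hk
      subst this
      rw [x.diag, y.diag]
    · rw [x.symm, y.symm]
      exact key k i hk hiT
  · exact key i k hi hkT

theorem enc3_T1p_of (T : Finset V) (hT : T.card = 3)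
    (T1 : ∀ x y : Gph V, GRel (Zb T univ) x y →
      Rel (T ×ˢ (univ : Finset (V ⊕ Bool))) (enc T x) (enc T y))
    (p : Finset V) (hp : p ∈ powersetCard 2 T)
    (x y : Gph V) (h : GRel (Zb p univ) x y) :
    Rel (p ×ˢ (univ : Finset (V ⊕ Bool))) (enc T x) (enc T y) :=
  enc3_T1p_aux T hT p hp x y h
    (T1 x y (GRel_mono (Zb_mono (mem_powersetCard.1 hp).1 (Finset.Subset.refl _)) h))

theorem enc3_T2p_of (T : Finset V) (hT : T.card = 3)
    (T2 : ∀ (x : Gph V) (y' : Mat V (V ⊕ Bool)),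
      Rel (T ×ˢ (univ : Finset (V ⊕ Bool))) (enc T x) y' →
      ∃ y, enc T y = y' ∧ GRel (Zb T univ) x y)
    (p : Finset V) (hp : p ∈ powersetCard 2 T)
    (x : Gph V) (y' : Mat V (V ⊕ Bool))
    (h : Rel (p ×ˢ (univ : Finset (V ⊕ Bool))) (enc T x) y') :
    ∃ y, enc T y = y' ∧ GRel (Zb p univ) x y := by
  obtain ⟨y, rfl, hy⟩ :=
    T2 x y' (Rel_mono (Finset.product_subset_product_left (mem_powersetCard.1 hp).1) h)
  exact ⟨y, rfl, enc3_T2p_aux T hT p hp x y hy h⟩

end Vale.Agent.P335
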