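import Vale.Agent.P335.GSw

/-!
# Arms and the active part of a star class
-/

set_option linter.unusedSectionVars false
set_option linter.unusedSimpArgs false
set_option linter.unusedVariables false

namespace Vale.Agent.P335

open Finset

variable {V : Type*} [Fintype V] [DecidableEq V]

theorem garm_avg_const {Ω : Type*} [Fintype Ω] {R : Ω → Ω → Prop} (hR : Equivalence R)
    (g : Ω → ℝ) (x : Ω) (h : ∀ y, R x y → g y = g x) : avg R g x = g x := by
  unfold avg
  have h1 : ∑ y ∈ cls R x, g y = ∑ _y ∈ cls R x, g x :=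
    Finset.sum_congr rfl (fun y hy => h y (mem_cls.1 hy))
  rw [h1, Finset.sum_const, nsmul_eq_mul]
  have := card_cls_pos hR x
  field_simp

theorem garm_ne {r s k l : V} (hd : Disjoint ({r, s} : Finset V) {k, l}) :
    r ≠ k ∧ r ≠ l ∧ s ≠ k ∧ s ≠ l := by
  have h1 : r ∉ ({k, l} : Finset V) := Finset.disjoint_left.1 hd (by simp)
  have h2 : s ∉ ({k, l} : Finset V) := Finset.disjoint_left.1 hd (by simp)
  simp only [mem_insert, mem_singleton, not_or] at h1 h2
  exact ⟨h1.1, h1.2, h2.1, h2.2⟩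

/-- star related and equal on the block `p x q` implies related by the block `p x (p ∪ q)ᶜ` -/
theorem garm_rel1 {r s : V} (hrs : r ≠ s) (q : Finset V) {x y : Gph V}
    (h : GRel (Zb {r, s} univ) x y) (hb : ∀ i ∈ ({r, s} : Finset V), ∀ j ∈ q, x.1 i j = y.1 i j) :
    GRel (Zb {r, s} ({r, s} ∪ q)ᶜ) x y := by
  have hf := star_forced hrs h
  have key : ∀ i ∈ ({r, s} : Finset V), ∀ j ∈ ({r, s} : Finset V) ∪ q, x.1 i j = y.1 i j := by
    intro i hi j hj
    rcases mem_union.1 hj with hj | hj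
    · simp only [mem_insert, mem_singleton] at hi hj
      rcases hi with rfl | rfl <;> rcases hj with rfl | rfl
      · rw [x.diag, y.diag]
      · exact hf
      · rw [x.symm, y.symm]; exact hf
      · rw [x.diag, y.diag]
    · exact hb i hi j hj
  refine ⟨fun i j hij => ?_, h.2.1, h.2.2⟩
  by_cases hZ : (i, j) ∈ Zb ({r, s} : Finset V) univ
  · rw [mem_Zb] at hZ hij
    rcases hZ with hZ | hZ
    · have hj : j ∈ ({r, s} : Finset V) ∪ q := by
        by_contra hj
        exact hij (Or.inl ⟨hZ.1, mem_compl.2 hj⟩)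
      exact key i hZ.1 j hj
    · have hi : i ∈ ({r, s} : Finset V) ∪ q := by
        by_contra hi
        exact hij (Or.inr ⟨mem_compl.2 hi, hZ.2⟩)
      rw [x.symm, y.symm]
      exact key j hZ.2 i hi
  · exact h.1 i j hZ

/-- if both columns of `q` are frozen for the two rows of `p`, the star average of a function
invariant under the block `p x (p ∪ q)ᶜ` does nothing -/
theorem arm_zero (p q : Finset V) (hp : p.card = 2) (hq : q.card = 2) (hd : Disjoint p q)
    (g : Gph V → ℝ) (hg : Inv (GRel (Zb p (p ∪ q)ᶜ)) g) (x : Gph V)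
    (hx : ∀ k ∈ q, ∀ i ∈ p, ∀ i' ∈ p, x.1 i k = x.1 i' k) :
    avg (GRel (Zb p univ)) g x = g x := by
  obtain ⟨r, s, hrs, rfl⟩ := Finset.card_eq_two.1 hp
  refine garm_avg_const (GRel_equiv _) g x (fun y hy => ?_)
  refine (hg x y (garm_rel1 hrs q hy ?_)).symm
  intro i hi j hj
  have hjr : j ≠ r := by
    rintro rfl
    exact Finset.disjoint_left.1 hd (by simp) hj
  have hjs : j ≠ s := by
    rintro rfl
    exact Finset.disjoint_left.1 hd (by simp) hj
  have e1 := star_pair_sum hrs hy hjr hjs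
  have e2 := hx j hj r (by simp) s (by simp)
  simp only [mem_insert, mem_singleton] at hi
  rcases hi with rfl | rfl
  · revert e1 e2
    cases x.1 i j <;> cases x.1 s j <;> cases y.1 i j <;> cases y.1 s j <;> simp
  · revert e1 e2
    cases x.1 r j <;> cases x.1 i j <;> cases y.1 r j <;> cases y.1 i j <;> simp

/-- classification of the 16 patterns of the block `p x q` -/
theorem pattern_cases (p q : Finset V) (hp : p.card = 2) (hq : q.card = 2) (hd : Disjoint p q)
    (x : Gph V) (h1 : ¬ oddO p q x) (h2 : ¬ GAct p q x) :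
    (∀ k ∈ q, ∀ i ∈ p, ∀ i' ∈ p, x.1 i k = x.1 i' k) ∨
      (∀ i ∈ p, ∀ k ∈ q, ∀ k' ∈ q, x.1 k i = x.1 k' i) := by
  obtain ⟨r, s, hrs, rfl⟩ := Finset.card_eq_two.1 hp
  obtain ⟨k, l, hkl, rfl⟩ := Finset.card_eq_two.1 hq
  obtain ⟨n1, n2, n3, n4⟩ := garm_ne hd
  rw [GAct_pair hrs hkl] at h2
  unfold oddO at h1
  rw [Finset.sum_pair hrs, Finset.sum_pair hkl, Finset.sum_pair hkl] at h1
  unfold GValid Valid at h2
  have key : (x.1 r k = x.1 s k ∧ x.1 r l = x.1 s l) ∨ (x.1 r k = x.1 r l ∧ x.1 s k = x.1 s l) := by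
    revert h1 h2
    cases x.1 r k <;> cases x.1 r l <;> cases x.1 s k <;> cases x.1 s l <;> simp [n1, n2, n3, n4]
  rcases key with ⟨a, b⟩ | ⟨a, b⟩
  · left
    intro c hc i hi i' hi'
    simp only [mem_insert, mem_singleton] at hc hi hi'
    rcases hc with rfl | rfl <;> rcases hi with rfl | rfl <;> rcases hi' with rfl | rfl <;>
      first | rfl | assumption | (symm; assumption)
  · right
    intro i hi c hc c' hc'
    simp only [mem_insert, mem_singleton] at hc hi hc'
    rw [x.symm c i, x.symm c' i]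
    rcases hc with rfl | rfl <;> rcases hi with rfl | rfl <;> rcases hc' with rfl | rfl <;>
      first | rfl | assumption | (symm; assumption)

theorem not_odd_of_act (p q : Finset V) (hd : Disjoint p q) (x : Gph V) (h : GAct p q x) :
    ¬ oddO p q x := by
  obtain ⟨r, s, k, l, rfl, rfl, hv⟩ := h
  obtain ⟨hrs, hkl, -⟩ := hv.distinct
  obtain ⟨⟨a, b, c, e⟩, -⟩ := hv
  unfold oddO
  rw [Finset.sum_pair hrs, Finset.sum_pair hkl, Finset.sum_pair hkl, a, b, c, e]
  simp

theorem garm_act_of_rel (p q : Finset V) {Z : Finset (V × V)} (hZ : Disjoint Z (Zb p q))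
    {x y : Gph V} (h : GRel Z x y) (hx : GAct p q x) : GAct p q y := by
  obtain ⟨r, s, k, l, rfl, rfl, ⟨a, b, c, e⟩, n1, n2⟩ := hx
  have hc : ∀ i ∈ ({r, s} : Finset V), ∀ j ∈ ({k, l} : Finset V), x.1 i j = y.1 i j := by
    intro i hi j hj
    refine h.1 i j (fun hm => ?_)
    exact Finset.disjoint_left.1 hZ hm (mem_Zb.2 (Or.inl ⟨hi, hj⟩))
  refine ⟨r, s, k, l, rfl, rfl, ⟨?_, ?_, ?_, ?_⟩, n1, n2⟩
  · rw [← hc r (by simp) k (by simp)]; exact a
  · rw [← hc r (by simp) l (by simp)]; exact b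
  · rw [← hc s (by simp) k (by simp)]; exact c
  · rw [← hc s (by simp) l (by simp)]; exact e

/-- a relation that does not touch the block `p x q` preserves its switchability -/
theorem GAct_of_rel (p q : Finset V) {Z : Finset (V × V)} (hZ : Disjoint Z (Zb p q))
    {x y : Gph V} (h : GRel Z x y) : GAct p q x ↔ GAct p q y :=
  ⟨garm_act_of_rel p q hZ h, garm_act_of_rel p q hZ ((GRel_equiv Z).symm h)⟩

theorem garm_phi_const {r s k l : V} (φ : Gph V → ℝ)
    (h1 : Inv (GRel (Zb {r, s} ({r, s} ∪ {k, l})ᶜ)) φ) (hO : Inv (GRel (Zb {r, s} {k, l})) φ)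
    {x y : Gph V} (hxy : GRel (Zb {r, s} univ) x y) (hx : GValid x r s k l)
    (hy : GValid y r s k l ∨ GValid y s r k l) : φ x = φ y := by
  obtain ⟨hrs, hkl, -⟩ := hx.distinct
  rcases hy with hy | hy
  · refine h1 x y (garm_rel1 hrs {k, l} hxy ?_)
    obtain ⟨⟨a, b, c, e⟩, -⟩ := hx
    obtain ⟨⟨a', b', c', e'⟩, -⟩ := hy
    intro i hi j hj
    simp only [mem_insert, mem_singleton] at hi hj
    rcases hi with rfl | rfl <;> rcases hj with rfl | rfl <;> simp [*]
  · have hx' := hx.gsw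
    have hR : GRel (Zb {r, s} {k, l}) x (gsw r s k l x) := GRel_gsw hx (Finset.Subset.refl _)
    have hR' : GRel (Zb {r, s} univ) (gsw r s k l x) y :=
      (GRel_equiv _).trans ((GRel_equiv _).symm
        (GRel_mono (Zb_mono (Finset.Subset.refl _) (subset_univ _)) hR)) hxy
    rw [hO x _ hR]
    refine h1 _ y (garm_rel1 hrs {k, l} hR' ?_)
    obtain ⟨⟨a, b, c, e⟩, -⟩ := hx'
    obtain ⟨⟨a', b', c', e'⟩, -⟩ := hy
    intro i hi j hj
    simp only [mem_insert, mem_singleton] at hi hj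
    rcases hi with rfl | rfl <;> rcases hj with rfl | rfl <;> simp [*]

theorem garm_O_le_RA {r s k l : V} (hrs : r ≠ s) (hkl : k ≠ l)
    (hd : r ≠ k ∧ r ≠ l ∧ s ≠ k ∧ s ≠ l) (x y : Gph V)
    (h : GRel (Zb {r, s} {k, l}) x y) : RA {r, s} {k, l} x y := by
  refine ⟨GRel_mono (Zb_mono (Finset.Subset.refl _) (subset_univ _)) h, ?_⟩
  rcases gcls_two_by_two hrs hkl hd h with rfl | ⟨hv, rfl⟩
  · exact Iff.rfl
  · have hx : GAct {r, s} {k, l} x := (GAct_pair hrs hkl x).2 hv
    have hy : GAct {r, s} {k, l} (gsw r s k l x) := by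
      rcases hv with hv | hv
      · exact ⟨r, s, l, k, rfl, Finset.pair_comm k l, hv.gsw⟩
      · refine ⟨s, r, l, k, Finset.pair_comm r s, Finset.pair_comm k l, ?_⟩
        rw [gsw_comm_rows]
        exact hv.gsw
    exact ⟨fun _ => hy, fun _ => hx⟩

/-- Claim A: on the active part, averaging over the 2x2 block and then over the rest of the two
rows is the average over the active part of the star class -/
theorem claimA (p q : Finset V) (hp : p.card = 2) (hq : q.card = 2) (hd : Disjoint p q)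
    (f : Gph V → ℝ) (x : Gph V) (hx : GAct p q x) :
    avg (GRel (Zb p (p ∪ q)ᶜ)) (avg (GRel (Zb p q)) f) x = avg (RA p q) f x := by
  obtain ⟨r, s, hrs, rfl⟩ := Finset.card_eq_two.1 hp
  obtain ⟨k, l, hkl, rfl⟩ := Finset.card_eq_two.1 hq
  have hne := garm_ne hd
  set p : Finset V := {r, s} with hpdef
  set q : Finset V := {k, l} with hqdef
  have hdis : Disjoint (Zb p (p ∪ q)ᶜ) (Zb p q) := by
    refine Zb_disjoint (Or.inr ?_) (Or.inl hd)
    rw [Finset.disjoint_left]
    intro a ha ha'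
    exact (mem_compl.1 ha) (mem_union_right _ ha')
  have e1 := GRel_equiv (Zb p (p ∪ q)ᶜ)
  have eO := GRel_equiv (Zb p q)
  have eA := RA_equiv p q
  set φ : Gph V → ℝ := avg (GRel (Zb p (p ∪ q)ᶜ)) (avg (GRel (Zb p q)) f) with hφ
  have i1 : Inv (GRel (Zb p (p ∪ q)ᶜ)) φ := avg_inv e1 _
  have iO : Inv (GRel (Zb p q)) φ := by
    rw [hφ, gavg_comm (fun i k h => Zb_swap h) hdis f]
    exact avg_inv eO _
  have le1 : ∀ a b, GRel (Zb p (p ∪ q)ᶜ) a b → RA p q a b := fun a b h =>
    ⟨GRel_mono (Zb_mono (Finset.Subset.refl _) (subset_univ _)) h, GAct_of_rel p q hdis h⟩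
  have leO : ∀ a b, GRel (Zb p q) a b → RA p q a b := garm_O_le_RA hrs hkl hne
  have hA : avg (RA p q) φ = avg (RA p q) f := by
    rw [hφ, avg_avg_of_le' e1 eA le1, avg_avg_of_le' eO eA leO]
  have hc : avg (RA p q) φ x = φ x := by
    refine garm_avg_const eA φ x (fun y hy => ?_)
    have hyA : GAct p q y := hy.2.1 hx
    have hx' := (GAct_pair hrs hkl x).1 hx
    have hy' := (GAct_pair hrs hkl y).1 hyA
    rcases hx' with hx' | hx'
    · exact (garm_phi_const φ i1 iO hy.1 hx' hy').symm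
    · have hps : p = {s, r} := Finset.pair_comm r s
      have i1' : Inv (GRel (Zb {s, r} ({s, r} ∪ {k, l})ᶜ)) φ := by rw [← hps]; exact i1
      have iO' : Inv (GRel (Zb {s, r} {k, l})) φ := by rw [← hps]; exact iO
      have hy1 : GRel (Zb {s, r} univ) x y := by rw [← hps]; exact hy.1
      exact (garm_phi_const φ i1' iO' hy1 hx' hy'.symm).symm
  rw [← hc, hA]

end Vale.Agent.P335
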