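import Vale.Agent.P335.GYodd
import Vale.Agent.P335.GYarm
import Vale.Agent.P335.GAbs2

/-!
# The cross term of two disjoint pairs
-/

set_option linter.unusedSectionVars false

namespace Vale.Agent.P335

open Finset

variable {V : Type*} [Fintype V] [DecidableEq V]

theorem gy_Zb_symm (A B : Finset V) : ∀ i k, (i, k) ∈ Zb A B → (k, i) ∈ Zb A B :=
  fun _ _ h => Zb_swap h

theorem gy_disj_compl_right (p q : Finset V) : Disjoint (p ∪ q)ᶜ q := by
  rw [Finset.disjoint_left]
  intro a ha hq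
  exact (Finset.mem_compl.1 ha) (Finset.mem_union_right _ hq)

theorem gy_disj_compl_left (p q : Finset V) : Disjoint p (p ∪ q)ᶜ := by
  rw [Finset.disjoint_left]
  intro a hp ha
  exact (Finset.mem_compl.1 ha) (Finset.mem_union_left _ hp)

open Classical in
/-- the active part of one arm is bounded by the Johnson term -/
theorem gy_arm (p q : Finset V) (hp : p.card = 2) (hq : q.card = 2) (hd : Disjoint p q)
    (f : Gph V → ℝ) :
    (∑ x, if GAct p q x then
      ((avg (GRel (Zb q (p ∪ q)ᶜ)) (avg (GRel (Zb p (p ∪ q)ᶜ)) (avg (GRel (Zb p q)) f))) x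
        - avg (GRel (Zb p univ))
          (avg (GRel (Zb q (p ∪ q)ᶜ)) (avg (GRel (Zb p (p ∪ q)ᶜ)) (avg (GRel (Zb p q)) f))) x) ^ 2
      else 0) ≤ nn p q f := by
  set W : Finset V := (p ∪ q)ᶜ with hW
  have hO := GRel_equiv (V := V) (Zb p q)
  have h1 := GRel_equiv (V := V) (Zb p W)
  have h2 := GRel_equiv (V := V) (Zb q W)
  have hP := GRel_equiv (V := V) (Zb p univ)
  have l1p : ∀ x y : Gph V, GRel (Zb p W) x y → GRel (Zb p univ) x y :=
    fun x y h => GRel_mono (Zb_mono (Finset.Subset.refl _) (Finset.subset_univ _)) h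
  have lOp : ∀ x y : Gph V, GRel (Zb p q) x y → GRel (Zb p univ) x y :=
    fun x y h => GRel_mono (Zb_mono (Finset.Subset.refl _) (Finset.subset_univ _)) h
  have c2p : ∀ u : Gph V → ℝ, avg (GRel (Zb q W)) (avg (GRel (Zb p univ)) u)
      = avg (GRel (Zb p univ)) (avg (GRel (Zb q W)) u) :=
    fun u => gavg_comm (gy_Zb_symm q W)
      (Zb_disjoint (Or.inl hd.symm) (Or.inr (by
        rw [hW, Finset.union_comm]; exact gy_disj_compl_right q p))) u
  set φ : Gph V → ℝ := avg (GRel (Zb p W)) (avg (GRel (Zb p q)) f) with hφ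
  have e1 : avg (GRel (Zb p univ)) φ = avg (GRel (Zb p univ)) f := by
    rw [hφ, avg_avg_of_le' h1 hP l1p, avg_avg_of_le' hO hP lOp]
  have e2 : avg (GRel (Zb q W)) φ - avg (GRel (Zb p univ)) (avg (GRel (Zb q W)) φ)
      = avg (GRel (Zb q W)) (φ - avg (GRel (Zb p univ)) f) := by
    rw [← c2p, e1, avg_sub]
  have hinv : ∀ x y : Gph V, GRel (Zb q W) x y → (GAct p q x ↔ GAct p q y) := by
    intro x y h
    refine GAct_of_rel p q ?_ h
    exact Zb_disjoint (Or.inl hd.symm) (Or.inr (by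
      rw [hW, Finset.union_comm]; exact gy_disj_compl_right q p))
  have j := jensen_on2 h2 (GAct p q) hinv (φ - avg (GRel (Zb p univ)) f)
  have e3 : ∀ x, ((avg (GRel (Zb q W)) φ) x
      - avg (GRel (Zb p univ)) (avg (GRel (Zb q W)) φ) x)
      = avg (GRel (Zb q W)) (φ - avg (GRel (Zb p univ)) f) x := by
    intro x
    have := congrFun e2 x
    simpa using this
  simp only [e3]
  refine j.trans (le_of_eq ?_)
  unfold nn
  refine Finset.sum_congr rfl (fun x _ => ?_)
  by_cases hx : GAct p q x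
  · rw [if_pos hx, if_pos hx, Pi.sub_apply, hφ, claimA p q hp hq hd f x hx]
  · rw [if_neg hx, if_neg hx]

theorem Y_pair (p q : Finset V) (hp : p.card = 2) (hq : q.card = 2) (hd : Disjoint p q)
    (f : Gph V → ℝ) :
    ip f (f - avg (GRel (Zb p q)) f) - (nn p q f + nn q p f) / 2 ≤
      ip (f - avg (GRel (Zb p univ)) f) (f - avg (GRel (Zb q univ)) f) := by
  classical
  set W : Finset V := (p ∪ q)ᶜ with hW
  have hW' : (q ∪ p)ᶜ = W := by rw [hW, Finset.union_comm]
  have hO := GRel_equiv (V := V) (Zb p q)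
  have h1 := GRel_equiv (V := V) (Zb p W)
  have h2 := GRel_equiv (V := V) (Zb q W)
  have hP := GRel_equiv (V := V) (Zb p univ)
  have hQ := GRel_equiv (V := V) (Zb q univ)
  have l1p : ∀ x y : Gph V, GRel (Zb p W) x y → GRel (Zb p univ) x y :=
    fun x y h => GRel_mono (Zb_mono (Finset.Subset.refl _) (Finset.subset_univ _)) h
  have l2q : ∀ x y : Gph V, GRel (Zb q W) x y → GRel (Zb q univ) x y :=
    fun x y h => GRel_mono (Zb_mono (Finset.Subset.refl _) (Finset.subset_univ _)) h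
  have lOp : ∀ x y : Gph V, GRel (Zb p q) x y → GRel (Zb p univ) x y :=
    fun x y h => GRel_mono (Zb_mono (Finset.Subset.refl _) (Finset.subset_univ _)) h
  have lOq : ∀ x y : Gph V, GRel (Zb p q) x y → GRel (Zb q univ) x y := by
    intro x y h
    rw [Zb_comm] at h
    exact GRel_mono (Zb_mono (Finset.Subset.refl _) (Finset.subset_univ _)) h
  have dWq : Disjoint W q := gy_disj_compl_right p q
  have dWp : Disjoint W p := by rw [← hW']; exact gy_disj_compl_right q p
  have c1q : ∀ u : Gph V → ℝ, avg (GRel (Zb p W)) (avg (GRel (Zb q univ)) u)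
      = avg (GRel (Zb q univ)) (avg (GRel (Zb p W)) u) :=
    fun u => gavg_comm (gy_Zb_symm p W) (Zb_disjoint (Or.inl hd) (Or.inr dWq)) u
  have c2p : ∀ u : Gph V → ℝ, avg (GRel (Zb q W)) (avg (GRel (Zb p univ)) u)
      = avg (GRel (Zb p univ)) (avg (GRel (Zb q W)) u) :=
    fun u => gavg_comm (gy_Zb_symm q W) (Zb_disjoint (Or.inl hd.symm) (Or.inr dWp)) u
  have c12 : ∀ u : Gph V → ℝ, avg (GRel (Zb p W)) (avg (GRel (Zb q W)) u)
      = avg (GRel (Zb q W)) (avg (GRel (Zb p W)) u) :=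
    fun u => gavg_comm (gy_Zb_symm p W) (Zb_disjoint (Or.inl hd) (Or.inr dWq)) u
  set f1 : Gph V → ℝ := avg (GRel (Zb p q)) f with hf1
  set f2 : Gph V → ℝ := avg (GRel (Zb p W)) f1 with hf2
  set g : Gph V → ℝ := avg (GRel (Zb q W)) f2 with hg
  have s1 := peel_both2 hP hQ hO lOp lOq f
  have s2 := peel2 hP hQ h1 l1p c1q f1
  have s3 := peel2 hQ hP h2 l2q c2p f2
  rw [ip_comm, ip_comm (f2 - avg (GRel (Zb q univ)) f2)] at s3
  -- invariance of g
  have g2 : Inv (GRel (Zb q W)) g := avg_inv h2 f2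
  have g1 : Inv (GRel (Zb p W)) g := by
    rw [hg, hf2, ← c12]
    exact avg_inv h1 _
  -- the cross term of g
  have hz : ∀ x, ¬ oddO p q x → ¬ GAct p q x →
      (g - avg (GRel (Zb p univ)) g) x * (g - avg (GRel (Zb q univ)) g) x = 0 := by
    intro x ho ha
    rcases pattern_cases p q hp hq hd x ho ha with h | h
    · have := arm_zero p q hp hq hd g g1 x h
      simp [this]
    · have := arm_zero q p hq hp hd.symm g (by rw [hW']; exact g2) x h
      simp [this]
  have hS := odd_sector p q hp hq hd g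
  have cs := cross_split (g - avg (GRel (Zb p univ)) g) (g - avg (GRel (Zb q univ)) g)
    (oddO p q) (GAct p q) hz (by simpa using hS)
  -- the two arms
  have a1 := gy_arm p q hp hq hd f
  have a2 := gy_arm q p hq hp hd.symm f
  have eg : avg (GRel (Zb p (q ∪ p)ᶜ)) (avg (GRel (Zb q (q ∪ p)ᶜ)) (avg (GRel (Zb q p)) f)) = g := by
    rw [hW', Zb_comm q p, c12]
  rw [eg] at a2
  have a2' : (∑ x, if GAct p q x then ((g - avg (GRel (Zb q univ)) g) x) ^ 2 else 0)
      ≤ nn q p f := by
    refine le_trans (le_of_eq ?_) a2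
    refine Finset.sum_congr rfl (fun x _ => ?_)
    by_cases hx : GAct p q x
    · rw [if_pos hx, if_pos ((GAct_comm p q x).1 hx)]; rfl
    · rw [if_neg hx, if_neg (fun h => hx ((GAct_comm p q x).2 h))]
  have a1' : (∑ x, if GAct p q x then ((g - avg (GRel (Zb p univ)) g) x) ^ 2 else 0)
      ≤ nn p q f := a1
  rw [s1]
  linarith

end Vale.Agent.P335
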