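import Vale.Agent.P335.GSw

/-!
# The odd sector: the two star averages commute there
-/

set_option linter.unusedSectionVars false
set_option linter.unusedSimpArgs false
set_option linter.unusedVariables false

namespace Vale.Agent.P335

open Finset

variable {V : Type*} [Fintype V] [DecidableEq V]

/-- entry of an odd 2x2 pattern from the parities of its row and column and its total -/
def oddOb (y1 y2 x1 x2 t : Bool) : Bool := xor ((xor y1 y2) && (xor x1 x2)) t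

/-- an odd 2x2 pattern has total three -/
def oddT3 (a b c d : Bool) : Bool := (a && b) || (c && d)

theorem oddOb_rows : ∀ a b c d a' b' c' d' : Bool,
    a.toNat + b.toNat + c.toNat + d.toNat = a'.toNat + b'.toNat + c'.toNat + d'.toNat →
    (a.toNat + b.toNat + c.toNat + d.toNat) % 2 = 1 →
    ((oddOb a b a' c' (oddT3 a' b' c' d')).toNat + (oddOb a b b' d' (oddT3 a' b' c' d')).toNat
      = a.toNat + b.toNat) ∧
    ((oddOb c d a' c' (oddT3 a' b' c' d')).toNat + (oddOb c d b' d' (oddT3 a' b' c' d')).toNat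
      = c.toNat + d.toNat) ∧
    ((oddOb a b a' c' (oddT3 a' b' c' d')).toNat + (oddOb c d a' c' (oddT3 a' b' c' d')).toNat
      = a'.toNat + c'.toNat) ∧
    ((oddOb a b b' d' (oddT3 a' b' c' d')).toNat + (oddOb c d b' d' (oddT3 a' b' c' d')).toNat
      = b'.toNat + d'.toNat) := by
  decide

theorem oddT3_eq : ∀ a b c d a' b' c' d' : Bool,
    a.toNat + b.toNat + c.toNat + d.toNat = a'.toNat + b'.toNat + c'.toNat + d'.toNat →
    (a.toNat + b.toNat + c.toNat + d.toNat) % 2 = 1 → oddT3 a b c d = oddT3 a' b' c' d' := by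
  decide

theorem odd_xor_of_sum : ∀ a b a' b' : Bool, a.toNat + b.toNat = a'.toNat + b'.toNat →
    xor a b = xor a' b' := by decide

theorem oddOb_self : ∀ a b c d : Bool, (a.toNat + b.toNat + c.toNat + d.toNat) % 2 = 1 →
    oddOb a b a c (oddT3 a b c d) = a ∧ oddOb a b b d (oddT3 a b c d) = b ∧
      oddOb c d a c (oddT3 a b c d) = c ∧ oddOb c d b d (oddT3 a b c d) = d := by decide

/-- the combination: the arms of `{r,s}` from `Y`, the block `{r,s} x {k,l}` from the row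
parities of `Y` and the column parities of `X`, everything else from `X` -/
def oddCb (r s k l : V) (Y X : Mat V V) : Mat V V := fun i j =>
  if (i = r ∨ i = s) ∧ (j = k ∨ j = l) then
    oddOb (Y i k) (Y i l) (X r j) (X s j) (oddT3 (X r k) (X r l) (X s k) (X s l))
  else if (i = k ∨ i = l) ∧ (j = r ∨ j = s) then
    oddOb (Y j k) (Y j l) (X r i) (X s i) (oddT3 (X r k) (X r l) (X s k) (X s l))
  else if ((i = r ∨ i = s) ∧ ¬ (j = r ∨ j = s)) ∨ ((j = r ∨ j = s) ∧ ¬ (i = r ∨ i = s)) then Y i j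
  else X i j

theorem odd_PQ {r s k l : V} (hd : r ≠ k ∧ r ≠ l ∧ s ≠ k ∧ s ≠ l) (i : V) :
    ¬ ((i = r ∨ i = s) ∧ (i = k ∨ i = l)) := by
  obtain ⟨h1, h2, h3, h4⟩ := hd
  rintro ⟨a | a, b | b⟩ <;> subst a <;> simp_all

theorem oddCb_blk {r s k l : V} (Y X : Mat V V) {i j : V} (hi : i = r ∨ i = s)
    (hj : j = k ∨ j = l) : oddCb r s k l Y X i j =
      oddOb (Y i k) (Y i l) (X r j) (X s j) (oddT3 (X r k) (X r l) (X s k) (X s l)) := by
  unfold oddCb
  rw [if_pos ⟨hi, hj⟩]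

theorem oddCb_blk' {r s k l : V} (hd : r ≠ k ∧ r ≠ l ∧ s ≠ k ∧ s ≠ l) (Y X : Mat V V) {i j : V}
    (hi : i = k ∨ i = l) (hj : j = r ∨ j = s) : oddCb r s k l Y X i j =
      oddOb (Y j k) (Y j l) (X r i) (X s i) (oddT3 (X r k) (X r l) (X s k) (X s l)) := by
  unfold oddCb
  rw [if_neg (fun h => odd_PQ hd i ⟨h.1, hi⟩), if_pos ⟨hi, hj⟩]

theorem oddCb_armL {r s k l : V} (Y X : Mat V V) {i j : V} (hi : i = r ∨ i = s)
    (hj : ¬ (j = r ∨ j = s)) (hj' : ¬ (j = k ∨ j = l)) : oddCb r s k l Y X i j = Y i j := by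
  unfold oddCb
  rw [if_neg (fun h => hj' h.2), if_neg (fun h => hj h.2), if_pos (Or.inl ⟨hi, hj⟩)]

theorem oddCb_armR {r s k l : V} (Y X : Mat V V) {i j : V} (hj : j = r ∨ j = s)
    (hi : ¬ (i = r ∨ i = s)) (hi' : ¬ (i = k ∨ i = l)) : oddCb r s k l Y X i j = Y i j := by
  unfold oddCb
  rw [if_neg (fun h => hi h.1), if_neg (fun h => hi' h.1), if_pos (Or.inr ⟨hj, hi⟩)]

theorem oddCb_in {r s k l : V} (hd : r ≠ k ∧ r ≠ l ∧ s ≠ k ∧ s ≠ l) (Y X : Mat V V) {i j : V}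
    (hi : i = r ∨ i = s) (hj : j = r ∨ j = s) : oddCb r s k l Y X i j = X i j := by
  unfold oddCb
  rw [if_neg (fun h => odd_PQ hd j ⟨hj, h.2⟩), if_neg (fun h => odd_PQ hd i ⟨hi, h.1⟩),
    if_neg (by tauto)]

theorem oddCb_out {r s k l : V} (Y X : Mat V V) {i j : V}
    (hi : ¬ (i = r ∨ i = s)) (hj : ¬ (j = r ∨ j = s)) : oddCb r s k l Y X i j = X i j := by
  unfold oddCb
  rw [if_neg (fun h => hi h.1), if_neg (fun h => hj h.2), if_neg (by tauto)]

theorem oddCb_isG {r s k l : V} (hd : r ≠ k ∧ r ≠ l ∧ s ≠ k ∧ s ≠ l) {Y X : Mat V V}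
    (hY : IsG Y) (hX : IsG X) : IsG (oddCb r s k l Y X) := by
  constructor
  · intro i j
    by_cases a1 : i = r ∨ i = s
    · by_cases a2 : j = r ∨ j = s
      · rw [oddCb_in hd Y X a1 a2, oddCb_in hd Y X a2 a1, hX.1]
      · by_cases a3 : j = k ∨ j = l
        · rw [oddCb_blk Y X a1 a3, oddCb_blk' hd Y X a3 a1]
        · rw [oddCb_armL Y X a1 a2 a3, oddCb_armR Y X a1 a2 a3, hY.1]
    · by_cases a2 : j = r ∨ j = s
      · by_cases a3 : i = k ∨ i = l
        · rw [oddCb_blk' hd Y X a3 a2, oddCb_blk Y X a2 a3]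
        · rw [oddCb_armR Y X a2 a1 a3, oddCb_armL Y X a2 a1 a3, hY.1]
      · rw [oddCb_out Y X a1 a2, oddCb_out Y X a2 a1, hX.1]
  · intro i
    by_cases a1 : i = r ∨ i = s
    · rw [oddCb_in hd Y X a1 a1, hX.2]
    · rw [oddCb_out Y X a1 a1, hX.2]

theorem odd_off {r s : V} {x y : Gph V} (h : GRel (Zb {r, s} univ) x y) {i j : V}
    (hi : ¬ (i = r ∨ i = s)) (hj : ¬ (j = r ∨ j = s)) : x.1 i j = y.1 i j := by
  refine h.1 i j ?_
  rw [mem_Zb]
  simp only [Finset.mem_insert, Finset.mem_singleton, Finset.mem_univ, and_true, true_and]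
  tauto

/-- a graph relation from agreement off the block and equality of the row sums -/
theorem odd_GRel_of {Z : Finset (V × V)} {x y : Gph V}
    (h1 : ∀ i j, (i, j) ∉ Z → x.1 i j = y.1 i j) (h2 : ∀ i, rs x.1 i = rs y.1 i) :
    GRel Z x y := by
  refine ⟨h1, h2, fun c => ?_⟩
  have e : ∀ z : Gph V, cs z.1 c = rs z.1 c := by
    intro z
    unfold cs rs
    exact Finset.sum_congr rfl (fun i _ => by rw [z.symm])
  rw [e x, e y, h2]

theorem odd_cols {r s : V} (hrs : r ≠ s) {x y : Gph V} (h : GRel (Zb {r, s} univ) x y) {k : V}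
    (hk : ¬ (k = r ∨ k = s)) :
    (x.1 r k).toNat + (x.1 s k).toNat = (y.1 r k).toNat + (y.1 s k).toNat :=
  star_pair_sum hrs h (fun e => hk (Or.inl e)) (fun e => hk (Or.inr e))

theorem odd_rows {k l : V} (hkl : k ≠ l) {x y : Gph V} (h : GRel (Zb {k, l} univ) x y) {r : V}
    (hr : ¬ (r = k ∨ r = l)) :
    (x.1 r k).toNat + (x.1 r l).toNat = (y.1 r k).toNat + (y.1 r l).toNat := by
  have := odd_cols hkl h hr
  rwa [x.symm k r, x.symm l r, y.symm k r, y.symm l r] at this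

/-- inside `{r,s}` nothing changes -/
theorem odd_inP {r s : V} (hrs : r ≠ s) {x y : Gph V} (h : GRel (Zb {r, s} univ) x y) {i j : V}
    (hi : i = r ∨ i = s) (hj : j = r ∨ j = s) : x.1 i j = y.1 i j := by
  have e := star_forced hrs h
  rcases hi with rfl | rfl <;> rcases hj with rfl | rfl
  · rw [x.diag, y.diag]
  · exact e
  · rw [x.symm, y.symm]; exact e
  · rw [x.diag, y.diag]

theorem odd_rs {r s k l : V} (hrs : r ≠ s) (hkl : k ≠ l)
    (hd : r ≠ k ∧ r ≠ l ∧ s ≠ k ∧ s ≠ l) {x x' y : Gph V}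
    (hodd : ((x.1 r k).toNat + (x.1 r l).toNat + (x.1 s k).toNat + (x.1 s l).toNat) % 2 = 1)
    (hR' : GRel (Zb {k, l} univ) x x') (hR : GRel (Zb {r, s} univ) x y) (i : V) :
    rs (oddCb r s k l y.1 x'.1) i = rs x'.1 i := by
  obtain ⟨d1, d2, d3, d4⟩ := hd
  have hd : r ≠ k ∧ r ≠ l ∧ s ≠ k ∧ s ≠ l := ⟨d1, d2, d3, d4⟩
  have nk : ¬ (k = r ∨ k = s) := by rintro (e | e); exacts [d1 e.symm, d3 e.symm]
  have nl : ¬ (l = r ∨ l = s) := by rintro (e | e); exacts [d2 e.symm, d4 e.symm]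
  have nr : ¬ (r = k ∨ r = l) := by rintro (e | e); exacts [d1 e, d2 e]
  have ns : ¬ (s = k ∨ s = l) := by rintro (e | e); exacts [d3 e, d4 e]
  have c1 := odd_cols hrs hR nk
  have c2 := odd_cols hrs hR nl
  have r1 := odd_rows hkl hR' nr
  have r2 := odd_rows hkl hR' ns
  have tot : (y.1 r k).toNat + (y.1 r l).toNat + (y.1 s k).toNat + (y.1 s l).toNat
      = (x'.1 r k).toNat + (x'.1 r l).toNat + (x'.1 s k).toNat + (x'.1 s l).toNat := by omega
  have oddy : ((y.1 r k).toNat + (y.1 r l).toNat + (y.1 s k).toNat + (y.1 s l).toNat) % 2 = 1 := by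
    omega
  obtain ⟨b1, b2, b3, b4⟩ := oddOb_rows _ _ _ _ _ _ _ _ tot oddy
  by_cases a1 : i = r ∨ i = s
  · -- compare with the row of y
    have e1 : rs (oddCb r s k l y.1 x'.1) i = rs y.1 i := by
      unfold rs
      refine sum_eq_of_two _ _ k l hkl (fun j hj hj' => ?_) ?_
      · have a3 : ¬ (j = k ∨ j = l) := by tauto
        by_cases a2 : j = r ∨ j = s
        · rw [oddCb_in hd _ _ a1 a2, ← odd_inP hrs hR a1 a2]
          have n1 : ¬ (i = k ∨ i = l) := fun h => odd_PQ hd i ⟨a1, h⟩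
          rw [odd_off hR' n1 a3]
        · rw [oddCb_armL _ _ a1 a2 a3]
      · rw [oddCb_blk _ _ a1 (Or.inl rfl), oddCb_blk _ _ a1 (Or.inr rfl)]
        rcases a1 with rfl | rfl
        · exact b1
        · exact b2
    rw [e1, ← hR.2.1 i, hR'.2.1 i]
  · unfold rs
    refine sum_eq_of_two _ _ r s hrs (fun j hj hj' => ?_) ?_
    · have a2 : ¬ (j = r ∨ j = s) := by tauto
      rw [oddCb_out _ _ a1 a2]
    · by_cases a3 : i = k ∨ i = l
      · rw [oddCb_blk' hd _ _ a3 (Or.inl rfl), oddCb_blk' hd _ _ a3 (Or.inr rfl),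
          x'.symm i r, x'.symm i s]
        rcases a3 with rfl | rfl
        · exact b3
        · exact b4
      · rw [oddCb_armR _ _ (Or.inl rfl) a1 a3, oddCb_armR _ _ (Or.inr rfl) a1 a3]
        have e2 := odd_cols hrs hR a1
        rw [← odd_off hR' a3 nr, ← odd_off hR' a3 ns, y.symm i r, y.symm i s, x.symm i r,
          x.symm i s]
        exact e2.symm

theorem odd_recon {r s k l : V} (hrs : r ≠ s) (hkl : k ≠ l)
    (hd : r ≠ k ∧ r ≠ l ∧ s ≠ k ∧ s ≠ l) {x x' y : Gph V}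
    (hodd : ((x.1 r k).toNat + (x.1 r l).toNat + (x.1 s k).toNat + (x.1 s l).toNat) % 2 = 1)
    (hR' : GRel (Zb {k, l} univ) x x') (hR : GRel (Zb {r, s} univ) x y) {i j : V}
    (hi : i = r ∨ i = s) (hj : j = k ∨ j = l) :
    oddOb (oddCb r s k l y.1 x'.1 i k) (oddCb r s k l y.1 x'.1 i l) (x.1 r j) (x.1 s j)
      (oddT3 (x.1 r k) (x.1 r l) (x.1 s k) (x.1 s l)) = y.1 i j := by
  obtain ⟨d1, d2, d3, d4⟩ := hd
  have hd : r ≠ k ∧ r ≠ l ∧ s ≠ k ∧ s ≠ l := ⟨d1, d2, d3, d4⟩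
  have nk : ¬ (k = r ∨ k = s) := by rintro (e | e); exacts [d1 e.symm, d3 e.symm]
  have nl : ¬ (l = r ∨ l = s) := by rintro (e | e); exacts [d2 e.symm, d4 e.symm]
  have nr : ¬ (r = k ∨ r = l) := by rintro (e | e); exacts [d1 e, d2 e]
  have ns : ¬ (s = k ∨ s = l) := by rintro (e | e); exacts [d3 e, d4 e]
  have c1 := odd_cols hrs hR nk
  have c2 := odd_cols hrs hR nl
  have r1 := odd_rows hkl hR' nr
  have r2 := odd_rows hkl hR' ns
  have tot : (y.1 r k).toNat + (y.1 r l).toNat + (y.1 s k).toNat + (y.1 s l).toNat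
      = (x'.1 r k).toNat + (x'.1 r l).toNat + (x'.1 s k).toNat + (x'.1 s l).toNat := by omega
  have totx : (x.1 r k).toNat + (x.1 r l).toNat + (x.1 s k).toNat + (x.1 s l).toNat
      = (y.1 r k).toNat + (y.1 r l).toNat + (y.1 s k).toNat + (y.1 s l).toNat := by omega
  have oddy : ((y.1 r k).toNat + (y.1 r l).toNat + (y.1 s k).toNat + (y.1 s l).toNat) % 2 = 1 := by
    omega
  obtain ⟨b1, b2, b3, b4⟩ := oddOb_rows _ _ _ _ _ _ _ _ tot oddy
  obtain ⟨s1, s2, s3, s4⟩ := oddOb_self _ _ _ _ oddy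
  have ht := oddT3_eq _ _ _ _ _ _ _ _ totx hodd
  have hrow : xor (oddCb r s k l y.1 x'.1 i k) (oddCb r s k l y.1 x'.1 i l)
      = xor (y.1 i k) (y.1 i l) := by
    apply odd_xor_of_sum
    rw [oddCb_blk _ _ hi (Or.inl rfl), oddCb_blk _ _ hi (Or.inr rfl)]
    rcases hi with rfl | rfl
    · exact b1
    · exact b2
  have hcol : xor (x.1 r j) (x.1 s j) = xor (y.1 r j) (y.1 s j) := by
    apply odd_xor_of_sum
    rcases hj with rfl | rfl
    · exact c1
    · exact c2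
  have key : oddOb (oddCb r s k l y.1 x'.1 i k) (oddCb r s k l y.1 x'.1 i l) (x.1 r j) (x.1 s j)
      (oddT3 (x.1 r k) (x.1 r l) (x.1 s k) (x.1 s l))
      = oddOb (y.1 i k) (y.1 i l) (y.1 r j) (y.1 s j)
        (oddT3 (y.1 r k) (y.1 r l) (y.1 s k) (y.1 s l)) := by
    unfold oddOb
    rw [hrow, hcol, ht]
  rw [key]
  rcases hi with rfl | rfl <;> rcases hj with rfl | rfl
  · exact s1
  · exact s2
  · exact s3
  · exact s4

open Classical in
theorem odd_sector (p q : Finset V) (hp : p.card = 2) (hq : q.card = 2) (hd : Disjoint p q)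
    (g : Gph V → ℝ) :
    0 ≤ ∑ x, if oddO p q x then
      (g x - avg (GRel (Zb p univ)) g x) * (g x - avg (GRel (Zb q univ)) g x) else 0 := by
  obtain ⟨r, s, hrs, rfl⟩ := Finset.card_eq_two.1 hp
  obtain ⟨k, l, hkl, rfl⟩ := Finset.card_eq_two.1 hq
  have hd' : r ≠ k ∧ r ≠ l ∧ s ≠ k ∧ s ≠ l := by
    rw [Finset.disjoint_left] at hd
    refine ⟨?_, ?_, ?_, ?_⟩
    · intro e; exact hd (a := r) (by simp) (by simp [e])
    · intro e; exact hd (a := r) (by simp) (by simp [e])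
    · intro e; exact hd (a := s) (by simp) (by simp [e])
    · intro e; exact hd (a := s) (by simp) (by simp [e])
  obtain ⟨d1, d2, d3, d4⟩ := hd'
  have hd' : r ≠ k ∧ r ≠ l ∧ s ≠ k ∧ s ≠ l := ⟨d1, d2, d3, d4⟩
  have nk : ¬ (k = r ∨ k = s) := by rintro (e | e); exacts [d1 e.symm, d3 e.symm]
  have nl : ¬ (l = r ∨ l = s) := by rintro (e | e); exacts [d2 e.symm, d4 e.symm]
  have nr : ¬ (r = k ∨ r = l) := by rintro (e | e); exacts [d1 e, d2 e]
  have ns : ¬ (s = k ∨ s = l) := by rintro (e | e); exacts [d3 e, d4 e]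
  have hiff : ∀ x : Gph V, oddO {r, s} {k, l} x ↔
      ((x.1 r k).toNat + (x.1 r l).toNat + (x.1 s k).toNat + (x.1 s l).toNat) % 2 = 1 := by
    intro x
    unfold oddO
    rw [Finset.sum_pair hrs, Finset.sum_pair hkl, Finset.sum_pair hkl, ← add_assoc]
  have hoffP : ∀ i j : V, (i, j) ∉ Zb ({r, s} : Finset V) univ →
      ¬ (i = r ∨ i = s) ∧ ¬ (j = r ∨ j = s) := by
    intro i j h
    rw [mem_Zb] at h
    simp only [Finset.mem_insert, Finset.mem_singleton, Finset.mem_univ, and_true, true_and] at h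
    tauto
  have hoffQ : ∀ i j : V, (i, j) ∉ Zb ({k, l} : Finset V) univ →
      ¬ (i = k ∨ i = l) ∧ ¬ (j = k ∨ j = l) := by
    intro i j h
    rw [mem_Zb] at h
    simp only [Finset.mem_insert, Finset.mem_singleton, Finset.mem_univ, and_true, true_and] at h
    tauto
  refine sector_nonneg (GRel_equiv _) (GRel_equiv _) (oddO {r, s} {k, l}) ?_ ?_
    (fun y x' => ⟨oddCb r s k l y.1 x'.1, oddCb_isG hd' y.2 x'.2⟩) ?_ ?_ ?_ g
  · intro x y h
    rw [hiff, hiff]
    have c1 := odd_cols hrs h nk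
    have c2 := odd_cols hrs h nl
    have : (x.1 r k).toNat + (x.1 r l).toNat + (x.1 s k).toNat + (x.1 s l).toNat
      = (y.1 r k).toNat + (y.1 r l).toNat + (y.1 s k).toNat + (y.1 s l).toNat := by omega
    rw [this]
  · intro x y h
    rw [hiff, hiff]
    have r1 := odd_rows hkl h nr
    have r2 := odd_rows hkl h ns
    have : (x.1 r k).toNat + (x.1 r l).toNat + (x.1 s k).toNat + (x.1 s l).toNat
      = (y.1 r k).toNat + (y.1 r l).toNat + (y.1 s k).toNat + (y.1 s l).toNat := by omega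
    rw [this]
  · intro x x' y hS hR' hR
    refine odd_GRel_of (fun i j hij => ?_) (fun i => ?_)
    · obtain ⟨a1, a2⟩ := hoffP i j hij
      exact (oddCb_out _ _ a1 a2).symm
    · exact (odd_rs hrs hkl hd' ((hiff x).1 hS) hR' hR i).symm
  · intro x x' y hS hR' hR
    refine odd_GRel_of (fun i j hij => ?_) (fun i => ?_)
    · obtain ⟨a1, a2⟩ := hoffQ i j hij
      show y.1 i j = oddCb r s k l y.1 x'.1 i j
      by_cases e1 : i = r ∨ i = s
      · by_cases e2 : j = r ∨ j = s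
        · rw [oddCb_in hd' _ _ e1 e2, ← odd_off hR' a1 a2, odd_inP hrs hR e1 e2]
        · rw [oddCb_armL _ _ e1 e2 a2]
      · by_cases e2 : j = r ∨ j = s
        · rw [oddCb_armR _ _ e2 e1 a1]
        · rw [oddCb_out _ _ e1 e2, ← odd_off hR' a1 a2, odd_off hR e1 e2]
    · show rs y.1 i = rs (oddCb r s k l y.1 x'.1) i
      rw [odd_rs hrs hkl hd' ((hiff x).1 hS) hR' hR i, ← hR'.2.1 i, hR.2.1 i]
  · intro x x' y hS hR' hR
    apply Gph.ext'
    intro i j
    show oddCb r s k l (oddCb r s k l y.1 x'.1) x.1 i j = y.1 i j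
    by_cases e1 : i = r ∨ i = s
    · by_cases e2 : j = r ∨ j = s
      · rw [oddCb_in hd' _ _ e1 e2, odd_inP hrs hR e1 e2]
      · by_cases e3 : j = k ∨ j = l
        · rw [oddCb_blk _ _ e1 e3]
          exact odd_recon hrs hkl hd' ((hiff x).1 hS) hR' hR e1 e3
        · rw [oddCb_armL _ _ e1 e2 e3, oddCb_armL _ _ e1 e2 e3]
    · by_cases e2 : j = r ∨ j = s
      · by_cases e3 : i = k ∨ i = l
        · rw [oddCb_blk' hd' _ _ e3 e2, y.symm i j]
          exact odd_recon hrs hkl hd' ((hiff x).1 hS) hR' hR e2 e3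
        · rw [oddCb_armR _ _ e2 e1 e3, oddCb_armR _ _ e2 e1 e3]
      · rw [oddCb_out _ _ e1 e2, odd_off hR e1 e2]

end Vale.Agent.P335
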