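import Vale.Agent.P335.Split

/-!
# Switch connectivity of the set of graphs with a given degree vector
-/

set_option linter.unusedSectionVars false

namespace Vale.Agent.P335

open Finset

/-- the injective 4-tuple `(a, b, c, e)` -/
def tup4 {n : ℕ} (a b c e : Fin n) (ab : a ≠ b) (ac : a ≠ c) (ae : a ≠ e) (bc : b ≠ c)
    (be : b ≠ e) (ce : c ≠ e) : Fin 4 ↪ Fin n :=
  ⟨![a, b, c, e], by
    intro i j hij
    fin_cases i <;> fin_cases j <;> simp at hij ⊢ <;>
      first
        | exact absurd hij ab | exact absurd hij ac | exact absurd hij ae | exact absurd hij bc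
        | exact absurd hij be | exact absurd hij ce | exact absurd hij.symm ab
        | exact absurd hij.symm ac | exact absurd hij.symm ae | exact absurd hij.symm bc
        | exact absurd hij.symm be | exact absurd hij.symm ce⟩

theorem gc_step_of_valid {n : ℕ} {d : Fin n → ℕ} (G : Omega d) {a b c e : Fin n}
    (h : ChainValid G.1 a b c e) :
    (stepO G (tup4 a b c e h.ab h.ac h.ad h.bc h.bd h.cd)).1 = switchGraph G.1 a b c e := by
  show step G.1 _ = _
  unfold step
  rw [if_pos]
  · rfl
  · exact ⟨h.e1, h.e2, h.n1, h.n2⟩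

/-- `G` and `G'` agree on every pair that is not contained in `A` -/
def AgreeOff {n : ℕ} (A : Finset (Fin n)) (G G' : SimpleGraph (Fin n)) : Prop :=
  ∀ x y, (x ∉ A ∨ y ∉ A) → (G.Adj x y ↔ G'.Adj x y)

open Classical in
/-- number of places where the stars of `v` differ -/
noncomputable def starDist {n : ℕ} (v : Fin n) (G G' : SimpleGraph (Fin n)) : ℕ :=
  (univ.filter (fun k => ¬ (G.Adj v k ↔ G'.Adj v k))).card

theorem starDist_comm {n : ℕ} (v : Fin n) (G G' : SimpleGraph (Fin n)) :
    starDist v G G' = starDist v G' G := by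
  unfold starDist
  congr 1
  ext k
  simp only [mem_filter, mem_univ, true_and]
  tauto

theorem starDist_lt {n : ℕ} {v : Fin n} {G G1 G' : SimpleGraph (Fin n)} {a b : Fin n}
    (h : ∀ k, k ≠ a → k ≠ b → (G1.Adj v k ↔ G.Adj v k)) (h1 : G1.Adj v a ↔ G'.Adj v a)
    (h2 : G1.Adj v b ↔ G'.Adj v b) (h3 : ¬ (G.Adj v a ↔ G'.Adj v a)) :
    starDist v G1 G' < starDist v G G' := by
  unfold starDist
  apply Finset.card_lt_card
  rw [Finset.ssubset_iff_of_subset]
  · exact ⟨a, by simp only [mem_filter, mem_univ, true_and]; exact h3,
      by simp only [mem_filter, mem_univ, true_and, not_not]; exact h1⟩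
  · intro k hk
    simp only [mem_filter, mem_univ, true_and] at hk ⊢
    by_cases hc : k = a
    · subst hc; exact absurd h1 hk
    · by_cases hc' : k = b
      · subst hc'; exact absurd h2 hk
      · rwa [h k hc hc'] at hk

theorem gc_adjN_self {n : ℕ} (G : SimpleGraph (Fin n)) (v : Fin n) : adjN G v v = 0 := by
  unfold adjN
  simp

theorem gc_adjN_pos {n : ℕ} {G : SimpleGraph (Fin n)} {v u : Fin n} (h : G.Adj v u) :
    adjN G v u = 1 := by
  unfold adjN
  simp [h]

theorem gc_adjN_neg {n : ℕ} {G : SimpleGraph (Fin n)} {v u : Fin n} (h : ¬ G.Adj v u) :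
    adjN G v u = 0 := by
  unfold adjN
  simp [h]

theorem gc_adjN_congr {n : ℕ} {G G' : SimpleGraph (Fin n)} {v u : Fin n}
    (h : G.Adj v u ↔ G'.Adj v u) : adjN G v u = adjN G' v u := by
  by_cases h1 : G.Adj v u
  · rw [gc_adjN_pos h1, gc_adjN_pos (h.1 h1)]
  · rw [gc_adjN_neg h1, gc_adjN_neg (fun h2 => h1 (h.2 h2))]

theorem gc_adjN_le {n : ℕ} (G : SimpleGraph (Fin n)) (v u : Fin n) : adjN G v u ≤ 1 := by
  unfold adjN
  split_ifs <;> simp

theorem gc_deg_split {n : ℕ} {d : Fin n → ℕ} (G : Omega d) {a b : Fin n} (hab : a ≠ b) :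
    d a = adjN G.1 a b + ∑ w ∈ (univ.erase a).erase b, adjN G.1 a w := by
  have h1 : d a = ∑ w, adjN G.1 a w := by
    rw [← split_degree]; exact (G.2 a).symm
  rw [h1, ← Finset.add_sum_erase univ _ (mem_univ a), gc_adjN_self, zero_add,
    ← Finset.add_sum_erase (univ.erase a) _ (Finset.mem_erase.2 ⟨hab.symm, mem_univ b⟩)]

theorem gc_exists_col {n : ℕ} {d : Fin n → ℕ} (G G' : Omega d) {v a : Fin n}
    (h1 : G.1.Adj v a) (h2 : ¬ G'.1.Adj v a) : ∃ b, ¬ G.1.Adj v b ∧ G'.1.Adj v b := by
  by_contra hcon
  push Not at hcon
  have e1 : d v = ∑ w, adjN G.1 v w := by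
    rw [← split_degree]; exact (G.2 v).symm
  have e2 : d v = ∑ w, adjN G'.1 v w := by
    rw [← split_degree]; exact (G'.2 v).symm
  have : ∑ w, adjN G'.1 v w < ∑ w, adjN G.1 v w := by
    apply Finset.sum_lt_sum
    · intro k _
      by_cases hk : G.1.Adj v k
      · rw [gc_adjN_pos hk]; exact gc_adjN_le _ _ _
      · rw [gc_adjN_neg (hcon k hk)]; exact Nat.zero_le _
    · exact ⟨a, mem_univ a, by rw [gc_adjN_pos h1, gc_adjN_neg h2]; exact Nat.one_pos⟩
  omega

theorem gc_exists_switch {n : ℕ} {d : Fin n → ℕ} (G G' : Omega d) {A : Finset (Fin n)}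
    {v a b : Fin n} (hoff : AgreeOff (insert v A) G.1 G'.1)
    (h1 : G.1.Adj v a) (h2 : ¬ G'.1.Adj v a) (h3 : ¬ G.1.Adj v b) (h4 : G'.1.Adj v b) :
    (∃ w ∈ A, w ≠ v ∧ w ≠ a ∧ w ≠ b ∧ G.1.Adj b w ∧ ¬ G.1.Adj a w) ∨
      (∃ w ∈ A, w ≠ v ∧ w ≠ a ∧ w ≠ b ∧ G'.1.Adj a w ∧ ¬ G'.1.Adj b w) := by
  have hab : a ≠ b := by
    rintro rfl
    exact h3 h1
  have hva : v ≠ a := h1.ne
  have hvb : v ≠ b := h4.ne
  by_contra hcon
  push Not at hcon
  obtain ⟨hM, hN⟩ := hcon
  set S := (univ.erase a).erase b with hS
  have hlt : ∑ w ∈ S, (adjN G'.1 a w + adjN G.1 b w) < ∑ w ∈ S, (adjN G.1 a w + adjN G'.1 b w) := by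
    apply Finset.sum_lt_sum
    · intro w hw
      have hwb : w ≠ b := (Finset.mem_erase.1 hw).1
      have hwa : w ≠ a := (Finset.mem_erase.1 (Finset.mem_erase.1 hw).2).1
      by_cases hwv : w = v
      · subst hwv
        rw [gc_adjN_neg (fun h => h2 h.symm), gc_adjN_neg (fun h => h3 h.symm)]
        exact Nat.zero_le _
      · by_cases hwA : w ∈ A
        · have a1 := hM w hwA hwv hwa hwb
          have a2 := hN w hwA hwv hwa hwb
          by_cases c1 : G.1.Adj b w
          · have c2 := a1 c1
            rw [gc_adjN_pos c1, gc_adjN_pos c2]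
            by_cases c3 : G'.1.Adj a w
            · rw [gc_adjN_pos c3, gc_adjN_pos (a2 c3)]
            · rw [gc_adjN_neg c3]; omega
          · rw [gc_adjN_neg c1]
            by_cases c3 : G'.1.Adj a w
            · rw [gc_adjN_pos c3, gc_adjN_pos (a2 c3)]; omega
            · rw [gc_adjN_neg c3]; omega
        · have hw' : w ∉ insert v A := by
            simp [hwv, hwA]
          have e1 : adjN G.1 a w = adjN G'.1 a w := gc_adjN_congr (hoff a w (Or.inr hw'))
          have e2 : adjN G.1 b w = adjN G'.1 b w := gc_adjN_congr (hoff b w (Or.inr hw'))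
          rw [e1, e2, add_comm]
    · refine ⟨v, ?_, ?_⟩
      · rw [hS]
        exact Finset.mem_erase.2 ⟨hvb, Finset.mem_erase.2 ⟨hva, mem_univ v⟩⟩
      · rw [gc_adjN_neg (fun h => h2 h.symm), gc_adjN_neg (fun h => h3 h.symm),
          gc_adjN_pos h1.symm, gc_adjN_pos h4.symm]
        omega
  rw [Finset.sum_add_distrib, Finset.sum_add_distrib] at hlt
  have e1 := gc_deg_split G hab
  have e2 := gc_deg_split G' hab
  have e3 := gc_deg_split G hab.symm
  have e4 := gc_deg_split G' hab.symm
  have e5 : (univ.erase b).erase a = S := by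
    rw [hS, Finset.erase_right_comm]
  rw [e5] at e3 e4
  rw [← hS] at e1 e2
  rw [split_adjN_comm G.1 b a] at e3
  rw [split_adjN_comm G'.1 b a] at e4
  omega

theorem gc_agree_switch {n : ℕ} {G : SimpleGraph (Fin n)} {B : Finset (Fin n)} {a b c e : Fin n}
    (ha : a ∈ B) (hb : b ∈ B) (hc : c ∈ B) (he : e ∈ B) :
    AgreeOff B (switchGraph G a b c e) G := by
  have key : ∀ x y, x ∉ B → ((switchGraph G a b c e).Adj x y ↔ G.Adj x y) := by
    intro x y hx
    have n1 : x ≠ a := fun h => hx (h ▸ ha)
    have n2 : x ≠ b := fun h => hx (h ▸ hb)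
    have n3 : x ≠ c := fun h => hx (h ▸ hc)
    have n4 : x ≠ e := fun h => hx (h ▸ he)
    exact chain_adj_other G n1 n2 n3 n4 y
  intro x y hxy
  rcases hxy with hx | hy
  · exact key x y hx
  · rw [SimpleGraph.adj_comm, G.adj_comm]
    exact key y x hy

theorem AgreeOff.trans {n : ℕ} {B : Finset (Fin n)} {G1 G2 G3 : SimpleGraph (Fin n)}
    (h : AgreeOff B G1 G2) (h' : AgreeOff B G2 G3) : AgreeOff B G1 G3 :=
  fun x y hxy => (h x y hxy).trans (h' x y hxy)

theorem AgreeOff.symm {n : ℕ} {B : Finset (Fin n)} {G1 G2 : SimpleGraph (Fin n)}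
    (h : AgreeOff B G1 G2) : AgreeOff B G2 G1 :=
  fun x y hxy => (h x y hxy).symm

/-- a function on `Omega d` that is invariant under all switches whose four vertices lie in `A`
takes the same value on two graphs that agree outside `A` -/
theorem graph_connected_aux {n : ℕ} {d : Fin n → ℕ} (A : Finset (Fin n)) (f : Omega d → ℝ)
    (hf : ∀ (G : Omega d) (t : Fin 4 ↪ Fin n), (∀ i, t i ∈ A) → f (stepO G t) = f G) :
    ∀ G G' : Omega d, AgreeOff A G.1 G'.1 → f G = f G' := by
  induction A using Finset.induction_on with
  | empty =>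
    intro G G' h
    have : G = G' := by
      apply Subtype.ext
      ext x y
      exact h x y (Or.inl (by simp))
    rw [this]
  | insert v A hv ih =>
    have ih' := ih (fun G t ht => hf G t (fun i => Finset.mem_insert_of_mem (ht i)))
    have hfv : ∀ (G : Omega d) {a b c e : Fin n} (h : ChainValid G.1 a b c e),
        a ∈ insert v A → b ∈ insert v A → c ∈ insert v A → e ∈ insert v A →
        ∃ G1 : Omega d, G1.1 = switchGraph G.1 a b c e ∧ f G1 = f G := by
      intro G a b c e h ha hb hc he
      refine ⟨stepO G (tup4 a b c e h.ab h.ac h.ad h.bc h.bd h.cd), gc_step_of_valid G h,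
        hf G _ ?_⟩
      intro i
      fin_cases i
      · exact ha
      · exact hb
      · exact hc
      · exact he
    have claim : ∀ k : ℕ, ∀ G G' : Omega d, AgreeOff (insert v A) G.1 G'.1 →
        starDist v G.1 G'.1 = k → f G = f G' := by
      intro k
      induction k using Nat.strong_induction_on with
      | _ k ihk =>
        have main : ∀ G G' : Omega d, AgreeOff (insert v A) G.1 G'.1 →
            starDist v G.1 G'.1 = k → ∀ a, G.1.Adj v a → ¬ G'.1.Adj v a → f G = f G' := by
          intro G G' hGG hk a h1 h2
          obtain ⟨b, h3, h4⟩ := gc_exists_col G G' h1 h2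
          have hab : a ≠ b := by
            rintro rfl
            exact h3 h1
          have hva : v ≠ a := h1.ne
          have hvb : v ≠ b := h4.ne
          have haA : a ∈ insert v A := by
            by_contra hcon
            exact h2 ((hGG v a (Or.inr hcon)).1 h1)
          have hbA : b ∈ insert v A := by
            by_contra hcon
            exact h3 ((hGG v b (Or.inr hcon)).2 h4)
          have hvA : v ∈ insert v A := Finset.mem_insert_self _ _
          rcases gc_exists_switch G G' hGG h1 h2 h3 h4 with ⟨w, hwA, hwv, hwa, hwb, a1, a2⟩ |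
            ⟨w, hwA, hwv, hwa, hwb, a1, a2⟩
          · have hval : ChainValid G.1 v a b w :=
              ⟨hva, hvb, hwv.symm, hab, hwa.symm, hwb.symm, h1, a1, h3, a2⟩
            obtain ⟨G1, e1, e2⟩ := hfv G hval hvA haA hbA (Finset.mem_insert_of_mem hwA)
            have hrel : AgreeOff (insert v A) G1.1 G'.1 := by
              rw [e1]
              exact (gc_agree_switch hvA haA hbA (Finset.mem_insert_of_mem hwA)).trans hGG
            have hlt : starDist v G1.1 G'.1 < starDist v G.1 G'.1 := by
              apply starDist_lt (a := a) (b := b)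
              · intro k hka hkb
                rw [e1, chain_adj_a hval]
                constructor
                · rintro (⟨h, _⟩ | h)
                  · exact h
                  · exact absurd h hkb
                · intro h
                  exact Or.inl ⟨h, hka⟩
              · rw [e1, chain_adj_a hval]
                constructor
                · rintro (⟨_, h⟩ | h)
                  · exact absurd rfl h
                  · exact absurd h hab
                · intro h
                  exact absurd h h2
              · rw [e1, chain_adj_a hval]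
                exact ⟨fun _ => h4, fun _ => Or.inr rfl⟩
              · intro h
                exact h2 (h.1 h1)
            rw [← e2]
            exact ihk _ (hk ▸ hlt) _ _ hrel rfl
          · have hval : ChainValid G'.1 v b a w :=
              ⟨hvb, hva, hwv.symm, hab.symm, hwb.symm, hwa.symm, h4, a1, h2, a2⟩
            obtain ⟨G1, e1, e2⟩ := hfv G' hval hvA hbA haA (Finset.mem_insert_of_mem hwA)
            have hrel : AgreeOff (insert v A) G.1 G1.1 := by
              rw [e1]
              exact hGG.trans (gc_agree_switch hvA hbA haA (Finset.mem_insert_of_mem hwA)).symm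
            have hlt : starDist v G.1 G1.1 < starDist v G.1 G'.1 := by
              rw [starDist_comm v G.1, starDist_comm v G.1]
              apply starDist_lt (a := a) (b := b)
              · intro k hka hkb
                rw [e1, chain_adj_a hval]
                constructor
                · rintro (⟨h, _⟩ | h)
                  · exact h
                  · exact absurd h hka
                · intro h
                  exact Or.inl ⟨h, hkb⟩
              · rw [e1, chain_adj_a hval]
                exact ⟨fun _ => h1, fun _ => Or.inr rfl⟩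
              · rw [e1, chain_adj_a hval]
                constructor
                · rintro (⟨_, h⟩ | h)
                  · exact absurd rfl h
                  · exact absurd h hab.symm
                · intro h
                  exact absurd h h3
              · intro h
                exact h2 (h.2 h1)
            rw [← e2]
            exact ihk _ (hk ▸ hlt) _ _ hrel rfl
        intro G G' hGG hk
        by_cases hall : ∀ a, G.1.Adj v a ↔ G'.1.Adj v a
        · apply ih' G G'
          intro x y hxy
          by_cases hx : x = v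
          · subst hx; exact hall y
          · by_cases hy : y = v
            · subst hy
              rw [G.1.adj_comm, G'.1.adj_comm]
              exact hall x
            · apply hGG x y
              rcases hxy with h | h
              · left; simp [hx, h]
              · right; simp [hy, h]
        · push Not at hall
          obtain ⟨a, ha⟩ := hall
          rcases ha with ⟨h1, h2⟩ | ⟨h1, h2⟩
          · exact main G G' hGG hk a h1 h2
          · exact (main G' G hGG.symm (by rw [starDist_comm]; exact hk) a h2 h1).symm
    intro G G' hGG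
    exact claim _ G G' hGG rfl

/-- the switch chain is irreducible: a function invariant under all proposals is constant -/
theorem graph_connected {n : ℕ} {d : Fin n → ℕ} (f : Omega d → ℝ)
    (hf : ∀ (G : Omega d) (t : Fin 4 ↪ Fin n), f (stepO G t) = f G) (G G' : Omega d) :
    f G = f G' :=
  graph_connected_aux univ f (fun G t _ => hf G t) G G' (fun x y h => by simp at h)

end Vale.Agent.P335
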