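import Vale.Agent.P335.GraphConnect
import Vale.Agent.P335.AbstractD

/-!
# Resampling the stars of a set of vertices: the relations `RelV S` on `Omega d`
-/

set_option linter.unusedSectionVars false

namespace Vale.Agent.P335

open Finset

variable {n : ℕ} {d : Fin n → ℕ}

/-- the two graphs agree on all pairs that avoid `S` -/
def RelV (S : Finset (Fin n)) (G G' : Omega d) : Prop :=
  ∀ x y, x ∉ S → y ∉ S → (G.1.Adj x y ↔ G'.1.Adj x y)

theorem RelV_equiv (S : Finset (Fin n)) : Equivalence (RelV S (d := d)) where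
  refl := fun _ _ _ _ _ => Iff.rfl
  symm := fun h x y hx hy => (h x y hx hy).symm
  trans := fun h h' x y hx hy => (h x y hx hy).trans (h' x y hx hy)

theorem RelV_mono {S S' : Finset (Fin n)} (h : S ⊆ S') {G G' : Omega d} (hr : RelV S G G') :
    RelV S' G G' :=
  fun x y hx hy => hr x y (fun h' => hx (h h')) (fun h' => hy (h h'))

theorem RelV_univ (G G' : Omega d) : RelV univ G G' :=
  fun x _ hx _ => absurd (mem_univ x) hx

/-- a proposal of the chain only changes the stars of `t 0` and `t 3` -/
theorem RelV_stepO (G : Omega d) (t : Fin 4 ↪ Fin n) : RelV {t 0, t 3} G (stepO G t) := by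
  intro x y hx hy
  simp only [mem_insert, mem_singleton, not_or] at hx hy
  show G.1.Adj x y ↔ (step G.1 t).Adj x y
  unfold step
  split_ifs with h
  · rw [chain_adj]
    simp only [Sym2.eq_iff, ne_eq]
    constructor
    · intro h1
      left
      refine ⟨h1, ?_, ?_⟩
      · rintro (⟨h3, _⟩ | ⟨_, h3⟩)
        · exact hx.1 h3
        · exact hy.1 h3
      · rintro (⟨_, h3⟩ | ⟨h3, _⟩)
        · exact hy.2 h3
        · exact hx.2 h3
    · rintro (⟨h1, _⟩ | ⟨h1, _⟩)
      · exact h1
      · rcases h1 with (⟨h1, _⟩ | ⟨_, h1⟩) | (⟨_, h1⟩ | ⟨h1, _⟩)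
        · exact absurd h1 hx.1
        · exact absurd h1 hy.1
        · exact absurd h1 hy.2
        · exact absurd h1 hx.2
  · exact Iff.rfl

/-- kernel of the pair blocks: functions fixed by all two-star averages are constant -/
theorem RelV_ker (f : Omega d → ℝ)
    (hf : ∀ p ∈ powersetCard 2 (univ : Finset (Fin n)), avg (RelV p) f = f) :
    avg (RelV univ) f = f := by
  refine avg_of_inv (RelV_equiv _) ?_
  intro G G' _
  refine graph_connected f ?_ G G'
  intro G t
  have hne : t 0 ≠ t 3 := fun h => by
    have := t.injective h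
    exact absurd this (by decide)
  have hp : ({t 0, t 3} : Finset (Fin n)) ∈ powersetCard 2 (univ : Finset (Fin n)) := by
    rw [Finset.mem_powersetCard]
    exact ⟨Finset.subset_univ _, Finset.card_pair hne⟩
  have h1 := hf _ hp
  have h2 : Inv (RelV ({t 0, t 3} : Finset (Fin n))) f := by
    have := avg_inv (RelV_equiv ({t 0, t 3} : Finset (Fin n)) (d := d)) f
    rwa [h1] at this
  exact (h2 G _ (RelV_stepO G t)).symm

end Vale.Agent.P335
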