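import Vale.Agent.P335.Mat

/-!
# A double counting identity over two-row classes
-/

set_option linter.unusedSectionVars false

namespace Vale.Agent.P335

open Finset

variable {ι κ : Type*} [Fintype ι] [DecidableEq ι] [Fintype κ] [DecidableEq κ]

/-- columns where row `v` has a one and row `w` a zero -/
def Uset (v w : ι) (N : Mat ι κ) : Finset κ := univ.filter (fun e => N v e = true ∧ N w e = false)

theorem mem_Uset {v w : ι} {N : Mat ι κ} {e : κ} :
    e ∈ Uset v w N ↔ N v e = true ∧ N w e = false := by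
  simp [Uset]

theorem half_two_of_sum {α : Type*} [Fintype α] [DecidableEq α] (g g0 : α → ℕ) (c c' : α)
    (hne : c ≠ c') (h : ∀ k, k ≠ c → k ≠ c' → g k = g0 k) (h2 : ∑ k, g k = ∑ k, g0 k) :
    g c + g c' = g0 c + g0 c' := by
  have e1 : ∀ u : α → ℕ, ∑ k, u k = u c + (u c' + ∑ k ∈ (univ.erase c).erase c', u k) := by
    intro u
    rw [Finset.add_sum_erase _ u (by simp [hne.symm] : c' ∈ univ.erase c),
      Finset.add_sum_erase _ u (mem_univ c)]
  rw [e1 g, e1 g0] at h2
  have e2 : ∑ k ∈ (univ.erase c).erase c', g k = ∑ k ∈ (univ.erase c).erase c', g0 k := by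
    refine Finset.sum_congr rfl (fun k hk => ?_)
    simp only [mem_erase, mem_univ, and_true] at hk
    exact h k hk.2 hk.1
  omega

theorem half_off {v w : ι} {M N : Mat ι κ}
    (h : Rel (({v, w} : Finset ι) ×ˢ (univ : Finset κ)) M N) {i : ι} (h1 : i ≠ v) (h2 : i ≠ w)
    (k : κ) : M i k = N i k :=
  h.1 i k (by simp [h1, h2])

theorem half_pair {v w : ι} (hvw : v ≠ w) {M N : Mat ι κ}
    (h : Rel (({v, w} : Finset ι) ×ˢ (univ : Finset κ)) M N) (k : κ) :
    (M v k).toNat + (M w k).toNat = (N v k).toNat + (N w k).toNat := by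
  refine half_two_of_sum (fun i => (M i k).toNat) (fun i => (N i k).toNat) v w hvw
    (fun i h1 h2 => ?_) (h.2.2 k)
  rw [half_off h h1 h2 k]

theorem card_Uset_const {v w : ι} (hvw : v ≠ w) {M N : Mat ι κ}
    (h : Rel (({v, w} : Finset ι) ×ˢ (univ : Finset κ)) M N) :
    (Uset v w N).card = (Uset v w M).card := by
  have e : (Uset v w N).card + rs M v = (Uset v w M).card + rs N v := by
    unfold Uset rs
    rw [Finset.card_filter, Finset.card_filter, ← Finset.sum_add_distrib,
      ← Finset.sum_add_distrib]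
    refine Finset.sum_congr rfl (fun k _ => ?_)
    have := half_pair hvw h k
    cases e1 : M v k <;> cases e2 : M w k <;> cases e3 : N v k <;> cases e4 : N w k <;>
      simp_all
  have := h.2.1 v
  omega

theorem half_Rel_sw_sw {Z : Finset (ι × κ)} {M N : Mat ι κ} (h : Rel Z M N) {r s : ι} {c c' : κ}
    (hM : Valid M r s c c') (hN : Valid N r s c c') :
    Rel Z (sw r s c c' M) (sw r s c c' N) := by
  refine ⟨fun i k hik => ?_, fun i => ?_, fun k => ?_⟩
  · simp only [sw, h.1 i k hik]
  · rw [rs_sw hM, rs_sw hN, h.2.1 i]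
  · rw [cs_sw hM, cs_sw hN, h.2.2 k]

/-- rows u,v,w distinct; column c is (1,0,0), column c' is (0,1,1) in rows (u,v,w). -/
theorem half_sum {u v w : ι} (huv : u ≠ v) (huw : u ≠ w) (hvw : v ≠ w) {c c' : κ}
    {M : Mat ι κ} (h1 : M u c = true) (h2 : M u c' = false) (h3 : M v c = false)
    (h4 : M v c' = true) (h5 : M w c = false) (h6 : M w c' = true) (F : Mat ι κ → ℝ) :
    ∑ N' ∈ (cls (Rel (({v, w} : Finset ι) ×ˢ (univ : Finset κ))) (sw u v c c' M)).filter
        (fun N' => N' v c = true), F N' =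
      ∑ N ∈ cls (Rel (({v, w} : Finset ι) ×ˢ (univ : Finset κ))) M,
        (F (sw u v c c' N) +
          (∑ e ∈ Uset v w N, F (sw w v c e (sw u w c c' N))) / (((Uset w v M).card : ℝ) + 1)) := by
  classical
  have hcc : c ≠ c' := by
    rintro rfl
    rw [h1] at h2
    exact absurd h2 (by simp)
  have hVM : Valid M u v c c' := ⟨h1, h2, h3, h4⟩
  -- facts on the class of M
  have factA : ∀ N, Rel (({v, w} : Finset ι) ×ˢ (univ : Finset κ)) M N →
      N u c = true ∧ N u c' = false ∧ N v c = false ∧ N v c' = true ∧ N w c = false ∧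
        N w c' = true := by
    intro N hN
    have a1 := half_off hN huv huw c
    have a2 := half_off hN huv huw c'
    have a3 := half_pair hvw hN c
    have a4 := half_pair hvw hN c'
    rw [h3, h5] at a3
    rw [h4, h6] at a4
    refine ⟨a1 ▸ h1, a2 ▸ h2, ?_, ?_, ?_, ?_⟩ <;>
      (cases e1 : N v c <;> cases e2 : N w c <;> cases e3 : N v c' <;> cases e4 : N w c' <;>
        simp_all)
  -- facts on the class of M'
  have factA' : ∀ N', Rel (({v, w} : Finset ι) ×ˢ (univ : Finset κ)) (sw u v c c' M) N' →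
      N' u c = false ∧ N' u c' = true ∧ (N' v c).toNat + (N' w c).toNat = 1 ∧
        (N' v c').toNat + (N' w c').toNat = 1 := by
    intro N' hN'
    have a1 := half_off hN' huv huw c
    have a2 := half_off hN' huv huw c'
    have a3 := half_pair hvw hN' c
    have a4 := half_pair hvw hN' c'
    simp [sw, h1, h2, h3, h4, h5, h6, hvw.symm, huw.symm] at a1 a2 a3 a4
    exact ⟨a1, a2, by omega, by omega⟩
  rw [Finset.sum_add_distrib, ← Finset.sum_filter_add_sum_filter_not
    ((cls (Rel (({v, w} : Finset ι) ×ˢ (univ : Finset κ))) (sw u v c c' M)).filter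
      (fun N' => N' v c = true)) (fun N' => N' v c' = false)]
  congr 1
  · -- first half
    symm
    refine Finset.sum_nbij' (fun N => sw u v c c' N) (fun N' => sw u v c c' N') ?_ ?_ ?_ ?_ ?_
    · intro N hN
      have hN' := mem_cls.1 hN
      obtain ⟨b1, b2, b3, b4, b5, b6⟩ := factA N hN'
      simp only [mem_filter]
      refine ⟨⟨mem_cls.2 (half_Rel_sw_sw hN' hVM ⟨b1, b2, b3, b4⟩), ?_⟩, ?_⟩
      · simp [sw, b3]
      · simp [sw, b4]
    · intro N' hN'
      simp only [mem_filter] at hN'
      obtain ⟨⟨hN1, hN2⟩, hN3⟩ := hN'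
      have hrel := mem_cls.1 hN1
      obtain ⟨b1, b2, b3, b4⟩ := factA' N' hrel
      have hV' : Valid N' u v c' c := ⟨b2, b1, hN3, hN2⟩
      have := half_Rel_sw_sw hrel hVM.sw hV'
      rw [sw_comm_cols u v c' c, sw_sw, sw_comm_cols] at this
      exact mem_cls.2 this
    · intro N _; exact sw_sw _ _ _ _ _
    · intro N _; exact sw_sw _ _ _ _ _
    · intro N _; rfl
  · -- second half
    have hm : ∀ N' ∈ cls (Rel (({v, w} : Finset ι) ×ˢ (univ : Finset κ))) (sw u v c c' M),
        ((Uset w v N').card : ℝ) = ((Uset w v M).card : ℝ) + 1 := by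
      intro N' hN'
      have hrel := mem_cls.1 hN'
      have hrel' : Rel (({w, v} : Finset ι) ×ˢ (univ : Finset κ)) (sw u v c c' M) N' := by
        rw [Finset.pair_comm]; exact hrel
      rw [card_Uset_const hvw.symm hrel']
      have : Uset w v (sw u v c c' M) = insert c' (Uset w v M) := by
        ext e
        simp only [mem_Uset, mem_insert]
        by_cases he : e = c'
        · subst he; simp [sw, h4, h6, huw.symm, hvw.symm]
        · by_cases he' : e = c
          · subst he'; simp [sw, he, h5, huw.symm, hvw.symm]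
          · simp [sw, he, he']
      rw [this, Finset.card_insert_of_notMem (by simp [mem_Uset, h4])]
      push_cast
      ring
    have hpos : (0 : ℝ) < ((Uset w v M).card : ℝ) + 1 := by positivity
    rw [← Finset.sum_div, eq_div_iff hpos.ne', Finset.sum_mul]
    have e1 : ∀ N' ∈ ((cls (Rel (({v, w} : Finset ι) ×ˢ (univ : Finset κ))) (sw u v c c' M)).filter
        (fun N' => N' v c = true)).filter (fun N' => ¬ N' v c' = false),
        F N' * (((Uset w v M).card : ℝ) + 1) = ∑ _e ∈ Uset w v N', F N' := by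
      intro N' hN'
      simp only [mem_filter] at hN'
      rw [Finset.sum_const, nsmul_eq_mul, hm N' hN'.1.1, mul_comm]
    rw [Finset.sum_congr rfl e1, Finset.sum_sigma', Finset.sum_sigma']
    symm
    refine Finset.sum_nbij' (fun x => ⟨sw w v c x.2 (sw u w c c' x.1), x.2⟩)
      (fun x => ⟨sw u w c c' (sw w v c x.2 x.1), x.2⟩) ?_ ?_ ?_ ?_ ?_
    · rintro ⟨N, e⟩ hx
      simp only [mem_sigma, mem_filter, mem_Uset] at hx ⊢
      obtain ⟨hN, he1, he2⟩ := hx
      have hN' := mem_cls.1 hN
      obtain ⟨b1, b2, b3, b4, b5, b6⟩ := factA N hN'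
      have hec : e ≠ c := by rintro rfl; rw [b3] at he1; exact absurd he1 (by simp)
      have hec' : e ≠ c' := by rintro rfl; rw [b6] at he2; exact absurd he2 (by simp)
      have hV1 : Valid N u w c c' := ⟨b1, b2, b5, b6⟩
      have hV2 : Valid (sw u w c c' N) w v c e := by
        refine ⟨?_, ?_, ?_, ?_⟩
        · simp [sw, b5]
        · simp [sw, hec, hec', he2]
        · simp [sw, huv.symm, hvw, b3]
        · simp [sw, huv.symm, hvw, he1]
      refine ⟨⟨⟨mem_cls.2 ⟨fun i k hik => ?_, fun i => ?_, fun k => ?_⟩, ?_⟩, ?_⟩, ?_, ?_⟩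
      · have hi : i ≠ v ∧ i ≠ w := by
          simp only [mem_product, mem_insert, mem_singleton, mem_univ, and_true, not_or] at hik
          exact hik
        simp [sw, hi.1, hi.2, hN'.1 i k hik]
      · rw [rs_sw hV2, rs_sw hV1, rs_sw hVM, hN'.2.1 i]
      · rw [cs_sw hV2, cs_sw hV1, cs_sw hVM, hN'.2.2 k]
      · simp [sw, huv.symm, hvw, b3]
      · simp [sw, huv.symm, hvw, hcc.symm, hec'.symm, b4]
      · simp [sw, hec, hec', he2]
      · simp [sw, huv.symm, hvw, he1]
    · rintro ⟨N', e⟩ hx
      simp only [mem_sigma, mem_filter, mem_Uset, Bool.not_eq_false] at hx ⊢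
      obtain ⟨⟨⟨hN, g1⟩, g2⟩, he1, he2⟩ := hx
      have hN' := mem_cls.1 hN
      obtain ⟨b1, b2, b3, b4⟩ := factA' N' hN'
      have g3 : N' w c = false := by
        rw [g1] at b3
        cases e' : N' w c
        · rfl
        · rw [e'] at b3; simp at b3
      have g4 : N' w c' = false := by
        rw [g2] at b4
        cases e' : N' w c'
        · rfl
        · rw [e'] at b4; simp at b4
      have hec : e ≠ c := by rintro rfl; rw [g1] at he2; exact absurd he2 (by simp)
      have hec' : e ≠ c' := by rintro rfl; rw [g2] at he2; exact absurd he2 (by simp)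
      have hV1 : Valid N' w v e c := ⟨he1, g3, he2, g1⟩
      have hV2 : Valid (sw w v e c N') u w c' c := by
        refine ⟨?_, ?_, ?_, ?_⟩
        · simp [sw, huv, huw, b2]
        · simp [sw, huv, huw, b1]
        · simp [sw, hcc.symm, hec'.symm, g4]
        · simp [sw, g3]
      rw [sw_comm_cols w v c e, sw_comm_cols u w c c']
      refine ⟨mem_cls.2 ⟨fun i k hik => ?_, fun i => ?_, fun k => ?_⟩, ?_, ?_⟩
      · have hi : i ≠ v ∧ i ≠ w := by
          simp only [mem_product, mem_insert, mem_singleton, mem_univ, and_true, not_or] at hik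
          exact hik
        have := hN'.1 i k hik
        simp only [sw, hi.1, hi.2, or_false, false_and, if_false] at this ⊢
        rw [← this]
        by_cases hh : i = u ∧ (k = c ∨ k = c')
        · have hh' : i = u ∧ (k = c' ∨ k = c) := ⟨hh.1, hh.2.symm⟩
          simp [hh, hh']
        · have hh' : ¬ (i = u ∧ (k = c' ∨ k = c)) := fun h => hh ⟨h.1, h.2.symm⟩
          simp [hh, hh']
      · rw [rs_sw hV2, rs_sw hV1, ← hN'.2.1 i, rs_sw hVM]
      · rw [cs_sw hV2, cs_sw hV1, ← hN'.2.2 k, cs_sw hVM]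
      · simp [sw, huv.symm, hvw, he2]
      · simp [sw, hec, hec', he1]
    · rintro ⟨N, e⟩ _
      simp only [sw_sw]
    · rintro ⟨N', e⟩ _
      simp only [sw_sw]
    · rintro ⟨N, e⟩ _
      rfl

end Vale.Agent.P335
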