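import Vale.Agent.P335.Johnson
import Vale.Agent.P335.JCore

/-!
# P335, module J1: the Johnson lemma for two rows of a 0-1 matrix
-/

set_option linter.unusedSectionVars false
set_option linter.unusedVariables false
set_option linter.unusedSimpArgs false

namespace Vale.Agent.P335

open Finset

variable {ι κ : Type*} [Fintype ι] [DecidableEq ι] [Fintype κ] [DecidableEq κ]

/-- column sums over the two rows -/
theorem jl_col {r s : ι} (hrs : r ≠ s) {K : Finset κ} {M N : Mat ι κ}
    (h : Rel (({r, s} : Finset ι) ×ˢ K) M N) (k : κ) :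
    (M r k).toNat + (M s k).toNat = (N r k).toNat + (N s k).toNat := by
  have := john_col h k
  rwa [Finset.sum_pair hrs, Finset.sum_pair hrs] at this

theorem jl_free {r s : ι} (hrs : r ≠ s) {K : Finset κ} {M N : Mat ι κ}
    (h : Rel (({r, s} : Finset ι) ×ˢ K) M N) (k : κ) :
    (N r k ≠ N s k) ↔ (M r k ≠ M s k) := by
  have := jl_col hrs h k
  cases h1 : M r k <;> cases h2 : M s k <;> cases h3 : N r k <;> cases h4 : N s k <;> simp_all

theorem jl_frozen {r s : ι} (hrs : r ≠ s) {K : Finset κ} {M N : Mat ι κ}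
    (h : Rel (({r, s} : Finset ι) ×ˢ K) M N) (k : κ) (hk : M r k = M s k) :
    N r k = M r k := by
  have := jl_col hrs h k
  cases h1 : M r k <;> cases h2 : M s k <;> cases h3 : N r k <;> cases h4 : N s k <;> simp_all

theorem jl_valid_iff {r s : ι} {N : Mat ι κ} {t j : κ} (ht : N r t ≠ N s t) (hj : N r j ≠ N s j) :
    Valid N r s t j ↔ (N r t = true ∧ N r j = false) := by
  unfold Valid
  cases h1 : N r t <;> cases h2 : N s t <;> cases h3 : N r j <;> cases h4 : N s j <;> simp_all

theorem jl_cls_two {r s : ι} {c c' : κ} (hrs : r ≠ s) {M : Mat ι κ} (hV : Valid M r s c c') :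
    cls (Rel (({r, s} : Finset ι) ×ˢ ({c, c'} : Finset κ))) M = {M, sw r s c c' M} := by
  refine Finset.Subset.antisymm (john_cls_subset hrs hV.ne_col M) ?_
  intro N hN
  rcases Finset.mem_insert.1 hN with h | h
  · rw [h]; exact self_mem_cls (Rel_equiv _) M
  · rw [Finset.mem_singleton.1 h, mem_cls]
    exact Rel_sw hV (Finset.Subset.refl _)

theorem jl_avg_two {r s : ι} {c c' : κ} (hrs : r ≠ s) {M : Mat ι κ} (hV : Valid M r s c c')
    (f : Mat ι κ → ℝ) :
    avg (Rel (({r, s} : Finset ι) ×ˢ ({c, c'} : Finset κ))) f M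
      = (f M + f (sw r s c c' M)) / 2 := by
  unfold avg
  rw [jl_cls_two hrs hV, Finset.sum_pair (john_sw_ne r s c c' M).symm,
    Finset.card_pair (john_sw_ne r s c c' M).symm]
  norm_num

theorem jl_cls_one {r s : ι} {t j : κ} {K : Finset κ} {N y : Mat ι κ}
    (hV : Valid N r s t j) :
    Rel (({r, s} : Finset ι) ×ˢ (K \ {t, j})) N y
      ↔ (Rel (({r, s} : Finset ι) ×ˢ K) N y ∧ Valid y r s t j) := by
  constructor
  · intro h
    refine ⟨Rel_mono (Finset.product_subset_product_right Finset.sdiff_subset) h, ?_⟩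
    have e : ∀ i k, (k = t ∨ k = j) → y i k = N i k := by
      intro i k hk
      refine (h.1 i k ?_).symm
      simp only [Finset.mem_product, Finset.mem_sdiff, Finset.mem_insert, Finset.mem_singleton]
      tauto
    unfold Valid
    rw [e r t (Or.inl rfl), e r j (Or.inr rfl), e s t (Or.inl rfl), e s j (Or.inr rfl)]
    exact hV
  · rintro ⟨h, hy⟩
    refine ⟨fun i k hik => ?_, h.2.1, h.2.2⟩
    by_cases hK : (i, k) ∈ (({r, s} : Finset ι) ×ˢ K)
    · simp only [Finset.mem_product, Finset.mem_sdiff, Finset.mem_insert,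
        Finset.mem_singleton] at hik hK
      have hk : k = t ∨ k = j := by
        by_contra hcon
        exact hik ⟨hK.1, hK.2, hcon⟩
      obtain ⟨a1, a2, a3, a4⟩ := hV
      obtain ⟨b1, b2, b3, b4⟩ := hy
      rcases hK.1 with rfl | rfl <;> rcases hk with rfl | rfl <;> simp_all
    · exact h.1 i k hK


/-- exchange the entries of the columns `t`, `j` in the rows `r`, `s` (if they differ) -/
def jsig (r s : ι) (t j : κ) (N : Mat ι κ) : Mat ι κ :=
  if N r t ≠ N r j then sw r s t j N else N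

theorem jsig_row (r s : ι) (t j : κ) (N : Mat ι κ) (k : κ) :
    jsig r s t j N r k = N r (Equiv.swap t j k) := by
  unfold jsig
  by_cases h : N r t ≠ N r j
  · rw [if_pos h]
    by_cases hkt : k = t
    · subst hkt
      rw [Equiv.swap_apply_left]
      have : sw r s k j N r k = !(N r k) := by simp [sw]
      rw [this]
      cases h1 : N r k <;> cases h2 : N r j <;> simp_all
    · by_cases hkj : k = j
      · subst hkj
        rw [Equiv.swap_apply_right]
        have : sw r s t k N r k = !(N r k) := by simp [sw]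
        rw [this]
        cases h1 : N r k <;> cases h2 : N r t <;> simp_all
      · rw [sw_apply_of_col hkt hkj, Equiv.swap_apply_of_ne_of_ne hkt hkj]
  · rw [if_neg h]
    have h' : N r t = N r j := not_not.1 h
    by_cases hkt : k = t
    · subst hkt
      rw [Equiv.swap_apply_left, h']
    · by_cases hkj : k = j
      · subst hkj
        rw [Equiv.swap_apply_right, h']
      · rw [Equiv.swap_apply_of_ne_of_ne hkt hkj]

theorem jsig_jsig (r s : ι) (t j : κ) (N : Mat ι κ) : jsig r s t j (jsig r s t j N) = N := by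
  by_cases h : N r t ≠ N r j
  · have e : jsig r s t j N = sw r s t j N := by unfold jsig; rw [if_pos h]
    have h2 : jsig r s t j N r t ≠ jsig r s t j N r j := by
      rw [jsig_row, jsig_row, Equiv.swap_apply_left, Equiv.swap_apply_right]
      exact h.symm
    have gen : ∀ X : Mat ι κ, X r t ≠ X r j → jsig r s t j X = sw r s t j X := by
      intro X hX
      unfold jsig
      rw [if_pos hX]
    rw [gen _ h2, e, sw_sw]
  · have e : jsig r s t j N = N := by unfold jsig; rw [if_neg h]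
    rw [e, e]

theorem jsig_comm (r s : ι) (t j : κ) (N : Mat ι κ) : jsig r s t j N = jsig r s j t N := by
  unfold jsig
  by_cases h : N r t ≠ N r j
  · rw [if_pos h, if_pos h.symm, sw_comm_cols]
  · rw [if_neg h, if_neg (fun h' => h h'.symm)]

theorem jl_valid_or {r s : ι} {N : Mat ι κ} {t j : κ} (ht : N r t ≠ N s t) (hj : N r j ≠ N s j)
    (h : N r t ≠ N r j) : Valid N r s t j ∨ Valid N r s j t := by
  rw [jl_valid_iff ht hj, jl_valid_iff hj ht]
  cases h1 : N r t <;> cases h3 : N r j <;> simp_all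

theorem jsig_mem {r s : ι} (hrs : r ≠ s) {K : Finset κ} {M0 N : Mat ι κ} {t j : κ}
    (hN : Rel (({r, s} : Finset ι) ×ˢ K) M0 N) (htK : t ∈ K) (hjK : j ∈ K)
    (ht : M0 r t ≠ M0 s t) (hj : M0 r j ≠ M0 s j) :
    Rel (({r, s} : Finset ι) ×ˢ K) M0 (jsig r s t j N) := by
  unfold jsig
  by_cases h : N r t ≠ N r j
  · rw [if_pos h]
    have hsub : ({t, j} : Finset κ) ⊆ K := by
      intro x hx
      rcases Finset.mem_insert.1 hx with h | h
      · rw [h]; exact htK
      · rw [Finset.mem_singleton.1 h]; exact hjK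
    have hsub' : ({j, t} : Finset κ) ⊆ K := by rw [Finset.pair_comm]; exact hsub
    rcases jl_valid_or ((jl_free hrs hN t).2 ht) ((jl_free hrs hN j).2 hj) h with hV | hV
    · exact (Rel_equiv _).trans hN (Rel_sw hV (Finset.product_subset_product_right hsub))
    · rw [sw_comm_cols]
      exact (Rel_equiv _).trans hN (Rel_sw hV (Finset.product_subset_product_right hsub'))
  · rw [if_neg h]
    exact hN

theorem jl_count {r s : ι} (hrs : r ≠ s) {K : Finset κ} {M0 N : Mat ι κ}
    (hN : Rel (({r, s} : Finset ι) ×ˢ K) M0 N) :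
    ((K.filter (fun k => M0 r k ≠ M0 s k)).filter (fun k => N r k = true)).card
      = ((K.filter (fun k => M0 r k ≠ M0 s k)).filter (fun k => M0 r k = true)).card := by
  have h1 := john_row hN r
  have e : ∀ X : Mat ι κ, ∑ k ∈ K, (X r k).toNat
      = ((K.filter (fun k => M0 r k ≠ M0 s k)).filter (fun k => X r k = true)).card
        + ∑ k ∈ K.filter (fun k => ¬ (M0 r k ≠ M0 s k)), (X r k).toNat := by
    intro X
    rw [← Finset.sum_filter_add_sum_filter_not K (fun k => M0 r k ≠ M0 s k)]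
    congr 1
    rw [Finset.card_filter]
    refine Finset.sum_congr rfl fun k _ => ?_
    cases X r k <;> simp
  rw [e M0, e N] at h1
  have e2 : ∑ k ∈ K.filter (fun k => ¬ (M0 r k ≠ M0 s k)), (N r k).toNat
      = ∑ k ∈ K.filter (fun k => ¬ (M0 r k ≠ M0 s k)), (M0 r k).toNat := by
    refine Finset.sum_congr rfl fun k hk => ?_
    rw [jl_frozen hrs hN k (not_not.1 (Finset.mem_filter.1 hk).2)]
  omega


open Classical in
theorem jl_split {r s : ι} (hrs : r ≠ s) {K : Finset κ} (M0 : Mat ι κ) {t j : κ}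
    (htK : t ∈ K) (hjK : j ∈ K) (ht : M0 r t ≠ M0 s t) (hj : M0 r j ≠ M0 s j)
    (G : Mat ι κ → ℝ) :
    ∑ y ∈ cls (Rel (({r, s} : Finset ι) ×ˢ K)) M0, (if y r t ≠ y r j then G y else 0)
      = ∑ y ∈ cls (Rel (({r, s} : Finset ι) ×ˢ K)) M0,
          (if Valid y r s t j then G y + G (sw r s t j y) else 0) := by
  set C := cls (Rel (({r, s} : Finset ι) ×ˢ K)) M0 with hC
  have inv : ∑ y ∈ C, (fun y => if Valid y r s j t then G y else 0) (jsig r s t j y)
      = ∑ y ∈ C, (if Valid y r s j t then G y else 0) :=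
    Finset.sum_nbij' (jsig r s t j) (jsig r s t j)
      (fun y hy => mem_cls.2 (jsig_mem hrs (mem_cls.1 hy) htK hjK ht hj))
      (fun y hy => mem_cls.2 (jsig_mem hrs (mem_cls.1 hy) htK hjK ht hj))
      (fun y _ => jsig_jsig r s t j y) (fun y _ => jsig_jsig r s t j y) (fun _ _ => rfl)
  have e1 : ∑ y ∈ C, (if y r t ≠ y r j then G y else 0)
      = ∑ y ∈ C, (if Valid y r s t j then G y else 0)
        + ∑ y ∈ C, (if Valid y r s j t then G y else 0) := by
    rw [← Finset.sum_add_distrib]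
    refine Finset.sum_congr rfl fun y hy => ?_
    have a1 := (jl_free hrs (mem_cls.1 hy) t).2 ht
    have a2 := (jl_free hrs (mem_cls.1 hy) j).2 hj
    simp only [jl_valid_iff a1 a2, jl_valid_iff a2 a1]
    cases h1 : y r t <;> cases h3 : y r j <;> simp
  rw [e1, ← inv, ← Finset.sum_add_distrib]
  refine Finset.sum_congr rfl fun y hy => ?_
  have a1 := (jl_free hrs (mem_cls.1 hy) t).2 ht
  have a2 := (jl_free hrs (mem_cls.1 hy) j).2 hj
  by_cases hV : Valid y r s t j
  · have hne : y r t ≠ y r j := by rw [hV.1, hV.2.1]; simp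
    have e : jsig r s t j y = sw r s t j y := by unfold jsig; rw [if_pos hne]
    simp only [e]
    rw [if_pos hV, if_pos hV, if_pos hV.sw]
  · have : ¬ Valid (jsig r s t j y) r s j t := by
      intro hh
      apply hV
      rw [jl_valid_iff a1 a2]
      have b1 := hh.1
      have b2 := hh.2.1
      rw [jsig_row, Equiv.swap_apply_right] at b1
      rw [jsig_row, Equiv.swap_apply_left] at b2
      exact ⟨b1, b2⟩
    simp only [if_neg this, if_neg hV, add_zero]

open Classical in
theorem jl_avg_one {r s : ι} (hrs : r ≠ s) {K : Finset κ} (M0 : Mat ι κ) {t j : κ}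
    (htK : t ∈ K) (hjK : j ∈ K) (ht : M0 r t ≠ M0 s t) (hj : M0 r j ≠ M0 s j)
    (f : Mat ι κ → ℝ) {N : Mat ι κ} (hN : Rel (({r, s} : Finset ι) ×ˢ K) M0 N)
    (hV : Valid N r s t j) :
    (∑ y ∈ cls (Rel (({r, s} : Finset ι) ×ˢ K)) M0, (if y r t ≠ y r j then (1 : ℝ) else 0))
      * avg (Rel (({r, s} : Finset ι) ×ˢ (K \ {t, j})))
          (avg (Rel (({r, s} : Finset ι) ×ˢ ({t, j} : Finset κ))) f) N
      = ∑ y ∈ cls (Rel (({r, s} : Finset ι) ×ˢ K)) M0, (if y r t ≠ y r j then f y else 0) := by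
  set C := cls (Rel (({r, s} : Finset ι) ×ˢ K)) M0 with hC
  have hcls : cls (Rel (({r, s} : Finset ι) ×ˢ (K \ {t, j}))) N
      = C.filter (fun y => Valid y r s t j) := by
    ext y
    rw [mem_cls, jl_cls_one hV, Finset.mem_filter, hC, mem_cls]
    constructor
    · rintro ⟨a1, a2⟩
      exact ⟨(Rel_equiv _).trans hN a1, a2⟩
    · rintro ⟨a1, a2⟩
      exact ⟨(Rel_equiv _).trans ((Rel_equiv _).symm hN) a1, a2⟩
  rw [jl_split hrs M0 htK hjK ht hj (fun _ => 1), jl_split hrs M0 htK hjK ht hj f]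
  rw [← Finset.sum_filter, ← Finset.sum_filter]
  set V := C.filter (fun y => Valid y r s t j) with hVdef
  have hNV : N ∈ V := Finset.mem_filter.2 ⟨mem_cls.2 hN, hV⟩
  have hpos : 0 < (V.card : ℝ) := by
    have : 0 < V.card := Finset.card_pos.2 ⟨N, hNV⟩
    exact_mod_cast this
  have e1 : avg (Rel (({r, s} : Finset ι) ×ˢ (K \ {t, j})))
      (avg (Rel (({r, s} : Finset ι) ×ˢ ({t, j} : Finset κ))) f) N
      = (∑ y ∈ V, (f y + f (sw r s t j y)) / 2) / (V.card : ℝ) := by
    conv_lhs => unfold avg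
    rw [hcls]
    congr 1
    refine Finset.sum_congr rfl fun y hy => ?_
    exact jl_avg_two hrs (Finset.mem_filter.1 hy).2 f
  rw [e1, Finset.sum_const, nsmul_eq_mul, ← Finset.sum_div]
  field_simp
  ring


open Classical in
theorem jl_convert {r s : ι} (hrs : r ≠ s) {K : Finset κ} (M0 : Mat ι κ)
    (X : κ → κ → Mat ι κ → ℝ) (hX : ∀ t j N, X t j N = X j t N) :
    ∑ t ∈ K.filter (fun k => M0 r k ≠ M0 s k),
      ∑ j ∈ (K.filter (fun k => M0 r k ≠ M0 s k)).erase t,
        ∑ N ∈ cls (Rel (({r, s} : Finset ι) ×ˢ K)) M0, (if N r t ≠ N r j then X t j N else 0)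
      = 2 * ∑ N ∈ cls (Rel (({r, s} : Finset ι) ×ˢ K)) M0, ∑ c, ∑ c',
          (if c ∈ K ∧ c' ∈ K ∧ Valid N r s c c' then X c c' N else 0) := by
  set C := cls (Rel (({r, s} : Finset ι) ×ˢ K)) M0 with hC
  set F := K.filter (fun k => M0 r k ≠ M0 s k) with hF
  have e1 : ∑ t ∈ F, ∑ j ∈ F.erase t, ∑ N ∈ C, (if N r t ≠ N r j then X t j N else 0)
      = ∑ N ∈ C, ∑ t ∈ F, ∑ j ∈ F.erase t, (if N r t ≠ N r j then X t j N else 0) := by
    rw [Finset.sum_comm]
    refine Finset.sum_congr rfl fun t _ => ?_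
    rw [Finset.sum_comm]
  rw [e1, Finset.mul_sum]
  refine Finset.sum_congr rfl fun N hN => ?_
  have hNR := mem_cls.1 hN
  have hfree : ∀ k ∈ F, N r k ≠ N s k := fun k hk =>
    (jl_free hrs hNR k).2 (Finset.mem_filter.1 hk).2
  have a : ∑ t ∈ F, ∑ j ∈ F.erase t, (if N r t ≠ N r j then X t j N else 0)
      = ∑ t ∈ F, ∑ j ∈ F, (if N r t ≠ N r j then X t j N else 0) :=
    Finset.sum_congr rfl fun t _ => Finset.sum_erase _ (by simp)
  have b : ∑ t ∈ F, ∑ j ∈ F, (if N r t ≠ N r j then X t j N else 0)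
      = ∑ t ∈ F, ∑ j ∈ F, (if Valid N r s t j then X t j N else 0)
        + ∑ t ∈ F, ∑ j ∈ F, (if Valid N r s j t then X t j N else 0) := by
    rw [← Finset.sum_add_distrib]
    refine Finset.sum_congr rfl fun t ht => ?_
    rw [← Finset.sum_add_distrib]
    refine Finset.sum_congr rfl fun j hj => ?_
    simp only [jl_valid_iff (hfree t ht) (hfree j hj), jl_valid_iff (hfree j hj) (hfree t ht)]
    cases h1 : N r t <;> cases h3 : N r j <;> simp
  have c : ∑ t ∈ F, ∑ j ∈ F, (if Valid N r s j t then X t j N else 0)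
      = ∑ t ∈ F, ∑ j ∈ F, (if Valid N r s t j then X t j N else 0) := by
    rw [Finset.sum_comm]
    refine Finset.sum_congr rfl fun t _ => Finset.sum_congr rfl fun j _ => ?_
    rw [hX j t N]
  have hmem : ∀ c c', c ∈ K → Valid N r s c c' → c ∈ F := by
    intro c c' hc hV
    refine Finset.mem_filter.2 ⟨hc, (jl_free hrs hNR c).1 ?_⟩
    rw [hV.1, hV.2.2.1]
    simp
  have hmem' : ∀ c c', c' ∈ K → Valid N r s c c' → c' ∈ F := by
    intro c c' hc hV
    refine Finset.mem_filter.2 ⟨hc, (jl_free hrs hNR c').1 ?_⟩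
    rw [hV.2.1, hV.2.2.2]
    simp
  have d : ∑ c, ∑ c', (if c ∈ K ∧ c' ∈ K ∧ Valid N r s c c' then X c c' N else 0)
      = ∑ t ∈ F, ∑ j ∈ F, (if Valid N r s t j then X t j N else 0) := by
    symm
    have d1 : ∑ t ∈ F, ∑ j ∈ F, (if Valid N r s t j then X t j N else 0)
        = ∑ t ∈ F, ∑ c', (if t ∈ K ∧ c' ∈ K ∧ Valid N r s t c' then X t c' N else 0) := by
      refine Finset.sum_congr rfl fun t ht => ?_
      have htK : t ∈ K := (Finset.mem_filter.1 ht).1
      rw [← Finset.sum_subset (Finset.subset_univ F)]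
      · refine Finset.sum_congr rfl fun j hj => ?_
        have hjK : j ∈ K := (Finset.mem_filter.1 hj).1
        refine if_congr ?_ rfl rfl
        constructor
        · intro h; exact ⟨htK, hjK, h⟩
        · intro h; exact h.2.2
      · intro j _ hj
        rw [if_neg]
        rintro ⟨_, h2, h3⟩
        exact hj (hmem' t j h2 h3)
    rw [d1]
    refine Finset.sum_subset (Finset.subset_univ F) ?_
    intro t _ ht
    refine Finset.sum_eq_zero fun j _ => ?_
    rw [if_neg]
    rintro ⟨h1, _, h3⟩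
    exact ht (hmem t j h1 h3)
  rw [a, b, c, d]
  ring

open Classical in
theorem jl_class {r s : ι} (hrs : r ≠ s) (K : Finset κ) (f : Mat ι κ → ℝ) (M0 : Mat ι κ) :
    ∑ N ∈ cls (Rel (({r, s} : Finset ι) ×ˢ K)) M0, ∑ c, ∑ c',
      (if c ∈ K ∧ c' ∈ K ∧ Valid N r s c c' then
        (avg (Rel (({r, s} : Finset ι) ×ˢ (K \ {c, c'})))
          (avg (Rel (({r, s} : Finset ι) ×ˢ ({c, c'} : Finset κ))) f) N
          - avg (Rel (({r, s} : Finset ι) ×ˢ K)) f N) ^ 2 else 0)
    ≤ ∑ N ∈ cls (Rel (({r, s} : Finset ι) ×ˢ K)) M0, ∑ c, ∑ c',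
      (if c ∈ K ∧ c' ∈ K ∧ Valid N r s c c' then ((f (sw r s c c' N) - f N) / 2) ^ 2 else 0) := by
  set R := Rel (ι := ι) (κ := κ) (({r, s} : Finset ι) ×ˢ K) with hR
  set C := cls R M0 with hC
  set F := K.filter (fun k => M0 r k ≠ M0 s k) with hF
  set cc : κ → κ → ℝ := fun t j => ∑ y ∈ C, (if y r t ≠ y r j then (1 : ℝ) else 0) with hcc
  set TT : κ → κ → ℝ := fun t j => ∑ y ∈ C, (if y r t ≠ y r j then f y else 0) with hTT
  set H : κ → κ → ℝ := fun t j => TT t j / cc t j with hH
  set fb : ℝ := avg R f M0 with hfb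
  have hK : ∀ k ∈ F, k ∈ K := fun k hk => (Finset.mem_filter.1 hk).1
  have hfr : ∀ k ∈ F, M0 r k ≠ M0 s k := fun k hk => (Finset.mem_filter.1 hk).2
  have core := johnson_core C F (fun N k => N r k) (jsig r s)
    ((F.filter (fun k => M0 r k = true)).card)
    (fun t ht j hj N hN => mem_cls.2 (jsig_mem hrs (mem_cls.1 hN) (hK t ht) (hK j hj)
      (hfr t ht) (hfr j hj)))
    (fun t _ j _ N _ => jsig_jsig r s t j N)
    (fun t _ j _ N _ k => jsig_row r s t j N k)
    (fun t _ j _ N _ h => by unfold jsig; rw [if_neg (not_not.2 h)])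
    (fun N hN => jl_count hrs (mem_cls.1 hN))
    (fun t _ j _ N _ => jsig_comm r s t j N)
    f H fb
    (by
      intro t _ j _ _
      show cc t j * (TT t j / cc t j) = TT t j
      by_cases h0 : cc t j = 0
      · have h1 : ∀ y ∈ C, (if y r t ≠ y r j then (1 : ℝ) else 0) = 0 :=
          (Finset.sum_eq_zero_iff_of_nonneg (fun y _ => by split_ifs <;> norm_num)).1 h0
        have h2 : TT t j = 0 := by
          refine Finset.sum_eq_zero fun y hy => ?_
          have := h1 y hy
          by_cases hy' : y r t ≠ y r j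
          · rw [if_pos hy'] at this
            norm_num at this
          · rw [if_neg hy']
        rw [h0, h2]
        simp
      · field_simp)
    (by
      have hp : 0 < (C.card : ℝ) := card_cls_pos (Rel_equiv (({r, s} : Finset ι) ×ˢ K)) M0
      show (C.card : ℝ) * ((∑ y ∈ C, f y) / (C.card : ℝ)) = ∑ y ∈ C, f y
      field_simp)
  have hHsym : ∀ t j, H t j = H j t := by
    intro t j
    have e1 : TT t j = TT j t := Finset.sum_congr rfl fun N _ => if_congr ne_comm rfl rfl
    have e2 : cc t j = cc j t := Finset.sum_congr rfl fun N _ => if_congr ne_comm rfl rfl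
    simp only [hH, e1, e2]
  have cl := jl_convert hrs (K := K) M0 (fun t j _ => (H t j - fb) ^ 2)
    (fun t j _ => by simp only [hHsym t j])
  have cr := jl_convert hrs (K := K) M0 (fun t j N => ((f N - f (jsig r s t j N)) / 2) ^ 2)
    (fun t j N => by simp only [jsig_comm r s t j N])
  rw [cl, cr] at core
  have core2 := le_of_mul_le_mul_left core (by norm_num : (0 : ℝ) < 2)
  refine le_trans (le_of_eq ?_) (le_trans core2 (le_of_eq ?_))
  · refine Finset.sum_congr rfl fun N hN => Finset.sum_congr rfl fun c _ =>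
      Finset.sum_congr rfl fun c' _ => ?_
    by_cases hcond : c ∈ K ∧ c' ∈ K ∧ Valid N r s c c'
    · rw [if_pos hcond, if_pos hcond]
      obtain ⟨hc, hc', hV⟩ := hcond
      have hNR := mem_cls.1 hN
      have f1 : M0 r c ≠ M0 s c := (jl_free hrs hNR c).1 (by rw [hV.1, hV.2.2.1]; simp)
      have f2 : M0 r c' ≠ M0 s c' := (jl_free hrs hNR c').1 (by rw [hV.2.1, hV.2.2.2]; simp)
      have key := jl_avg_one hrs M0 hc hc' f1 f2 f hNR hV
      have hpos : 0 < cc c c' := by
        refine Finset.sum_pos' (fun y _ => by split_ifs <;> norm_num) ⟨N, hN, ?_⟩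
        rw [if_pos (by rw [hV.1, hV.2.1]; simp)]
        norm_num
      have e1 : avg (Rel (({r, s} : Finset ι) ×ˢ (K \ {c, c'})))
          (avg (Rel (({r, s} : Finset ι) ×ˢ ({c, c'} : Finset κ))) f) N = H c c' := by
        show _ = TT c c' / cc c c'
        rw [eq_div_iff hpos.ne', mul_comm]
        exact key
      have e2 : avg R f N = fb := (avg_inv (Rel_equiv _) f M0 N hNR).symm
      rw [e1, e2]
    · rw [if_neg hcond, if_neg hcond]
  · refine Finset.sum_congr rfl fun N hN => Finset.sum_congr rfl fun c _ =>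
      Finset.sum_congr rfl fun c' _ => ?_
    by_cases hcond : c ∈ K ∧ c' ∈ K ∧ Valid N r s c c'
    · rw [if_pos hcond, if_pos hcond]
      obtain ⟨hc, hc', hV⟩ := hcond
      have hne : N r c ≠ N r c' := by rw [hV.1, hV.2.1]; simp
      have e : jsig r s c c' N = sw r s c c' N := by unfold jsig; rw [if_pos hne]
      rw [e]
      ring
    · rw [if_neg hcond, if_neg hcond]

open Classical in
/-- the Johnson lemma (J) for two rows of a 0-1 matrix -/
theorem johnson_J {r s : ι} (hrs : r ≠ s) (K : Finset κ) (f : Mat ι κ → ℝ) :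
    ∑ c, ∑ c', ∑ M, (if c ∈ K ∧ c' ∈ K ∧ Valid M r s c c' then
        (avg (Rel (({r, s} : Finset ι) ×ˢ (K \ {c, c'})))
          (avg (Rel (({r, s} : Finset ι) ×ˢ ({c, c'} : Finset κ))) f) M
          - avg (Rel (({r, s} : Finset ι) ×ˢ K)) f M) ^ 2 else 0)
    ≤ ∑ c, ∑ c', ∑ M, (if c ∈ K ∧ c' ∈ K ∧ Valid M r s c c' then
        ((f (sw r s c c' M) - f M) / 2) ^ 2 else 0) := by
  have reorder : ∀ Y : κ → κ → Mat ι κ → ℝ,
      ∑ c, ∑ c', ∑ M, Y c c' M = ∑ M, ∑ c, ∑ c', Y c c' M := by
    intro Y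
    have e : ∀ c, ∑ c', ∑ M, Y c c' M = ∑ M, ∑ c', Y c c' M := fun c => Finset.sum_comm
    simp_rw [e]
    exact Finset.sum_comm
  rw [reorder, reorder]
  set R := Rel (ι := ι) (κ := κ) (({r, s} : Finset ι) ×ˢ K) with hR
  have hRe : Equivalence R := Rel_equiv _
  rw [← sum_avg hRe, ← sum_avg hRe (fun M => ∑ c, ∑ c', (if c ∈ K ∧ c' ∈ K ∧ Valid M r s c c' then
        ((f (sw r s c c' M) - f M) / 2) ^ 2 else 0))]
  refine Finset.sum_le_sum fun M0 _ => ?_
  unfold avg
  exact div_le_div_of_nonneg_right (jl_class hrs K f M0) (card_cls_pos hRe M0).le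

end Vale.Agent.P335
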