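import Vale.Agent.P335.GFinal
import Vale.Agent.P335.DefsL

/-!
# The switch chain exactly as worded in the problem (4-sets and ordered pairs of perfect matchings)
-/

set_option linter.unusedSectionVars false
set_option linter.unusedSimpArgs false
set_option linter.unusedVariables false

namespace Vale.Agent.P335

open Finset

/-- four distinct vertices -/
def D4 {n : ℕ} (a b c d : Fin n) : Prop := a ≠ b ∧ a ≠ c ∧ a ≠ d ∧ b ≠ c ∧ b ≠ d ∧ c ≠ d

theorem isPM_one {n : ℕ} {a b c d : Fin n} (h : D4 a b c d) :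
    IsPM {a, b, c, d} {s(a, b), s(c, d)} := by
  obtain ⟨ab, ac, ad, bc, bd, cd⟩ := h
  constructor
  · intro e he
    simp only [mem_insert, mem_singleton] at he
    rcases he with rfl | rfl
    · simp [ab]
    · simp [cd]
  · intro v hv
    simp only [mem_insert, mem_singleton] at hv
    rcases hv with rfl | rfl | rfl | rfl
    · refine ⟨s(v, b), by simp, ?_⟩
      rintro e ⟨he, hve⟩
      simp only [mem_insert, mem_singleton] at he
      rcases he with rfl | rfl
      · rfl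
      · simp [ac, ad] at hve
    · refine ⟨s(a, v), by simp, ?_⟩
      rintro e ⟨he, hve⟩
      simp only [mem_insert, mem_singleton] at he
      rcases he with rfl | rfl
      · rfl
      · simp [bc, bd] at hve
    · refine ⟨s(v, d), by simp, ?_⟩
      rintro e ⟨he, hve⟩
      simp only [mem_insert, mem_singleton] at he
      rcases he with rfl | rfl
      · simp [ac.symm, bc.symm] at hve
      · rfl
    · refine ⟨s(c, v), by simp, ?_⟩
      rintro e ⟨he, hve⟩
      simp only [mem_insert, mem_singleton] at he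
      rcases he with rfl | rfl
      · simp [ad.symm, bd.symm] at hve
      · rfl

theorem isPM_partner {n : ℕ} {S : Finset (Fin n)} {F : Finset (Sym2 (Fin n))} (h : IsPM S F)
    {a : Fin n} (ha : a ∈ S) : ∃ x ∈ S, x ≠ a ∧ s(a, x) ∈ F := by
  obtain ⟨e, ⟨heF, hae⟩, -⟩ := h.2 a ha
  obtain ⟨x, rfl⟩ := hae
  have h1 := h.1 _ heF
  refine ⟨x, h1.2 x (by simp), ?_, heF⟩
  intro hx
  apply h1.1
  rw [hx]
  simp

theorem isPM_uniq {n : ℕ} {S : Finset (Fin n)} {F : Finset (Sym2 (Fin n))} (h : IsPM S F)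
    {v : Fin n} (hv : v ∈ S) {e e' : Sym2 (Fin n)} (he : e ∈ F) (he' : e' ∈ F) (hve : v ∈ e)
    (hve' : v ∈ e') : e = e' :=
  (h.2 v hv).unique ⟨he, hve⟩ ⟨he', hve'⟩

theorem isPM_of_edge {n : ℕ} {a b c d : Fin n} (h : D4 a b c d) {F : Finset (Sym2 (Fin n))}
    (hF : IsPM {a, b, c, d} F) (hab : s(a, b) ∈ F) : F = {s(a, b), s(c, d)} := by
  obtain ⟨ab, ac, ad, bc, bd, cd⟩ := h
  have hcd : s(c, d) ∈ F := by
    obtain ⟨y, hy, hyc, hcy⟩ := isPM_partner hF (a := c) (by simp)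
    simp only [mem_insert, mem_singleton] at hy
    rcases hy with rfl | rfl | rfl | rfl
    · have := isPM_uniq hF (v := y) (by simp) hcy hab (by simp) (by simp)
      rw [Sym2.eq_iff] at this
      rcases this with ⟨h1, h2⟩ | ⟨h1, h2⟩
      · exact absurd h1.symm ac
      · exact absurd h1.symm bc
    · have := isPM_uniq hF (v := y) (by simp) hcy hab (by simp) (by simp)
      rw [Sym2.eq_iff] at this
      rcases this with ⟨h1, h2⟩ | ⟨h1, h2⟩
      · exact absurd h1.symm ac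
      · exact absurd h1.symm bc
    · exact absurd rfl hyc
    · exact hcy
  ext e
  simp only [mem_insert, mem_singleton]
  constructor
  · intro he
    induction e with
    | _ u v =>
      have hu := (hF.1 _ he).2 u (by simp)
      simp only [mem_insert, mem_singleton] at hu
      rcases hu with rfl | rfl | rfl | rfl
      · exact Or.inl (isPM_uniq hF (v := u) (by simp) he hab (by simp) (by simp))
      · exact Or.inl (isPM_uniq hF (v := u) (by simp) he hab (by simp) (by simp))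
      · exact Or.inr (isPM_uniq hF (v := u) (by simp) he hcd (by simp) (by simp))
      · exact Or.inr (isPM_uniq hF (v := u) (by simp) he hcd (by simp) (by simp))
  · rintro (rfl | rfl)
    · exact hab
    · exact hcd

theorem D4.acbd {n : ℕ} {a b c d : Fin n} (h : D4 a b c d) : D4 a c b d :=
  ⟨h.2.1, h.1, h.2.2.1, h.2.2.2.1.symm, h.2.2.2.2.2, h.2.2.2.2.1⟩

theorem D4.abdc {n : ℕ} {a b c d : Fin n} (h : D4 a b c d) : D4 a b d c :=
  ⟨h.1, h.2.2.1, h.2.1, h.2.2.2.2.1, h.2.2.2.1, h.2.2.2.2.2.symm⟩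

theorem set4_acbd {n : ℕ} (a b c d : Fin n) : ({a, c, b, d} : Finset (Fin n)) = {a, b, c, d} := by
  ext x; simp only [mem_insert, mem_singleton]; tauto

theorem set4_abdc {n : ℕ} (a b c d : Fin n) : ({a, b, d, c} : Finset (Fin n)) = {a, b, c, d} := by
  ext x; simp only [mem_insert, mem_singleton]; tauto

theorem isPM_classify {n : ℕ} {a b c d : Fin n} (h : D4 a b c d) {F : Finset (Sym2 (Fin n))}
    (hF : IsPM {a, b, c, d} F) :
    F = {s(a, b), s(c, d)} ∨ F = {s(a, c), s(b, d)} ∨ F = {s(a, d), s(b, c)} := by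
  obtain ⟨x, hx, hxa, hax⟩ := isPM_partner hF (a := a) (by simp)
  simp only [mem_insert, mem_singleton] at hx
  rcases hx with rfl | rfl | rfl | rfl
  · exact absurd rfl hxa
  · exact Or.inl (isPM_of_edge h hF hax)
  · refine Or.inr (Or.inl (isPM_of_edge h.acbd ?_ hax))
    rw [set4_acbd]; exact hF
  · refine Or.inr (Or.inr (isPM_of_edge h.abdc.acbd ?_ hax))
    rw [set4_acbd, set4_abdc]; exact hF

theorem pm_ne {n : ℕ} {a b c d : Fin n} (h : D4 a b c d) :
    ({s(a, b), s(c, d)} : Finset (Sym2 (Fin n))) ≠ {s(a, c), s(b, d)} := by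
  obtain ⟨ab, ac, ad, bc, bd, cd⟩ := h
  intro he
  have h1 : s(a, b) ∈ ({s(a, c), s(b, d)} : Finset (Sym2 (Fin n))) := by
    rw [← he]; simp
  simp only [mem_insert, mem_singleton, Sym2.eq_iff] at h1
  rcases h1 with (⟨-, h2⟩ | ⟨h2, -⟩) | (⟨h2, -⟩ | ⟨h2, -⟩)
  · exact bc h2
  · exact ac h2
  · exact ab h2
  · exact ad h2

/-- the 4-tuple (a, b, c, d) -/
def tup4 {n : ℕ} (a b c d : Fin n) (h : D4 a b c d) : Fin 4 ↪ Fin n :=
  ⟨![a, b, c, d], by
    obtain ⟨a1, a2, a3, a4, a5, a6⟩ := h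
    intro i j hij
    fin_cases i <;> fin_cases j <;> simp at hij ⊢ <;>
      first
        | exact absurd hij a1 | exact absurd hij a2 | exact absurd hij a3 | exact absurd hij a4
        | exact absurd hij a5 | exact absurd hij a6 | exact absurd hij.symm a1
        | exact absurd hij.symm a2 | exact absurd hij.symm a3 | exact absurd hij.symm a4
        | exact absurd hij.symm a5 | exact absurd hij.symm a6⟩

theorem emb_D4 {n : ℕ} (t : Fin 4 ↪ Fin n) : D4 (t 0) (t 1) (t 2) (t 3) := by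
  have hne : ∀ i j : Fin 4, i ≠ j → t i ≠ t j := fun i j hij h' => hij (t.injective h')
  exact ⟨hne _ _ (by decide), hne _ _ (by decide), hne _ _ (by decide), hne _ _ (by decide),
    hne _ _ (by decide), hne _ _ (by decide)⟩

theorem emb_eq_tup4 {n : ℕ} (t : Fin 4 ↪ Fin n) {a b c d : Fin n} (h : D4 a b c d)
    (h0 : t 0 = a) (h1 : t 1 = b) (h2 : t 2 = c) (h3 : t 3 = d) : t = tup4 a b c d h := by
  ext i
  fin_cases i
  · exact congrArg Fin.val h0
  · exact congrArg Fin.val h1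
  · exact congrArg Fin.val h2
  · exact congrArg Fin.val h3

/-- the 4-set of a tuple -/
def imT {n : ℕ} (t : Fin 4 ↪ Fin n) : Finset (Fin n) := {t 0, t 1, t 2, t 3}

/-- the ordered pair of perfect matchings encoded by a tuple -/
def pmT {n : ℕ} (t : Fin 4 ↪ Fin n) : Finset (Sym2 (Fin n)) × Finset (Sym2 (Fin n)) :=
  ({s(t 0, t 1), s(t 2, t 3)}, {s(t 0, t 2), s(t 1, t 3)})

theorem card_set4 {n : ℕ} {a b c d : Fin n} (h : D4 a b c d) :
    ({a, b, c, d} : Finset (Fin n)).card = 4 := by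
  obtain ⟨ab, ac, ad, bc, bd, cd⟩ := h
  rw [card_insert_of_notMem, card_insert_of_notMem, card_insert_of_notMem, card_singleton]
  · simp [cd]
  · simp [bc, bd]
  · simp [ab, ac, ad]

theorem exists_set4 {n : ℕ} {S : Finset (Fin n)} (hS : S.card = 4) :
    ∃ a b c d, D4 a b c d ∧ S = {a, b, c, d} := by
  obtain ⟨a, S1, ha, rfl, h1⟩ := Finset.card_eq_succ.1 hS
  obtain ⟨b, c, d, bc, bd, cd, rfl⟩ := Finset.card_eq_three.1 h1
  simp only [mem_insert, mem_singleton, not_or] at ha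
  exact ⟨a, b, c, d, ⟨ha.1, ha.2.1, ha.2.2, bc, bd, cd⟩, rfl⟩

theorem fiber_eq {n : ℕ} {a b c d : Fin n} (h : D4 a b c d) (t : Fin 4 ↪ Fin n) :
    pmT t = ({s(a, b), s(c, d)}, {s(a, c), s(b, d)}) ↔
      (t 0 = a ∧ t 1 = b ∧ t 2 = c ∧ t 3 = d) ∨ (t 0 = b ∧ t 1 = a ∧ t 2 = d ∧ t 3 = c) ∨
      (t 0 = c ∧ t 1 = d ∧ t 2 = a ∧ t 3 = b) ∨ (t 0 = d ∧ t 1 = c ∧ t 2 = b ∧ t 3 = a) := by
  obtain ⟨ab, ac, ad, bc, bd, cd⟩ := h
  have ba := ab.symm
  have ca := ac.symm
  have da := ad.symm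
  have cb := bc.symm
  have db := bd.symm
  have dc := cd.symm
  unfold pmT
  constructor
  · intro he
    have e1 := (Prod.ext_iff.1 he).1
    have e2 := (Prod.ext_iff.1 he).2
    simp only at e1 e2
    have f1 := finset_pair_eq_pair e1
    have f2 := finset_pair_eq_pair e2
    simp only [Sym2.eq_iff] at f1 f2
    generalize t 0 = p at *
    generalize t 1 = q at *
    generalize t 2 = r at *
    generalize t 3 = u at *
    rcases f1 with ⟨⟨rfl, rfl⟩ | ⟨rfl, rfl⟩, ⟨rfl, rfl⟩ | ⟨rfl, rfl⟩⟩ |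
      ⟨⟨rfl, rfl⟩ | ⟨rfl, rfl⟩, ⟨rfl, rfl⟩ | ⟨rfl, rfl⟩⟩ <;>
      first
        | exact Or.inl ⟨rfl, rfl, rfl, rfl⟩
        | exact Or.inr (Or.inl ⟨rfl, rfl, rfl, rfl⟩)
        | exact Or.inr (Or.inr (Or.inl ⟨rfl, rfl, rfl, rfl⟩))
        | exact Or.inr (Or.inr (Or.inr ⟨rfl, rfl, rfl, rfl⟩))
        | (exfalso; clear e1 e2 he; simp_all)
  · rintro (⟨h0, h1, h2, h3⟩ | ⟨h0, h1, h2, h3⟩ | ⟨h0, h1, h2, h3⟩ | ⟨h0, h1, h2, h3⟩) <;>
      rw [h0, h1, h2, h3]
    · rw [Sym2.eq_swap (a := b) (b := a), Sym2.eq_swap (a := d) (b := c),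
        Finset.pair_comm s(b, d) s(a, c)]
    · rw [Finset.pair_comm s(c, d) s(a, b), Sym2.eq_swap (a := c) (b := a),
        Sym2.eq_swap (a := d) (b := b)]
    · rw [Sym2.eq_swap (a := d) (b := c), Sym2.eq_swap (a := b) (b := a),
        Finset.pair_comm s(c, d) s(a, b), Sym2.eq_swap (a := d) (b := b),
        Sym2.eq_swap (a := c) (b := a), Finset.pair_comm s(b, d) s(a, c)]

theorem D4.badc {n : ℕ} {a b c d : Fin n} (h : D4 a b c d) : D4 b a d c :=
  ⟨h.1.symm, h.2.2.2.2.1, h.2.2.2.1, h.2.2.1, h.2.1, h.2.2.2.2.2.symm⟩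

theorem D4.cdab {n : ℕ} {a b c d : Fin n} (h : D4 a b c d) : D4 c d a b :=
  ⟨h.2.2.2.2.2, h.2.1.symm, h.2.2.2.1.symm, h.2.2.1.symm, h.2.2.2.2.1.symm, h.1⟩

theorem fiber_card {n : ℕ} {a b c d : Fin n} (h : D4 a b c d) :
    (univ.filter (fun t : Fin 4 ↪ Fin n =>
      pmT t = ({s(a, b), s(c, d)}, {s(a, c), s(b, d)}))).card = 4 := by
  have e : univ.filter (fun t : Fin 4 ↪ Fin n =>
      pmT t = ({s(a, b), s(c, d)}, {s(a, c), s(b, d)}))
      = {tup4 a b c d h, tup4 b a d c h.badc, tup4 c d a b h.cdab, tup4 d c b a h.cdab.badc} := by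
    ext t
    simp only [mem_filter, mem_univ, true_and, fiber_eq h, mem_insert, mem_singleton]
    constructor
    · rintro (⟨h0, h1, h2, h3⟩ | ⟨h0, h1, h2, h3⟩ | ⟨h0, h1, h2, h3⟩ | ⟨h0, h1, h2, h3⟩)
      · exact Or.inl (emb_eq_tup4 t _ h0 h1 h2 h3)
      · exact Or.inr (Or.inl (emb_eq_tup4 t _ h0 h1 h2 h3))
      · exact Or.inr (Or.inr (Or.inl (emb_eq_tup4 t _ h0 h1 h2 h3)))
      · exact Or.inr (Or.inr (Or.inr (emb_eq_tup4 t _ h0 h1 h2 h3)))
    · rintro (rfl | rfl | rfl | rfl)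
      · exact Or.inl ⟨rfl, rfl, rfl, rfl⟩
      · exact Or.inr (Or.inl ⟨rfl, rfl, rfl, rfl⟩)
      · exact Or.inr (Or.inr (Or.inl ⟨rfl, rfl, rfl, rfl⟩))
      · exact Or.inr (Or.inr (Or.inr ⟨rfl, rfl, rfl, rfl⟩))
  rw [e]
  obtain ⟨ab, ac, ad, bc, bd, cd⟩ := h
  have key : ∀ {x y z w x' y' z' w' : Fin n} (h1 : D4 x y z w) (h2 : D4 x' y' z' w'),
      x ≠ x' → tup4 x y z w h1 ≠ tup4 x' y' z' w' h2 := by
    intro x y z w x' y' z' w' h1 h2 hne he
    exact hne (congrArg (fun t : Fin 4 ↪ Fin n => t 0) he)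
  rw [card_insert_of_notMem, card_insert_of_notMem, card_insert_of_notMem, card_singleton]
  · simp only [mem_singleton]
    exact key _ _ cd
  · simp only [mem_insert, mem_singleton, not_or]
    exact ⟨key _ _ bc, key _ _ bd⟩
  · simp only [mem_insert, mem_singleton, not_or]
    exact ⟨key _ _ ab, key _ _ ac, key _ _ ad⟩

theorem mem_PMs {n : ℕ} {S : Finset (Fin n)} {F : Finset (Sym2 (Fin n))} :
    F ∈ PMs S ↔ IsPM S F := by
  classical
  simp [PMs]

theorem isPM_two {n : ℕ} {a b c d : Fin n} (h : D4 a b c d) :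
    IsPM {a, b, c, d} {s(a, c), s(b, d)} := by
  have := isPM_one h.acbd
  rwa [set4_acbd] at this

theorem isPM_three {n : ℕ} {a b c d : Fin n} (h : D4 a b c d) :
    IsPM {a, b, c, d} {s(a, d), s(b, c)} := by
  have := isPM_one h.abdc.acbd
  rwa [set4_acbd, set4_abdc] at this

theorem pm_ne13 {n : ℕ} {a b c d : Fin n} (h : D4 a b c d) :
    ({s(a, b), s(c, d)} : Finset (Sym2 (Fin n))) ≠ {s(a, d), s(b, c)} := by
  have := pm_ne h.abdc
  rwa [Sym2.eq_swap (a := d) (b := c)] at this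

theorem pm_ne23 {n : ℕ} {a b c d : Fin n} (h : D4 a b c d) :
    ({s(a, c), s(b, d)} : Finset (Sym2 (Fin n))) ≠ {s(a, d), s(b, c)} := by
  have := pm_ne h.acbd.abdc
  rwa [Sym2.eq_swap (a := d) (b := b), Sym2.eq_swap (a := c) (b := b)] at this

theorem PMs_eq {n : ℕ} {a b c d : Fin n} (h : D4 a b c d) :
    PMs {a, b, c, d} = {{s(a, b), s(c, d)}, {s(a, c), s(b, d)}, {s(a, d), s(b, c)}} := by
  ext F
  rw [mem_PMs]
  simp only [mem_insert, mem_singleton]
  constructor
  · exact isPM_classify h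
  · rintro (rfl | rfl | rfl)
    · exact isPM_one h
    · exact isPM_two h
    · exact isPM_three h

theorem card_PMs {n : ℕ} {S : Finset (Fin n)} (hS : S.card = 4) : (PMs S).card = 3 := by
  obtain ⟨a, b, c, d, h, rfl⟩ := exists_set4 hS
  rw [PMs_eq h, card_insert_of_notMem, card_insert_of_notMem, card_singleton]
  · simp only [mem_singleton]
    exact pm_ne23 h
  · simp only [mem_insert, mem_singleton, not_or]
    exact ⟨pm_ne h, pm_ne13 h⟩

theorem card_pairs {n : ℕ} {S : Finset (Fin n)} (hS : S.card = 4) :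
    (PMs S).offDiag.card = 6 := by
  rw [Finset.offDiag_card, card_PMs hS]

theorem pmT_mem {n : ℕ} (t : Fin 4 ↪ Fin n) : pmT t ∈ (PMs (imT t)).offDiag := by
  rw [Finset.mem_offDiag, mem_PMs, mem_PMs]
  exact ⟨isPM_one (emb_D4 t), isPM_two (emb_D4 t), pm_ne (emb_D4 t)⟩

theorem pairs_form {n : ℕ} {S : Finset (Fin n)} (hS : S.card = 4)
    {x : Finset (Sym2 (Fin n)) × Finset (Sym2 (Fin n))} (hx : x ∈ (PMs S).offDiag) :
    ∃ a b c d, D4 a b c d ∧ S = {a, b, c, d} ∧ x = ({s(a, b), s(c, d)}, {s(a, c), s(b, d)}) := by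
  obtain ⟨a, b, c, d, h, rfl⟩ := exists_set4 hS
  obtain ⟨x1, x2⟩ := x
  rw [Finset.mem_offDiag, PMs_eq h] at hx
  simp only [mem_insert, mem_singleton] at hx
  obtain ⟨h1, h2, hne⟩ := hx
  rcases h1 with rfl | rfl | rfl <;> rcases h2 with rfl | rfl | rfl
  · exact absurd rfl hne
  · exact ⟨a, b, c, d, h, rfl, rfl⟩
  · refine ⟨a, b, d, c, h.abdc, (set4_abdc a b c d).symm, ?_⟩
    rw [Sym2.eq_swap (a := d) (b := c)]
  · exact ⟨a, c, b, d, h.acbd, (set4_acbd a b c d).symm, rfl⟩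
  · exact absurd rfl hne
  · refine ⟨a, c, d, b, h.acbd.abdc, ?_, ?_⟩
    · ext x; simp only [mem_insert, mem_singleton]; tauto
    · rw [Sym2.eq_swap (a := d) (b := b), Sym2.eq_swap (a := c) (b := b)]
  · refine ⟨a, d, b, c, h.abdc.acbd, ?_, ?_⟩
    · ext x; simp only [mem_insert, mem_singleton]; tauto
    · rw [Sym2.eq_swap (a := d) (b := c)]
  · refine ⟨a, d, c, b, h.abdc.acbd.abdc, ?_, ?_⟩
    · ext x; simp only [mem_insert, mem_singleton]; tauto
    · rw [Sym2.eq_swap (a := c) (b := b), Sym2.eq_swap (a := d) (b := b)]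
  · exact absurd rfl hne

theorem imT_of_pmT {n : ℕ} {a b c d : Fin n} (h : D4 a b c d) {t : Fin 4 ↪ Fin n}
    (ht : pmT t = ({s(a, b), s(c, d)}, {s(a, c), s(b, d)})) : imT t = {a, b, c, d} := by
  unfold imT
  rcases (fiber_eq h t).1 ht with ⟨h0, h1, h2, h3⟩ | ⟨h0, h1, h2, h3⟩ | ⟨h0, h1, h2, h3⟩ |
    ⟨h0, h1, h2, h3⟩ <;> rw [h0, h1, h2, h3] <;> ext x <;>
    simp only [mem_insert, mem_singleton] <;> tauto

open Classical in
theorem count_S {n : ℕ} {S : Finset (Fin n)} (hS : S.card = 4)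
    (P : Finset (Sym2 (Fin n)) × Finset (Sym2 (Fin n)) → Prop) :
    (univ.filter (fun t : Fin 4 ↪ Fin n => imT t = S ∧ P (pmT t))).card =
      4 * ((PMs S).offDiag.filter P).card := by
  rw [Finset.card_eq_sum_card_fiberwise (f := pmT) (t := (PMs S).offDiag.filter P)]
  · rw [Finset.sum_congr rfl (g := fun _ => 4), Finset.sum_const, smul_eq_mul, mul_comm]
    intro x hx
    obtain ⟨hx1, hx2⟩ := Finset.mem_filter.1 hx
    obtain ⟨a, b, c, d, h, rfl, rfl⟩ := pairs_form hS hx1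
    refine Eq.trans ?_ (fiber_card h)
    congr 1
    ext t
    simp only [mem_filter, mem_univ, true_and]
    constructor
    · exact fun ht => ht.2
    · intro ht
      exact ⟨⟨imT_of_pmT h ht, by rw [ht]; exact hx2⟩, ht⟩
  · intro t ht
    have ht' := (Finset.mem_filter.1 ht).2
    refine Finset.mem_filter.2 ⟨?_, ht'.2⟩
    rw [← ht'.1]
    exact pmT_mem t

theorem step_eq_stepL {n : ℕ} (G : SimpleGraph (Fin n)) (t : Fin 4 ↪ Fin n) :
    step G t = stepL G (pmT t).1 (pmT t).2 := by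
  classical
  unfold step stepL pmT switchGraph
  simp only [mem_insert, mem_singleton, forall_eq_or_imp, forall_eq, SimpleGraph.mem_edgeSet,
    coe_insert, coe_singleton, and_assoc]

theorem card_imT {n : ℕ} (t : Fin 4 ↪ Fin n) : (imT t).card = 4 := card_set4 (emb_D4 t)

open Classical in
theorem count_all {n : ℕ} (P : Finset (Sym2 (Fin n)) × Finset (Sym2 (Fin n)) → Prop) :
    (univ.filter (fun t : Fin 4 ↪ Fin n => P (pmT t))).card =
      ∑ S ∈ powersetCard 4 (univ : Finset (Fin n)), 4 * ((PMs S).offDiag.filter P).card := by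
  rw [Finset.card_eq_sum_card_fiberwise (f := imT) (t := powersetCard 4 (univ : Finset (Fin n)))]
  · refine Finset.sum_congr rfl (fun S hS => ?_)
    rw [← count_S (Finset.mem_powersetCard.1 hS).2 P]
    congr 1
    ext t
    simp only [mem_filter, mem_univ, true_and]
    tauto
  · intro t _
    exact Finset.mem_powersetCard.2 ⟨Finset.subset_univ _, card_imT t⟩

theorem chainL_eq {n : ℕ} (d : Fin n → ℕ) : chainL d = switchChain d := by
  classical
  funext G G'
  unfold chainL switchChain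
  congr 1
  congr 1
  set C := (powersetCard 4 (univ : Finset (Fin n))).card with hC
  have h1 : (univ.filter (fun t : Fin 4 ↪ Fin n => step G.1 t = G'.1)).card
      = ∑ S ∈ powersetCard 4 (univ : Finset (Fin n)),
        4 * ((PMs S).offDiag.filter (fun x => stepL G.1 x.1 x.2 = G'.1)).card := by
    rw [← count_all (fun x => stepL G.1 x.1 x.2 = G'.1)]
    congr 1
    ext t
    simp only [mem_filter, mem_univ, true_and, step_eq_stepL]
  have h2 : Fintype.card (Fin 4 ↪ Fin n) = 24 * C := by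
    have := count_all (n := n) (fun _ => True)
    simp only [Finset.filter_true] at this
    rw [Finset.card_univ] at this
    rw [this, Finset.sum_congr rfl (g := fun _ => 24), Finset.sum_const, smul_eq_mul, mul_comm]
    intro S hS
    rw [card_pairs (Finset.mem_powersetCard.1 hS).2]
  rw [h1, h2]
  push_cast
  rw [Finset.sum_div]
  refine Finset.sum_congr rfl (fun S hS => ?_)
  rw [card_pairs (Finset.mem_powersetCard.1 hS).2]
  have hCpos : (0 : ℝ) < C := by
    have : 0 < C := Finset.card_pos.2 ⟨S, hS⟩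
    exact_mod_cast this
  field_simp
  ring

theorem tvDistL_eq {n : ℕ} (d : Fin n → ℕ) (t : ℕ) (G : Omega d) : tvDistL d t G = tvDist d t G := by
  unfold tvDistL tvDist
  rw [chainL_eq]

theorem tmixL_eq {n : ℕ} (d : Fin n → ℕ) : tmixL d = tmix d := by
  unfold tmixL tmix
  simp only [tvDistL_eq]

theorem g_main_literal : ∀ n : ℕ, 4 ≤ n → ∀ d : Fin n → ℕ,
    (∀ G : Omega d, tvDistL d (2 * n ^ 6) G ≤ 1 / 4) ∧ tmixL d ≤ 2 * n ^ 6 := by
  intro n hn d
  have h := g_main n hn d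
  refine ⟨fun G => ?_, ?_⟩
  · rw [tvDistL_eq]; exact h.1 G
  · rw [tmixL_eq]; exact h.2

end Vale.Agent.P335
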