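import Vale.Agent.P335.Avg

/-!
# 0-1 matrices, margins, block relations and switches
-/

set_option linter.unusedSectionVars false

namespace Vale.Agent.P335

open Finset

variable {ι κ : Type*} [Fintype ι] [DecidableEq ι] [Fintype κ] [DecidableEq κ]

/-- 0-1 matrices -/
abbrev Mat (ι κ : Type*) := ι → κ → Bool

/-- row sum -/
def rs (M : Mat ι κ) (r : ι) : ℕ := ∑ c, (M r c).toNat

/-- column sum -/
def cs (M : Mat ι κ) (c : κ) : ℕ := ∑ r, (M r c).toNat

/-- `M` and `N` agree outside the set of cells `Z` and have the same margins -/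
def Rel (Z : Finset (ι × κ)) (M N : Mat ι κ) : Prop :=
  (∀ r c, (r, c) ∉ Z → M r c = N r c) ∧ (∀ r, rs M r = rs N r) ∧ (∀ c, cs M c = cs N c)

/-- the 2x2 pattern (rows r,s; columns c,c') is 10/01 -/
def Valid (M : Mat ι κ) (r s : ι) (c c' : κ) : Prop :=
  M r c = true ∧ M r c' = false ∧ M s c = false ∧ M s c' = true

/-- flip the four cells -/
def sw (r s : ι) (c c' : κ) (M : Mat ι κ) : Mat ι κ :=
  fun i k => if (i = r ∨ i = s) ∧ (k = c ∨ k = c') then !(M i k) else M i k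

theorem Rel_equiv (Z : Finset (ι × κ)) : Equivalence (Rel Z (ι := ι) (κ := κ)) where
  refl := fun _ => ⟨fun _ _ _ => rfl, fun _ => rfl, fun _ => rfl⟩
  symm := fun h => ⟨fun r c hz => (h.1 r c hz).symm, fun r => (h.2.1 r).symm,
    fun c => (h.2.2 c).symm⟩
  trans := fun h h' => ⟨fun r c hz => (h.1 r c hz).trans (h'.1 r c hz),
    fun r => (h.2.1 r).trans (h'.2.1 r), fun c => (h.2.2 c).trans (h'.2.2 c)⟩

theorem Rel_mono {Z Z' : Finset (ι × κ)} (h : Z ⊆ Z') {M N : Mat ι κ} (hr : Rel Z M N) :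
    Rel Z' M N :=
  ⟨fun r c hz => hr.1 r c (fun hz' => hz (h hz')), hr.2.1, hr.2.2⟩

theorem Valid.ne_row {M : Mat ι κ} {r s : ι} {c c' : κ} (h : Valid M r s c c') : r ≠ s := by
  rintro rfl
  have := h.1.symm.trans h.2.2.1
  simp at this

theorem Valid.ne_col {M : Mat ι κ} {r s : ι} {c c' : κ} (h : Valid M r s c c') : c ≠ c' := by
  rintro rfl
  have := h.1.symm.trans h.2.1
  simp at this

theorem Valid.symm {M : Mat ι κ} {r s : ι} {c c' : κ} (h : Valid M r s c c') :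
    Valid M s r c' c := ⟨h.2.2.2, h.2.2.1, h.2.1, h.1⟩

theorem sw_comm_rows (r s : ι) (c c' : κ) (M : Mat ι κ) : sw r s c c' M = sw s r c c' M := by
  funext i k
  simp only [sw, or_comm]

theorem sw_comm_cols (r s : ι) (c c' : κ) (M : Mat ι κ) : sw r s c c' M = sw r s c' c M := by
  funext i k
  simp only [sw, or_comm]

theorem sw_sw (r s : ι) (c c' : κ) (M : Mat ι κ) : sw r s c c' (sw r s c c' M) = M := by
  funext i k
  by_cases h : (i = r ∨ i = s) ∧ (k = c ∨ k = c') <;> simp [sw, h]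

theorem sw_apply_of_row {r s : ι} {c c' : κ} {M : Mat ι κ} {i : ι} (h1 : i ≠ r) (h2 : i ≠ s)
    (k : κ) : sw r s c c' M i k = M i k := by
  simp [sw, h1, h2]

theorem sw_apply_of_col {r s : ι} {c c' : κ} {M : Mat ι κ} {k : κ} (h1 : k ≠ c) (h2 : k ≠ c')
    (i : ι) : sw r s c c' M i k = M i k := by
  simp [sw, h1, h2]

theorem Valid.sw {M : Mat ι κ} {r s : ι} {c c' : κ} (h : Valid M r s c c') :
    Valid (sw r s c c' M) r s c' c := by
  obtain ⟨h1, h2, h3, h4⟩ := h
  refine ⟨?_, ?_, ?_, ?_⟩ <;> simp [P335.sw, h1, h2, h3, h4]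

theorem sum_eq_of_two {α : Type*} [Fintype α] [DecidableEq α] (g g0 : α → ℕ) (c c' : α)
    (hne : c ≠ c') (h : ∀ k, k ≠ c → k ≠ c' → g k = g0 k) (h2 : g c + g c' = g0 c + g0 c') :
    ∑ k, g k = ∑ k, g0 k := by
  have e1 : ∀ u : α → ℕ, ∑ k, u k = u c + (u c' + ∑ k ∈ (univ.erase c).erase c', u k) := by
    intro u
    rw [Finset.add_sum_erase _ u (by simp [hne.symm] : c' ∈ univ.erase c),
      Finset.add_sum_erase _ u (mem_univ c)]
  rw [e1 g, e1 g0]
  have e2 : ∑ k ∈ (univ.erase c).erase c', g k = ∑ k ∈ (univ.erase c).erase c', g0 k := by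
    refine Finset.sum_congr rfl (fun k hk => ?_)
    simp only [mem_erase, mem_univ, and_true] at hk
    exact h k hk.2 hk.1
  omega

theorem rs_sw {M : Mat ι κ} {r s : ι} {c c' : κ} (h : Valid M r s c c') (i : ι) :
    rs (sw r s c c' M) i = rs M i := by
  obtain ⟨h1, h2, h3, h4⟩ := h
  have hne : c ≠ c' := Valid.ne_col ⟨h1, h2, h3, h4⟩
  unfold rs
  refine sum_eq_of_two _ _ c c' hne (fun k hk hk' => by rw [sw_apply_of_col hk hk']) ?_
  by_cases hr : i = r
  · subst hr; simp [sw, h1, h2]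
  · by_cases hs : i = s
    · subst hs; simp [sw, h3, h4]
    · rw [sw_apply_of_row hr hs, sw_apply_of_row hr hs]

theorem cs_sw {M : Mat ι κ} {r s : ι} {c c' : κ} (h : Valid M r s c c') (k : κ) :
    cs (sw r s c c' M) k = cs M k := by
  obtain ⟨h1, h2, h3, h4⟩ := h
  have hne : r ≠ s := Valid.ne_row ⟨h1, h2, h3, h4⟩
  unfold cs
  refine sum_eq_of_two _ _ r s hne (fun i hi hi' => by rw [sw_apply_of_row hi hi']) ?_
  by_cases hc : k = c
  · subst hc; simp [sw, h1, h3]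
  · by_cases hc' : k = c'
    · subst hc'; simp [sw, h2, h4]
    · rw [sw_apply_of_col hc hc', sw_apply_of_col hc hc']

theorem Rel_sw {M : Mat ι κ} {r s : ι} {c c' : κ} (h : Valid M r s c c') {Z : Finset (ι × κ)}
    (hZ : ({r, s} : Finset ι) ×ˢ ({c, c'} : Finset κ) ⊆ Z) : Rel Z M (sw r s c c' M) := by
  refine ⟨fun i k hik => ?_, fun i => (rs_sw h i).symm, fun k => (cs_sw h k).symm⟩
  have : ¬ ((i = r ∨ i = s) ∧ (k = c ∨ k = c')) := by
    intro hh
    apply hik
    apply hZ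
    simpa using hh
  simp [sw, this]

end Vale.Agent.P335
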