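import Vale.Agent.P335.Mat

/-!
# Facts on resampling two rows
-/

set_option linter.unusedSectionVars false

namespace Vale.Agent.P335

open Finset

variable {ι κ : Type*} [Fintype ι] [DecidableEq ι] [Fintype κ] [DecidableEq κ]

instance (M : Mat ι κ) (r s : ι) (c c' : κ) : Decidable (Valid M r s c c') := by
  unfold Valid; infer_instance

/-- resample the two rows `v`, `w` -/
abbrev R2 (v w : ι) : Mat ι κ → Mat ι κ → Prop :=
  Rel (({v, w} : Finset ι) ×ˢ (univ : Finset κ))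

theorem R2_equiv (v w : ι) : Equivalence (R2 v w (κ := κ)) := Rel_equiv _

theorem R2_comm (v w : ι) : (R2 v w : Mat ι κ → Mat ι κ → Prop) = R2 w v := by
  unfold R2; rw [Finset.pair_comm]

theorem R2_row {v w i : ι} (hv : i ≠ v) (hw : i ≠ w) {M N : Mat ι κ} (h : R2 v w M N) (k : κ) :
    N i k = M i k := (h.1 i k (by simp [hv, hw])).symm

theorem sum_split_two {α : Type*} [Fintype α] [DecidableEq α] (g : α → ℕ) {c c' : α}
    (hne : c ≠ c') : ∑ k, g k = g c + (g c' + ∑ k ∈ (univ.erase c).erase c', g k) := by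
  rw [Finset.add_sum_erase _ g (by simp [hne.symm] : c' ∈ univ.erase c),
    Finset.add_sum_erase _ g (mem_univ c)]

theorem R2_pair {v w : ι} (hvw : v ≠ w) {M N : Mat ι κ} (h : R2 v w M N) (k : κ) :
    (N v k).toNat + (N w k).toNat = (M v k).toNat + (M w k).toNat := by
  have hc := h.2.2 k
  unfold cs at hc
  rw [sum_split_two _ hvw, sum_split_two (fun r => (N r k).toNat) hvw] at hc
  have e2 : ∑ i ∈ (univ.erase v).erase w, (M i k).toNat
      = ∑ i ∈ (univ.erase v).erase w, (N i k).toNat := by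
    refine Finset.sum_congr rfl (fun i hi => ?_)
    simp only [mem_erase, mem_univ, and_true] at hi
    rw [R2_row hi.2 hi.1 h]
  omega

/-- same margins -/
def SM (M N : Mat ι κ) : Prop := (∀ r, rs M r = rs N r) ∧ (∀ c, cs M c = cs N c)

theorem SM.refl (M : Mat ι κ) : SM M M := ⟨fun _ => rfl, fun _ => rfl⟩
theorem SM.symm {M N : Mat ι κ} (h : SM M N) : SM N M :=
  ⟨fun r => (h.1 r).symm, fun c => (h.2 c).symm⟩
theorem SM.trans {M N L : Mat ι κ} (h : SM M N) (h' : SM N L) : SM M L :=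
  ⟨fun r => (h.1 r).trans (h'.1 r), fun c => (h.2 c).trans (h'.2 c)⟩
theorem SM_sw {M : Mat ι κ} {r s : ι} {c c' : κ} (h : Valid M r s c c') : SM M (sw r s c c' M) :=
  ⟨fun i => (rs_sw h i).symm, fun k => (cs_sw h k).symm⟩
theorem Rel.sm {Z : Finset (ι × κ)} {M N : Mat ι κ} (h : Rel Z M N) : SM M N := h.2

theorem R2_of {v w : ι} {M N : Mat ι κ} (hrow : ∀ i, i ≠ v → i ≠ w → ∀ k, M i k = N i k)
    (hs : SM M N) : R2 v w M N := by
  refine ⟨fun i k hik => hrow i ?_ ?_ k, hs.1, hs.2⟩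
  · rintro rfl; simp at hik
  · rintro rfl; simp at hik

theorem R2_sw {M : Mat ι κ} {r s : ι} {c c' : κ} (h : Valid M r s c c') :
    R2 r s M (sw r s c c' M) :=
  Rel_sw h (Finset.product_subset_product_right (Finset.subset_univ _))

theorem sw_row_u {u v : ι} {c c' : κ} (M : Mat ι κ) (k : κ) :
    sw u v c c' M u k = if k = c ∨ k = c' then !(M u k) else M u k := by
  simp [sw]

theorem sw_row_v {u v : ι} {c c' : κ} (M : Mat ι κ) (k : κ) :
    sw u v c c' M v k = if k = c ∨ k = c' then !(M v k) else M v k := by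
  simp [sw]

theorem zero_of_contraction {X : Type*} [Finite X] (g : X → ℝ) (hg : ∀ x, 0 ≤ g x) (μ : ℝ)
    (hμ : 1 < μ) (h : ∀ B, (∀ x, g x ≤ B) → ∀ x, μ * g x ≤ B) : ∀ x, g x = 0 := by
  intro x
  have : Nonempty X := ⟨x⟩
  obtain ⟨x0, hx0⟩ := Finite.exists_max g
  have h1 := h (g x0) hx0 x0
  have h2 : g x0 ≤ 0 := by nlinarith [hg x0]
  exact le_antisymm ((hx0 x).trans h2) (hg x)

end Vale.Agent.P335
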