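import Vale.Agent.P335.Chain
import Vale.Agent.P335.Core
import Vale.Agent.P335.Connect

/-!
# Split graphs and 0-1 matrices: transfer of the Poincare inequality
-/

set_option linter.unusedSectionVars false

namespace Vale.Agent.P335

open Finset

open Classical in
/-- adjacency indicator -/
noncomputable def adjN {n : ℕ} (G : SimpleGraph (Fin n)) (v u : Fin n) : ℕ :=
  if G.Adj v u then 1 else 0

theorem split_adjN_comm {n : ℕ} (G : SimpleGraph (Fin n)) (v u : Fin n) :
    adjN G v u = adjN G u v := by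
  unfold adjN
  rw [G.adj_comm]

open Classical in
theorem split_degree {n : ℕ} (G : SimpleGraph (Fin n)) (v : Fin n) :
    G.degree v = ∑ u, adjN G v u := by
  unfold adjN
  rw [← SimpleGraph.card_neighborFinset_eq_degree, ← Finset.card_filter]
  congr 1
  ext u
  simp

theorem split_deg_eq {n : ℕ} {d : Fin n → ℕ} (G : Omega d) (K : Finset (Fin n)) (v : Fin n) :
    d v = ∑ u ∈ K, adjN G.1 v u + ∑ u ∈ Kᶜ, adjN G.1 v u := by
  rw [Finset.sum_add_sum_compl, ← split_degree]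
  exact (G.2 v).symm

theorem split_balance {n : ℕ} {d : Fin n → ℕ} (G : Omega d) (K : Finset (Fin n)) :
    (∑ v ∈ K, ∑ u ∈ K, adjN G.1 v u) + ∑ w ∈ Kᶜ, d w =
      (∑ v ∈ K, d v) + ∑ w ∈ Kᶜ, ∑ u ∈ Kᶜ, adjN G.1 w u := by
  have e1 : ∑ v ∈ K, d v = ∑ v ∈ K, ∑ u ∈ K, adjN G.1 v u + ∑ v ∈ K, ∑ u ∈ Kᶜ, adjN G.1 v u := by
    rw [← Finset.sum_add_distrib]
    exact Finset.sum_congr rfl (fun v _ => split_deg_eq G K v)
  have e2 : ∑ v ∈ Kᶜ, d v
      = ∑ v ∈ Kᶜ, ∑ u ∈ K, adjN G.1 v u + ∑ v ∈ Kᶜ, ∑ u ∈ Kᶜ, adjN G.1 v u := by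
    rw [← Finset.sum_add_distrib]
    exact Finset.sum_congr rfl (fun v _ => split_deg_eq G K v)
  have e3 : ∑ v ∈ K, ∑ u ∈ Kᶜ, adjN G.1 v u = ∑ v ∈ Kᶜ, ∑ u ∈ K, adjN G.1 v u := by
    rw [Finset.sum_comm]
    exact Finset.sum_congr rfl (fun v _ => Finset.sum_congr rfl (fun u _ => split_adjN_comm _ _ _))
  rw [e1, e2, e3]
  ring

/-- `K` is a clique of `G` and its complement is independent -/
def SplitAt {n : ℕ} (G : SimpleGraph (Fin n)) (K : Finset (Fin n)) : Prop :=
  (∀ u ∈ K, ∀ v ∈ K, u ≠ v → G.Adj u v) ∧ (∀ u, u ∉ K → ∀ v, v ∉ K → ¬ G.Adj u v)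

theorem splitAt_all {n : ℕ} {d : Fin n → ℕ} {G0 : Omega d} {K : Finset (Fin n)}
    (h0 : SplitAt G0.1 K) (G : Omega d) : SplitAt G.1 K := by
  classical
  have b0 : ∑ w ∈ Kᶜ, ∑ u ∈ Kᶜ, adjN G0.1 w u = 0 := by
    refine Finset.sum_eq_zero (fun w hw => Finset.sum_eq_zero (fun u hu => ?_))
    simp [adjN, h0.2 w (Finset.mem_compl.1 hw) u (Finset.mem_compl.1 hu)]
  have hle : ∀ v ∈ K, ∀ u ∈ K, adjN G.1 v u ≤ adjN G0.1 v u := by
    intro v hv u hu
    by_cases hvu : v = u
    · subst hvu; simp [adjN]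
    · have : adjN G0.1 v u = 1 := by simp [adjN, h0.1 v hv u hu hvu]
      rw [this]
      unfold adjN
      split_ifs <;> simp
  have hle' : ∀ v ∈ K, ∑ u ∈ K, adjN G.1 v u ≤ ∑ u ∈ K, adjN G0.1 v u :=
    fun v hv => Finset.sum_le_sum (hle v hv)
  have hle2 : ∑ v ∈ K, ∑ u ∈ K, adjN G.1 v u ≤ ∑ v ∈ K, ∑ u ∈ K, adjN G0.1 v u :=
    Finset.sum_le_sum hle'
  have e0 := split_balance G0 K
  have e1 := split_balance G K
  have hb : ∑ w ∈ Kᶜ, ∑ u ∈ Kᶜ, adjN G.1 w u = 0 := by omega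
  have ha : ∑ v ∈ K, ∑ u ∈ K, adjN G.1 v u = ∑ v ∈ K, ∑ u ∈ K, adjN G0.1 v u := by omega
  constructor
  · intro u hu v hv huv
    have h1 := (Finset.sum_eq_sum_iff_of_le hle').1 ha u hu
    have h2 := (Finset.sum_eq_sum_iff_of_le (hle u hu)).1 h1 v hv
    have : adjN G0.1 u v = 1 := by simp [adjN, h0.1 u hu v hv huv]
    rw [this] at h2
    unfold adjN at h2
    by_contra hcon
    simp [hcon] at h2
  · intro u hu v hv hadj
    have h1 := (Finset.sum_eq_zero_iff.1 hb) u (Finset.mem_compl.2 hu)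
    have h2 := (Finset.sum_eq_zero_iff.1 h1) v (Finset.mem_compl.2 hv)
    simp [adjN, hadj] at h2

theorem split_adjN_in {n : ℕ} {G : SimpleGraph (Fin n)} {K : Finset (Fin n)} (h : SplitAt G K)
    {v u : Fin n} (hv : v ∈ K) (hu : u ∈ K) : adjN G v u = if v = u then 0 else 1 := by
  classical
  by_cases hvu : v = u
  · subst hvu; simp [adjN]
  · simp [adjN, h.1 v hv u hu hvu, hvu]

theorem split_adjN_out {n : ℕ} {G : SimpleGraph (Fin n)} {K : Finset (Fin n)} (h : SplitAt G K)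
    {v u : Fin n} (hv : v ∉ K) (hu : u ∉ K) : adjN G v u = 0 := by
  classical
  simp [adjN, h.2 v hv u hu]

open Classical in
/-- the bipartite adjacency matrix between `K` and its complement -/
noncomputable def phi {n : ℕ} (K : Finset (Fin n)) (G : SimpleGraph (Fin n)) :
    Mat {v // v ∈ K} {v // v ∉ K} :=
  fun r c => decide (G.Adj r.1 c.1)

theorem split_phi_toNat {n : ℕ} (K : Finset (Fin n)) (G : SimpleGraph (Fin n))
    (r : {v // v ∈ K}) (c : {v // v ∉ K}) : (phi K G r c).toNat = adjN G r.1 c.1 := by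
  classical
  unfold phi adjN
  by_cases h : G.Adj r.1 c.1 <;> simp [h]

theorem split_phi_true {n : ℕ} {K : Finset (Fin n)} {G : SimpleGraph (Fin n)}
    {r : {v // v ∈ K}} {c : {v // v ∉ K}} : phi K G r c = true ↔ G.Adj r.1 c.1 := by
  classical
  simp [phi]

theorem split_phi_false {n : ℕ} {K : Finset (Fin n)} {G : SimpleGraph (Fin n)}
    {r : {v // v ∈ K}} {c : {v // v ∉ K}} : phi K G r c = false ↔ ¬ G.Adj r.1 c.1 := by
  classical
  simp [phi]

theorem split_rs {n : ℕ} (K : Finset (Fin n)) (G : SimpleGraph (Fin n)) (r : {v // v ∈ K}) :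
    rs (phi K G) r = ∑ u ∈ Kᶜ, adjN G r.1 u := by
  unfold rs
  rw [Finset.sum_subtype Kᶜ (fun x => Finset.mem_compl) (fun u => adjN G r.1 u)]
  exact Finset.sum_congr rfl (fun c _ => split_phi_toNat K G r c)

theorem split_cs {n : ℕ} (K : Finset (Fin n)) (G : SimpleGraph (Fin n)) (c : {v // v ∉ K}) :
    cs (phi K G) c = ∑ u ∈ K, adjN G c.1 u := by
  unfold cs
  rw [← Finset.sum_coe_sort K (fun u => adjN G c.1 u)]
  refine Finset.sum_congr rfl (fun r _ => ?_)
  rw [split_phi_toNat, split_adjN_comm]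

theorem split_rel {n : ℕ} {d : Fin n → ℕ} {K : Finset (Fin n)} (G G' : Omega d)
    (h : SplitAt G.1 K) (h' : SplitAt G'.1 K) : Rel univ (phi K G.1) (phi K G'.1) := by
  refine ⟨fun r c hrc => absurd (mem_univ _) hrc, fun r => ?_, fun c => ?_⟩
  · have e1 := split_deg_eq G K r.1
    have e2 := split_deg_eq G' K r.1
    have e3 : ∑ u ∈ K, adjN G.1 r.1 u = ∑ u ∈ K, adjN G'.1 r.1 u :=
      Finset.sum_congr rfl (fun u hu => by rw [split_adjN_in h r.2 hu, split_adjN_in h' r.2 hu])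
    rw [split_rs, split_rs]
    omega
  · have e1 := split_deg_eq G K c.1
    have e2 := split_deg_eq G' K c.1
    have e3 : ∑ u ∈ Kᶜ, adjN G.1 c.1 u = 0 :=
      Finset.sum_eq_zero (fun u hu => split_adjN_out h c.2 (Finset.mem_compl.1 hu))
    have e4 : ∑ u ∈ Kᶜ, adjN G'.1 c.1 u = 0 :=
      Finset.sum_eq_zero (fun u hu => split_adjN_out h' c.2 (Finset.mem_compl.1 hu))
    rw [split_cs, split_cs]
    omega

theorem split_phi_inj {n : ℕ} {d : Fin n → ℕ} {K : Finset (Fin n)} {G G' : Omega d}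
    (h : SplitAt G.1 K) (h' : SplitAt G'.1 K) (he : phi K G.1 = phi K G'.1) : G = G' := by
  apply Subtype.ext
  ext u v
  have cross : ∀ (a b : Fin n), a ∈ K → b ∉ K → (G.1.Adj a b ↔ G'.1.Adj a b) := by
    intro a b ha hb
    have := congrFun (congrFun he ⟨a, ha⟩) ⟨b, hb⟩
    rw [← split_phi_true (K := K) (r := ⟨a, ha⟩) (c := ⟨b, hb⟩),
      ← split_phi_true (K := K) (r := ⟨a, ha⟩) (c := ⟨b, hb⟩), this]
  by_cases hu : u ∈ K <;> by_cases hv : v ∈ K
  · by_cases huv : u = v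
    · subst huv; simp
    · exact ⟨fun _ => h'.1 u hu v hv huv, fun _ => h.1 u hu v hv huv⟩
  · exact cross u v hu hv
  · rw [G.1.adj_comm, G'.1.adj_comm]; exact cross v u hv hu
  · exact ⟨fun hh => absurd hh (h.2 u hu v hv), fun hh => absurd hh (h'.2 u hu v hv)⟩

/-- the 4-tuple (r, c, c', s) -/
def splitTup {n : ℕ} {K : Finset (Fin n)} (r s : {v // v ∈ K}) (c c' : {v // v ∉ K})
    (hrs : r ≠ s) (hcc : c ≠ c') : Fin 4 ↪ Fin n :=
  ⟨![r.1, c.1, c'.1, s.1], by
    have a1 : r.1 ≠ c.1 := fun h => c.2 (h ▸ r.2)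
    have a2 : r.1 ≠ c'.1 := fun h => c'.2 (h ▸ r.2)
    have a3 : s.1 ≠ c.1 := fun h => c.2 (h ▸ s.2)
    have a4 : s.1 ≠ c'.1 := fun h => c'.2 (h ▸ s.2)
    have a5 : r.1 ≠ s.1 := fun h => hrs (Subtype.ext h)
    have a6 : c.1 ≠ c'.1 := fun h => hcc (Subtype.ext h)
    intro i j hij
    fin_cases i <;> fin_cases j <;> simp at hij ⊢ <;>
      first
        | exact absurd hij a1 | exact absurd hij a2 | exact absurd hij a3 | exact absurd hij a4
        | exact absurd hij a5 | exact absurd hij a6 | exact absurd hij.symm a1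
        | exact absurd hij.symm a2 | exact absurd hij.symm a3 | exact absurd hij.symm a4
        | exact absurd hij.symm a5 | exact absurd hij.symm a6 | exact absurd hij hrs
        | exact absurd hij.symm hrs⟩

theorem split_switch_adj {n : ℕ} {K : Finset (Fin n)} (G : SimpleGraph (Fin n))
    (r s i : {v // v ∈ K}) (c c' k : {v // v ∉ K}) :
    (switchGraph G r.1 c.1 c'.1 s.1).Adj i.1 k.1 ↔
      (G.Adj i.1 k.1 ∧ ¬ (i = r ∧ k = c) ∧ ¬ (i = s ∧ k = c')) ∨ (i = r ∧ k = c') ∨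
        (i = s ∧ k = c) := by
  have a1 : ∀ (x : {v // v ∈ K}) (y : {v // v ∉ K}), x.1 ≠ y.1 := fun x y h => y.2 (h ▸ x.2)
  have a2 : ∀ (x : {v // v ∈ K}) (y : {v // v ∉ K}), y.1 ≠ x.1 := fun x y h => y.2 (h ▸ x.2)
  simp only [switchGraph, SimpleGraph.sup_adj, SimpleGraph.deleteEdges_adj,
    SimpleGraph.fromEdgeSet_adj, Set.mem_insert_iff, Set.mem_singleton_iff, Sym2.eq_iff,
    a1, a2, Subtype.ext_iff, ne_eq, not_false_eq_true, and_true, and_false, or_false,
    false_or, not_or]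

theorem split_step {n : ℕ} {d : Fin n → ℕ} {K : Finset (Fin n)} (G : Omega d)
    {r s : {v // v ∈ K}} {c c' : {v // v ∉ K}} (hv : Valid (phi K G.1) r s c c') :
    phi K (stepO G (splitTup r s c c' hv.ne_row hv.ne_col)).1 = sw r s c c' (phi K G.1) := by
  classical
  have b1 : G.1.Adj r.1 c.1 := split_phi_true.1 hv.1
  have b2 : ¬ G.1.Adj r.1 c'.1 := split_phi_false.1 hv.2.1
  have b3 : ¬ G.1.Adj s.1 c.1 := split_phi_false.1 hv.2.2.1
  have b4 : G.1.Adj s.1 c'.1 := split_phi_true.1 hv.2.2.2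
  have hrs := hv.ne_row
  have hcc := hv.ne_col
  have e : (stepO G (splitTup r s c c' hv.ne_row hv.ne_col)).1
      = switchGraph G.1 r.1 c.1 c'.1 s.1 := by
    show step G.1 _ = _
    unfold step
    rw [if_pos]
    · rfl
    · exact ⟨b1, b4.symm, b2, fun h => b3 h.symm⟩
  rw [e]
  funext i k
  rw [Bool.eq_iff_iff, split_phi_true, split_switch_adj]
  unfold sw
  by_cases h1 : i = r
  · subst h1
    by_cases h3 : k = c
    · subst h3
      simp [hrs, hcc, hv.1]
    · by_cases h4 : k = c'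
      · subst h4
        simp [hv.2.1]
      · simp [h3, h4, split_phi_true]
  · by_cases h2 : i = s
    · subst h2
      by_cases h3 : k = c
      · subst h3
        simp [hv.2.2.1]
      · by_cases h4 : k = c'
        · subst h4
          simp [h1, h3, hv.2.2.2]
        · simp [h3, h4, split_phi_true]
    · simp [h1, h2, split_phi_true]

open Classical in
theorem split_image {n : ℕ} {d : Fin n → ℕ} {K : Finset (Fin n)} (G0 : Omega d)
    (h0 : SplitAt G0.1 K) :
    cls (Rel univ) (phi K G0.1) = univ.image (fun G : Omega d => phi K G.1) := by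
  ext M
  rw [mem_cls]
  constructor
  · intro hM
    have step1 : ∀ (M : Mat {v // v ∈ K} {v // v ∉ K}) r s c c', Valid M r s c c' →
        M ∈ univ.image (fun G : Omega d => phi K G.1) →
        sw r s c c' M ∈ univ.image (fun G : Omega d => phi K G.1) := by
      intro M r s c c' hv hM
      obtain ⟨G, _, rfl⟩ := Finset.mem_image.1 hM
      exact Finset.mem_image.2 ⟨_, mem_univ _, split_step G hv⟩
    have hinv := switch_connected (univ : Finset {v // v ∈ K})
      (fun M => if M ∈ univ.image (fun G : Omega d => phi K G.1) then (1 : ℝ) else 0) (by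
        intro M r s c c' _ _ hv
        by_cases hM : M ∈ univ.image (fun G : Omega d => phi K G.1)
        · simp only [if_pos hM, if_pos (step1 M r s c c' hv hM)]
        · have : sw r s c c' M ∉ univ.image (fun G : Omega d => phi K G.1) := by
            intro hh
            have := step1 _ r s c' c hv.sw hh
            rw [sw_comm_cols r s c' c, sw_sw] at this
            exact hM this
          simp only [if_neg hM, if_neg this])
    rw [Finset.univ_product_univ] at hinv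
    have h1 := hinv _ _ hM
    have h2 : phi K G0.1 ∈ univ.image (fun G : Omega d => phi K G.1) :=
      Finset.mem_image.2 ⟨G0, mem_univ _, rfl⟩
    simp only [if_pos h2] at h1
    by_contra hcon
    rw [if_neg hcon] at h1
    exact one_ne_zero h1
  · intro hM
    obtain ⟨G, _, rfl⟩ := Finset.mem_image.1 hM
    exact split_rel G0 G h0 (splitAt_all h0 G)

theorem split_tup_inj {n : ℕ} {K : Finset (Fin n)} {r s r' s' : {v // v ∈ K}}
    {c c' e e' : {v // v ∉ K}} {hrs : r ≠ s} {hcc : c ≠ c'} {hrs' : r' ≠ s'} {hee : e ≠ e'}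
    (h : splitTup r s c c' hrs hcc = splitTup r' s' e e' hrs' hee) :
    r = r' ∧ s = s' ∧ c = e ∧ c' = e' := by
  have h0 := congrArg (fun t : Fin 4 ↪ Fin n => t 0) h
  have h1 := congrArg (fun t : Fin 4 ↪ Fin n => t 1) h
  have h2 := congrArg (fun t : Fin 4 ↪ Fin n => t 2) h
  have h3 := congrArg (fun t : Fin 4 ↪ Fin n => t 3) h
  exact ⟨Subtype.ext h0, Subtype.ext h3, Subtype.ext h1, Subtype.ext h2⟩

open Classical in
theorem split_sum_le {n : ℕ} {d : Fin n → ℕ} {K : Finset (Fin n)} (G : Omega d)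
    (f : Omega d → ℝ) (F : Mat {v // v ∈ K} {v // v ∉ K} → ℝ)
    (hF : ∀ G : Omega d, F (phi K G.1) = f G) :
    ∑ r, ∑ s, ∑ c, ∑ c', (if Valid (phi K G.1) r s c c' then
        (F (sw r s c c' (phi K G.1)) - F (phi K G.1)) ^ 2 else 0) ≤
      ∑ t, (f (stepO G t) - f G) ^ 2 := by
  have e1 : ∑ r, ∑ s, ∑ c, ∑ c', (if Valid (phi K G.1) r s c c' then
        (F (sw r s c c' (phi K G.1)) - F (phi K G.1)) ^ 2 else 0)
      = ∑ q : {v // v ∈ K} × {v // v ∈ K} × {v // v ∉ K} × {v // v ∉ K},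
        (if Valid (phi K G.1) q.1 q.2.1 q.2.2.1 q.2.2.2 then
        (F (sw q.1 q.2.1 q.2.2.1 q.2.2.2 (phi K G.1)) - F (phi K G.1)) ^ 2 else 0) := by
    simp only [Fintype.sum_prod_type]
  rw [e1, ← Finset.sum_filter, ← Finset.sum_attach]
  set V := univ.filter (fun q : {v // v ∈ K} × {v // v ∈ K} × {v // v ∉ K} × {v // v ∉ K} =>
    Valid (phi K G.1) q.1 q.2.1 q.2.2.1 q.2.2.2) with hV
  have hv : ∀ q : {q // q ∈ V}, Valid (phi K G.1) q.1.1 q.1.2.1 q.1.2.2.1 q.1.2.2.2 :=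
    fun q => (Finset.mem_filter.1 q.2).2
  let e : {q // q ∈ V} → (Fin 4 ↪ Fin n) := fun q =>
    splitTup q.1.1 q.1.2.1 q.1.2.2.1 q.1.2.2.2 (hv q).ne_row (hv q).ne_col
  have einj : Function.Injective e := by
    intro q q' h
    obtain ⟨a1, a2, a3, a4⟩ := split_tup_inj h
    apply Subtype.ext
    exact Prod.ext a1 (Prod.ext a2 (Prod.ext a3 a4))
  have e2 : ∀ q ∈ V.attach, (F (sw q.1.1 q.1.2.1 q.1.2.2.1 q.1.2.2.2 (phi K G.1))
      - F (phi K G.1)) ^ 2 = (f (stepO G (e q)) - f G) ^ 2 := by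
    intro q _
    rw [← split_step G (hv q), hF, hF]
  rw [Finset.sum_congr rfl e2, ← Finset.sum_image (f := fun t => (f (stepO G t) - f G) ^ 2)
    (einj.injOn)]
  exact Finset.sum_le_sum_of_subset_of_nonneg (Finset.subset_univ _)
    (fun t _ _ => sq_nonneg _)

theorem graph_poincare {n : ℕ} {d : Fin n → ℕ} (hd : IsSplitSeq d) (f : Omega d → ℝ) :
    ∑ G, ∑ G', (f G - f G') ^ 2 ≤
      (Fintype.card (Omega d) : ℝ) * ∑ G, ∑ t, (f (stepO G t) - f G) ^ 2 := by
  classical
  obtain ⟨G0, K, hK⟩ := hd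
  have h0 : SplitAt G0.1 K := hK
  have hinj : Function.Injective (fun G : Omega d => phi K G.1) :=
    fun G G' he => split_phi_inj (splitAt_all h0 G) (splitAt_all h0 G') he
  have hF : ∀ G : Omega d, Function.extend (fun G : Omega d => phi K G.1) f 0 (phi K G.1) = f G :=
    fun G => hinj.extend_apply f 0 G
  have key := poincare_switch (phi K G0.1) (Function.extend (fun G : Omega d => phi K G.1) f 0)
  rw [split_image G0 h0, Finset.card_image_of_injective _ hinj, Finset.sum_image hinj.injOn,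
    Finset.sum_image hinj.injOn, Finset.card_univ] at key
  have e1 : ∀ G : Omega d, ∑ M' ∈ univ.image (fun G : Omega d => phi K G.1),
      (Function.extend (fun G : Omega d => phi K G.1) f 0 (phi K G.1)
        - Function.extend (fun G : Omega d => phi K G.1) f 0 M') ^ 2
      = ∑ G', (f G - f G') ^ 2 := by
    intro G
    rw [Finset.sum_image hinj.injOn]
    exact Finset.sum_congr rfl (fun G' _ => by rw [hF, hF])
  rw [Finset.sum_congr rfl (fun G _ => e1 G)] at key
  refine key.trans (mul_le_mul_of_nonneg_left ?_ (Nat.cast_nonneg _))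
  refine Finset.sum_le_sum (fun G _ => ?_)
  convert split_sum_le G f _ hF using 1

end Vale.Agent.P335
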