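import Vale.Agent.P335.Chain

/-!
# Step (1) of module G2: all realizations of a split degree vector are split, with the same clique
-/

set_option linter.unusedSectionVars false

namespace Vale.Agent.P335

open Finset

open Classical in
/-- adjacency indicator -/
noncomputable def splitInd {n : ℕ} (H : SimpleGraph (Fin n)) (u v : Fin n) : ℕ :=
  if H.Adj u v then 1 else 0

theorem splitInd_comm {n : ℕ} (H : SimpleGraph (Fin n)) (u v : Fin n) :
    splitInd H u v = splitInd H v u := by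
  unfold splitInd
  by_cases h : H.Adj u v
  · rw [if_pos h, if_pos h.symm]
  · rw [if_neg h, if_neg (fun h' => h h'.symm)]

open Classical in
theorem split_degree_eq {n : ℕ} (H : SimpleGraph (Fin n)) (v : Fin n) :
    H.degree v = ∑ w, splitInd H v w := by
  unfold splitInd
  rw [← SimpleGraph.card_neighborFinset_eq_degree, SimpleGraph.neighborFinset_eq_filter,
    Finset.card_filter]

theorem split_sums {n : ℕ} {d : Fin n → ℕ} (H : Omega d) (K : Finset (Fin n)) :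
    (∑ v ∈ K, d v = ∑ v ∈ K, ∑ w ∈ K, splitInd H.1 v w + ∑ v ∈ K, ∑ w ∈ Kᶜ, splitInd H.1 v w) ∧
    (∑ v ∈ Kᶜ, d v = ∑ v ∈ K, ∑ w ∈ Kᶜ, splitInd H.1 v w +
      ∑ v ∈ Kᶜ, ∑ w ∈ Kᶜ, splitInd H.1 v w) := by
  classical
  have hd : ∀ v, d v = ∑ w ∈ K, splitInd H.1 v w + ∑ w ∈ Kᶜ, splitInd H.1 v w := by
    intro v
    rw [Finset.sum_add_sum_compl, ← split_degree_eq]
    exact (H.2 v).symm
  constructor
  · rw [← Finset.sum_add_distrib]
    exact Finset.sum_congr rfl (fun v _ => hd v)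
  · rw [Finset.sum_comm (s := K) (t := Kᶜ), ← Finset.sum_add_distrib]
    refine Finset.sum_congr rfl (fun v _ => ?_)
    rw [hd v]
    congr 1
    exact Finset.sum_congr rfl (fun w _ => splitInd_comm _ _ _)

theorem split_all {n : ℕ} {d : Fin n → ℕ} (G G' : Omega d) (K : Finset (Fin n))
    (hK : ∀ u ∈ K, ∀ v ∈ K, u ≠ v → G.1.Adj u v)
    (hI : ∀ u, u ∉ K → ∀ v, v ∉ K → ¬ G.1.Adj u v) :
    (∀ u ∈ K, ∀ v ∈ K, u ≠ v → G'.1.Adj u v) ∧
      (∀ u, u ∉ K → ∀ v, v ∉ K → ¬ G'.1.Adj u v) := by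
  classical
  obtain ⟨h1, h2⟩ := split_sums G K
  obtain ⟨h1', h2'⟩ := split_sums G' K
  have hb : ∑ v ∈ Kᶜ, ∑ w ∈ Kᶜ, splitInd G.1 v w = 0 := by
    refine Finset.sum_eq_zero (fun v hv => Finset.sum_eq_zero (fun w hw => ?_))
    unfold splitInd
    rw [if_neg (hI v (by simpa using hv) w (by simpa using hw))]
  have hle : ∀ v ∈ K, ∀ w ∈ K, splitInd G'.1 v w ≤ splitInd G.1 v w := by
    intro v hv w hw
    unfold splitInd
    by_cases hvw : v = w
    · subst hvw; simp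
    · rw [if_pos (hK v hv w hw hvw)]
      split_ifs <;> simp
  have hle1 : ∀ v ∈ K, ∑ w ∈ K, splitInd G'.1 v w ≤ ∑ w ∈ K, splitInd G.1 v w :=
    fun v hv => Finset.sum_le_sum (hle v hv)
  have hle2 : ∑ v ∈ K, ∑ w ∈ K, splitInd G'.1 v w ≤ ∑ v ∈ K, ∑ w ∈ K, splitInd G.1 v w :=
    Finset.sum_le_sum hle1
  have ha : ∑ v ∈ K, ∑ w ∈ K, splitInd G'.1 v w = ∑ v ∈ K, ∑ w ∈ K, splitInd G.1 v w := by omega
  have hb' : ∑ v ∈ Kᶜ, ∑ w ∈ Kᶜ, splitInd G'.1 v w = 0 := by omega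
  constructor
  · intro u hu v hv huv
    have e1 := (Finset.sum_eq_sum_iff_of_le hle1).1 ha u hu
    have e2 := (Finset.sum_eq_sum_iff_of_le (hle u hu)).1 e1 v hv
    unfold splitInd at e2
    rw [if_pos (hK u hu v hv huv)] at e2
    by_contra hcon
    rw [if_neg hcon] at e2
    exact absurd e2 (by norm_num)
  · intro u hu v hv hadj
    have e1 := (Finset.sum_eq_zero_iff.1 hb') u (by simpa using hu)
    have e2 := (Finset.sum_eq_zero_iff.1 e1) v (by simpa using hv)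
    unfold splitInd at e2
    rw [if_pos hadj] at e2
    exact absurd e2 (by norm_num)

end Vale.Agent.P335
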