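import Vale.Agent.P335.RowFacts

/-!
# Three rows: the eigen-system and vanishing of within-class gradients
-/

set_option linter.unusedSectionVars false

namespace Vale.Agent.P335

open Finset

variable {ι κ : Type*} [Fintype ι] [DecidableEq ι] [Fintype κ] [DecidableEq κ]

/-- `u, v, w` are the three distinct elements of `T` -/
def Tri (T : Finset ι) (u v w : ι) : Prop := u ∈ T ∧ v ∈ T ∧ w ∈ T ∧ u ≠ v ∧ u ≠ w ∧ v ≠ w

theorem Tri.s12 {T : Finset ι} {u v w : ι} (h : Tri T u v w) : Tri T v u w :=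
  ⟨h.2.1, h.1, h.2.2.1, h.2.2.2.1.symm, h.2.2.2.2.2, h.2.2.2.2.1⟩
theorem Tri.s23 {T : Finset ι} {u v w : ι} (h : Tri T u v w) : Tri T u w v :=
  ⟨h.1, h.2.2.1, h.2.1, h.2.2.2.2.1, h.2.2.2.1, h.2.2.2.2.2.symm⟩
theorem Tri.s13 {T : Finset ι} {u v w : ι} (h : Tri T u v w) : Tri T w v u := h.s12.s23.s12
theorem Tri.rot {T : Finset ι} {u v w : ι} (h : Tri T u v w) : Tri T v w u := h.s12.s23
theorem Tri.rot' {T : Finset ι} {u v w : ι} (h : Tri T u v w) : Tri T w u v := h.s23.s12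

/-- the eigen-system -/
structure Sys (T : Finset ι) (μ : ℝ) (ψ : ι → Mat ι κ → ℝ) : Prop where
  inv : ∀ u v w, Tri T u v w → Inv (R2 v w) (ψ u)
  eq : ∀ u v w, Tri T u v w → ∀ M, μ * ψ u M = avg (R2 v w) (fun N => ψ v N + ψ w N) M

/-- the coupling map of stage A -/
def eA (u v w : ι) (c c' : κ) (N : Mat ι κ) : Mat ι κ :=
  if Valid N u v c c' then sw u v c c' N else sw u w c c' N

theorem dichoA {u v w : ι} (huv : u ≠ v) (huw : u ≠ w) (hvw : v ≠ w) {M N : Mat ι κ} {c c' : κ}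
    (hV : Valid M u v c c') (hw : M w c = M w c') (h : R2 v w M N) :
    (Valid N u v c c' ∧ N w c = N w c') ∨
      (Valid N u w c c' ∧ N v c = N v c' ∧ ¬ Valid N u v c c') := by
  obtain ⟨m1, m2, m3, m4⟩ := hV
  have a1 : N u c = true := (R2_row huv huw h c).trans m1
  have a2 : N u c' = false := (R2_row huv huw h c').trans m2
  have p1 := R2_pair hvw h c
  have p2 := R2_pair hvw h c'
  rw [m3, hw] at p1
  rw [m4] at p2
  unfold Valid
  rw [a1, a2]
  cases hA : M w c' <;> cases hB : N v c <;> cases hC : N w c <;> cases hD : N v c' <;>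
    cases hE : N w c' <;> simp_all

theorem eA_mem {u v w : ι} (huv : u ≠ v) (huw : u ≠ w) (hvw : v ≠ w) {M N : Mat ι κ} {c c' : κ}
    (hV : Valid M u v c c') (hw : M w c = M w c') (h : R2 v w M N) :
    R2 v w (sw u v c c' M) (eA u v w c c' N) := by
  have hrowu : ∀ k, N u k = M u k := fun k => R2_row huv huw h k
  rcases dichoA huv huw hvw hV hw h with ⟨hN, _⟩ | ⟨hN, _, hN'⟩
  · unfold eA; rw [if_pos hN]
    refine R2_of (fun i hi hi' k => ?_) ((SM_sw hV).symm.trans (h.sm.trans (SM_sw hN)))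
    by_cases hiu : i = u
    · subst hiu; rw [sw_row_u, sw_row_u, hrowu]
    · rw [sw_apply_of_row hiu hi, sw_apply_of_row hiu hi, R2_row hi hi' h]
  · unfold eA; rw [if_neg hN']
    refine R2_of (fun i hi hi' k => ?_) ((SM_sw hV).symm.trans (h.sm.trans (SM_sw hN)))
    by_cases hiu : i = u
    · subst hiu; rw [sw_row_u, sw_row_u, hrowu]
    · rw [sw_apply_of_row hiu hi, sw_apply_of_row hiu hi', R2_row hi hi' h]

theorem eA_eA {u v w : ι} (huv : u ≠ v) (huw : u ≠ w) (hvw : v ≠ w) {M N : Mat ι κ} {c c' : κ}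
    (hV : Valid M u v c c') (hw : M w c = M w c') (h : R2 v w M N) :
    eA u v w c' c (eA u v w c c' N) = N := by
  rcases dichoA huv huw hvw hV hw h with ⟨hN, _⟩ | ⟨hN, hv, hN'⟩
  · have h1 : eA u v w c c' N = sw u v c c' N := by unfold eA; rw [if_pos hN]
    rw [h1]
    unfold eA
    rw [if_pos hN.sw, sw_comm_cols, sw_sw]
  · have h1 : eA u v w c c' N = sw u w c c' N := by unfold eA; rw [if_neg hN']
    rw [h1]
    have h2 : ¬ Valid (sw u w c c' N) u v c' c := by
      intro hh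
      have e1 := hh.2.2.1
      have e2 := hh.2.2.2
      rw [sw_apply_of_row huv.symm hvw] at e1 e2
      rw [e1, e2] at hv
      simp at hv
    unfold eA
    rw [if_neg h2, sw_comm_cols, sw_sw]

theorem stepA {T : Finset ι} {μ : ℝ} {ψ : ι → Mat ι κ → ℝ} (hS : Sys T μ ψ) (hμ : 0 < μ) (B : ℝ)
    (hB : ∀ u v w, Tri T u v w → ∀ M c c', Valid M u v c c' → M w c = M w c' →
      |ψ u (sw u v c c' M) - ψ u M| ≤ B)
    {u v w : ι} (ht : Tri T u v w) {M : Mat ι κ} {c c' : κ} (hV : Valid M u v c c')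
    (hw : M w c = M w c') : μ * |ψ u (sw u v c c' M) - ψ u M| ≤ B := by
  obtain ⟨huv, huw, hvw⟩ := ht.2.2.2
  have hR := R2_equiv (κ := κ) v w
  set h : Mat ι κ → ℝ := fun N => ψ v N + ψ w N with hh
  have hV' : Valid (sw u v c c' M) u v c' c := hV.sw
  have hw' : sw u v c c' M w c' = sw u v c c' M w c := by
    rw [sw_apply_of_row huw.symm hvw.symm, sw_apply_of_row huw.symm hvw.symm, hw]
  have e1 : avg (R2 v w) h (sw u v c c' M) = avg (R2 v w) (fun N => h (eA u v w c c' N)) M := by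
    refine avg_eq_of_bij M (sw u v c c' M) (eA u v w c c') (eA u v w c' c) ?_ ?_ ?_ ?_ h
    · intro N hN
      exact mem_cls.2 (eA_mem huv huw hvw hV hw (mem_cls.1 hN))
    · intro N hN
      have := eA_mem huv huw hvw hV' hw' (mem_cls.1 hN)
      rw [sw_comm_cols u v c' c, sw_sw] at this
      exact mem_cls.2 this
    · intro N hN
      exact eA_eA huv huw hvw hV hw (mem_cls.1 hN)
    · intro N hN
      exact eA_eA huv huw hvw hV' hw' (mem_cls.1 hN)
  have e2 : μ * (ψ u (sw u v c c' M) - ψ u M)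
      = avg (R2 v w) (fun N => h (eA u v w c c' N) - h N) M := by
    rw [mul_sub, hS.eq u v w ht, hS.eq u v w ht, e1]
    exact (congrFun (avg_sub (R2 v w) (fun N => h (eA u v w c c' N)) h) M).symm
  rw [← abs_of_pos hμ, ← abs_mul, e2]
  refine abs_avg_le hR _ M B (fun N hN => ?_)
  rcases dichoA huv huw hvw hV hw hN with ⟨hNv, hNw⟩ | ⟨hNw, hNv, hN'⟩
  · have h1 : eA u v w c c' N = sw u v c c' N := by unfold eA; rw [if_pos hNv]
    rw [h1, hh]
    have i1 : ψ w (sw u v c c' N) = ψ w N := (hS.inv w u v ht.rot' N _ (R2_sw hNv)).symm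
    have i2 := hB v u w ht.s12 N c' c hNv.symm hNw.symm
    rw [sw_comm_rows, sw_comm_cols] at i2
    simp only [i1]
    have : ψ v (sw u v c c' N) + ψ w N - (ψ v N + ψ w N) = ψ v (sw u v c c' N) - ψ v N := by ring
    rw [this]; exact i2
  · have h1 : eA u v w c c' N = sw u w c c' N := by unfold eA; rw [if_neg hN']
    rw [h1, hh]
    have i1 : ψ v (sw u w c c' N) = ψ v N := (hS.inv v u w ht.s12 N _ (R2_sw hNw)).symm
    have i2 := hB w u v ht.rot' N c' c hNw.symm hNv.symm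
    rw [sw_comm_rows, sw_comm_cols] at i2
    simp only [i1]
    have : ψ v N + ψ w (sw u w c c' N) - (ψ v N + ψ w N) = ψ w (sw u w c c' N) - ψ w N := by ring
    rw [this]; exact i2

open Classical in
theorem stageA {T : Finset ι} {μ : ℝ} {ψ : ι → Mat ι κ → ℝ} (hS : Sys T μ ψ) (hμ : 1 < μ) :
    ∀ u v w, Tri T u v w → ∀ M c c', Valid M u v c c' → M w c = M w c' →
      ψ u (sw u v c c' M) = ψ u M := by
  set g : ι × ι × ι × κ × κ × Mat ι κ → ℝ := fun x =>
    if Tri T x.1 x.2.1 x.2.2.1 ∧ Valid x.2.2.2.2.2 x.1 x.2.1 x.2.2.2.1 x.2.2.2.2.1 ∧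
        x.2.2.2.2.2 x.2.2.1 x.2.2.2.1 = x.2.2.2.2.2 x.2.2.1 x.2.2.2.2.1 then
      |ψ x.1 (sw x.1 x.2.1 x.2.2.2.1 x.2.2.2.2.1 x.2.2.2.2.2) - ψ x.1 x.2.2.2.2.2| else 0 with hg
  have hz := zero_of_contraction g (fun x => by rw [hg]; dsimp only; split_ifs <;> positivity) μ hμ
    (by
      intro B hB x
      have hB' : ∀ u v w, Tri T u v w → ∀ M c c', Valid M u v c c' → M w c = M w c' →
          |ψ u (sw u v c c' M) - ψ u M| ≤ B := by
        intro u v w ht M c c' hV hw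
        have := hB (u, v, w, c, c', M)
        rw [hg] at this
        dsimp only at this
        rwa [if_pos ⟨ht, hV, hw⟩] at this
      by_cases hx : Tri T x.1 x.2.1 x.2.2.1 ∧ Valid x.2.2.2.2.2 x.1 x.2.1 x.2.2.2.1 x.2.2.2.2.1 ∧
        x.2.2.2.2.2 x.2.2.1 x.2.2.2.1 = x.2.2.2.2.2 x.2.2.1 x.2.2.2.2.1
      · rw [hg]; dsimp only; rw [if_pos hx]
        exact stepA hS (by linarith) B hB' hx.1 hx.2.1 hx.2.2
      · have h0 := hB x
        rw [hg] at h0 ⊢
        dsimp only at h0 ⊢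
        rw [if_neg hx] at h0 ⊢
        simpa using h0)
  intro u v w ht M c c' hV hw
  have := hz (u, v, w, c, c', M)
  rw [hg] at this
  dsimp only at this
  rw [if_pos ⟨ht, hV, hw⟩] at this
  exact sub_eq_zero.1 (abs_eq_zero.1 this)

end Vale.Agent.P335
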