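import Vale.Agent.P335.StageA
import Vale.Agent.P335.Half

/-!
# Three rows: vanishing of cross-class gradients
-/

set_option linter.unusedSectionVars false
set_option linter.unusedSimpArgs false

namespace Vale.Agent.P335

open Finset

variable {ι κ : Type*} [Fintype ι] [DecidableEq ι] [Fintype κ] [DecidableEq κ]

theorem flip1 {u v w : ι} (huv : u ≠ v) (huw : u ≠ w) (hvw : v ≠ w) {c c' e : κ}
    (hcc : c ≠ c') (hce : c ≠ e) (hce' : c' ≠ e) (N : Mat ι κ) :
    sw w v c e (sw u w c c' N) = sw w u c' e (sw u v c e N) := by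
  funext i k
  simp only [sw]
  by_cases h1 : i = u
  · subst h1
    by_cases k1 : k = c
    · subst k1; simp [huv, huw, hcc, hce]
    · by_cases k2 : k = c'
      · subst k2; simp [huv, huw, hcc, hce, hce', hcc.symm]
      · by_cases k3 : k = e
        · subst k3; simp [huv, huw, hcc, hce, hce', hce.symm, hce'.symm]
        · simp [k1, k2, k3]
  · by_cases h2 : i = v
    · subst h2
      by_cases k1 : k = c
      · subst k1; simp [huv.symm, hvw, hcc, hce]
      · by_cases k2 : k = c'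
        · subst k2; simp [huv.symm, hvw, hcc, hce, hce', hcc.symm]
        · by_cases k3 : k = e
          · subst k3; simp [huv.symm, hvw, hcc, hce, hce', hce.symm, hce'.symm]
          · simp [k1, k2, k3]
    · by_cases h3 : i = w
      · subst h3
        by_cases k1 : k = c
        · subst k1; simp [huw.symm, hvw.symm, hcc, hce]
        · by_cases k2 : k = c'
          · subst k2; simp [huw.symm, hvw.symm, hcc, hce, hce', hcc.symm]
          · by_cases k3 : k = e
            · subst k3; simp [huw.symm, hvw.symm, hcc, hce, hce', hce.symm, hce'.symm]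
            · simp [k1, k2, k3]
      · simp [h1, h2, h3]

theorem sw_sw_comm (r s r' s' : ι) (c d c' d' : κ) (N : Mat ι κ) :
    sw r s c d (sw r' s' c' d' N) = sw r' s' c' d' (sw r s c d N) := by
  funext i k
  simp only [sw]
  by_cases h1 : (i = r ∨ i = s) ∧ (k = c ∨ k = d) <;>
    by_cases h2 : (i = r' ∨ i = s') ∧ (k = c' ∨ k = d') <;> simp [h1, h2]

/-- hypotheses of stage B -/
structure HypB (T : Finset ι) (ψ : ι → Mat ι κ → ℝ) (B : ℝ) : Prop where
  inv : ∀ u v w, Tri T u v w → Inv (R2 v w) (ψ u)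
  within : ∀ u v w, Tri T u v w → ∀ M c c', Valid M u v c c' → M w c = M w c' →
      ψ u (sw u v c c' M) = ψ u M
  cross : ∀ u v w, Tri T u v w → ∀ M c c', Valid M u v c c' → M w c ≠ M w c' →
      |ψ u (sw u v c c' M) - ψ u M| ≤ B

/-- column `c` is (1,0,0), column `c'` is (0,1,1) in rows (u,v,w) -/
structure Cfg (N : Mat ι κ) (u v w : ι) (c c' : κ) : Prop where
  h1 : N u c = true
  h2 : N u c' = false
  h3 : N v c = false
  h4 : N v c' = true
  h5 : N w c = false
  h6 : N w c' = true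

theorem Cfg.swap {N : Mat ι κ} {u v w : ι} {c c' : κ} (h : Cfg N u v w c c') :
    Cfg N u w v c c' := ⟨h.h1, h.h2, h.h5, h.h6, h.h3, h.h4⟩

theorem Cfg.of_rel {M N : Mat ι κ} {u v w : ι} {c c' : κ} (huv : u ≠ v) (huw : u ≠ w)
    (hvw : v ≠ w) (h : Cfg M u v w c c') (hr : R2 v w M N) : Cfg N u v w c c' := by
  obtain ⟨m1, m2, m3, m4, m5, m6⟩ := h
  have a1 : N u c = true := (R2_row huv huw hr c).trans m1
  have a2 : N u c' = false := (R2_row huv huw hr c').trans m2
  have p1 := R2_pair hvw hr c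
  have p2 := R2_pair hvw hr c'
  rw [m3, m5] at p1
  rw [m4, m6] at p2
  refine ⟨a1, a2, ?_, ?_, ?_, ?_⟩
  · cases hB : N v c <;> simp_all
  · cases hB : N v c' <;> cases hC : N w c' <;> simp_all
  · cases hB : N w c <;> simp_all
  · cases hB : N v c' <;> cases hC : N w c' <;> simp_all

theorem gradB1 {T : Finset ι} {ψ : ι → Mat ι κ → ℝ} {B : ℝ} (H : HypB T ψ B) {u v w : ι}
    (ht : Tri T u v w) {N : Mat ι κ} {c c' : κ} (hN : Cfg N u v w c c') :
    |(ψ v (sw u v c c' N) + ψ w (sw u v c c' N)) - (ψ v N + ψ w N)| ≤ B := by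
  have hV : Valid N u v c c' := ⟨hN.h1, hN.h2, hN.h3, hN.h4⟩
  have i1 : ψ w (sw u v c c' N) = ψ w N := (H.inv w u v ht.rot' N _ (R2_sw hV)).symm
  have i2 := H.cross v u w ht.s12 N c' c hV.symm (by rw [hN.h5, hN.h6]; simp)
  rw [sw_comm_rows, sw_comm_cols] at i2
  rw [i1]
  have : ψ v (sw u v c c' N) + ψ w N - (ψ v N + ψ w N) = ψ v (sw u v c c' N) - ψ v N := by ring
  rw [this]; exact i2

theorem gradB2 {T : Finset ι} {ψ : ι → Mat ι κ → ℝ} {B : ℝ} (H : HypB T ψ B) {u v w : ι}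
    (ht : Tri T u v w) {N : Mat ι κ} {c c' e : κ} (hN : Cfg N u v w c c')
    (he : e ∈ Uset v w N) :
    |(ψ v (sw w v c e (sw u w c c' N)) + ψ w (sw w v c e (sw u w c c' N))) - (ψ v N + ψ w N)|
      ≤ B := by
  obtain ⟨huv, huw, hvw⟩ := ht.2.2.2
  obtain ⟨n1, n2, n3, n4, n5, n6⟩ := hN
  have he' : N v e = true ∧ N w e = false := by simpa [Uset] using he
  obtain ⟨e1, e2⟩ := he'
  have hce : c ≠ e := by rintro rfl; rw [n3] at e1; simp at e1
  have hce' : c' ≠ e := by rintro rfl; rw [n6] at e2; simp at e2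
  have hcc : c ≠ c' := by rintro rfl; rw [n1] at n2; simp at n2
  cases hue : N u e
  · -- class of c
    rw [flip1 huv huw hvw hcc hce hce']
    have hV : Valid N u v c e := ⟨n1, hue, n3, e1⟩
    set M0 := sw u v c e N with hM0
    have j1 : ψ v M0 = ψ v N := by
      have := H.within v u w ht.s12 N e c hV.symm (by rw [e2, n5])
      rwa [sw_comm_rows, sw_comm_cols] at this
    have j2 : ψ w M0 = ψ w N := (H.inv w u v ht.rot' N _ (R2_sw hV)).symm
    have hV2 : Valid M0 w u c' e := by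
      refine ⟨?_, ?_, ?_, ?_⟩
      · rw [hM0, sw_apply_of_row huw.symm hvw.symm]; exact n6
      · rw [hM0, sw_apply_of_row huw.symm hvw.symm]; exact e2
      · rw [hM0, sw_apply_of_col hcc.symm hce']; exact n2
      · rw [hM0, sw_row_u]; simp [hue]
    have hcr : M0 v c' ≠ M0 v e := by
      rw [hM0, sw_apply_of_col hcc.symm hce', sw_row_v]; simp [n4, e1]
    have j3 := H.cross w u v ht.rot' M0 c' e hV2 hcr
    have j4 : ψ v (sw w u c' e M0) = ψ v M0 := (H.inv v w u ht.rot M0 _ (R2_sw hV2)).symm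
    rw [j4, j1]
    have : ψ v N + ψ w (sw w u c' e M0) - (ψ v N + ψ w N) = ψ w (sw w u c' e M0) - ψ w M0 := by
      rw [j2]; ring
    rw [this]; exact j3
  · -- class of c'
    rw [flip1 huv huw hvw hcc hce hce', sw_sw_comm]
    have hV : Valid N w u c' e := ⟨n6, e2, n2, hue⟩
    set M0 := sw w u c' e N with hM0
    have j1 : ψ w M0 = ψ w N := H.within w u v ht.rot' N c' e hV (by rw [n4, e1])
    have j2 : ψ v M0 = ψ v N := (H.inv v w u ht.rot N _ (R2_sw hV)).symm
    have hV2 : Valid M0 u v c e := by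
      refine ⟨?_, ?_, ?_, ?_⟩
      · rw [hM0, sw_apply_of_col hcc hce]; exact n1
      · rw [hM0, sw_row_v]; simp [hue]
      · rw [hM0, sw_apply_of_row hvw huv.symm]; exact n3
      · rw [hM0, sw_apply_of_row hvw huv.symm]; exact e1
    have hcr : M0 w e ≠ M0 w c := by
      rw [hM0, sw_apply_of_col (k := c) hcc hce, sw_row_u]; simp [n5, e2]
    have j3 := H.cross v u w ht.s12 M0 e c hV2.symm hcr
    rw [sw_comm_rows, sw_comm_cols] at j3
    have j4 : ψ w (sw u v c e M0) = ψ w M0 := (H.inv w u v ht.rot' M0 _ (R2_sw hV2)).symm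
    rw [j4, j1]
    have : ψ v (sw u v c e M0) + ψ w N - (ψ v N + ψ w N) = ψ v (sw u v c e M0) - ψ v M0 := by
      rw [j2]; ring
    rw [this]; exact j3

theorem rel_two_sw {u v w : ι} (huv : u ≠ v) (huw : u ≠ w) {M : Mat ι κ}
    {c c' : κ} (hM : Cfg M u v w c c') : R2 v w (sw u w c c' M) (sw u v c c' M) := by
  have hV : Valid M u v c c' := ⟨hM.h1, hM.h2, hM.h3, hM.h4⟩
  have hW : Valid M u w c c' := ⟨hM.h1, hM.h2, hM.h5, hM.h6⟩
  refine R2_of (fun i hi hi' k => ?_) ((SM_sw hW).symm.trans (SM_sw hV))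
  by_cases hiu : i = u
  · subst hiu; rw [sw_row_u, sw_row_u]
  · rw [sw_apply_of_row hiu hi', sw_apply_of_row hiu hi]

/-- the weighted coupling operator -/
noncomputable def PhiB (u v w : ι) (c c' : κ) (x0 w0 : ℝ) (F : Mat ι κ → ℝ) (N : Mat ι κ) : ℝ :=
  (F (sw u v c c' N) + (∑ e ∈ Uset v w N, F (sw w v c e (sw u w c c' N))) / (w0 + 1)) +
  (F (sw u w c c' N) + (∑ e ∈ Uset w v N, F (sw v w c e (sw u v c c' N))) / (x0 + 1))

theorem stageB_sum_cls {u v w : ι} (huv : u ≠ v) (huw : u ≠ w) (hvw : v ≠ w) {M : Mat ι κ}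
    {c c' : κ} (hM : Cfg M u v w c c') (F : Mat ι κ → ℝ) :
    ∑ N' ∈ cls (R2 v w) (sw u v c c' M), F N' =
      ∑ N ∈ cls (R2 v w) M,
        PhiB u v w c c' ((Uset v w M).card : ℝ) ((Uset w v M).card : ℝ) F N := by
  have hV : Valid M u v c c' := ⟨hM.h1, hM.h2, hM.h3, hM.h4⟩
  rw [← Finset.sum_filter_add_sum_filter_not (cls (R2 v w) (sw u v c c' M))
    (fun N' => N' v c = true)]
  have hA := half_sum huv huw hvw hM.h1 hM.h2 hM.h3 hM.h4 hM.h5 hM.h6 F
  have hB := half_sum huw huv hvw.symm hM.h1 hM.h2 hM.h5 hM.h6 hM.h3 hM.h4 F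
  have hcl : cls (Rel (({w, v} : Finset ι) ×ˢ (univ : Finset κ))) (sw u w c c' M)
      = cls (R2 v w) (sw u v c c' M) := by
    have : (Rel (({w, v} : Finset ι) ×ˢ (univ : Finset κ)) : Mat ι κ → Mat ι κ → Prop)
        = R2 v w := R2_comm w v
    rw [this]
    exact cls_eq_of_rel (R2_equiv v w) (rel_two_sw huv huw hM)
  have hcl2 : cls (Rel (({w, v} : Finset ι) ×ˢ (univ : Finset κ))) M = cls (R2 v w) M := by
    have : (Rel (({w, v} : Finset ι) ×ˢ (univ : Finset κ)) : Mat ι κ → Mat ι κ → Prop)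
        = R2 v w := R2_comm w v
    rw [this]
  rw [hcl, hcl2] at hB
  have hf : (cls (R2 v w) (sw u v c c' M)).filter (fun N' => ¬ N' v c = true)
      = (cls (R2 v w) (sw u v c c' M)).filter (fun N' => N' w c = true) := by
    refine Finset.filter_congr (fun N' hN' => ?_)
    have p1 := R2_pair hvw (mem_cls.1 hN') c
    rw [sw_row_v, sw_apply_of_row huw.symm hvw.symm, hM.h3, hM.h5] at p1
    cases h1 : N' v c <;> cases h2 : N' w c <;> simp_all
  rw [hf, hB]
  have hA' : ∑ N' ∈ (cls (R2 v w) (sw u v c c' M)).filter (fun N' => N' v c = true), F N' = _ := hA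
  rw [hA', ← Finset.sum_add_distrib]
  rfl

theorem stepB {T : Finset ι} {μ : ℝ} {ψ : ι → Mat ι κ → ℝ} {B : ℝ} (hS : Sys T μ ψ) (hμ : 0 < μ)
    (H : HypB T ψ B) {u v w : ι} (ht : Tri T u v w) {M : Mat ι κ} {c c' : κ}
    (hM : Cfg M u v w c c') : μ * |ψ u (sw u v c c' M) - ψ u M| ≤ B := by
  obtain ⟨huv, huw, hvw⟩ := ht.2.2.2
  have hR := R2_equiv (κ := κ) v w
  set h : Mat ι κ → ℝ := fun N => ψ v N + ψ w N with hh
  set x0 : ℝ := ((Uset v w M).card : ℝ) with hx0
  set w0 : ℝ := ((Uset w v M).card : ℝ) with hw0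
  have hx0' : 0 ≤ x0 := Nat.cast_nonneg _
  have hw0' : 0 ≤ w0 := Nat.cast_nonneg _
  set a : ℝ := (1 + x0 / (w0 + 1)) + (1 + w0 / (x0 + 1)) with ha
  have ha' : 0 < a := by positivity
  have hU1 : ∀ N ∈ cls (R2 v w) M, ((Uset v w N).card : ℝ) = x0 := by
    intro N hN
    rw [hx0, card_Uset_const hvw (mem_cls.1 hN)]
  have hU2 : ∀ N ∈ cls (R2 v w) M, ((Uset w v N).card : ℝ) = w0 := by
    intro N hN
    have hN' : R2 w v M N := by rw [R2_comm w v]; exact mem_cls.1 hN
    rw [hw0, card_Uset_const hvw.symm hN']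
  -- cardinalities
  have hcard : ((cls (R2 v w) (sw u v c c' M)).card : ℝ) = a * ((cls (R2 v w) M).card : ℝ) := by
    have := stageB_sum_cls huv huw hvw hM (fun _ => (1 : ℝ))
    rw [Finset.sum_const, nsmul_eq_mul, mul_one] at this
    rw [this]
    have e : ∀ N ∈ cls (R2 v w) M, PhiB u v w c c' x0 w0 (fun _ => (1 : ℝ)) N = a := by
      intro N hN
      unfold PhiB
      rw [Finset.sum_const, Finset.sum_const, nsmul_eq_mul, nsmul_eq_mul, mul_one, mul_one,
        hU1 N hN, hU2 N hN]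
    rw [Finset.sum_congr rfl e, Finset.sum_const, nsmul_eq_mul, mul_comm]
  -- pointwise bound
  have hpt : ∀ N ∈ cls (R2 v w) M, |PhiB u v w c c' x0 w0 h N - a * h N| ≤ a * B := by
    intro N hN
    have hNc : Cfg N u v w c c' := hM.of_rel huv huw hvw (mem_cls.1 hN)
    have b1 : |h (sw u v c c' N) - h N| ≤ B := gradB1 H ht hNc
    have b2 : |h (sw u w c c' N) - h N| ≤ B := by
      have := gradB1 H ht.s23 hNc.swap
      rw [hh]; simp only
      rw [add_comm (ψ v _) (ψ w _), add_comm (ψ v N) (ψ w N)]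
      exact this
    have b3 : |(∑ e ∈ Uset v w N, h (sw w v c e (sw u w c c' N))) - x0 * h N| ≤ x0 * B := by
      rw [← hU1 N hN, ← nsmul_eq_mul, ← nsmul_eq_mul, ← Finset.sum_const, ← Finset.sum_const,
        ← Finset.sum_sub_distrib]
      refine (Finset.abs_sum_le_sum_abs _ _).trans (Finset.sum_le_sum (fun e he => ?_))
      exact gradB2 H ht hNc he
    have b4 : |(∑ e ∈ Uset w v N, h (sw v w c e (sw u v c c' N))) - w0 * h N| ≤ w0 * B := by
      rw [← hU2 N hN, ← nsmul_eq_mul, ← nsmul_eq_mul, ← Finset.sum_const, ← Finset.sum_const,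
        ← Finset.sum_sub_distrib]
      refine (Finset.abs_sum_le_sum_abs _ _).trans (Finset.sum_le_sum (fun e he => ?_))
      have := gradB2 H ht.s23 hNc.swap he
      rw [hh]; simp only
      rw [add_comm (ψ v _) (ψ w _), add_comm (ψ v N) (ψ w N)]
      exact this
    have hw1 : 0 < w0 + 1 := by linarith
    have hx1 : 0 < x0 + 1 := by linarith
    have b3' : |(∑ e ∈ Uset v w N, h (sw w v c e (sw u w c c' N))) / (w0 + 1)
        - x0 / (w0 + 1) * h N| ≤ x0 / (w0 + 1) * B := by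
      have : (∑ e ∈ Uset v w N, h (sw w v c e (sw u w c c' N))) / (w0 + 1)
        - x0 / (w0 + 1) * h N
        = ((∑ e ∈ Uset v w N, h (sw w v c e (sw u w c c' N))) - x0 * h N) / (w0 + 1) := by
        field_simp
      rw [this, abs_div, abs_of_pos hw1, div_le_iff₀ hw1]
      calc _ ≤ x0 * B := b3
        _ = x0 / (w0 + 1) * B * (w0 + 1) := by field_simp
    have b4' : |(∑ e ∈ Uset w v N, h (sw v w c e (sw u v c c' N))) / (x0 + 1)
        - w0 / (x0 + 1) * h N| ≤ w0 / (x0 + 1) * B := by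
      have : (∑ e ∈ Uset w v N, h (sw v w c e (sw u v c c' N))) / (x0 + 1)
        - w0 / (x0 + 1) * h N
        = ((∑ e ∈ Uset w v N, h (sw v w c e (sw u v c c' N))) - w0 * h N) / (x0 + 1) := by
        field_simp
      rw [this, abs_div, abs_of_pos hx1, div_le_iff₀ hx1]
      calc _ ≤ w0 * B := b4
        _ = w0 / (x0 + 1) * B * (x0 + 1) := by field_simp
    unfold PhiB
    rw [abs_le] at b1 b2 b3' b4' ⊢
    rw [ha]
    constructor <;> nlinarith [b1.1, b1.2, b2.1, b2.2, b3'.1, b3'.2, b4'.1, b4'.2]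
  have hcA := card_cls_pos hR M
  have e2 : μ * (ψ u (sw u v c c' M) - ψ u M)
      = (∑ N ∈ cls (R2 v w) M, (PhiB u v w c c' x0 w0 h N - a * h N))
        / (a * ((cls (R2 v w) M).card : ℝ)) := by
    rw [mul_sub, hS.eq u v w ht, hS.eq u v w ht]
    unfold avg
    rw [hcard, stageB_sum_cls huv huw hvw hM h, Finset.sum_sub_distrib, ← Finset.mul_sum]
    field_simp
    rfl
  rw [← abs_of_pos hμ, ← abs_mul, e2, abs_div, abs_of_pos (by positivity : 0 < a * _),
    div_le_iff₀ (by positivity)]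
  calc |∑ N ∈ cls (R2 v w) M, (PhiB u v w c c' x0 w0 h N - a * h N)|
      ≤ ∑ N ∈ cls (R2 v w) M, |PhiB u v w c c' x0 w0 h N - a * h N| :=
        Finset.abs_sum_le_sum_abs _ _
    _ ≤ ∑ _N ∈ cls (R2 v w) M, a * B := Finset.sum_le_sum hpt
    _ = B * (a * ((cls (R2 v w) M).card : ℝ)) := by
        rw [Finset.sum_const, nsmul_eq_mul]; ring

theorem stepB' {T : Finset ι} {μ : ℝ} {ψ : ι → Mat ι κ → ℝ} {B : ℝ} (hS : Sys T μ ψ) (hμ : 0 < μ)
    (H : HypB T ψ B) {u v w : ι} (ht : Tri T u v w) {M : Mat ι κ} {c c' : κ}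
    (hV : Valid M u v c c') (hw : M w c ≠ M w c') :
    μ * |ψ u (sw u v c c' M) - ψ u M| ≤ B := by
  obtain ⟨huv, huw, hvw⟩ := ht.2.2.2
  obtain ⟨m1, m2, m3, m4⟩ := hV
  cases h5 : M w c
  · have h6 : M w c' = true := by
      cases h6 : M w c'
      · rw [h5, h6] at hw; exact absurd rfl hw
      · rfl
    exact stepB hS hμ H ht ⟨m1, m2, m3, m4, h5, h6⟩
  · have h6 : M w c' = false := by
      cases h6 : M w c'
      · rfl
      · rw [h5, h6] at hw; exact absurd rfl hw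
    have hV' := Valid.sw (⟨m1, m2, m3, m4⟩ : Valid M u v c c')
    have hC : Cfg (sw u v c c' M) u v w c' c :=
      ⟨hV'.1, hV'.2.1, hV'.2.2.1, hV'.2.2.2,
        by rw [sw_apply_of_row huw.symm hvw.symm]; exact h6,
        by rw [sw_apply_of_row huw.symm hvw.symm]; exact h5⟩
    have := stepB hS hμ H ht hC
    rw [sw_comm_cols u v c' c, sw_sw, abs_sub_comm] at this
    exact this

open Classical in
theorem stageB {T : Finset ι} {μ : ℝ} {ψ : ι → Mat ι κ → ℝ} (hS : Sys T μ ψ) (hμ : 1 < μ) :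
    ∀ u v w, Tri T u v w → ∀ M c c', Valid M u v c c' → M w c ≠ M w c' →
      ψ u (sw u v c c' M) = ψ u M := by
  set g : ι × ι × ι × κ × κ × Mat ι κ → ℝ := fun x =>
    if Tri T x.1 x.2.1 x.2.2.1 ∧ Valid x.2.2.2.2.2 x.1 x.2.1 x.2.2.2.1 x.2.2.2.2.1 ∧
        x.2.2.2.2.2 x.2.2.1 x.2.2.2.1 ≠ x.2.2.2.2.2 x.2.2.1 x.2.2.2.2.1 then
      |ψ x.1 (sw x.1 x.2.1 x.2.2.2.1 x.2.2.2.2.1 x.2.2.2.2.2) - ψ x.1 x.2.2.2.2.2| else 0 with hg
  have hz := zero_of_contraction g (fun x => by rw [hg]; dsimp only; split_ifs <;> positivity) μ hμ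
    (by
      intro B hB x
      have hB' : ∀ u v w, Tri T u v w → ∀ M c c', Valid M u v c c' → M w c ≠ M w c' →
          |ψ u (sw u v c c' M) - ψ u M| ≤ B := by
        intro u v w ht M c c' hV hw
        have := hB (u, v, w, c, c', M)
        rw [hg] at this
        dsimp only at this
        rwa [if_pos ⟨ht, hV, hw⟩] at this
      by_cases hx : Tri T x.1 x.2.1 x.2.2.1 ∧ Valid x.2.2.2.2.2 x.1 x.2.1 x.2.2.2.1 x.2.2.2.2.1 ∧
        x.2.2.2.2.2 x.2.2.1 x.2.2.2.1 ≠ x.2.2.2.2.2 x.2.2.1 x.2.2.2.2.1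
      · rw [hg]; dsimp only; rw [if_pos hx]
        exact stepB' hS (by linarith) ⟨hS.inv, stageA hS hμ, hB'⟩ hx.1 hx.2.1 hx.2.2
      · have h0 := hB x
        rw [hg] at h0 ⊢
        dsimp only at h0 ⊢
        rw [if_neg hx] at h0 ⊢
        simpa using h0)
  intro u v w ht M c c' hV hw
  have := hz (u, v, w, c, c', M)
  rw [hg] at this
  dsimp only at this
  rw [if_pos ⟨ht, hV, hw⟩] at this
  exact sub_eq_zero.1 (abs_eq_zero.1 this)

/-- all gradients of the eigen-system vanish -/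
theorem grad_vanish {T : Finset ι} {μ : ℝ} {ψ : ι → Mat ι κ → ℝ} (hS : Sys T μ ψ) (hμ : 1 < μ)
    {u v w : ι} (ht : Tri T u v w) {M : Mat ι κ} {c c' : κ} (hV : Valid M u v c c') :
    ψ u (sw u v c c' M) = ψ u M := by
  by_cases hw : M w c = M w c'
  · exact stageA hS hμ u v w ht M c c' hV hw
  · exact stageB hS hμ u v w ht M c c' hV hw

end Vale.Agent.P335
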