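import Vale.Agent.P335.Avg

/-!
# Generic transfer of averaging operators along an injective encoding
-/

set_option linter.unusedSectionVars false

namespace Vale.Agent.P335

open Finset

variable {Ω Ω' : Type*} [Fintype Ω] [Fintype Ω']

/-- extension by zero along `φ` -/
noncomputable def ext0 (φ : Ω → Ω') (f : Ω → ℝ) : Ω' → ℝ := Function.extend φ f 0

theorem ext0_apply {φ : Ω → Ω'} (hφ : Function.Injective φ) (f : Ω → ℝ) (x : Ω) :
    ext0 φ f (φ x) = f x := hφ.extend_apply f 0 x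

theorem ext0_apply' {φ : Ω → Ω'} (f : Ω → ℝ) (z : Ω') (hz : ¬ ∃ x, φ x = z) :
    ext0 φ f z = 0 := by
  unfold ext0
  rw [Function.extend_apply' f (0 : Ω' → ℝ) z hz]
  rfl

theorem sum_eq_sum_comp {φ : Ω → Ω'} (hφ : Function.Injective φ) (F : Ω' → ℝ)
    (hF : ∀ z, (¬ ∃ x, φ x = z) → F z = 0) : ∑ z, F z = ∑ x, F (φ x) := by
  classical
  rw [← Finset.sum_image (s := univ) (g := φ) (f := F) (fun x _ y _ h => hφ h)]
  symm
  apply Finset.sum_subset (Finset.subset_univ _)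
  intro z _ hz
  apply hF
  rintro ⟨x, rfl⟩
  exact hz (Finset.mem_image_of_mem φ (mem_univ x))

theorem ip_ext0 {φ : Ω → Ω'} (hφ : Function.Injective φ) (f g : Ω → ℝ) :
    ip (ext0 φ f) (ext0 φ g) = ip f g := by
  unfold ip
  rw [sum_eq_sum_comp hφ]
  · exact Finset.sum_congr rfl (fun x _ => by rw [ext0_apply hφ, ext0_apply hφ])
  · intro z hz
    rw [ext0_apply' f z hz, zero_mul]

theorem ext0_sub (φ : Ω → Ω') (hφ : Function.Injective φ) (f g : Ω → ℝ) :
    ext0 φ (f - g) = ext0 φ f - ext0 φ g := by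
  funext z
  by_cases hz : ∃ x, φ x = z
  · obtain ⟨x, rfl⟩ := hz
    simp only [Pi.sub_apply, ext0_apply hφ]
  · simp only [Pi.sub_apply, ext0_apply' _ z hz, sub_zero]

/-- the class of `φ x` is the image of the class of `x` -/
theorem cls_image {φ : Ω → Ω'} {R : Ω → Ω → Prop} {R' : Ω' → Ω' → Prop}
    (h1 : ∀ x y, R x y ↔ R' (φ x) (φ y)) (h2 : ∀ x z, R' (φ x) z → ∃ y, φ y = z) (x : Ω)
    [DecidableEq Ω'] : cls R' (φ x) = (cls R x).image φ := by
  ext z
  rw [mem_cls, Finset.mem_image]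
  constructor
  · intro hz
    obtain ⟨y, rfl⟩ := h2 x z hz
    exact ⟨y, mem_cls.2 ((h1 x y).2 hz), rfl⟩
  · rintro ⟨y, hy, rfl⟩
    exact (h1 x y).1 (mem_cls.1 hy)

theorem avg_ext0 {φ : Ω → Ω'} (hφ : Function.Injective φ) {R : Ω → Ω → Prop}
    {R' : Ω' → Ω' → Prop} (hR' : Equivalence R')
    (h1 : ∀ x y, R x y ↔ R' (φ x) (φ y)) (h2 : ∀ x z, R' (φ x) z → ∃ y, φ y = z) (f : Ω → ℝ) :
    avg R' (ext0 φ f) = ext0 φ (avg R f) := by
  classical
  funext z
  by_cases hz : ∃ x, φ x = z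
  · obtain ⟨x, rfl⟩ := hz
    rw [ext0_apply hφ]
    unfold avg
    rw [cls_image h1 h2 x, Finset.sum_image (fun a _ b _ h => hφ h),
      Finset.card_image_of_injective _ hφ]
    congr 1
    exact Finset.sum_congr rfl (fun y _ => ext0_apply hφ f y)
  · rw [ext0_apply' _ z hz]
    unfold avg
    rw [Finset.sum_eq_zero, zero_div]
    intro y hy
    apply ext0_apply'
    rintro ⟨x, rfl⟩
    exact hz (h2 x z (hR'.symm (mem_cls.1 hy)))

/-- the quadratic form `ip f (f - E f)` is preserved by the encoding -/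
theorem ip_sub_avg_ext0 {φ : Ω → Ω'} (hφ : Function.Injective φ) {R : Ω → Ω → Prop}
    {R' : Ω' → Ω' → Prop} (hR' : Equivalence R')
    (h1 : ∀ x y, R x y ↔ R' (φ x) (φ y)) (h2 : ∀ x z, R' (φ x) z → ∃ y, φ y = z) (f : Ω → ℝ) :
    ip (ext0 φ f) (ext0 φ f - avg R' (ext0 φ f)) = ip f (f - avg R f) := by
  rw [avg_ext0 hφ hR' h1 h2, ← ext0_sub φ hφ, ip_ext0 hφ]

end Vale.Agent.P335
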