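import Vale.Agent.P335.Avg

/-!
# Operator algebra for two overlapping blocks
-/

namespace Vale.Agent.P335

open Finset

section ring

variable {R : Type*} [Ring R]

theorem yr_one_sub {P : R} (h : P * P = P) : (1 - P) * (1 - P) = 1 - P := by
  calc (1 - P) * (1 - P) = 1 - P - P + P * P := by noncomm_ring
    _ = 1 - P := by rw [h]; noncomm_ring

theorem yr_mul {P P' : R} (h : P * P = P) (h' : P' * P' = P') (hc : P * P' = P' * P) :
    P * P' * (P * P') = P * P' := by
  calc P * P' * (P * P') = P * (P' * P) * P' := by noncomm_ring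
    _ = P * (P * P') * P' := by rw [hc]
    _ = (P * P) * (P' * P') := by noncomm_ring
    _ = P * P' := by rw [h, h']

theorem yr_sub {P P' : R} (h : P * P = P) (h' : P' * P' = P') (h1 : P * P' = P')
    (h2 : P' * P = P') : (P - P') * (P - P') = P - P' := by
  calc (P - P') * (P - P') = P * P - P * P' - P' * P + P' * P' := by noncomm_ring
    _ = P - P' := by rw [h, h', h1, h2]; noncomm_ring

theorem yr_comm_one_sub {P P' : R} (hc : P * P' = P' * P) : (1 - P) * P' = P' * (1 - P) := by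
  calc (1 - P) * P' = P' - P * P' := by noncomm_ring
    _ = P' - P' * P := by rw [hc]
    _ = P' * (1 - P) := by noncomm_ring

theorem yr_comm_mul {P A B : R} (ha : P * A = A * P) (hb : P * B = B * P) :
    P * (A * B) = A * B * P := by
  calc P * (A * B) = (P * A) * B := by noncomm_ring
    _ = A * (P * B) := by rw [ha]; noncomm_ring
    _ = A * B * P := by rw [hb]; noncomm_ring

theorem yr_comm_sub {P A B : R} (ha : P * A = A * P) (hb : P * B = B * P) :
    P * (A - B) = (A - B) * P := by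
  calc P * (A - B) = P * A - P * B := by noncomm_ring
    _ = A * P - B * P := by rw [ha, hb]
    _ = (A - B) * P := by noncomm_ring

theorem yr_ident (E1 E2 EO Ep Eq : R) (iO : EO * EO = EO)
    (c12 : E1 * E2 = E2 * E1) (c2O : E2 * EO = EO * E2)
    (pO : Ep * EO = Ep) (qO' : EO * Eq = Eq) (c2p : E2 * Ep = Ep * E2) :
    (1 - Ep) * (1 - Eq) = (1 - EO) + (1 - E1) * ((1 - E2) * EO) + (1 - E1) * (E2 * EO - Eq)
      + (1 - E2) * (E1 * EO - Ep) + (E1 * EO - Ep) * (E2 * EO - Eq) := by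
  have e1 : EO * (E2 * EO - Eq) = E2 * EO - Eq := by
    calc EO * (E2 * EO - Eq) = (EO * E2) * EO - EO * Eq := by noncomm_ring
      _ = E2 * (EO * EO) - Eq := by rw [← c2O, qO']; noncomm_ring
      _ = E2 * EO - Eq := by rw [iO]
  have e2 : (E1 * EO - Ep) * EO = E1 * EO - Ep := by
    calc (E1 * EO - Ep) * EO = E1 * (EO * EO) - Ep * EO := by noncomm_ring
      _ = E1 * EO - Ep := by rw [iO, pO]
  have hA : (1 - E1 * EO) * (1 - E2 * EO) = (1 - EO) + (1 - E1) * ((1 - E2) * EO) := by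
    calc (1 - E1 * EO) * (1 - E2 * EO) = 1 - E1 * EO - E2 * EO + E1 * (EO * E2) * EO := by
          noncomm_ring
      _ = 1 - E1 * EO - E2 * EO + E1 * E2 * (EO * EO) := by rw [← c2O]; noncomm_ring
      _ = 1 - E1 * EO - E2 * EO + E1 * E2 * EO := by rw [iO]
      _ = _ := by noncomm_ring
  have hB : (1 - E1 * EO) * (E2 * EO - Eq) = (1 - E1) * (E2 * EO - Eq) := by
    calc (1 - E1 * EO) * (E2 * EO - Eq) = (E2 * EO - Eq) - E1 * (EO * (E2 * EO - Eq)) := by
          noncomm_ring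
      _ = (1 - E1) * (E2 * EO - Eq) := by rw [e1]; noncomm_ring
  have hC : (E1 * EO - Ep) * (1 - E2 * EO) = (1 - E2) * (E1 * EO - Ep) := by
    calc (E1 * EO - Ep) * (1 - E2 * EO) = (E1 * EO - Ep) - (E1 * EO - Ep) * (E2 * EO) := by
          noncomm_ring
      _ = (E1 * EO - Ep) - ((E1 * EO - Ep) * EO) * E2 := by rw [c2O]; noncomm_ring
      _ = E1 * EO - Ep - E1 * (EO * E2) + Ep * E2 := by rw [e2]; noncomm_ring
      _ = E1 * EO - Ep - E1 * (E2 * EO) + E2 * Ep := by rw [← c2O, c2p]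
      _ = E1 * EO - Ep - (E1 * E2) * EO + E2 * Ep := by noncomm_ring
      _ = E1 * EO - Ep - (E2 * E1) * EO + E2 * Ep := by rw [c12]
      _ = (1 - E2) * (E1 * EO - Ep) := by noncomm_ring
  calc (1 - Ep) * (1 - Eq)
      = ((1 - E1 * EO) + (E1 * EO - Ep)) * ((1 - E2 * EO) + (E2 * EO - Eq)) := by noncomm_ring
    _ = (1 - E1 * EO) * (1 - E2 * EO) + (1 - E1 * EO) * (E2 * EO - Eq)
        + (E1 * EO - Ep) * (1 - E2 * EO) + (E1 * EO - Ep) * (E2 * EO - Eq) := by noncomm_ring
    _ = _ := by rw [hA, hB, hC]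

end ring

variable {Ω : Type*} [Fintype Ω]

/-- symmetric idempotent linear map -/
def SymIdem (P : Module.End ℝ (Ω → ℝ)) : Prop :=
  (∀ f g, ip (P f) g = ip f (P g)) ∧ P * P = P

theorem SymIdem.nonneg {P : Module.End ℝ (Ω → ℝ)} (h : SymIdem P) (f : Ω → ℝ) :
    0 ≤ ip f (P f) := by
  have : ip f (P f) = ip (P f) (P f) := by
    rw [h.1 f (P f)]
    have := congrArg (fun T : Module.End ℝ (Ω → ℝ) => T f) h.2
    simp only [Module.End.mul_apply] at this
    rw [this]
  rw [this]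
  exact ip_self_nonneg _

theorem SymIdem.one_sub {P : Module.End ℝ (Ω → ℝ)} (h : SymIdem P) : SymIdem (1 - P) := by
  refine ⟨fun f g => ?_, yr_one_sub h.2⟩
  simp only [LinearMap.sub_apply, Module.End.one_apply, ip_sub_left, ip_sub_right, h.1]

theorem SymIdem.mul {P P' : Module.End ℝ (Ω → ℝ)} (h : SymIdem P) (h' : SymIdem P')
    (hc : P * P' = P' * P) : SymIdem (P * P') := by
  refine ⟨fun f g => ?_, yr_mul h.2 h'.2 hc⟩
  rw [Module.End.mul_apply, h.1, h'.1, ← Module.End.mul_apply, ← hc]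

theorem SymIdem.sub {P P' : Module.End ℝ (Ω → ℝ)} (h : SymIdem P) (h' : SymIdem P')
    (h1 : P * P' = P') (h2 : P' * P = P') : SymIdem (P - P') := by
  refine ⟨fun f g => ?_, yr_sub h.2 h'.2 h1 h2⟩
  simp only [LinearMap.sub_apply, ip_sub_left, ip_sub_right, h.1, h'.1]

/-- the operator inequality behind the estimate of the cross term of two overlapping blocks -/
theorem y_algebra (E1 E2 EO Ep Eq : Module.End ℝ (Ω → ℝ))
    (h1 : SymIdem E1) (h2 : SymIdem E2) (hO : SymIdem EO) (hp : SymIdem Ep) (hq : SymIdem Eq)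
    (c12 : E1 * E2 = E2 * E1) (c1O : E1 * EO = EO * E1) (c2O : E2 * EO = EO * E2)
    (p1 : Ep * E1 = Ep) (p1' : E1 * Ep = Ep) (pO : Ep * EO = Ep) (pO' : EO * Ep = Ep)
    (q2 : Eq * E2 = Eq) (q2' : E2 * Eq = Eq) (qO : Eq * EO = Eq) (qO' : EO * Eq = Eq)
    (c1q : E1 * Eq = Eq * E1) (c2p : E2 * Ep = Ep * E2) (f : Ω → ℝ) :
    ip (f - EO f) (f - EO f) + ip (E1 (EO f) - Ep f) (E2 (EO f) - Eq f)
      ≤ ip (f - Ep f) (f - Eq f) := by
  have s1O : SymIdem (E1 * EO) := h1.mul hO c1O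
  have s2O : SymIdem (E2 * EO) := h2.mul hO c2O
  have sDp : SymIdem (E1 * EO - Ep) := by
    refine s1O.sub hp ?_ ?_
    · rw [mul_assoc, pO', p1']
    · rw [← mul_assoc, p1, pO]
  have sDq : SymIdem (E2 * EO - Eq) := by
    refine s2O.sub hq ?_ ?_
    · rw [mul_assoc, qO', q2']
    · rw [← mul_assoc, q2, qO]
  have t1 : SymIdem ((1 - E1) * ((1 - E2) * EO)) := by
    have a : SymIdem ((1 - E2) * EO) := h2.one_sub.mul hO (yr_comm_one_sub c2O)
    refine h1.one_sub.mul a (yr_comm_one_sub ?_)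
    refine yr_comm_mul ?_ c1O
    exact (yr_comm_one_sub c12.symm).symm
  have t2 : SymIdem ((1 - E1) * (E2 * EO - Eq)) :=
    h1.one_sub.mul sDq (yr_comm_one_sub (yr_comm_sub (yr_comm_mul c12 c1O) c1q))
  have t3 : SymIdem ((1 - E2) * (E1 * EO - Ep)) :=
    h2.one_sub.mul sDp (yr_comm_one_sub (yr_comm_sub (yr_comm_mul c12.symm c2O) c2p))
  have ident := yr_ident E1 E2 EO Ep Eq hO.2 c12 c2O pO qO' c2p
  have hL : ip (f - Ep f) (f - Eq f) = ip f (((1 - Ep) * (1 - Eq)) f) := by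
    have := hp.one_sub.1 f ((1 - Eq) f)
    simpa [Module.End.mul_apply] using this
  have hQO : ip (f - EO f) (f - EO f) = ip f ((1 - EO) f) := by
    have a := hO.one_sub.1 f ((1 - EO) f)
    have b := congrArg (fun T : Module.End ℝ (Ω → ℝ) => T f) hO.one_sub.2
    simp only [Module.End.mul_apply] at b
    rw [b] at a
    simpa using a
  have hD : ip (E1 (EO f) - Ep f) (E2 (EO f) - Eq f)
      = ip f (((E1 * EO - Ep) * (E2 * EO - Eq)) f) := by
    have := sDp.1 f ((E2 * EO - Eq) f)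
    simpa [Module.End.mul_apply] using this
  rw [hL, ident, hQO, hD]
  simp only [LinearMap.add_apply, ip_add_right]
  have n1 := t1.nonneg f
  have n2 := t2.nonneg f
  have n3 := t3.nonneg f
  linarith

end Vale.Agent.P335
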