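import Vale.Agent.P335.YAlgebra

/-!
# Averaging operators: linear-map form, restriction to an invariant sector, cross terms
-/

set_option linter.unusedSectionVars false

namespace Vale.Agent.P335

open Finset

variable {Ω : Type*} [Fintype Ω]

theorem symIdem_avgL {R : Ω → Ω → Prop} (hR : Equivalence R) : SymIdem (avgL R) := by
  refine ⟨fun f g => avg_symm hR f g, ?_⟩
  ext1 f
  exact avg_idem hR f

theorem avgL_mul_eq {R S : Ω → Ω → Prop} {T : Module.End ℝ (Ω → ℝ)}
    (h : ∀ f, avg R (avg S f) = T f) : avgL R * avgL S = T := by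
  ext1 f
  exact h f

/-- if averaging over `R` preserves invariance under `R'`, the two averages commute -/
theorem avg_comm_of_preserves {R R' : Ω → Ω → Prop} (hR : Equivalence R) (hR' : Equivalence R')
    (h : ∀ g, Inv R' g → Inv R' (avg R g)) (f : Ω → ℝ) :
    avg R (avg R' f) = avg R' (avg R f) := by
  have key : ∀ g : Ω → ℝ, avg R' (avg R (avg R' g)) = avg R (avg R' g) :=
    fun g => avg_of_inv hR' (h _ (avg_inv hR' g))
  apply ip_ext
  intro g
  rw [← key f, avg_symm hR', avg_symm hR, avg_symm hR', key g, ← avg_symm hR, ← avg_symm hR']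

/-- the inequality of `y_algebra` for averaging operators -/
theorem y_avg {R1 R2 RO Rp Rq : Ω → Ω → Prop}
    (h1 : Equivalence R1) (h2 : Equivalence R2) (hO : Equivalence RO) (hp : Equivalence Rp)
    (hq : Equivalence Rq)
    (l1p : ∀ x y, R1 x y → Rp x y) (lOp : ∀ x y, RO x y → Rp x y)
    (l2q : ∀ x y, R2 x y → Rq x y) (lOq : ∀ x y, RO x y → Rq x y)
    (c12 : ∀ f, avg R1 (avg R2 f) = avg R2 (avg R1 f))
    (c1O : ∀ f, avg R1 (avg RO f) = avg RO (avg R1 f))
    (c2O : ∀ f, avg R2 (avg RO f) = avg RO (avg R2 f))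
    (c1q : ∀ f, avg R1 (avg Rq f) = avg Rq (avg R1 f))
    (c2p : ∀ f, avg R2 (avg Rp f) = avg Rp (avg R2 f)) (f : Ω → ℝ) :
    ip (f - avg RO f) (f - avg RO f)
      + ip (avg R1 (avg RO f) - avg Rp f) (avg R2 (avg RO f) - avg Rq f)
      ≤ ip (f - avg Rp f) (f - avg Rq f) :=
  y_algebra (avgL R1) (avgL R2) (avgL RO) (avgL Rp) (avgL Rq)
    (symIdem_avgL h1) (symIdem_avgL h2) (symIdem_avgL hO) (symIdem_avgL hp) (symIdem_avgL hq)
    (avgL_mul_eq c12) (avgL_mul_eq c1O) (avgL_mul_eq c2O)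
    (avgL_mul_eq (avg_avg_of_le' h1 hp l1p)) (avgL_mul_eq (avg_avg_of_le h1 hp l1p))
    (avgL_mul_eq (avg_avg_of_le' hO hp lOp)) (avgL_mul_eq (avg_avg_of_le hO hp lOp))
    (avgL_mul_eq (avg_avg_of_le' h2 hq l2q)) (avgL_mul_eq (avg_avg_of_le h2 hq l2q))
    (avgL_mul_eq (avg_avg_of_le' hO hq lOq)) (avgL_mul_eq (avg_avg_of_le hO hq lOq))
    (avgL_mul_eq c1q) (avgL_mul_eq c2p) f

/-- restriction of a relation to a sector `S`: outside `S` every class is a singleton -/
def resRel (S : Ω → Prop) (R : Ω → Ω → Prop) (x y : Ω) : Prop :=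
  (S x ∧ R x y) ∨ (¬ S x ∧ x = y)

theorem resRel_equiv {S : Ω → Prop} {R : Ω → Ω → Prop} (hR : Equivalence R)
    (hS : ∀ x y, R x y → (S x ↔ S y)) : Equivalence (resRel S R) where
  refl := fun x => by
    by_cases h : S x
    · exact Or.inl ⟨h, hR.refl x⟩
    · exact Or.inr ⟨h, rfl⟩
  symm := by
    rintro x y (⟨h, hxy⟩ | ⟨h, rfl⟩)
    · exact Or.inl ⟨(hS x y hxy).1 h, hR.symm hxy⟩
    · exact Or.inr ⟨h, rfl⟩
  trans := by
    rintro x y z (⟨h, hxy⟩ | ⟨h, rfl⟩) h'
    · rcases h' with ⟨_, hyz⟩ | ⟨h'', rfl⟩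
      · exact Or.inl ⟨h, hR.trans hxy hyz⟩
      · exact Or.inl ⟨h, hxy⟩
    · exact h'

theorem cls_resRel_of {S : Ω → Prop} {R : Ω → Ω → Prop} {x : Ω} (h : S x) :
    cls (resRel S R) x = cls R x := by
  ext y
  rw [mem_cls, mem_cls]
  constructor
  · rintro (⟨_, hxy⟩ | ⟨h', _⟩)
    · exact hxy
    · exact absurd h h'
  · intro hxy
    exact Or.inl ⟨h, hxy⟩

theorem cls_resRel_of_not {S : Ω → Prop} {R : Ω → Ω → Prop} {x : Ω} (h : ¬ S x) :
    cls (resRel S R) x = {x} := by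
  ext y
  rw [mem_cls, Finset.mem_singleton]
  constructor
  · rintro (⟨h', _⟩ | ⟨_, rfl⟩)
    · exact absurd h' h
    · rfl
  · rintro rfl
    exact Or.inr ⟨h, rfl⟩

theorem avg_resRel_of {S : Ω → Prop} {R : Ω → Ω → Prop} {x : Ω} (h : S x) (f : Ω → ℝ) :
    avg (resRel S R) f x = avg R f x := by
  unfold avg
  rw [cls_resRel_of h]

theorem avg_resRel_of_not {S : Ω → Prop} {R : Ω → Ω → Prop} {x : Ω} (h : ¬ S x) (f : Ω → ℝ) :
    avg (resRel S R) f x = f x := by
  unfold avg
  rw [cls_resRel_of_not h]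
  simp

/-- commuting averages stay commuting after restriction to an invariant sector; only
commutation at the points of the sector is needed -/
theorem avg_resRel_comm {S : Ω → Prop} {R R' : Ω → Ω → Prop}
    (hS : ∀ x y, R x y → (S x ↔ S y)) (hS' : ∀ x y, R' x y → (S x ↔ S y))
    (hc : ∀ f x, S x → avg R (avg R' f) x = avg R' (avg R f) x) (f : Ω → ℝ) :
    avg (resRel S R) (avg (resRel S R') f) = avg (resRel S R') (avg (resRel S R) f) := by
  have aux : ∀ (T T' : Ω → Ω → Prop), (∀ x y, T x y → (S x ↔ S y)) → ∀ x, S x →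
      avg (resRel S T) (avg (resRel S T') f) x = avg T (avg T' f) x := by
    intro T T' hT x hx
    rw [avg_resRel_of hx]
    unfold avg
    congr 1
    refine Finset.sum_congr rfl (fun y hy => ?_)
    have hy' : S y := (hT x y (mem_cls.1 hy)).1 hx
    have := avg_resRel_of (R := T') hy' f
    unfold avg at this
    exact this
  funext x
  by_cases hx : S x
  · rw [aux R R' hS x hx, aux R' R hS' x hx, hc f x hx]
  · rw [avg_resRel_of_not hx, avg_resRel_of_not hx, avg_resRel_of_not hx, avg_resRel_of_not hx]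

/-- cross term of two commuting pairs of nested averages -/
theorem cross_nonneg {R1 R2 Rp Rq : Ω → Ω → Prop}
    (h1 : Equivalence R1) (h2 : Equivalence R2) (hp : Equivalence Rp) (hq : Equivalence Rq)
    (l1p : ∀ x y, R1 x y → Rp x y) (l2q : ∀ x y, R2 x y → Rq x y)
    (c12 : ∀ f, avg R1 (avg R2 f) = avg R2 (avg R1 f))
    (c1q : ∀ f, avg R1 (avg Rq f) = avg Rq (avg R1 f))
    (cp2 : ∀ f, avg Rp (avg R2 f) = avg R2 (avg Rp f))
    (cpq : ∀ f, avg Rp (avg Rq f) = avg Rq (avg Rp f)) (f : Ω → ℝ) :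
    0 ≤ ip (avg R1 f - avg Rp f) (avg R2 f - avg Rq f) := by
  have sp : SymIdem (avgL R1 - avgL Rp) :=
    (symIdem_avgL h1).sub (symIdem_avgL hp) (avgL_mul_eq (avg_avg_of_le h1 hp l1p))
      (avgL_mul_eq (avg_avg_of_le' h1 hp l1p))
  have sq : SymIdem (avgL R2 - avgL Rq) :=
    (symIdem_avgL h2).sub (symIdem_avgL hq) (avgL_mul_eq (avg_avg_of_le h2 hq l2q))
      (avgL_mul_eq (avg_avg_of_le' h2 hq l2q))
  have e12 : avgL R1 * avgL R2 = avgL R2 * avgL R1 := avgL_mul_eq c12
  have e1q : avgL R1 * avgL Rq = avgL Rq * avgL R1 := avgL_mul_eq c1q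
  have ep2 : avgL Rp * avgL R2 = avgL R2 * avgL Rp := avgL_mul_eq cp2
  have epq : avgL Rp * avgL Rq = avgL Rq * avgL Rp := avgL_mul_eq cpq
  have hc : (avgL R1 - avgL Rp) * (avgL R2 - avgL Rq)
      = (avgL R2 - avgL Rq) * (avgL R1 - avgL Rp) := by
    have a1 := yr_comm_sub e12 e1q
    have a2 := yr_comm_sub ep2 epq
    rw [sub_mul, a1, a2, ← mul_sub]
  have := (sp.mul sq hc).nonneg f
  have e := sp.1 f ((avgL R2 - avgL Rq) f)
  simp only [LinearMap.sub_apply, avgL_apply, Module.End.mul_apply] at this e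
  rw [e]
  exact this

open Classical in
/-- the part of the cross term carried by an invariant sector on which everything commutes -/
theorem sector_cross_nonneg {S : Ω → Prop} {R1 R2 Rp Rq : Ω → Ω → Prop}
    (h1 : Equivalence R1) (h2 : Equivalence R2) (hp : Equivalence Rp) (hq : Equivalence Rq)
    (l1p : ∀ x y, R1 x y → Rp x y) (l2q : ∀ x y, R2 x y → Rq x y)
    (sp : ∀ x y, Rp x y → (S x ↔ S y)) (sq : ∀ x y, Rq x y → (S x ↔ S y))
    (c12 : ∀ f x, S x → avg R1 (avg R2 f) x = avg R2 (avg R1 f) x)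
    (c1q : ∀ f x, S x → avg R1 (avg Rq f) x = avg Rq (avg R1 f) x)
    (cp2 : ∀ f x, S x → avg Rp (avg R2 f) x = avg R2 (avg Rp f) x)
    (cpq : ∀ f x, S x → avg Rp (avg Rq f) x = avg Rq (avg Rp f) x) (f : Ω → ℝ) :
    0 ≤ ∑ x, (if S x then (avg R1 f x - avg Rp f x) * (avg R2 f x - avg Rq f x) else 0) := by
  have s1 : ∀ x y, R1 x y → (S x ↔ S y) := fun x y h => sp x y (l1p x y h)
  have s2 : ∀ x y, R2 x y → (S x ↔ S y) := fun x y h => sq x y (l2q x y h)
  have lres : ∀ (T T' : Ω → Ω → Prop), (∀ x y, T x y → T' x y) →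
      ∀ x y, resRel S T x y → resRel S T' x y := by
    rintro T T' hT x y (⟨h, hxy⟩ | ⟨h, rfl⟩)
    · exact Or.inl ⟨h, hT x y hxy⟩
    · exact Or.inr ⟨h, rfl⟩
  have key := cross_nonneg (resRel_equiv h1 s1) (resRel_equiv h2 s2) (resRel_equiv hp sp)
    (resRel_equiv hq sq) (lres _ _ l1p) (lres _ _ l2q)
    (avg_resRel_comm s1 s2 c12) (avg_resRel_comm s1 sq c1q) (avg_resRel_comm sp s2 cp2)
    (avg_resRel_comm sp sq cpq) f
  refine key.trans (le_of_eq ?_)
  unfold ip
  refine Finset.sum_congr rfl (fun x _ => ?_)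
  simp only [Pi.sub_apply]
  by_cases hx : S x
  · rw [if_pos hx, avg_resRel_of hx, avg_resRel_of hx, avg_resRel_of hx, avg_resRel_of hx]
  · rw [if_neg hx, avg_resRel_of_not hx, avg_resRel_of_not hx]
    simp

open Classical in
/-- splitting a cross term into a sector with nonnegative contribution, an `active` set where
the arithmetic-geometric inequality is used, and the rest where the product vanishes -/
theorem cross_split (a b : Ω → ℝ) (S A : Ω → Prop)
    (hz : ∀ x, ¬ S x → ¬ A x → a x * b x = 0)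
    (hS : 0 ≤ ∑ x, (if S x then a x * b x else 0)) :
    -((∑ x, (if A x then a x ^ 2 else 0)) + ∑ x, (if A x then b x ^ 2 else 0)) / 2 ≤ ip a b := by
  have h : ∀ x, (if S x then a x * b x else 0)
      - ((if A x then a x ^ 2 else 0) + (if A x then b x ^ 2 else 0)) / 2 ≤ a x * b x := by
    intro x
    by_cases hs : S x <;> by_cases ha : A x
    · simp only [if_pos hs, if_pos ha]; nlinarith [sq_nonneg (a x), sq_nonneg (b x)]
    · simp only [if_pos hs, if_neg ha]; simp
    · simp only [if_neg hs, if_pos ha]; nlinarith [sq_nonneg (a x + b x)]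
    · simp only [if_neg hs, if_neg ha, hz x hs ha]; simp
  have := Finset.sum_le_sum (fun x (_ : x ∈ (univ : Finset Ω)) => h x)
  rw [Finset.sum_sub_distrib, ← Finset.sum_div, Finset.sum_add_distrib] at this
  unfold ip
  linarith

end Vale.Agent.P335
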